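import Vale.Agent.P193.CMCompileAux

/-!
P193, part B1: primitive recursive functions are computed by regular counter programs.
-/

namespace Vale.Agent.P193

namespace CMC

open Function

/-- Some program has meaning `R` on the states satisfying `P`. -/
def Spec (P : Reg → Prop) (R : ORel) : Prop :=
  ∃ p : Prog, ∀ ρ, P ρ → ∀ out ρ', p.Sem ρ out ρ' ↔ R ρ out ρ'

theorem Spec.atom (P : Reg → Prop) (o : NOp) : Spec P o.Act :=
  ⟨.atom o, fun _ _ _ _ => Iff.rfl⟩

theorem Spec.congr {P Q : Reg → Prop} {R S : ORel} (h : Spec Q R) (hPQ : ∀ ρ, P ρ → Q ρ)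
    (hRS : ∀ ρ, P ρ → ∀ out ρ', R ρ out ρ' ↔ S ρ out ρ') : Spec P S := by
  obtain ⟨p, hp⟩ := h
  exact ⟨p, fun ρ hρ out ρ' => (hp ρ (hPQ ρ hρ) out ρ').trans (hRS ρ hρ out ρ')⟩

theorem Spec.seq {P Q : Reg → Prop} {R S : ORel} (h : Spec P R) (h' : Spec Q S)
    (hPQ : ∀ ρ o ρ', P ρ → R ρ o ρ' → Q ρ') : Spec P (OComp R S) := by
  obtain ⟨p, hp⟩ := h
  obtain ⟨q, hq⟩ := h'
  refine ⟨.seq p q, fun ρ hρ out ρ' => ⟨?_, ?_⟩⟩
  · rintro ⟨ρ₁, o₁, o₂, h1, h2, rfl⟩
    have h3 := (hp ρ hρ _ _).mp h1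
    exact ⟨ρ₁, o₁, o₂, h3, (hq _ (hPQ _ _ _ hρ h3) _ _).mp h2, rfl⟩
  · rintro ⟨ρ₁, o₁, o₂, h1, h2, rfl⟩
    exact ⟨ρ₁, o₁, o₂, (hp ρ hρ _ _).mpr h1, (hq _ (hPQ _ _ _ hρ h1) _ _).mpr h2, rfl⟩

theorem Spec.choice {P : Reg → Prop} {R S : ORel} (h : Spec P R) (h' : Spec P S) :
    Spec P fun ρ out ρ' => R ρ out ρ' ∨ S ρ out ρ' := by
  obtain ⟨p, hp⟩ := h
  obtain ⟨q, hq⟩ := h'
  exact ⟨.choice p q, fun ρ hρ out ρ' => or_congr (hp ρ hρ out ρ') (hq ρ hρ out ρ')⟩

theorem Spec.star {P : Reg → Prop} {R : ORel} (h : Spec P R)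
    (hP : ∀ ρ o ρ', P ρ → R ρ o ρ' → P ρ') : Spec P (Star R) := by
  obtain ⟨p, hp⟩ := h
  refine ⟨.star p, fun ρ hρ out ρ' => ⟨fun h => ?_, fun h => ?_⟩⟩
  · change Star p.Sem ρ out ρ' at h
    induction h with
    | nil ρ => exact Star.nil ρ
    | cons ρ ρ₁ ρ' o₁ o₂ h1 _ ih =>
      have h3 := (hp ρ hρ _ _).mp h1
      exact Star.cons _ _ _ _ _ h3 (ih (hP _ _ _ hρ h3))
  · change Star p.Sem ρ out ρ'
    induction h with
    | nil ρ => exact Star.nil ρ
    | cons ρ ρ₁ ρ' o₁ o₂ h1 _ ih =>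
      exact Star.cons _ _ _ _ _ ((hp ρ hρ _ _).mpr h1) (ih (hP _ _ _ hρ h1))

/-- Some program silently computes `G` on the states satisfying `P`. -/
def Fn (P : Reg → Prop) (G : Reg → Reg) : Prop :=
  Spec P fun ρ out ρ' => out = [] ∧ ρ' = G ρ

theorem Fn.congr {P Q : Reg → Prop} {G H : Reg → Reg} (h : Fn Q G) (hPQ : ∀ ρ, P ρ → Q ρ)
    (hGH : ∀ ρ, P ρ → G ρ = H ρ) : Fn P H :=
  Spec.congr h hPQ fun ρ hρ out ρ' => by rw [hGH ρ hρ]

theorem Fn.seq {P Q : Reg → Prop} {G H : Reg → Reg} (h : Fn P G) (h' : Fn Q H)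
    (hPQ : ∀ ρ, P ρ → Q (G ρ)) : Fn P fun ρ => H (G ρ) := by
  refine Spec.congr (Spec.seq h h' ?_) (fun _ h => h) fun ρ _ out ρ' => ⟨?_, ?_⟩
  · rintro ρ o ρ' hρ ⟨_, rfl⟩
    exact hPQ ρ hρ
  · rintro ⟨ρ₁, o₁, o₂, ⟨rfl, rfl⟩, ⟨rfl, rfl⟩, rfl⟩
    exact ⟨rfl, rfl⟩
  · rintro ⟨rfl, rfl⟩
    exact ⟨_, [], [], ⟨rfl, rfl⟩, ⟨rfl, rfl⟩, rfl⟩

theorem Fn.id (P : Reg → Prop) : Fn P fun ρ => ρ := Spec.atom P .nop

theorem Fn.inc (P : Reg → Prop) (r : ℕ) : Fn P fun ρ => update ρ r (ρ r + 1) :=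
  Spec.atom P (.inc r)

/-- Counter loops. -/
theorem Fn.loop {P Q : Reg → Prop} {G : Reg → Reg} (c : ℕ) (hG : Fn Q G)
    (hPQ : ∀ ρ, P ρ → ρ c ≠ 0 → Q (update ρ c (ρ c - 1)))
    (hP : ∀ ρ, P ρ → ρ c ≠ 0 → P (G (update ρ c (ρ c - 1))))
    (hc : ∀ ρ, P ρ → ρ c ≠ 0 → G (update ρ c (ρ c - 1)) c = ρ c - 1) (H : Reg → Reg)
    (H0 : ∀ ρ, P ρ → ρ c = 0 → H ρ = ρ)
    (HS : ∀ ρ, P ρ → ρ c ≠ 0 → H (G (update ρ c (ρ c - 1))) = H ρ) : Fn P H := by
  let B : ORel := fun ρ out ρ' => out = [] ∧ ρ c ≠ 0 ∧ ρ' = G (update ρ c (ρ c - 1))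
  have hB : Spec P B := by
    refine Spec.congr (Spec.seq (Spec.atom P (.dec c)) hG ?_) (fun _ h => h)
      fun ρ _ out ρ' => ⟨?_, ?_⟩
    · rintro ρ o ρ' hρ ⟨_, h1, rfl⟩
      exact hPQ ρ hρ h1
    · rintro ⟨ρ₁, o₁, o₂, ⟨rfl, h1, rfl⟩, ⟨rfl, rfl⟩, rfl⟩
      exact ⟨rfl, h1, rfl⟩
    · rintro ⟨rfl, h1, rfl⟩
      exact ⟨_, [], [], ⟨rfl, h1, rfl⟩, ⟨rfl, rfl⟩, rfl⟩
  have hS : Spec P (Star B) := hB.star (by
    rintro ρ o ρ' hρ ⟨_, h1, rfl⟩
    exact hP ρ hρ h1)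
  refine Spec.congr (Spec.seq hS (Spec.atom (fun _ => True) (.zero c)) fun _ _ _ _ _ => trivial)
    (fun _ h => h) fun ρ hρ out ρ' => ⟨?_, ?_⟩
  · rintro ⟨ρ₁, o₁, o₂, h1, ⟨rfl, h2, rfl⟩, rfl⟩
    rw [List.append_nil]
    induction h1 with
    | nil ρ => exact ⟨rfl, (H0 ρ hρ h2).symm⟩
    | cons ρ ρ₁ ρ' o₁ o₂ h3 _ ih =>
      obtain ⟨rfl, h4, rfl⟩ := h3
      obtain ⟨h5, h6⟩ := ih (hP ρ hρ h4) h2
      exact ⟨h5, h6.trans (HS ρ hρ h4)⟩
  · rintro ⟨rfl, rfl⟩
    have key : ∀ n ρ, P ρ → ρ c = n → Star B ρ [] (H ρ) ∧ H ρ c = 0 := by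
      intro n
      induction n with
      | zero =>
        intro ρ hρ h
        rw [H0 ρ hρ h]
        exact ⟨Star.nil ρ, h⟩
      | succ n ih =>
        intro ρ hρ h
        have h1 : ρ c ≠ 0 := by omega
        have h2 := ih _ (hP ρ hρ h1) (by rw [hc ρ hρ h1]; omega)
        rw [HS ρ hρ h1] at h2
        exact ⟨Star.cons _ _ _ [] [] ⟨rfl, h1, rfl⟩ h2.1, h2.2⟩
    obtain ⟨h1, h2⟩ := key _ ρ hρ rfl
    exact ⟨_, [], [], h1, ⟨rfl, h2, rfl⟩, rfl⟩

theorem Fn.clear (P : Reg → Prop) (r : ℕ) : Fn P fun ρ => update ρ r 0 := by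
  refine Fn.congr (Q := fun _ => True) (Fn.loop r (Fn.id fun _ => True) (fun _ _ _ => trivial)
    (fun _ _ _ => trivial) (fun ρ _ _ => by simp) (fun ρ => update ρ r 0) ?_ ?_)
    (fun _ _ => trivial) fun _ _ => rfl
  · intro ρ _ h
    rw [← h, update_eq_self]
  · intro ρ _ _
    simp

theorem Fn.move (P : Reg → Prop) {i j : ℕ} (hij : i ≠ j) :
    Fn P fun ρ => update (update ρ j (ρ j + ρ i)) i 0 := by
  refine Fn.congr (Q := fun _ => True) (Fn.loop i (Fn.inc (fun _ => True) j)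
    (fun _ _ _ => trivial) (fun _ _ _ => trivial) (fun ρ _ _ => by simp [hij])
    (fun ρ => update (update ρ j (ρ j + ρ i)) i 0) ?_ ?_) (fun _ _ => trivial) fun _ _ => rfl
  · intro ρ _ h
    funext r
    simp only [update_apply]
    split_ifs <;> simp_all
  · intro ρ _ _
    funext r
    simp only [update_apply]
    split_ifs <;> omega

theorem Fn.move2 (P : Reg → Prop) {i j l : ℕ} (hij : i ≠ j) (hil : i ≠ l) (hjl : j ≠ l) :
    Fn P fun ρ => update (update (update ρ j (ρ j + ρ i)) l (ρ l + ρ i)) i 0 := by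
  refine Fn.congr (Q := fun _ => True) (Fn.loop i
    ((Fn.inc (fun _ => True) j).seq (Fn.inc (fun _ => True) l) fun _ _ => trivial)
    (fun _ _ _ => trivial) (fun _ _ _ => trivial) (fun ρ _ _ => by simp [hij, hil])
    (fun ρ => update (update (update ρ j (ρ j + ρ i)) l (ρ l + ρ i)) i 0) ?_ ?_)
    (fun _ _ => trivial) fun _ _ => rfl
  · intro ρ _ h
    funext r
    simp only [update_apply]
    split_ifs <;> simp_all
  · intro ρ _ _
    funext r
    simp only [update_apply]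
    split_ifs <;> omega

/-- The registers from `k` on vanish. -/
def Van (k : ℕ) (ρ : Reg) : Prop := ∀ r, k ≤ r → ρ r = 0

theorem Van.update {k : ℕ} {ρ : Reg} (h : Van k ρ) {K r : ℕ} (hK : k ≤ K) (hr : r < K) (x : ℕ) :
    Van K (update ρ r x) := by
  intro s hs
  rw [update_of_ne (by omega)]
  exact h s (by omega)

theorem Van.mono {k : ℕ} {ρ : Reg} (h : Van k ρ) {K : ℕ} (hK : k ≤ K) : Van K ρ :=
  fun s hs => h s (by omega)

/-- `g` can be computed into register `k`, using the registers above as scratch. -/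
def Cp (k : ℕ) (g : Reg → ℕ) : Prop := Fn (Van k) fun ρ => update ρ k (g ρ)

theorem Cp.congr {k : ℕ} {g h : Reg → ℕ} (hg : Cp k g) (hgh : ∀ ρ, Van k ρ → g ρ = h ρ) :
    Cp k h :=
  Fn.congr hg (fun _ h => h) fun ρ hρ => by rw [hgh ρ hρ]

theorem Cp.copy {k i : ℕ} (hi : i < k) : Cp k fun ρ => ρ i := by
  refine Fn.congr ((Fn.move2 (Van k) (i := i) (j := k) (l := k + 1) (by omega) (by omega)
    (by omega)).seq (Fn.move (fun _ => True) (i := k + 1) (j := i) (by omega))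
    fun _ _ => trivial) (fun _ h => h) fun ρ hρ => ?_
  have h1 := hρ k le_rfl
  have h2 := hρ (k + 1) (by omega)
  funext r
  simp only [update_apply]
  split_ifs <;> first | omega | simp_all

theorem Cp.assign {k : ℕ} {g : Reg → ℕ} (hg : Cp k g) {r : ℕ} (hr : r < k) :
    Fn (Van k) fun ρ => update ρ r (g ρ) := by
  refine Fn.congr ((Fn.seq hg (Fn.clear (fun _ => True) r) fun _ _ => trivial).seq
    (Fn.move (fun _ => True) (i := k) (j := r) (by omega)) fun _ _ => trivial)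
    (fun _ h => h) fun ρ hρ => ?_
  have h1 := hρ k le_rfl
  funext s
  simp only [update_apply]
  split_ifs <;> first | omega | simp_all

theorem Cp.bind {k : ℕ} {g h : Reg → ℕ} (hg : Cp k g) (hh : Cp (k + 1) h) :
    Cp k fun ρ => h (update ρ k (g ρ)) := by
  refine Fn.congr (Fn.seq hg (hh.assign (r := k) (by omega))
    fun ρ hρ => hρ.update (by omega) (by omega) _) (fun _ h => h) fun ρ _ => ?_
  simp

theorem Cp.args (k : ℕ) (G : ℕ → Reg → ℕ) (hG : ∀ i, Cp (k + i) (G i))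
    (hdep : ∀ i ρ ρ', (∀ r < k, ρ r = ρ' r) → G i ρ = G i ρ') (j : ℕ) :
    ∀ h : Reg → ℕ, Cp (k + j) h →
      Cp k fun ρ => h fun r => if k ≤ r ∧ r < k + j then G (r - k) ρ else ρ r := by
  induction j with
  | zero =>
    intro h hh
    refine hh.congr fun ρ _ => ?_
    congr 1
    funext r
    rw [if_neg (by omega)]
  | succ j ih =>
    intro h hh
    refine (ih _ ((hG j).bind hh)).congr fun ρ _ => ?_
    congr 1
    funext r
    rw [update_apply]
    split_ifs with h1 h2 h3 h4 h5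
    · subst h1
      rw [Nat.add_sub_cancel_left]
      exact hdep _ _ _ fun s hs => by rw [if_neg (by omega)]
    · omega
    · rfl
    · omega
    · omega
    · rfl

theorem Cp.prim {n : ℕ} {f : List.Vector ℕ n → ℕ} (hf : Nat.Primrec' f) :
    ∀ (ins : Fin n → ℕ) (k : ℕ), (∀ i, ins i < k) →
      Cp k fun ρ => f (List.Vector.ofFn fun i => ρ (ins i)) := by
  induction hf with
  | zero =>
    intro ins k _
    exact Fn.clear _ k
  | succ =>
    intro ins k hk
    refine Fn.congr (Fn.seq (Cp.copy (hk 0)) (Fn.inc (fun _ => True) k) fun _ _ => trivial)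
      (fun _ h => h) fun ρ _ => ?_
    simp
  | get i =>
    intro ins k hk
    exact (Cp.copy (hk i)).congr fun ρ _ => by simp
  | @comp m n f g _ _ ihf ihg =>
    intro ins k hk
    let G : ℕ → Reg → ℕ := fun i ρ =>
      if h : i < n then g ⟨i, h⟩ (List.Vector.ofFn fun l => ρ (ins l)) else 0
    have hG : ∀ i, Cp (k + i) (G i) := by
      intro i
      by_cases h : i < n
      · simp only [G, dif_pos h]
        exact ihg ⟨i, h⟩ ins (k + i) fun l => by have := hk l; omega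
      · simp only [G, dif_neg h]
        exact Fn.clear _ _
    have hdep : ∀ i ρ ρ', (∀ r < k, ρ r = ρ' r) → G i ρ = G i ρ' := by
      intro i ρ ρ' h
      have : (fun l => ρ (ins l)) = fun l => ρ' (ins l) := funext fun l => h _ (hk l)
      simp only [G, this]
    refine (Cp.args k G hG hdep n _ (ihf (fun i => k + i) (k + n) fun i => by omega)).congr
      fun ρ _ => ?_
    congr 2
    funext i
    beta_reduce
    rw [if_pos (by omega), Nat.add_sub_cancel_left]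
    simp only [G, dif_pos i.2]
  | @prec n f g _ _ ihf ihg =>
    intro ins k hk
    let tl : Reg → List.Vector ℕ n := fun ρ => List.Vector.ofFn fun i => ρ (ins i.succ)
    let rc : Reg → ℕ → ℕ := fun ρ y =>
      Nat.rec (f (tl ρ)) (fun y IH => g (y ::ᵥ IH ::ᵥ tl ρ)) y
    have htl : ∀ (ρ : Reg) (r x : ℕ), k ≤ r → tl (update ρ r x) = tl ρ := by
      intro ρ r x hr
      simp only [tl]
      congr 1
      funext i
      rw [update_of_ne (by have := hk i.succ; omega)]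
    have hrc : ∀ (ρ : Reg) (r x : ℕ), k ≤ r → rc (update ρ r x) = rc ρ := by
      intro ρ r x hr
      simp only [rc, htl ρ r x hr]
    have h1 : Fn (Van (k + 3)) fun ρ => update ρ k (ρ (ins 0)) :=
      (Cp.copy (k := k + 3) (by have := hk 0; omega)).assign (by omega)
    have h2 : Fn (Van (k + 3)) fun ρ => update ρ (k + 2) (f (tl ρ)) :=
      (ihf (fun i => ins i.succ) (k + 3) fun i => by have := hk i.succ; omega).assign (by omega)
    have h3 : Fn (Van (k + 3)) fun ρ =>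
        update ρ (k + 2) (g (ρ (k + 1) ::ᵥ ρ (k + 2) ::ᵥ tl ρ)) := by
      have := (ihg (Fin.cons (k + 1) (Fin.cons (k + 2) fun i => ins i.succ)) (k + 3) (by
        intro i
        refine Fin.cases (by simp) (fun i => Fin.cases (by simp) (fun i => ?_) i) i
        have := hk i.succ
        simp only [Fin.cons_succ]
        omega)).assign (r := k + 2) (by omega)
      refine Fn.congr this (fun _ h => h) fun ρ _ => ?_
      simp [List.Vector.ofFn, tl]
    have h4 := h3.seq (Fn.inc (fun _ => True) (k + 1)) fun _ _ => trivial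
    have h5 := Fn.loop (P := fun ρ => Van (k + 3) ρ ∧ ρ (k + 2) = rc ρ (ρ (k + 1))) k h4
      (fun ρ hρ _ => hρ.1.update le_rfl (by omega) _) ?_ ?_
      (fun ρ => update (update (update ρ k 0) (k + 1) (ρ (k + 1) + ρ k)) (k + 2)
        (rc ρ (ρ (k + 1) + ρ k))) ?_ ?_
    · refine Fn.congr ((((h1.seq h2 fun ρ hρ => hρ.update le_rfl (by omega) _).congr
        (P := Van k) (fun ρ hρ => hρ.mono (by omega)) fun _ _ => rfl).seq h5 ?_).seq
        ((Fn.clear (fun _ => True) (k + 1)).seq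
          (Fn.move (fun _ => True) (i := k + 2) (j := k) (by omega)) fun _ _ => trivial)
        fun _ _ => trivial) (fun _ h => h) fun ρ hρ => ?_
      · intro ρ hρ
        refine ⟨(hρ.update (K := k + 3) (by omega) (by omega) _).update le_rfl (by omega) _, ?_⟩
        rw [hrc _ _ _ (by omega), hrc _ _ _ le_rfl, htl _ _ _ le_rfl]
        simp [hρ (k + 1) (by omega), rc]
      · have e1 := hρ (k + 1) (by omega)
        have e2 := hρ (k + 2) (by omega)
        rw [hrc _ _ _ (by omega), hrc _ _ _ le_rfl]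
        have e3 : (List.Vector.ofFn fun i => ρ (ins i)).head = ρ (ins 0) := by simp
        have e4 : (List.Vector.ofFn fun i => ρ (ins i)).tail = tl ρ := by simp [tl]
        beta_reduce
        rw [e3, e4]
        funext r
        simp only [update_apply]
        split_ifs <;> first | omega | simp_all [rc]
    · intro ρ hρ _
      refine ⟨((hρ.1.update le_rfl (by omega) _).update le_rfl (by omega) _).update le_rfl
        (by omega) _, ?_⟩
      rw [hrc _ _ _ (by omega), hrc _ _ _ (by omega), hrc _ _ _ le_rfl, htl _ _ _ le_rfl]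
      simp [hρ.2, rc]
    · intro ρ _ _
      simp
    · intro ρ hρ h
      have := hρ.2
      funext r
      simp only [update_apply]
      split_ifs <;> simp_all
    · intro ρ _ h
      rw [hrc _ _ _ (by omega), hrc _ _ _ (by omega), hrc _ _ _ le_rfl]
      have e1 : ρ (k + 1) + 1 + (ρ k - 1) = ρ (k + 1) + ρ k := by omega
      funext r
      simp only [update_apply]
      split_ifs <;> first | omega | simp_all

end CMC

end Vale.Agent.P193
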