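import Vale.Agent.P193.CMDefs
import Vale.Agent.P193.CMCompileAux2

/-!
P193, part B1: a computable family of strings is emitted by a counter machine.
-/

namespace Vale.Agent.P193

namespace CMC

open Function

theorem test {p : ℕ × ℕ × ℕ → Prop} (hp : PrimrecPred p) :
    Spec (Van 3) fun ρ out ρ' => out = [] ∧ p (ρ 0, ρ 1, ρ 2) ∧ ρ' = ρ := by
  classical
  have h1 : Primrec fun x : ℕ × ℕ × ℕ => if p x then 0 else 1 :=
    Primrec.ite hp (Primrec.const 0) (Primrec.const 1)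
  have h2 : Primrec fun v : List.Vector ℕ 3 => if p (v.get 0, v.get 1, v.get 2) then 0 else 1 :=
    h1.comp ((Primrec.vector_get.comp Primrec.id (Primrec.const 0)).pair
      ((Primrec.vector_get.comp Primrec.id (Primrec.const 1)).pair
        (Primrec.vector_get.comp Primrec.id (Primrec.const 2))))
  have h3 := Cp.prim (Nat.Primrec'.of_prim h2) (fun i => i) 3 fun i => i.2
  refine Spec.congr (Spec.seq h3 (Spec.atom (fun _ => True) (.zero 3)) fun _ _ _ _ _ => trivial)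
    (fun _ h => h) fun ρ hρ out ρ' => ⟨?_, ?_⟩
  · rintro ⟨ρ₁, o₁, o₂, ⟨rfl, rfl⟩, ⟨rfl, h4, rfl⟩, rfl⟩
    simp only [update_self, List.Vector.get_ofFn] at h4
    have h5 : p (ρ 0, ρ 1, ρ 2) := by
      by_contra h
      exact absurd h4 (by simpa using h)
    refine ⟨rfl, h5, ?_⟩
    simp only [List.Vector.get_ofFn]
    rw [h4, ← hρ 3 le_rfl, update_eq_self]
  · rintro ⟨rfl, h4, rfl⟩
    have h5 : (if p (ρ' 0, ρ' 1, ρ' 2) then 0 else 1) = ρ' 3 := by rw [if_pos h4, hρ 3 le_rfl]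
    refine ⟨ρ', [], [], ⟨rfl, ?_⟩, ⟨rfl, hρ 3 le_rfl, rfl⟩, rfl⟩
    simp only [List.Vector.get_ofFn]
    exact (update_eq_self 3 ρ').symm.trans (congrArg (update ρ' 3) h5.symm)

theorem exists_prim (F : ℕ → ℕ → List ℕ) (hF : Computable₂ F) :
    ∃ F' : ℕ → ℕ → Option (List ℕ), Primrec₂ F' ∧
      ∀ e l, (∃ m, F' e m = some l) ↔ ∃ N, l = F e N := by
  obtain ⟨c, hc⟩ := Nat.Partrec.Code.exists_code.mp hF
  refine ⟨fun e m => (Nat.Partrec.Code.evaln m.unpair.2 c
    (Encodable.encode (e, m.unpair.1))).bind fun x => Encodable.decode x, ?_, fun e l => ?_⟩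
  · refine Primrec.option_bind (Nat.Partrec.Code.primrec_evaln.comp
      (((Primrec.snd.comp (Primrec.unpair.comp Primrec.snd)).pair (Primrec.const c)).pair
        (Primrec.encode.comp (Primrec.fst.pair
          (Primrec.fst.comp (Primrec.unpair.comp Primrec.snd)))))) ?_
    exact (Primrec.decode.comp Primrec.snd).to₂
  · have key : ∀ N x, x ∈ c.eval (Encodable.encode (e, N)) ↔ x = Encodable.encode (F e N) := by
      intro N x
      rw [hc]
      simp only [Encodable.encodek]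
      simp
    constructor
    · rintro ⟨m, hm⟩
      obtain ⟨x, hx, hl⟩ := Option.bind_eq_some_iff.mp hm
      have := (key _ x).mp (Nat.Partrec.Code.evaln_sound hx)
      rw [this, Encodable.encodek] at hl
      exact ⟨_, (Option.some.inj hl).symm⟩
    · rintro ⟨N, rfl⟩
      obtain ⟨k, hk⟩ := Nat.Partrec.Code.evaln_complete.mp ((key N _).mpr rfl)
      refine ⟨Nat.pair N k, ?_⟩
      simp only [Nat.unpair_pair]
      rw [Option.mem_def.mp hk]
      simp

theorem star_inc (ρ : Reg) (out : List (Fin 4)) (ρ' : Reg) :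
    Star (NOp.inc 1).Act ρ out ρ' ↔ out = [] ∧ ∃ m, ρ' = update ρ 1 (ρ 1 + m) := by
  constructor
  · intro h
    induction h with
    | nil ρ => exact ⟨rfl, 0, by simp⟩
    | cons ρ ρ₁ ρ' o₁ o₂ h1 _ ih =>
      obtain ⟨rfl, rfl⟩ := h1
      obtain ⟨rfl, m, rfl⟩ := ih
      exact ⟨rfl, m + 1, by simp [add_comm, add_left_comm]⟩
  · rintro ⟨rfl, m, rfl⟩
    induction m generalizing ρ with
    | zero => simpa using Star.nil ρ
    | succ m ih =>
      have := Star.cons (R := (NOp.inc 1).Act) ρ _ _ [] [] ⟨rfl, rfl⟩ (ih _)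
      simpa [add_comm, add_left_comm] using this

/-- One emitting step. -/
def Body (p : ℕ → ℕ → ℕ → Fin 4 → Prop) : ORel := fun ρ out ρ' =>
  ∃ a, p (ρ 0) (ρ 1) (ρ 2) a ∧ out = [a] ∧ ρ' = update ρ 2 (ρ 2 + 1)

theorem star_body (p : ℕ → ℕ → ℕ → Fin 4 → Prop) (ρ : Reg) (out : List (Fin 4)) (ρ' : Reg) :
    Star (Body p) ρ out ρ' ↔ ρ' = update ρ 2 (ρ 2 + out.length) ∧
      ∀ j (h : j < out.length), p (ρ 0) (ρ 1) (ρ 2 + j) out[j] := by
  constructor
  · intro h
    induction h with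
    | nil ρ => exact ⟨by simp, fun j h => absurd h (by simp)⟩
    | cons ρ ρ₁ ρ' o₁ o₂ h1 _ ih =>
      obtain ⟨a, ha, rfl, rfl⟩ := h1
      obtain ⟨rfl, h2⟩ := ih
      refine ⟨by simp [add_assoc, add_comm, add_left_comm], fun j hj => ?_⟩
      cases j with
      | zero => simpa using ha
      | succ j =>
        have := h2 j (by simpa using hj)
        simpa [add_assoc, add_comm, add_left_comm] using this
  · rintro ⟨rfl, h⟩
    induction out generalizing ρ with
    | nil => simpa using Star.nil ρ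
    | cons a out ih =>
      have h0 := h 0 (by simp)
      have := Star.cons (R := Body p) ρ _ _ [a] out ⟨a, by simpa using h0, rfl, rfl⟩
        (ih (update ρ 2 (ρ 2 + 1)) fun j hj => by
          have := h (j + 1) (by simpa using hj)
          simpa [add_assoc, add_comm, add_left_comm] using this)
      simpa [add_assoc, add_comm, add_left_comm] using this

theorem spec_body (p : ℕ → ℕ → ℕ → Fin 4 → Prop)
    (hp : ∀ a, PrimrecPred fun x : ℕ × ℕ × ℕ => p x.1 x.2.1 x.2.2 a) : Spec (Van 3) (Body p) := by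
  have h1 : ∀ a, Spec (Van 3) fun ρ out ρ' =>
      p (ρ 0) (ρ 1) (ρ 2) a ∧ out = [a] ∧ ρ' = update ρ 2 (ρ 2 + 1) := by
    intro a
    refine Spec.congr (Spec.seq (test (hp a)) (Spec.seq (Spec.atom (fun _ => True) (.emit a))
      (Spec.atom (fun _ => True) (.inc 2)) fun _ _ _ _ _ => trivial) fun _ _ _ _ _ => trivial)
      (fun _ h => h) fun ρ _ out ρ' => ⟨?_, ?_⟩
    · rintro ⟨ρ₁, o₁, o₂, ⟨rfl, h, rfl⟩, ⟨ρ₂, o₃, o₄, ⟨rfl, rfl⟩, ⟨rfl, rfl⟩, rfl⟩, rfl⟩
      exact ⟨h, rfl, rfl⟩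
    · rintro ⟨h, rfl, rfl⟩
      exact ⟨ρ, [], [a], ⟨rfl, h, rfl⟩, ⟨ρ, [a], [], ⟨rfl, rfl⟩, ⟨rfl, rfl⟩, rfl⟩, rfl⟩
  refine Spec.congr (((h1 0).choice (h1 1)).choice ((h1 2).choice (h1 3))) (fun _ h => h)
    fun ρ _ out ρ' => ⟨?_, ?_⟩
  · rintro ((h | h) | (h | h)) <;> exact ⟨_, h⟩
  · rintro ⟨a, h⟩
    fin_cases a
    · exact Or.inl (Or.inl h)
    · exact Or.inl (Or.inr h)
    · exact Or.inr (Or.inl h)
    · exact Or.inr (Or.inr h)

end CMC

open CMC Function in
theorem exists_CM (F : ℕ → ℕ → List ℕ) (hF : Computable₂ F) :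
    ∃ M : CM, ∀ (e : ℕ) (out : List (Fin 4)),
      M.Run M.q0 (Pi.single M.r0 e) out ↔ ∃ N, out.map Fin.val = F e N := by
  obtain ⟨F', hF', hFF⟩ := exists_prim F hF
  let p : ℕ → ℕ → ℕ → Fin 4 → Prop := fun e m i a =>
    ((F' e m).bind fun l => l[i]?) = some (a : ℕ)
  have hFx : Primrec fun x : ℕ × ℕ × ℕ => F' x.1 x.2.1 :=
    hF'.comp Primrec.fst (Primrec.fst.comp Primrec.snd)
  have hp : ∀ a, PrimrecPred fun x : ℕ × ℕ × ℕ => p x.1 x.2.1 x.2.2 a := by
    intro a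
    refine Primrec.eq.comp (Primrec.option_bind hFx ?_) (Primrec.const (some (a : ℕ)))
    exact (Primrec.list_getElem?.comp Primrec.snd
      (Primrec.snd.comp (Primrec.snd.comp Primrec.fst))).to₂
  have hq : PrimrecPred fun x : ℕ × ℕ × ℕ => (F' x.1 x.2.1).map List.length = some x.2.2 :=
    Primrec.eq.comp (Primrec.option_map hFx (Primrec.list_length.comp Primrec.snd).to₂)
      (Primrec.option_some.comp (Primrec.snd.comp Primrec.snd))
  have s1 : Spec (Van 3) (Star (NOp.inc 1).Act) := (Spec.atom _ _).star (by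
    rintro ρ o ρ' hρ ⟨_, rfl⟩
    exact hρ.update le_rfl (by omega) _)
  have s2 : Spec (Van 3) (Star (Body p)) := (spec_body p hp).star (by
    rintro ρ o ρ' hρ ⟨a, _, _, rfl⟩
    exact hρ.update le_rfl (by omega) _)
  have s3 := test hq
  have s4 : Fn (fun _ => True) fun ρ => update (update (update ρ 0 0) 1 0) 2 0 :=
    ((Fn.clear _ 0).seq (Fn.clear (fun _ => True) 1) fun _ _ => trivial).seq
      (Fn.clear (fun _ => True) 2) fun _ _ => trivial
  obtain ⟨prog, hprog⟩ := s1.seq (s2.seq (s3.seq s4 fun _ _ _ _ _ => trivial) (by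
    intro ρ o ρ' hρ h
    rw [((star_body p ρ o ρ').mp h).1]
    exact hρ.update le_rfl (by omega) _)) (by
    intro ρ o ρ' hρ h
    obtain ⟨_, m, rfl⟩ := (star_inc ρ o ρ').mp h
    exact hρ.update le_rfl (by omega) _)
  obtain ⟨M, hM⟩ := flatten prog
  refine ⟨M, fun e out => ?_⟩
  have hV : Van 3 (update (fun _ => 0) 0 e) := fun r hr => by rw [update_of_ne (by omega)]
  rw [hM, hprog _ hV, ← hFF]
  constructor
  · rintro ⟨ρ₁, o₁, o₂, h1, ⟨ρ₂, o₃, o₄, h2, ⟨ρ₃, o₅, o₆, ⟨rfl, h3, rfl⟩, ⟨rfl, _⟩, rfl⟩, rfl⟩, rfl⟩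
    obtain ⟨rfl, m, rfl⟩ := (star_inc _ _ _).mp h1
    obtain ⟨rfl, h4⟩ := (star_body _ _ _ _).mp h2
    refine ⟨m, ?_⟩
    simp only [List.append_nil, List.nil_append]
    have h5 : (F' e m).map List.length = some o₃.length := by simpa using h3
    obtain ⟨l, hl, hlen⟩ := Option.map_eq_some_iff.mp h5
    rw [hl]
    congr 1
    refine List.ext_getElem (by simpa using hlen) fun j hj hj' => ?_
    have h6 : p e m j (o₃[j]'(by omega)) := by simpa using h4 j (by omega)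
    simp only [p, hl, Option.bind_some] at h6
    rw [List.getElem?_eq_getElem hj] at h6
    simpa using h6
  · rintro ⟨m, hm⟩
    refine ⟨_, [], out, (star_inc _ _ _).mpr ⟨rfl, m, rfl⟩, ⟨_, out, [],
      (star_body _ _ _ _).mpr ⟨rfl, fun j hj => ?_⟩, ⟨_, [], [], ⟨rfl, ?_, rfl⟩, ⟨rfl, ?_⟩, rfl⟩,
      by simp⟩, rfl⟩
    · simp [p, hm, hj]
    · simp [hm]
    · funext r
      simp only [update_apply]
      split_ifs <;> rfl

end Vale.Agent.P193
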