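import Vale.Agent.P193.CMDefs

/-!
P193, part B1: regular programs over counter instructions and their flattening to machines.
-/

namespace Vale.Agent.P193

namespace CMC

/-- Register states. -/
abbrev Reg : Type := ℕ → ℕ

/-- Instructions with registers in `ℕ`. -/
inductive NOp : Type
  | inc (r : ℕ)
  | dec (r : ℕ)
  | zero (r : ℕ)
  | emit (a : Fin 4)
  | nop

/-- Relations with output. -/
abbrev ORel : Type := Reg → List (Fin 4) → Reg → Prop

/-- The action of an instruction. -/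
def NOp.Act : NOp → ORel
  | .inc r, ρ, out, ρ' => out = [] ∧ ρ' = Function.update ρ r (ρ r + 1)
  | .dec r, ρ, out, ρ' => out = [] ∧ ρ r ≠ 0 ∧ ρ' = Function.update ρ r (ρ r - 1)
  | .zero r, ρ, out, ρ' => out = [] ∧ ρ r = 0 ∧ ρ' = ρ
  | .emit a, ρ, out, ρ' => out = [a] ∧ ρ' = ρ
  | .nop, ρ, out, ρ' => out = [] ∧ ρ' = ρ

/-- The register of an instruction. -/
def NOp.reg : NOp → ℕ
  | .inc r => r
  | .dec r => r
  | .zero r => r
  | .emit _ => 0
  | .nop => 0

/-- Regular programs. -/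
inductive Prog : Type
  | atom (o : NOp)
  | seq (p q : Prog)
  | choice (p q : Prog)
  | star (p : Prog)

/-- Iteration of a relation with output. -/
inductive Star (R : ORel) : ORel
  | nil (ρ : Reg) : Star R ρ [] ρ
  | cons (ρ ρ₁ ρ' : Reg) (o₁ o₂ : List (Fin 4)) :
      R ρ o₁ ρ₁ → Star R ρ₁ o₂ ρ' → Star R ρ (o₁ ++ o₂) ρ'

/-- Composition of relations with output. -/
def OComp (R S : ORel) : ORel := fun ρ out ρ' =>
  ∃ ρ₁ o₁ o₂, R ρ o₁ ρ₁ ∧ S ρ₁ o₂ ρ' ∧ out = o₁ ++ o₂

/-- Big-step meaning of a program. -/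
def Prog.Sem : Prog → ORel
  | .atom o => o.Act
  | .seq p q => OComp p.Sem q.Sem
  | .choice p q => fun ρ out ρ' => p.Sem ρ out ρ' ∨ q.Sem ρ out ρ'
  | .star p => Star p.Sem

/-- Small steps between continuations. -/
def trans : List Prog → List (NOp × List Prog)
  | [] => []
  | .atom o :: k => [(o, k)]
  | .seq p q :: k => [(.nop, p :: q :: k)]
  | .choice p q :: k => [(.nop, p :: k), (.nop, q :: k)]
  | .star p :: k => [(.nop, k), (.nop, p :: .star p :: k)]

/-- The continuations met while running `p` before `k`. -/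
def states : Prog → List Prog → List (List Prog)
  | .atom o, k => [.atom o :: k]
  | .seq p q, k => (.seq p q :: k) :: (states p (q :: k) ++ states q k)
  | .choice p q, k => (.choice p q :: k) :: (states p k ++ states q k)
  | .star p, k => (.star p :: k) :: states p (.star p :: k)

theorem self_mem_states (p : Prog) (k : List Prog) : p :: k ∈ states p k := by
  cases p <;> simp [states]

theorem states_closed (p : Prog) : ∀ k, ∀ s ∈ states p k, ∀ t ∈ trans s,
    t.2 ∈ states p k ∨ t.2 = k := by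
  induction p with
  | atom o =>
    intro k s hs t ht
    simp only [states, List.mem_singleton] at hs
    subst hs
    simp only [trans, List.mem_singleton] at ht
    subst ht
    exact Or.inr rfl
  | seq p q ihp ihq =>
    intro k s hs t ht
    simp only [states, List.mem_cons, List.mem_append] at hs ⊢
    rcases hs with rfl | hs | hs
    · simp only [trans, List.mem_singleton] at ht
      subst ht
      exact Or.inl (Or.inr (Or.inl (self_mem_states _ _)))
    · rcases ihp _ s hs t ht with h | h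
      · exact Or.inl (Or.inr (Or.inl h))
      · exact Or.inl (Or.inr (Or.inr (h ▸ self_mem_states _ _)))
    · rcases ihq _ s hs t ht with h | h
      · exact Or.inl (Or.inr (Or.inr h))
      · exact Or.inr h
  | choice p q ihp ihq =>
    intro k s hs t ht
    simp only [states, List.mem_cons, List.mem_append] at hs ⊢
    rcases hs with rfl | hs | hs
    · simp only [trans, List.mem_cons, List.not_mem_nil, or_false] at ht
      rcases ht with rfl | rfl
      · exact Or.inl (Or.inr (Or.inl (self_mem_states _ _)))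
      · exact Or.inl (Or.inr (Or.inr (self_mem_states _ _)))
    · rcases ihp _ s hs t ht with h | h
      · exact Or.inl (Or.inr (Or.inl h))
      · exact Or.inr h
    · rcases ihq _ s hs t ht with h | h
      · exact Or.inl (Or.inr (Or.inr h))
      · exact Or.inr h
  | star p ihp =>
    intro k s hs t ht
    simp only [states, List.mem_cons] at hs ⊢
    rcases hs with rfl | hs
    · simp only [trans, List.mem_cons, List.not_mem_nil, or_false] at ht
      rcases ht with rfl | rfl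
      · exact Or.inr rfl
      · exact Or.inl (Or.inr (self_mem_states _ _))
    · rcases ihp _ s hs t ht with h | h
      · exact Or.inl (Or.inr h)
      · exact Or.inl (Or.inl h)

/-- Small-step runs. -/
inductive ARun : List Prog → Reg → List (Fin 4) → Prop
  | done : ARun [] (fun _ => 0) []
  | step (s : List Prog) (t : NOp × List Prog) (ρ ρ' : Reg) (o out : List (Fin 4)) :
      t ∈ trans s → t.1.Act ρ o ρ' → ARun t.2 ρ' out → ARun s ρ (o ++ out)

/-- Big-step meaning of a continuation. -/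
def KRun : List Prog → Reg → List (Fin 4) → Prop
  | [], ρ, out => ρ = (fun _ => 0) ∧ out = []
  | p :: k, ρ, out => ∃ ρ₁ o₁ o₂, p.Sem ρ o₁ ρ₁ ∧ KRun k ρ₁ o₂ ∧ out = o₁ ++ o₂

theorem ARun.toK {s : List Prog} {ρ : Reg} {out : List (Fin 4)} (h : ARun s ρ out) :
    KRun s ρ out := by
  induction h with
  | done => exact ⟨rfl, rfl⟩
  | step s t ρ ρ' o out ht ha _ ih =>
    match s, ht with
    | .atom o' :: k, ht =>
      simp only [trans, List.mem_singleton] at ht
      subst ht
      exact ⟨ρ', o, out, ha, ih, rfl⟩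
    | .seq p q :: k, ht =>
      simp only [trans, List.mem_singleton] at ht
      subst ht
      obtain ⟨rfl, rfl⟩ := ha
      obtain ⟨ρ₁, o₁, o₂, h1, ⟨ρ₂, o₃, o₄, h2, h3, rfl⟩, rfl⟩ := ih
      exact ⟨ρ₂, o₁ ++ o₃, o₄, ⟨ρ₁, o₁, o₃, h1, h2, rfl⟩, h3, by simp⟩
    | .choice p q :: k, ht =>
      simp only [trans, List.mem_cons, List.not_mem_nil, or_false] at ht
      rcases ht with rfl | rfl
      · obtain ⟨rfl, rfl⟩ := ha
        obtain ⟨ρ₁, o₁, o₂, h1, h2, rfl⟩ := ih
        exact ⟨ρ₁, o₁, o₂, Or.inl h1, h2, by simp⟩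
      · obtain ⟨rfl, rfl⟩ := ha
        obtain ⟨ρ₁, o₁, o₂, h1, h2, rfl⟩ := ih
        exact ⟨ρ₁, o₁, o₂, Or.inr h1, h2, by simp⟩
    | .star p :: k, ht =>
      simp only [trans, List.mem_cons, List.not_mem_nil, or_false] at ht
      rcases ht with rfl | rfl
      · obtain ⟨rfl, rfl⟩ := ha
        exact ⟨ρ', [], out, Star.nil _, ih, rfl⟩
      · obtain ⟨rfl, rfl⟩ := ha
        obtain ⟨ρ₁, o₁, o₂, h1, ⟨ρ₂, o₃, o₄, h2, h3, rfl⟩, rfl⟩ := ih
        exact ⟨ρ₂, o₁ ++ o₃, o₄, Star.cons _ _ _ _ _ h1 h2, h3, by simp⟩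

theorem ARun.nop {s t : List Prog} {ρ : Reg} {out : List (Fin 4)} (ht : (NOp.nop, t) ∈ trans s)
    (h : ARun t ρ out) : ARun s ρ out :=
  ARun.step s (NOp.nop, t) ρ ρ [] out ht ⟨rfl, rfl⟩ h

theorem ARun.of_sem (p : Prog) : ∀ (k : List Prog) (ρ ρ₁ : Reg) (o₁ o₂ : List (Fin 4)),
    p.Sem ρ o₁ ρ₁ → ARun k ρ₁ o₂ → ARun (p :: k) ρ (o₁ ++ o₂) := by
  induction p with
  | atom o =>
    intro k ρ ρ₁ o₁ o₂ h1 h2
    exact ARun.step _ (o, k) ρ ρ₁ o₁ o₂ (by simp [trans]) h1 h2
  | seq p q ihp ihq =>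
    intro k ρ ρ₁ o₁ o₂ h1 h2
    obtain ⟨ρ₂, o₃, o₄, h3, h4, rfl⟩ := h1
    refine ARun.nop (t := p :: q :: k) (by simp [trans]) ?_
    rw [List.append_assoc]
    exact ihp _ _ _ _ _ h3 (ihq _ _ _ _ _ h4 h2)
  | choice p q ihp ihq =>
    intro k ρ ρ₁ o₁ o₂ h1 h2
    rcases h1 with h1 | h1
    · exact ARun.nop (t := p :: k) (by simp [trans]) (ihp _ _ _ _ _ h1 h2)
    · exact ARun.nop (t := q :: k) (by simp [trans]) (ihq _ _ _ _ _ h1 h2)
  | star p ihp =>
    intro k ρ ρ₁ o₁ o₂ h1 h2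
    change Star p.Sem ρ o₁ ρ₁ at h1
    induction h1 with
    | nil ρ => exact ARun.nop (t := k) (by simp [trans]) h2
    | cons ρ ρ₂ ρ' o₃ o₄ h3 _ ih =>
      refine ARun.nop (t := p :: .star p :: k) (by simp [trans]) ?_
      rw [List.append_assoc]
      exact ihp _ _ _ _ _ h3 (ih h2)

theorem arun_iff (p : Prog) (ρ : Reg) (out : List (Fin 4)) :
    ARun [p] ρ out ↔ p.Sem ρ out fun _ => 0 := by
  constructor
  · intro h
    obtain ⟨ρ₁, o₁, o₂, h1, ⟨rfl, rfl⟩, rfl⟩ := h.toK
    simpa using h1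
  · intro h
    simpa using ARun.of_sem p [] ρ _ out [] h ARun.done

/-- Extension by zero. -/
def ext {nr : ℕ} (ρ : Fin nr → ℕ) : Reg := fun r => if h : r < nr then ρ ⟨r, h⟩ else 0

theorem ext_update {nr : ℕ} (ρ : Fin nr → ℕ) (r : Fin nr) (x : ℕ) :
    ext (Function.update ρ r x) = Function.update (ext ρ) r x := by
  funext s
  by_cases hs : s = r
  · subst hs
    simp [ext]
  · rw [Function.update_of_ne hs]
    unfold ext
    split_ifs with h
    · rw [Function.update_of_ne fun e => hs (congrArg Fin.val e)]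
    · rfl

theorem ext_val {nr : ℕ} (ρ : Fin nr → ℕ) (r : Fin nr) : ext ρ r = ρ r := by
  simp [ext]

theorem ext_inj {nr : ℕ} : Function.Injective (ext : (Fin nr → ℕ) → Reg) := by
  intro ρ ρ' h
  funext r
  rw [← ext_val ρ, ← ext_val ρ', h]

theorem ext_zero {nr : ℕ} : ext (fun _ : Fin nr => 0) = fun _ => 0 := by
  funext r
  simp [ext]

/-- An instruction with registers below `nr`. -/
def toOp (nr : ℕ) : NOp → Op nr
  | .inc r => if h : r < nr then .inc ⟨r, h⟩ else .nop
  | .dec r => if h : r < nr then .dec ⟨r, h⟩ else .nop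
  | .zero r => if h : r < nr then .zero ⟨r, h⟩ else .nop
  | .emit a => .emit a
  | .nop => .nop

theorem act_iff {nr : ℕ} (o : NOp) (ho : o.reg < nr) (ρ : Fin nr → ℕ) (out : List (Fin 4))
    (σ : Reg) : o.Act (ext ρ) out σ ↔ ∃ ρ', (toOp nr o).Act ρ out ρ' ∧ σ = ext ρ' := by
  cases o with
  | inc r =>
    have h : r < nr := ho
    have e1 := ext_update ρ ⟨r, h⟩
    have e2 := ext_val ρ ⟨r, h⟩
    simp only at e1 e2
    simp only [toOp, dif_pos h, NOp.Act, Op.Act, e2]
    constructor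
    · rintro ⟨rfl, rfl⟩
      exact ⟨_, ⟨rfl, rfl⟩, (e1 _).symm⟩
    · rintro ⟨_, ⟨rfl, rfl⟩, rfl⟩
      exact ⟨rfl, e1 _⟩
  | dec r =>
    have h : r < nr := ho
    have e1 := ext_update ρ ⟨r, h⟩
    have e2 := ext_val ρ ⟨r, h⟩
    simp only at e1 e2
    simp only [toOp, dif_pos h, NOp.Act, Op.Act, e2]
    constructor
    · rintro ⟨rfl, h1, rfl⟩
      exact ⟨_, ⟨rfl, h1, rfl⟩, (e1 _).symm⟩
    · rintro ⟨_, ⟨rfl, h1, rfl⟩, rfl⟩
      exact ⟨rfl, h1, e1 _⟩
  | zero r =>
    have h : r < nr := ho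
    have e2 := ext_val ρ ⟨r, h⟩
    simp only at e2
    simp only [toOp, dif_pos h, NOp.Act, Op.Act, e2]
    constructor
    · rintro ⟨rfl, h1, rfl⟩
      exact ⟨_, ⟨rfl, h1, rfl⟩, rfl⟩
    · rintro ⟨_, ⟨rfl, h1, rfl⟩, rfl⟩
      exact ⟨rfl, h1, rfl⟩
  | emit a =>
    simp only [toOp, NOp.Act, Op.Act]
    constructor
    · rintro ⟨rfl, rfl⟩
      exact ⟨_, ⟨rfl, rfl⟩, rfl⟩
    · rintro ⟨_, ⟨rfl, rfl⟩, rfl⟩
      exact ⟨rfl, rfl⟩
  | nop =>
    simp only [toOp, NOp.Act, Op.Act]
    constructor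
    · rintro ⟨rfl, rfl⟩
      exact ⟨_, ⟨rfl, rfl⟩, rfl⟩
    · rintro ⟨_, ⟨rfl, rfl⟩, rfl⟩
      exact ⟨rfl, rfl⟩

/-- Every program flattens to a machine. -/
theorem flatten (p : Prog) : ∃ M : CM, ∀ (e : ℕ) (out : List (Fin 4)),
    M.Run M.q0 (Pi.single M.r0 e) out ↔ p.Sem (Function.update (fun _ => 0) 0 e) out fun _ => 0 := by
  classical
  let st : List (List Prog) := [] :: states p []
  have hclosed : ∀ s ∈ st, ∀ t ∈ trans s, t.2 ∈ st := by
    intro s hs t ht
    rcases List.mem_cons.mp hs with rfl | hs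
    · simp [trans] at ht
    · rcases states_closed p [] s hs t ht with h | h
      · exact List.mem_cons_of_mem _ h
      · rw [h]
        exact List.mem_cons_self
  have hidx : ∀ s : List Prog, ∃ i : Fin st.length, s ∈ st → st.get i = s := by
    intro s
    by_cases hs : s ∈ st
    · obtain ⟨i, hi⟩ := List.get_of_mem hs
      exact ⟨i, fun _ => hi⟩
    · exact ⟨⟨0, by simp [st]⟩, fun h => absurd h hs⟩
  choose idx hidx using hidx
  let L : List (List Prog × NOp × List Prog) := st.flatMap fun s => (trans s).map fun t => (s, t)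
  have hL : ∀ x, x ∈ L ↔ x.1 ∈ st ∧ x.2 ∈ trans x.1 := by
    intro x
    simp only [L, List.mem_flatMap, List.mem_map]
    constructor
    · rintro ⟨s, hs, t, ht, rfl⟩
      exact ⟨hs, ht⟩
    · rintro ⟨h1, h2⟩
      exact ⟨x.1, h1, x.2, h2, rfl⟩
  let nr : ℕ := (L.map fun x => x.2.1.reg).sum + 1
  have hnr : ∀ x ∈ L, x.2.1.reg < nr := by
    intro x hx
    exact Nat.lt_succ_of_le (List.single_le_sum (by simp) _ (List.mem_map_of_mem hx))
  let M : CM :=
    { nr := nr, nq := st.length, ni := L.length, r0 := ⟨0, Nat.succ_pos _⟩, q0 := idx [p],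
      qf := idx [], src := fun i => idx (L.get i).1, op := fun i => toOp nr (L.get i).2.1,
      dst := fun i => idx (L.get i).2.2 }
  have h1 : ∀ q ρ out, M.Run q ρ out → ARun (st.get q) (ext ρ) out := by
    intro q ρ out h
    induction h with
    | done =>
      have : st.get M.qf = [] := hidx [] List.mem_cons_self
      rw [this, ext_zero]
      exact ARun.done
    | step i ρ ρ' o out ha _ ih =>
      have hi := List.get_mem L i
      have hi' := (hL _).mp hi
      have e1 : st.get (M.src i) = (L.get i).1 := hidx _ hi'.1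
      have e2 : st.get (M.dst i) = (L.get i).2.2 := hidx _ (hclosed _ hi'.1 _ hi'.2)
      rw [e2] at ih
      rw [e1]
      exact ARun.step _ _ _ _ _ _ hi'.2 ((act_iff _ (hnr _ hi) ρ o _).mpr ⟨ρ', ha, rfl⟩) ih
  have h2 : ∀ s σ out, ARun s σ out → s ∈ st → ∀ ρ : Fin nr → ℕ, σ = ext ρ →
      M.Run (idx s) ρ out := by
    intro s σ out h
    induction h with
    | done =>
      intro _ ρ hρ
      have : ρ = fun _ => 0 := ext_inj (hρ.symm.trans ext_zero.symm)
      rw [this]
      exact CM.Run.done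
    | step s t σ σ' o out ht ha _ ih =>
      intro hs ρ hρ
      subst hρ
      have hx : (s, t) ∈ L := (hL _).mpr ⟨hs, ht⟩
      obtain ⟨i, hi⟩ := List.get_of_mem hx
      obtain ⟨ρ', hρ', rfl⟩ := (act_iff _ (hnr _ hx) ρ o _).mp ha
      have e1 : M.src i = idx s := by simp only [M, hi]
      have e2 : M.dst i = idx t.2 := by simp only [M, hi]
      have e3 : M.op i = toOp nr t.1 := by simp only [M, hi]
      rw [← e1]
      have ha' : (M.op i).Act ρ o ρ' := e3 ▸ hρ'
      refine CM.Run.step (M := M) i ρ ρ' o out ha' ?_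
      rw [e2]
      exact ih (hclosed _ hs _ ht) ρ' rfl
  have hp : [p] ∈ st := List.mem_cons_of_mem _ (self_mem_states p [])
  refine ⟨M, fun e out => ?_⟩
  have he : ext (Pi.single M.r0 e : Fin M.nr → ℕ) = Function.update (fun _ => 0) 0 e := by
    have := ext_update (fun _ : Fin nr => 0) M.r0 e
    rw [ext_zero] at this
    exact this
  rw [← arun_iff]
  constructor
  · intro h
    have h3 := h1 _ _ _ h
    have e1 : st.get M.q0 = [p] := hidx _ hp
    rw [e1, he] at h3
    exact h3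
  · intro h
    exact h2 _ _ _ h hp _ he.symm

end CMC

end Vale.Agent.P193
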