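import Mathlib

/-!
P193, part B: nondeterministic counter machines with output, and the family of strings.
-/

namespace Vale.Agent.P193

/-- Instructions of a counter machine with `nr` registers. -/
inductive Op (nr : ℕ) : Type
  | inc (r : Fin nr)
  | dec (r : Fin nr)
  | zero (r : Fin nr)
  | emit (a : Fin 4)
  | nop
  deriving DecidableEq

/-- A nondeterministic counter machine that emits letters from `Fin 4`. -/
structure CM where
  nr : ℕ
  nq : ℕ
  ni : ℕ
  r0 : Fin nr
  q0 : Fin nq
  qf : Fin nq
  src : Fin ni → Fin nq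
  op : Fin ni → Op nr
  dst : Fin ni → Fin nq

/-- One instruction acting on the registers: `ρ` becomes `ρ'` and `out` is emitted. -/
def Op.Act {nr : ℕ} : Op nr → (Fin nr → ℕ) → List (Fin 4) → (Fin nr → ℕ) → Prop
  | .inc r, ρ, out, ρ' => out = [] ∧ ρ' = Function.update ρ r (ρ r + 1)
  | .dec r, ρ, out, ρ' => out = [] ∧ ρ r ≠ 0 ∧ ρ' = Function.update ρ r (ρ r - 1)
  | .zero r, ρ, out, ρ' => out = [] ∧ ρ r = 0 ∧ ρ' = ρ
  | .emit a, ρ, out, ρ' => out = [a] ∧ ρ' = ρ
  | .nop, ρ, out, ρ' => out = [] ∧ ρ' = ρ

/-- `M.Run q ρ out`: from state `q` with registers `ρ` the machine can reach the final state with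
all registers zero while emitting `out`. -/
inductive CM.Run (M : CM) : Fin M.nq → (Fin M.nr → ℕ) → List (Fin 4) → Prop
  | done : CM.Run M M.qf (fun _ => 0) []
  | step (i : Fin M.ni) (ρ ρ' : Fin M.nr → ℕ) (o out : List (Fin 4)) :
      (M.op i).Act ρ o ρ' → CM.Run M (M.dst i) ρ' out → CM.Run M (M.src i) ρ (o ++ out)

/-- The string of `q`. -/
def qs : List ℕ := [1, 3, 3, 3, 2, 1, 3, 3, 3, 3, 2]

/-- The substitution on string letters: `0` is the separator, `j + 1` is the generator with
code `j`. -/
def phiL : ℕ → List ℕ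
  | 0 => 0 :: qs
  | j + 1 => 1 :: (List.replicate j 3 ++ [2])

/-- The substitution on strings. -/
def phiS (l : List ℕ) : List ℕ := l.flatMap phiL

/-- The string of a group word. -/
def codeW {n : ℕ} (w : List (Fin n × Bool)) : List ℕ := w.map fun a => 6 + 2 * Encodable.encode a

/-- The data decoded from the parameter `e`. -/
def dataOf (e : ℕ) : List (List ℕ) × List ℕ × List ℕ × ℕ := Denumerable.ofNat _ e

/-- The base strings. -/
def baseStr {n : ℕ} (triv : List (Fin n × Bool) → Bool) (e N : ℕ) : List ℕ :=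
  if N.unpair.1 = 0 then (dataOf e).1.getD N.unpair.2 []
  else if N.unpair.1 = 1 then
    (dataOf e).2.1 ++ List.replicate e (dataOf e).2.2.2 ++ (dataOf e).2.2.1
  else
    match (Encodable.decode N.unpair.2 : Option (List (Fin n × Bool))) with
    | none => []
    | some w => if triv w then 0 :: (codeW w ++ [0, 0]) else 0 :: (qs ++ codeW w ++ qs ++ [0])

/-- The family of strings that the machine has to emit. -/
def famF {n : ℕ} (triv : List (Fin n × Bool) → Bool) (e N : ℕ) : List ℕ :=
  phiS^[N.unpair.1 + 1] (baseStr triv e N.unpair.2)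

/-- The value of a word in the generators and their inverses. -/
def wordVal {G : Type*} [Group G] {n : ℕ} (s : Fin n → G) (w : List (Fin n × Bool)) : G :=
  (w.map fun p => if p.2 then s p.1 else (s p.1)⁻¹).prod

end Vale.Agent.P193
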