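import Vale.Agent.P193.RingBasic

/-! Task C3: excision; the ring satisfies `Hyp`; the group embeds. -/

namespace Vale.Agent.P193.Sys

variable {σ : Sig} {n : ℕ} {M : Mach σ n} {G : Type} [Group G] {s : Fin n → G} {R : Type} [Ring R]
  (A : Sys M s R)

omit [Group G] in
theorem ex_sizeL_cons (c : Lev σ G) (l : List (Lev σ G)) :
    sizeL (c :: l) = c.2.size + sizeL l := by
  simp [sizeL]

theorem ex_size_nil : (Cfg.nil σ).size = 0 := Cfg.size_eq_zero.2 rfl

theorem ex_T_pow (N : ℕ) : A.x .T ^ N = A.TL (List.replicate N (1, Cfg.nil σ)) := by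
  induction N with
  | zero => simp [TL_nil]
  | succ N ih => rw [pow_succ', List.replicate_succ, TL_cons, ← ih, ← A.T_eq]

/-- Sums of explicit states of bounded size. -/
def exC (m : ℕ) : AddSubmonoid R := AddSubmonoid.closure {r | ∃ l, sizeL l ≤ m ∧ r = A.TL l}

theorem exC_mul_T {m : ℕ} {r : R} (h : r ∈ A.exC m) (N : ℕ) : r * A.x .T ^ N ∈ A.exC m := by
  induction h using AddSubmonoid.closure_induction with
  | mem u hu =>
    obtain ⟨l, hl, rfl⟩ := hu
    refine AddSubmonoid.subset_closure ⟨l ++ List.replicate N (1, Cfg.nil σ), ?_, ?_⟩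
    · simpa [sizeL, ex_size_nil] using hl
    · rw [TL_append, ex_T_pow]
  | zero => rw [zero_mul]; exact zero_mem _
  | add u v _ _ h1 h2 => rw [add_mul]; exact add_mem h1 h2

/-- Elements that become sums of explicit states after enough padding. -/
def exE (m : ℕ) : AddSubmonoid R where
  carrier := {r | ∃ N, r * A.x .T ^ N ∈ A.exC m}
  zero_mem' := ⟨0, by rw [zero_mul]; exact zero_mem _⟩
  add_mem' := by
    rintro a b ⟨N, hN⟩ ⟨N', hN'⟩
    refine ⟨N + N', ?_⟩
    rw [add_mul]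
    refine add_mem ?_ ?_
    · rw [pow_add, ← mul_assoc]
      exact A.exC_mul_T hN N'
    · rw [add_comm, pow_add, ← mul_assoc]
      exact A.exC_mul_T hN' N

theorem mem_exE {m : ℕ} {r : R} : r ∈ A.exE m ↔ ∃ N, r * A.x .T ^ N ∈ A.exC m := Iff.rfl

theorem TL_mem_exE {m : ℕ} {l : List (Lev σ G)} (h : sizeL l ≤ m) : A.TL l ∈ A.exE m :=
  ⟨0, by rw [pow_zero, mul_one]; exact AddSubmonoid.subset_closure ⟨l, h, rfl⟩⟩

theorem exE_mono {m m' : ℕ} (h : m ≤ m') {r : R} (hr : r ∈ A.exE m) : r ∈ A.exE m' := by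
  obtain ⟨N, hN⟩ := hr
  refine ⟨N, AddSubmonoid.closure_mono ?_ hN⟩
  rintro u ⟨l, hl, rfl⟩
  exact ⟨l, hl.trans h, rfl⟩

theorem exE_of_mul {m : ℕ} {r : R} {N : ℕ} (h : r * A.x .T ^ N ∈ A.exE m) : r ∈ A.exE m := by
  obtain ⟨N', hN'⟩ := h
  exact ⟨N + N', by rwa [pow_add, ← mul_assoc]⟩

theorem mul_mem_exE {m m' : ℕ} {a : R} (h : ∀ l, sizeL l ≤ m → a * A.TL l ∈ A.exE m') {r : R}
    (hr : r ∈ A.exE m) : a * r ∈ A.exE m' := by
  obtain ⟨N, hN⟩ := hr
  have key : ∀ z ∈ A.exC m, a * z ∈ A.exE m' := by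
    intro z hz
    induction hz using AddSubmonoid.closure_induction with
    | mem u hu =>
      obtain ⟨l, hl, rfl⟩ := hu
      exact h l hl
    | zero => rw [mul_zero]; exact zero_mem _
    | add u v _ _ h1 h2 => rw [mul_add]; exact add_mem h1 h2
  refine A.exE_of_mul (N := N) ?_
  rw [mul_assoc]
  exact key _ hN

theorem ex_word {k : ℕ} (ih : ∀ l y, sizeL l < k → A.x y * A.TL l ∈ A.exE (sizeL l + 1))
    (w : List (Gen σ n)) (l : List (Lev σ G)) (h : sizeL l + w.length ≤ k) :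
    word A.x w * A.TL l ∈ A.exE (sizeL l + w.length) := by
  induction w with
  | nil =>
    simp only [word, List.map_nil, List.prod_nil, one_mul]
    exact A.TL_mem_exE (by simp)
  | cons y w ihw =>
    rw [List.length_cons] at h ⊢
    have h1 : word A.x (y :: w) = A.x y * word A.x w := by simp [word]
    rw [h1, mul_assoc]
    refine A.mul_mem_exE (fun l' hl' => ?_) (ihw (by omega))
    exact A.exE_mono (by omega) (ih l' y (by omega))

theorem ex_cons (c : Lev σ G) (l : List (Lev σ G))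
    (ih : ∀ l' y, sizeL l' < sizeL (c :: l) → A.x y * A.TL l' ∈ A.exE (sizeL l' + 1))
    (y : Gen σ n) : A.x y * A.TL (c :: l) ∈ A.exE (sizeL (c :: l) + 1) := by
  have hs := ex_sizeL_cons c l
  rw [TL_cons, ← mul_assoc]
  cases y with
  | a p =>
    rw [← A.g_a, A.g_Tc, ← TL_cons]
    refine A.TL_mem_exE ?_
    rw [ex_sizeL_cons, hs]
    exact Nat.le_succ _
  | push i b =>
    rw [A.push_Tc, ← TL_cons]
    refine A.TL_mem_exE ?_
    rw [ex_sizeL_cons, hs]
    simp only
    rw [Cfg.size_cons]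
    omega
  | pop i b =>
    by_cases h : ∃ t, c.2 i = b :: t
    · obtain ⟨t, ht⟩ := h
      rw [A.pop_Tc_pos ht, ← TL_cons]
      refine A.TL_mem_exE ?_
      rw [ex_sizeL_cons, hs]
      have h2 := Cfg.size_update c.2 i t
      rw [ht, List.length_cons] at h2
      simp only
      omega
    · rw [A.pop_Tc_neg fun t ht => h ⟨t, ht⟩, zero_mul]
      exact zero_mem _
  | S =>
    by_cases h : c = (1, Cfg.nil σ)
    · rw [h, ← A.T_eq, A.S_T, one_mul]
      refine A.TL_mem_exE ?_
      rw [ex_sizeL_cons]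
      omega
    · rw [A.S_Tc_of_ne h, zero_mul]
      exact zero_mem _
  | T =>
    rw [A.T_eq, mul_assoc, ← TL_cons, ← TL_cons]
    refine A.TL_mem_exE ?_
    rw [ex_sizeL_cons (1, Cfg.nil σ)]
    simp only [ex_size_nil]
    omega
  | Z =>
    by_cases h : c.1 = 1 ∧ (∀ i, i ≠ σ.U → i ≠ σ.I → c.2 i = []) ∧ ∃ y, c.2 σ.I = M.code y
    · obtain ⟨h1, h2, y, h3⟩ := h
      rw [A.Z_Tc_pos h1 h2 h3, mul_assoc]
      have h4 := Cfg.size_update c.2 σ.I []
      have h5 : 0 < (c.2 σ.I).length := by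
        rw [h3]
        simp [Mach.code]
      rw [List.length_nil] at h4
      refine A.mul_mem_exE (fun l' hl' => ?_) (ih l y (by omega))
      rw [← TL_cons]
      refine A.TL_mem_exE ?_
      rw [ex_sizeL_cons]
      simp only
      omega
    · rw [A.Z_Tc_neg h, zero_mul]
      exact zero_mem _
  | Φ =>
    by_cases h : c.1 = 1
    · rw [A.Φ_Tc_pos h]
      have h1 := val_mem_closure A.x M (c.2 σ.H) (Function.update c.2 σ.H [])
      have h2 := Cfg.length_le_size c.2 σ.H
      generalize val A.x M (c.2 σ.H) (Function.update c.2 σ.H []) = v at h1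
      induction h1 using AddSubmonoid.closure_induction with
      | mem u hu =>
        obtain ⟨w, hw, rfl⟩ := hu
        exact A.exE_mono (by omega) (A.ex_word ih w l (by omega))
      | zero => rw [zero_mul]; exact zero_mem _
      | add u v _ _ h1 h2 => rw [add_mul]; exact add_mem h1 h2
    · rw [A.Φ_Tc_neg h, zero_mul]
      exact zero_mem _

theorem ex_gen (k : ℕ) : ∀ l y, sizeL l < k → A.x y * A.TL l ∈ A.exE (sizeL l + 1) := by
  induction k with
  | zero => intro l y h; omega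
  | succ k ih =>
    intro l y h
    cases l with
    | nil =>
      refine A.exE_of_mul (N := 1) ?_
      have h0 : sizeL [((1 : G), Cfg.nil σ)] = sizeL ([] : List (Lev σ G)) := by
        simp [sizeL, ex_size_nil]
      have h1 := A.ex_cons (1, Cfg.nil σ) [] (fun l' y' hl' => by
        rw [h0] at hl'
        exact absurd hl' (Nat.not_lt_zero _)) y
      rw [h0] at h1
      rw [TL_nil, mul_one, ex_T_pow]
      exact h1
    | cons c l => exact A.ex_cons c l (fun l' y' hl' => ih l' y' (by omega)) y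

/-- Every element acts on explicit states after padding. -/
theorem ex_all (r : R) (l : List (Lev σ G)) : ∃ m, r * A.TL l ∈ A.exE m := by
  have h := A.gen r
  induction h using AddSubmonoid.closure_induction with
  | mem u hu =>
    obtain ⟨w, rfl⟩ := hu
    exact ⟨_, A.ex_word (A.ex_gen (sizeL l + w.length)) w l le_rfl⟩
  | zero => exact ⟨0, by rw [zero_mul]; exact zero_mem _⟩
  | add u v _ _ h1 h2 =>
    obtain ⟨m, hm⟩ := h1
    obtain ⟨m', hm'⟩ := h2
    refine ⟨m + m', ?_⟩
    rw [add_mul]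
    exact add_mem (A.exE_mono (by omega) hm) (A.exE_mono (by omega) hm')

theorem exC_finset {m : ℕ} {r : R} (h : r ∈ A.exC m) :
    ∃ F : Finset (List (Lev σ G)), r = ∑ l ∈ F, A.TL l := by
  classical
  induction h using AddSubmonoid.closure_induction_left with
  | zero => exact ⟨∅, by simp⟩
  | add_left u hu v _ ih =>
    obtain ⟨l, -, rfl⟩ := hu
    obtain ⟨F, rfl⟩ := ih
    by_cases hl : l ∈ F
    · refine ⟨F.erase l, ?_⟩
      rw [← Finset.add_sum_erase F _ hl, ← add_assoc, A.two, zero_add]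
    · exact ⟨insert l F, by rw [Finset.sum_insert hl]⟩

theorem ex_finset (r : R) (l : List (Lev σ G)) :
    ∃ N, ∀ N', N ≤ N' → ∃ F : Finset (List (Lev σ G)),
      r * A.TL l * A.x .T ^ N' = ∑ l' ∈ F, A.TL l' := by
  obtain ⟨m, N, hN⟩ := A.ex_all r l
  refine ⟨N, fun N' hN' => ?_⟩
  obtain ⟨d, rfl⟩ := Nat.exists_eq_add_of_le hN'
  refine A.exC_finset (m := m) ?_
  rw [pow_add, ← mul_assoc]
  exact A.exC_mul_T hN d

theorem ex_pre_eq {α : Type} {c0 c1 : α} (hc : c1 ≠ c0) {l l' : List α} {N N' : ℕ}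
    (hl : l'.length ≤ l.length + N)
    (h : l ++ (List.replicate N c0 ++ [c1]) <+: l' ++ (List.replicate N' c0 ++ [c1])) :
    l ++ (List.replicate N c0 ++ [c1]) = l' ++ (List.replicate N' c0 ++ [c1]) := by
  obtain ⟨t, ht⟩ := h
  rcases List.eq_nil_or_concat t with rfl | ⟨t', z, rfl⟩
  · simpa using ht
  · exfalso
    have h1 : (l ++ List.replicate N c0 ++ c1 :: t') ++ [z] =
        (l' ++ List.replicate N' c0) ++ [c1] := by
      simpa using ht
    have h2 := (List.append_inj' h1 rfl).1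
    have h3 := congrArg (List.drop l'.length) h2
    rw [List.drop_append_of_le_length (by simpa using hl), List.drop_left] at h3
    have h4 : c1 ∈ List.replicate N' c0 := by
      rw [← h3]
      simp
    exact hc (List.eq_of_mem_replicate h4)

/-- The marker level. -/
def exMark (σ : Sig) (G : Type) [Group G] : Lev σ G := (1, Cfg.single σ.U [σ.u])

theorem exMark_ne : exMark σ G ≠ (1, Cfg.nil σ) := by
  intro h
  have h1 := congrFun (congrArg Prod.snd h) σ.U
  simp [exMark, Cfg.single, Cfg.nil] at h1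

/-- A padded and marked state. -/
def exPad (l : List (Lev σ G)) (N : ℕ) : List (Lev σ G) :=
  l ++ (List.replicate N (1, Cfg.nil σ) ++ [exMark σ G])

theorem ex_SL_TL {l l' : List (Lev σ G)} {N N' : ℕ} (h : l'.length ≤ l.length + N)
    (h' : l.length ≤ l'.length + N') (hne : exPad l N ≠ exPad l' N') :
    A.SL (exPad l N) * A.TL (exPad l' N') = 0 :=
  A.SL_TL_of_incomp (fun hp => hne (ex_pre_eq exMark_ne h hp))
    (fun hp => hne (ex_pre_eq exMark_ne h' hp).symm)

theorem ex_TL_pad (l : List (Lev σ G)) (N : ℕ) :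
    A.TL (exPad l N) = A.TL l * A.TL (exPad [] N) := by
  simp only [exPad, TL_append, List.nil_append]

theorem ex_pad_add (N N' : ℕ) :
    A.TL (exPad [] (N + N')) = A.x .T ^ N * A.TL (exPad [] N') := by
  simp only [exPad, TL_append, List.nil_append, List.replicate_add, ex_T_pow, mul_assoc]

include A in
theorem ex_sum01 {ι : Type} (F : Finset ι) (f : ι → R) (h : ∀ i ∈ F, f i = 0 ∨ f i = 1) :
    ∑ i ∈ F, f i = 0 ∨ ∑ i ∈ F, f i = 1 := by
  classical
  induction F using Finset.induction_on with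
  | empty => simp
  | insert a F ha ih =>
    rw [Finset.sum_insert ha]
    have h1 := h a (Finset.mem_insert_self a F)
    have h2 := ih fun i hi => h i (Finset.mem_insert_of_mem hi)
    rcases h1 with h1 | h1 <;> rcases h2 with h2 | h2 <;> rw [h1, h2]
    · simp
    · simp
    · simp
    · exact Or.inl (A.two 1)

include A in
theorem ex_exz (F : Finset R) : ∃ a b : ℕ → R, (∀ i, b i * a i = 1) ∧
    (∀ i j, i ≠ j → ∀ x ∈ F, b i * x * a j = 0) ∧
    (∀ i, ∀ x ∈ F, b i * x * a i = 0 ∨ b i * x * a i = 1) := by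
  classical
  choose N0 hN0 using fun r => A.ex_finset r []
  have h1 : ∀ r ∈ F, ∃ E : Finset (List (Lev σ G)),
      r * A.x .T ^ (F.sup N0) = ∑ l' ∈ E, A.TL l' := by
    intro r hr
    have h := hN0 r (F.sup N0) (Finset.le_sup hr)
    rwa [TL_nil, mul_one] at h
  choose! E hE using h1
  generalize F.sup N0 = M0 at hE
  obtain ⟨Λ, hΛ⟩ : ∃ Λ : ℕ, ∀ r ∈ F, ∀ l ∈ E r, l.length ≤ Λ := by
    refine ⟨F.sup fun r => (E r).sup List.length, fun r hr l hl => ?_⟩
    exact (Finset.le_sup (f := List.length) hl).trans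
      (Finset.le_sup (f := fun r => (E r).sup List.length) hr)
  have key : ∀ i j, ∀ r ∈ F, A.SL (exPad [] (M0 + (Λ + i * (Λ + M0 + 1)))) * r *
      A.TL (exPad [] (M0 + (Λ + j * (Λ + M0 + 1)))) =
      ∑ l ∈ E r, A.SL (exPad [] (M0 + (Λ + i * (Λ + M0 + 1)))) *
        A.TL (exPad l (Λ + j * (Λ + M0 + 1))) := by
    intro i j r hr
    rw [ex_pad_add, mul_assoc, ← mul_assoc r, hE r hr, Finset.sum_mul, Finset.mul_sum]
    refine Finset.sum_congr rfl fun l _ => ?_
    rw [A.ex_TL_pad l]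
  refine ⟨fun i => A.TL (exPad [] (M0 + (Λ + i * (Λ + M0 + 1)))),
    fun i => A.SL (exPad [] (M0 + (Λ + i * (Λ + M0 + 1)))), fun i => A.SL_TL_self _,
    fun i j hij r hr => ?_, fun i r hr => ?_⟩
  · simp only
    rw [key i j r hr]
    refine Finset.sum_eq_zero fun l hl => ?_
    have h2 := hΛ r hr l hl
    refine A.ex_SL_TL (by simp only [List.length_nil]; omega) (by simp) fun he => ?_
    have h3 := congrArg List.length he
    simp only [exPad, List.length_append, List.length_nil, List.length_replicate,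
      List.length_cons] at h3
    rcases lt_or_gt_of_ne hij with h | h
    · have h4 := Nat.mul_le_mul_right (Λ + M0 + 1) (Nat.succ_le_of_lt h)
      rw [Nat.succ_mul] at h4
      omega
    · have h4 := Nat.mul_le_mul_right (Λ + M0 + 1) (Nat.succ_le_of_lt h)
      rw [Nat.succ_mul] at h4
      omega
  · simp only
    rw [key i i r hr]
    refine A.ex_sum01 _ _ fun l hl => ?_
    have h2 := hΛ r hr l hl
    by_cases he : exPad ([] : List (Lev σ G)) (M0 + (Λ + i * (Λ + M0 + 1))) =
        exPad l (Λ + i * (Λ + M0 + 1))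
    · right
      rw [he]
      exact A.SL_TL_self _
    · left
      exact A.ex_SL_TL (by simp only [List.length_nil]; omega) (by simp) he

theorem ex_pad_zero {r : R} {N : ℕ} (h : r * A.x .T ^ N = 0) (N' : ℕ) (hN : N ≤ N') :
    r * A.x .T ^ N' = 0 := by
  obtain ⟨d, rfl⟩ := Nat.exists_eq_add_of_le hN
  rw [pow_add, ← mul_assoc, h, zero_mul]

/-- The elements acting trivially on all explicit states. -/
def exI : TwoSidedIdeal R :=
  TwoSidedIdeal.mk' {r | ∀ l, ∃ N, r * A.TL l * A.x .T ^ N = 0}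
    (fun _ => ⟨0, by simp⟩)
    (fun {a b} ha hb l => by
      obtain ⟨N, hN⟩ := ha l
      obtain ⟨N', hN'⟩ := hb l
      refine ⟨N + N', ?_⟩
      rw [add_mul, add_mul, A.ex_pad_zero hN _ (by omega), A.ex_pad_zero hN' _ (by omega),
        add_zero])
    (fun {a} ha l => by
      obtain ⟨N, hN⟩ := ha l
      exact ⟨N, by rw [neg_mul, neg_mul, hN, neg_zero]⟩)
    (fun {a b} hb l => by
      obtain ⟨N, hN⟩ := hb l
      exact ⟨N, by rw [mul_assoc a, mul_assoc a, hN, mul_zero]⟩)
    (fun {a b} ha l => by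
      obtain ⟨N, hN⟩ := A.ex_finset b l
      obtain ⟨F, hF⟩ := hN N le_rfl
      choose N1 hN1 using ha
      refine ⟨N + F.sup N1, ?_⟩
      rw [pow_add, ← mul_assoc, mul_assoc a, mul_assoc a, hF, Finset.mul_sum, Finset.sum_mul]
      exact Finset.sum_eq_zero fun l' hl' => A.ex_pad_zero (hN1 l') _ (Finset.le_sup hl'))

theorem mem_exI {r : R} : r ∈ A.exI ↔ ∀ l, ∃ N, r * A.TL l * A.x .T ^ N = 0 :=
  TwoSidedIdeal.mem_mk' _ _ _ _ _ _ _

include A in
theorem ex_pinf (h1 : (1 : R) ≠ 0)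
    (hsimple : ∀ I : TwoSidedIdeal R, (1 : R) ∉ I → ∀ r ∈ I, r = 0) (r : R) (hr : r ≠ 0) :
    ∃ x y : R, x * r * y = 1 := by
  classical
  have h2 : (1 : R) ∉ A.exI := by
    intro h
    obtain ⟨N, hN⟩ := A.mem_exI.1 h []
    rw [TL_nil, one_mul, one_mul, ex_T_pow] at hN
    have h3 := A.SL_TL_self (List.replicate N (1, Cfg.nil σ))
    rw [hN, mul_zero] at h3
    exact h1 h3.symm
  have h3 : r ∉ A.exI := fun h => hr (hsimple _ h2 r h)
  rw [mem_exI] at h3
  push Not at h3
  obtain ⟨l, hl⟩ := h3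
  obtain ⟨N, hN⟩ := A.ex_finset r l
  obtain ⟨F, hF⟩ := hN N le_rfl
  have h4 : F.Nonempty := by
    rw [Finset.nonempty_iff_ne_empty]
    rintro rfl
    exact hl N (by simpa using hF)
  obtain ⟨l1, hl1⟩ := h4
  refine ⟨A.SL (exPad l1 (F.sup List.length)),
    A.TL l * A.x .T ^ N * A.TL (exPad [] (F.sup List.length)), ?_⟩
  rw [mul_assoc, ← mul_assoc r, ← mul_assoc r, hF, Finset.sum_mul, Finset.mul_sum,
    Finset.sum_eq_single_of_mem l1 hl1]
  · rw [← A.ex_TL_pad l1]
    exact A.SL_TL_self _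
  · intro l' hl' hne
    rw [← A.ex_TL_pad l']
    have h5 : l1.length ≤ F.sup List.length := Finset.le_sup (f := List.length) hl1
    have h6 : l'.length ≤ F.sup List.length := Finset.le_sup (f := List.length) hl'
    refine A.ex_SL_TL (by omega) (by omega) fun he => hne ?_
    exact (List.append_cancel_right he).symm

include A in
theorem hyp (h1 : (1 : R) ≠ 0)
    (hsimple : ∀ I : TwoSidedIdeal R, (1 : R) ∉ I → ∀ r ∈ I, r = 0) : Hyp R := by
  refine ⟨A.two, h1, ⟨A.x .T, A.x .S, A.x (.push σ.U σ.u), A.x (.pop σ.U σ.u), A.φ, A.S_T, ?_,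
    A.S_push _ _, A.pop_T _ _, fun r => ?_⟩, A.ex_pinf h1 hsimple, A.ex_exz⟩
  · rw [A.pop_push, if_pos rfl]
  · have h2 := A.one_eq σ.U
    rw [Fintype.sum_eq_single σ.u fun b hb => absurd (σ.u_eq b) hb] at h2
    rw [← A.φ_pE_U, ← ((A.CS_φ r) σ.u).1.eq, mul_assoc, ← mul_add, ← h2, mul_one]

theorem g_injective (h1 : (1 : R) ≠ 0) : Function.Injective A.g := by
  rw [injective_iff_map_eq_one]
  intro γ hγ
  by_contra h
  have h2 := A.S_g_T h
  rw [hγ, mul_one, A.S_T] at h2
  exact h1 h2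

end Vale.Agent.P193.Sys
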