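import Vale.Agent.P193.CMDefs

/-!
P193, part B2: computability of the family of strings, and reduction to an infinite group.
-/

namespace Vale.Agent.P193

theorem primrec_replicate :
    Primrec₂ (fun (j c : ℕ) => List.replicate j c) := by
  have h : Primrec (fun p : ℕ × ℕ => (List.range p.1).map (fun _ => p.2)) :=
    Primrec.list_map (Primrec.list_range.comp Primrec.fst)
      (Primrec.snd.comp Primrec.fst).to₂
  refine h.of_eq fun p => ?_
  simp

theorem primrec_phiL : Primrec phiL := by
  have h : Primrec (fun a : ℕ => (Nat.casesOn a (0 :: qs)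
      (fun j => 1 :: (List.replicate j 3 ++ [2])) : List ℕ)) :=
    Primrec.nat_casesOn Primrec.id (Primrec.const _)
      (Primrec.list_cons.comp (Primrec.const 1)
        (Primrec.list_append.comp (primrec_replicate.comp Primrec.snd (Primrec.const 3))
          (Primrec.const [2]))).to₂
  refine h.of_eq fun a => ?_
  cases a <;> rfl

theorem primrec_phiS : Primrec phiS :=
  Primrec.list_flatMap Primrec.id (primrec_phiL.comp Primrec.snd).to₂

theorem primrec_dataOf : Primrec dataOf :=
  Primrec.option_some_iff.1 (Primrec.decode.of_eq fun e => Denumerable.decode_eq_ofNat _ e)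

theorem primrec_codeW {n : ℕ} : Primrec (codeW (n := n)) :=
  Primrec.list_map Primrec.id
    ((Primrec.dom_finite (fun a : Fin n × Bool => 6 + 2 * Encodable.encode a)).comp
      Primrec.snd).to₂

theorem baseStr_computable {n : ℕ} (triv : List (Fin n × Bool) → Bool) (h : Computable triv) :
    Computable₂ (baseStr triv) := by
  have hu1 : Primrec (fun p : ℕ × ℕ => p.2.unpair.1) :=
    Primrec.fst.comp (Primrec.unpair.comp Primrec.snd)
  have hu2 : Primrec (fun p : ℕ × ℕ => p.2.unpair.2) :=
    Primrec.snd.comp (Primrec.unpair.comp Primrec.snd)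
  have hd : Primrec (fun p : ℕ × ℕ => dataOf p.1) := primrec_dataOf.comp Primrec.fst
  have hA : Primrec (fun p : ℕ × ℕ => (dataOf p.1).1.getD p.2.unpair.2 []) :=
    (Primrec.list_getD []).comp (Primrec.fst.comp hd) hu2
  have hB : Primrec (fun p : ℕ × ℕ =>
      (dataOf p.1).2.1 ++ List.replicate p.1 (dataOf p.1).2.2.2 ++ (dataOf p.1).2.2.1) :=
    Primrec.list_append.comp
      (Primrec.list_append.comp (Primrec.fst.comp (Primrec.snd.comp hd))
        (primrec_replicate.comp Primrec.fst
          (Primrec.snd.comp (Primrec.snd.comp (Primrec.snd.comp hd)))))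
      (Primrec.fst.comp (Primrec.snd.comp (Primrec.snd.comp hd)))
  have hW1 : Primrec (fun w : List (Fin n × Bool) => 0 :: (codeW w ++ [0, 0])) :=
    Primrec.list_cons.comp (Primrec.const 0)
      (Primrec.list_append.comp primrec_codeW (Primrec.const _))
  have hW2 : Primrec (fun w : List (Fin n × Bool) => 0 :: (qs ++ codeW w ++ qs ++ [0])) :=
    Primrec.list_cons.comp (Primrec.const 0)
      (Primrec.list_append.comp (Primrec.list_append.comp
        (Primrec.list_append.comp (Primrec.const _) primrec_codeW) (Primrec.const _))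
        (Primrec.const _))
  have hW : Computable (fun w : List (Fin n × Bool) =>
      cond (triv w) (0 :: (codeW w ++ [0, 0])) (0 :: (qs ++ codeW w ++ qs ++ [0]))) :=
    Computable.cond h hW1.to_comp hW2.to_comp
  have hC : Computable (fun p : ℕ × ℕ =>
      (Option.casesOn (Encodable.decode p.2.unpair.2 : Option (List (Fin n × Bool))) []
        (fun w => cond (triv w) (0 :: (codeW w ++ [0, 0]))
          (0 :: (qs ++ codeW w ++ qs ++ [0]))) : List ℕ)) :=
    Computable.option_casesOn (Computable.decode.comp hu2.to_comp) (Computable.const [])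
      (hW.comp Computable.snd).to₂
  have e0 : Primrec (fun p : ℕ × ℕ => decide (p.2.unpair.1 = 0)) :=
    (Primrec.eq.comp hu1 (Primrec.const 0)).decide
  have e1 : Primrec (fun p : ℕ × ℕ => decide (p.2.unpair.1 = 1)) :=
    (Primrec.eq.comp hu1 (Primrec.const 1)).decide
  refine (Computable.cond e0.to_comp hA.to_comp
    (Computable.cond e1.to_comp hB.to_comp hC)).of_eq fun p => ?_
  unfold baseStr
  by_cases h0 : p.2.unpair.1 = 0
  · simp [h0]
  · by_cases h1 : p.2.unpair.1 = 1
    · simp [h1]
    · simp only [h0, h1, decide_false, cond_false, if_false]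
      cases (Encodable.decode p.2.unpair.2 : Option (List (Fin n × Bool))) with
      | none => rfl
      | some w => cases hw : triv w <;> simp [hw]

theorem famF_computable {n : ℕ} (triv : List (Fin n × Bool) → Bool) (h : Computable triv) :
    Computable₂ (famF triv) := by
  have hit : Primrec (fun p : ℕ × List ℕ => phiS^[p.1] p.2) :=
    Primrec.nat_iterate (h := fun _ l => phiS l) Primrec.fst Primrec.snd
      (primrec_phiS.comp Primrec.snd).to₂
  have hu1 : Primrec (fun p : ℕ × ℕ => p.2.unpair.1 + 1) :=
    Primrec.succ.comp (Primrec.fst.comp (Primrec.unpair.comp Primrec.snd))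
  have hu2 : Primrec (fun p : ℕ × ℕ => p.2.unpair.2) :=
    Primrec.snd.comp (Primrec.unpair.comp Primrec.snd)
  have hb : Computable (fun p : ℕ × ℕ => baseStr triv p.1 p.2.unpair.2) :=
    (baseStr_computable triv h).comp Computable.fst hu2.to_comp
  exact (hit.to_comp.comp (hu1.to_comp.pair hb)).of_eq fun p => rfl

theorem phiL_lt (b : ℕ) : ∀ a ∈ phiL b, a < 4 := by
  intro a ha
  cases b with
  | zero =>
    simp only [phiL, qs, List.mem_cons, List.not_mem_nil, or_false] at ha
    omega
  | succ j =>
    simp only [phiL, List.mem_cons, List.mem_append, List.mem_replicate, List.not_mem_nil,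
      or_false] at ha
    omega

theorem famF_lt {n : ℕ} (triv : List (Fin n × Bool) → Bool) (e N : ℕ) :
    ∀ a ∈ famF triv e N, a < 4 := by
  intro a ha
  unfold famF at ha
  rw [Function.iterate_succ_apply', phiS, List.mem_flatMap] at ha
  obtain ⟨b, -, hb⟩ := ha
  exact phiL_lt b a hb

theorem wordVal_nil {G : Type*} [Group G] {n : ℕ} (s : Fin n → G) : wordVal s [] = 1 := rfl

theorem wordVal_cons {G : Type*} [Group G] {n : ℕ} (s : Fin n → G) (p : Fin n × Bool)
    (w : List (Fin n × Bool)) :
    wordVal s (p :: w) = (if p.2 then s p.1 else (s p.1)⁻¹) * wordVal s w := by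
  simp [wordVal]

theorem map_wordVal {G H : Type*} [Group G] [Group H] (f : G →* H) {n : ℕ} (s : Fin n → G)
    (w : List (Fin n × Bool)) : f (wordVal s w) = wordVal (fun i => f (s i)) w := by
  induction w with
  | nil => simp [wordVal_nil]
  | cons p w ih =>
    rw [wordVal_cons, wordVal_cons, map_mul, ih]
    cases p.2 <;> simp

/-- drop the new letter -/
def dropNew {n : ℕ} (p : Fin (n + 1) × Bool) : Option (Fin n × Bool) :=
  Fin.cases none (fun j => some (j, p.2)) p.1

/-- keep the new letter with the given sign -/
def keepNew {n : ℕ} (b : Bool) (p : Fin (n + 1) × Bool) : Option ℕ :=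
  if p.1 = 0 ∧ p.2 = b then some 0 else none

theorem wordVal_cons_new {H : Type*} [Group H] {n : ℕ} (t : Fin n → H)
    (w : List (Fin (n + 1) × Bool)) :
    wordVal (Fin.cons (1, Multiplicative.ofAdd (1 : ℤ)) (fun i => (t i, 1)) :
        Fin (n + 1) → H × Multiplicative ℤ) w =
      (wordVal t (w.filterMap dropNew), Multiplicative.ofAdd
        (((w.filterMap (keepNew true)).length : ℤ) - ((w.filterMap (keepNew false)).length : ℤ))) := by
  induction w with
  | nil => rfl
  | cons p w ih =>
    obtain ⟨i, b⟩ := p
    rw [wordVal_cons, ih]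
    induction i using Fin.cases with
    | zero =>
      cases b
      · simp only [dropNew, keepNew, List.filterMap_cons, Fin.cases_zero, Fin.cons_zero]
        ext
        · simp
        · simp
          ring
      · simp only [dropNew, keepNew, List.filterMap_cons, Fin.cases_zero, Fin.cons_zero]
        ext
        · simp
        · simp
          ring
    | succ j =>
      have hj : (Fin.succ j) ≠ 0 := Fin.succ_ne_zero j
      cases b
      · simp [dropNew, keepNew, List.filterMap_cons, hj, wordVal_cons]
      · simp [dropNew, keepNew, List.filterMap_cons, hj, wordVal_cons]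

theorem exists_infinite_overgroup {G : Type*} [Group G] {n : ℕ} (s : Fin n → G)
    (hs : Subgroup.closure (Set.range s) = ⊤)
    (hdec : ComputablePred fun w : List (Fin n × Bool) => wordVal s w = 1) :
    ∃ (G' : Type) (_ : Group G') (_ : Infinite G') (m : ℕ) (s' : Fin m → G')
      (triv : List (Fin m × Bool) → Bool),
      Subgroup.closure (Set.range s') = ⊤ ∧ Computable triv ∧
      (∀ w, triv w = true ↔ wordVal s' w = 1) ∧ ∃ f : G →* G', Function.Injective f := by
  obtain ⟨d, hd, hdw⟩ := ComputablePred.computable_iff.1 hdec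
  have hsurj : Function.Surjective (FreeGroup.lift s) := by
    rw [← MonoidHom.range_eq_top, FreeGroup.range_lift_eq_closure, hs]
  let H := FreeGroup (Fin n) ⧸ (FreeGroup.lift s).ker
  let e : H ≃* G := QuotientGroup.quotientKerEquivOfSurjective _ hsurj
  let t : Fin n → H := fun i => e.symm (s i)
  have ht : Subgroup.closure (Set.range t) = ⊤ := by
    have h1 : Set.range t = e.symm.toMonoidHom '' Set.range s := by
      ext z
      simp [t]
    rw [h1, ← MonoidHom.map_closure, hs]
    exact Subgroup.map_top_of_surjective _ e.symm.surjective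
  refine ⟨H × Multiplicative ℤ, inferInstance, inferInstance, n + 1,
    Fin.cons (1, Multiplicative.ofAdd (1 : ℤ)) (fun i => (t i, 1)),
    fun w => d (w.filterMap dropNew) &&
      decide ((w.filterMap (keepNew true)).length = (w.filterMap (keepNew false)).length),
    ?_, ?_, ?_, (MonoidHom.inl H (Multiplicative ℤ)).comp e.symm.toMonoidHom, ?_⟩
  · rw [eq_top_iff]
    rintro ⟨x, z⟩ -
    set K := Subgroup.closure (Set.range (Fin.cons (1, Multiplicative.ofAdd (1 : ℤ))
      (fun i => (t i, 1)) : Fin (n + 1) → H × Multiplicative ℤ)) with hK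
    have h1 : ((x, 1) : H × Multiplicative ℤ) ∈ K := by
      have hx : x ∈ Subgroup.closure (Set.range t) := ht ▸ Subgroup.mem_top x
      have h2 : Subgroup.closure (Set.range t) ≤
          K.comap (MonoidHom.inl H (Multiplicative ℤ)) := by
        rw [Subgroup.closure_le]
        rintro _ ⟨i, rfl⟩
        exact Subgroup.subset_closure ⟨Fin.succ i, by simp⟩
      exact h2 hx
    have h2 : ((1, z) : H × Multiplicative ℤ) ∈ K := by
      have h3 : ((1, Multiplicative.ofAdd (1 : ℤ)) : H × Multiplicative ℤ) ∈ K :=
        Subgroup.subset_closure ⟨0, by simp⟩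
      have h4 := K.zpow_mem h3 (Multiplicative.toAdd z)
      convert h4 using 1
      ext
      · simp
      · simp
    simpa using K.mul_mem h1 h2
  · have h1 : Primrec (fun w : List (Fin (n + 1) × Bool) => w.filterMap dropNew) :=
      Primrec.listFilterMap Primrec.id ((Primrec.dom_finite dropNew).comp Primrec.snd).to₂
    have h2 : ∀ b, Primrec (fun w : List (Fin (n + 1) × Bool) =>
        (w.filterMap (keepNew b)).length) := fun b =>
      Primrec.list_length.comp (Primrec.listFilterMap Primrec.id
        ((Primrec.dom_finite (keepNew b)).comp Primrec.snd).to₂)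
    have h3 : Primrec (fun w : List (Fin (n + 1) × Bool) =>
        decide ((w.filterMap (keepNew true)).length = (w.filterMap (keepNew false)).length)) :=
      (Primrec.eq.comp (h2 true) (h2 false)).decide
    exact Primrec.and.to_comp.comp (hd.comp h1.to_comp) h3.to_comp
  · intro w
    rw [wordVal_cons_new, Prod.mk_eq_one, Bool.and_eq_true, decide_eq_true_iff]
    have h1 : wordVal t (w.filterMap dropNew) = e.symm (wordVal s (w.filterMap dropNew)) :=
      (map_wordVal e.symm.toMonoidHom s _).symm
    have h2 := congrFun hdw (w.filterMap dropNew)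
    rw [h1, EmbeddingLike.map_eq_one_iff, h2, ofAdd_eq_one, sub_eq_zero, Nat.cast_inj]
  · intro x y hxy
    have : e.symm x = e.symm y := congrArg Prod.fst hxy
    exact e.symm.injective this

end Vale.Agent.P193
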