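import Mathlib

/-!
P193, part A: definitions shared by the group-theoretic modules.
-/

open scoped commutatorElement

namespace Vale.Agent.P193

/-- `R` is a finitely presented algebra over the field with two elements. -/
def RingFP (R : Type) [Ring R] [Algebra (ZMod 2) R] : Prop :=
  ∃ (X : Type) (_ : Finite X) (π : FreeAlgebra (ZMod 2) X →ₐ[ZMod 2] R)
    (S : Set (FreeAlgebra (ZMod 2) X)),
    S.Finite ∧ Function.Surjective π ∧ ∀ p, π p = 0 ↔ p ∈ TwoSidedIdeal.span S

/-- The ring-theoretic hypotheses used by the group theory: characteristic two, infinite-sum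
ring, purely infinite simple, and exact excision. -/
structure Hyp (R : Type) [Ring R] : Prop where
  two : ∀ x : R, x + x = 0
  nontriv : (1 : R) ≠ 0
  sum : ∃ (T0 S0 T1 S1 : R) (φ : R →ₙ+* R), S0 * T0 = 1 ∧ S1 * T1 = 1 ∧ S0 * T1 = 0 ∧
    S1 * T0 = 0 ∧ ∀ x, φ x = T0 * x * S0 + T1 * φ x * S1
  pinf : ∀ r : R, r ≠ 0 → ∃ x y : R, x * r * y = 1
  exz : ∀ F : Finset R, ∃ a b : ℕ → R, (∀ i, b i * a i = 1) ∧
    (∀ i j, i ≠ j → ∀ x ∈ F, b i * x * a j = 0) ∧
    (∀ i, ∀ x ∈ F, b i * x * a i = 0 ∨ b i * x * a i = 1)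

/-- Generators of the Steinberg group. -/
structure StGen (n R : Type) where
  i : n
  j : n
  ne : i ≠ j
  a : R

/-- The Steinberg relators. -/
inductive StRel (n R : Type) [Ring R] : FreeGroup (StGen n R) → Prop
  | add (i j : n) (h : i ≠ j) (a b : R) :
      StRel n R (FreeGroup.of ⟨i, j, h, a⟩ * FreeGroup.of ⟨i, j, h, b⟩ *
        (FreeGroup.of ⟨i, j, h, a + b⟩)⁻¹)
  | comm (i j k l : n) (h : i ≠ j) (h' : k ≠ l) (hjk : j ≠ k) (hil : i ≠ l) (a b : R) :
      StRel n R ⁅(FreeGroup.of ⟨i, j, h, a⟩ : FreeGroup (StGen n R)), FreeGroup.of ⟨k, l, h', b⟩⁆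
  | mul (i j k : n) (h : i ≠ j) (h' : j ≠ k) (hik : i ≠ k) (a b : R) :
      StRel n R (⁅(FreeGroup.of ⟨i, j, h, a⟩ : FreeGroup (StGen n R)),
        FreeGroup.of ⟨j, k, h', b⟩⁆ * (FreeGroup.of ⟨i, k, hik, a * b⟩)⁻¹)

/-- The Steinberg group `St_n(R)`. -/
abbrev St (n R : Type) [Ring R] : Type := PresentedGroup {r | StRel n R r}

namespace St

variable {n R : Type} [Ring R]

/-- The generator `x_ij(a)`. -/
def x (i j : n) (h : i ≠ j) (a : R) : St n R := PresentedGroup.of ⟨i, j, h, a⟩

theorem rel_eq_one {r : FreeGroup (StGen n R)} (h : StRel n R r) :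
    (PresentedGroup.mk {r | StRel n R r} r : St n R) = 1 :=
  PresentedGroup.one_of_mem h

theorem x_add (i j : n) (h : i ≠ j) (a b : R) : x i j h a * x i j h b = x i j h (a + b) := by
  have := rel_eq_one (StRel.add i j h a b)
  simp only [map_mul, map_inv] at this
  exact mul_inv_eq_one.1 this

theorem x_zero (i j : n) (h : i ≠ j) : x i j h (0 : R) = 1 := by
  have := x_add i j h (0 : R) 0
  rw [add_zero] at this
  exact mul_eq_left.1 this

theorem x_neg (i j : n) (h : i ≠ j) (a : R) : (x i j h a)⁻¹ = x i j h (-a) := by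
  rw [inv_eq_iff_mul_eq_one, x_add, add_neg_cancel, x_zero]

theorem x_comm (i j k l : n) (h : i ≠ j) (h' : k ≠ l) (hjk : j ≠ k) (hil : i ≠ l) (a b : R) :
    Commute (x i j h a) (x k l h' b) := by
  have := rel_eq_one (StRel.comm i j k l h h' hjk hil a b)
  rw [map_commutatorElement] at this
  exact commutatorElement_eq_one_iff_commute.1 this

theorem x_mul (i j k : n) (h : i ≠ j) (h' : j ≠ k) (hik : i ≠ k) (a b : R) :
    ⁅x i j h a, x j k h' b⁆ = x i k hik (a * b) := by
  have := rel_eq_one (StRel.mul i j k h h' hik a b)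
  simp only [map_mul, map_inv, map_commutatorElement] at this
  exact mul_inv_eq_one.1 this

/-- The universal property. -/
def lift {G : Type*} [Group G] (f : ∀ i j : n, i ≠ j → R → G)
    (hadd : ∀ i j h a b, f i j h a * f i j h b = f i j h (a + b))
    (hcomm : ∀ i j k l h h', j ≠ k → i ≠ l → ∀ a b, Commute (f i j h a) (f k l h' b))
    (hmul : ∀ i j k h h' hik a b, ⁅f i j h a, f j k h' b⁆ = f i k hik (a * b)) :
    St n R →* G :=
  PresentedGroup.toGroup (f := fun s : StGen n R => f s.i s.j s.ne s.a) (by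
    intro r hr
    cases hr with
    | add i j h a b => simp [hadd]
    | comm i j k l h h' hjk hil a b =>
        rw [map_commutatorElement]
        simpa using commutatorElement_eq_one_iff_commute.2 (hcomm i j k l h h' hjk hil a b)
    | mul i j k h h' hik a b =>
        rw [map_mul, map_commutatorElement]
        simp [hmul i j k h h' hik a b])

@[simp] theorem lift_x {G : Type*} [Group G] (f : ∀ i j : n, i ≠ j → R → G) (h1 h2 h3)
    (i j : n) (h : i ≠ j) (a : R) : lift f h1 h2 h3 (x i j h a) = f i j h a :=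
  PresentedGroup.toGroup.of _

theorem closure_x : Subgroup.closure {z : St n R | ∃ i j h a, z = x i j h a} = ⊤ := by
  have := PresentedGroup.closure_range_of {r | StRel n R r}
  rw [← this]
  congr 1
  ext z
  constructor
  · rintro ⟨i, j, h, a, rfl⟩
    exact ⟨⟨i, j, h, a⟩, rfl⟩
  · rintro ⟨⟨i, j, h, a⟩, rfl⟩
    exact ⟨i, j, h, a, rfl⟩

theorem hom_ext {G : Type*} [Group G] {f g : St n R →* G}
    (h : ∀ i j hij a, f (x i j hij a) = g (x i j hij a)) : f = g :=
  PresentedGroup.ext fun s => h s.i s.j s.ne s.a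

/-- The subgroup generated by the `x_ij(a)` with both indices in `s`. -/
def sub (R : Type) [Ring R] (s : Set n) : Subgroup (St n R) :=
  Subgroup.closure {z | ∃ i j h a, i ∈ s ∧ j ∈ s ∧ z = x i j h a}

variable [Fintype n] [DecidableEq n]

/-- The elementary matrix `1 + a E_ij` as a unit. -/
def elem (i j : n) (h : i ≠ j) (a : R) : (Matrix n n R)ˣ where
  val := 1 + Matrix.single i j a
  inv := 1 + Matrix.single i j (-a)
  val_inv := by
    simp [add_mul, mul_add, Matrix.single_mul_single_of_ne _ _ _ _ h.symm, add_assoc,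
      ← Matrix.single_add]
  inv_val := by
    simp [add_mul, mul_add, Matrix.single_mul_single_of_ne _ _ _ _ h.symm, add_assoc,
      ← Matrix.single_add]

theorem elem_add (i j : n) (h : i ≠ j) (a b : R) :
    elem i j h a * elem i j h b = elem i j h (a + b) := by
  ext1
  simp [elem, add_mul, mul_add, Matrix.single_mul_single_of_ne _ _ _ _ h.symm, add_assoc,
    Matrix.single_add]

theorem elem_comm (i j k l : n) (h : i ≠ j) (h' : k ≠ l) (hjk : j ≠ k) (hil : i ≠ l) (a b : R) :
    Commute (elem i j h a) (elem k l h' b) := by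
  unfold Commute SemiconjBy
  ext1
  simp only [elem, Units.val_mul, add_mul, mul_add, one_mul, mul_one,
    Matrix.single_mul_single_of_ne _ _ _ _ hjk, Matrix.single_mul_single_of_ne _ _ _ _ hil.symm]
  abel

theorem elem_mul (i j k : n) (h : i ≠ j) (h' : j ≠ k) (hik : i ≠ k) (a b : R) :
    ⁅elem i j h a, elem j k h' b⁆ = elem i k hik (a * b) := by
  rw [commutatorElement_def, mul_inv_eq_iff_eq_mul, mul_inv_eq_iff_eq_mul]
  ext1
  simp only [elem, Units.val_mul, add_mul, mul_add, one_mul, mul_one,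
    Matrix.single_mul_single_same, Matrix.single_mul_single_of_ne _ _ _ _ hik.symm,
    Matrix.single_mul_single_of_ne _ _ _ _ h'.symm, zero_mul, add_zero]
  abel

/-- The canonical map `St_n(R) → GL_n(R)`. -/
def toGL : St n R →* (Matrix n n R)ˣ := lift elem elem_add elem_comm elem_mul

@[simp] theorem toGL_x (i j : n) (h : i ≠ j) (a : R) : toGL (x i j h a) = elem i j h a :=
  lift_x _ _ _ _ i j h a

end St

/-- A column `T` and a row `S`. A vertex is a pair with `S T = 1`. -/
abbrev Pr (n R : Type) : Type := (n → R) × (n → R)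

section
variable {n R : Type} [Ring R] [Fintype n] [DecidableEq n]

/-- `S T = 1`. -/
def IsV (v : Pr n R) : Prop := v.2 ⬝ᵥ v.1 = 1

/-- Orthogonality of two pairs. -/
def Orth (v w : Pr n R) : Prop := v.2 ⬝ᵥ w.1 = 0 ∧ w.2 ⬝ᵥ v.1 = 0

/-- The standard vertex `(e_k, e_k^*)`. -/
def stdV (R : Type) [Ring R] (k : n) : Pr n R := (Pi.single k 1, Pi.single k 1)

/-- The action `(T, S) ↦ (g T, S g⁻¹)` of `GL_n(R)` on pairs. -/
def actV (g : (Matrix n n R)ˣ) (v : Pr n R) : Pr n R :=
  (Matrix.mulVec (g : Matrix n n R) v.1, Matrix.vecMul v.2 ((g⁻¹ : (Matrix n n R)ˣ) : Matrix n n R))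

/-- The subvertex `(T a, b S)`. -/
def shrinkV (v : Pr n R) (a b : R) : Pr n R := (fun i => v.1 i * a, fun i => b * v.2 i)

end

end Vale.Agent.P193
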