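import Vale.Agent.P193.GroupDefs

/-!
P193, task A1: the Steinberg group of a finitely presented algebra over the field with two
elements is finitely presented as soon as there are at least five indices.
-/

open scoped commutatorElement

namespace Vale.Agent.P193

namespace StFPAux

section Grp
variable {H : Type*} [Group H]

theorem commute_comm {F A B : H} (h1 : Commute F A) (h2 : Commute F B) : Commute F ⁅A, B⁆ := by
  rw [commutatorElement_def]
  exact ((h1.mul_right h2).mul_right h1.inv_right).mul_right h2.inv_right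

theorem assoc_comm {A B C : H} (hAC : Commute A C) (hDF : Commute ⁅A, B⁆ ⁅B, C⁆)
    (hCF : Commute C ⁅B, C⁆) : ⁅A, ⁅B, C⁆⁆ = ⁅⁅A, B⁆, C⁆ := by
  have h1 : ⁅A, ⁅B, C⁆⁆ * ⁅B, C⁆ = ⁅A, B⁆ * ⁅B, C⁆ * ⁅A, B⁆⁻¹ * ⁅⁅A, B⁆, C⁆ := by
    have e1 : A * C * A⁻¹ = C := by rw [hAC.eq]; group
    have e2 : A * C⁻¹ * A⁻¹ = C⁻¹ := by rw [hAC.inv_right.eq]; group
    calc ⁅A, ⁅B, C⁆⁆ * ⁅B, C⁆
        = (A * B * A⁻¹) * (A * C * A⁻¹) * (A * B⁻¹ * A⁻¹) * (A * C⁻¹ * A⁻¹) := by
          simp only [commutatorElement_def]; group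
      _ = (A * B * A⁻¹) * C * (A * B⁻¹ * A⁻¹) * C⁻¹ := by rw [e1, e2]
      _ = _ := by simp only [commutatorElement_def]; group
  have h2 : Commute ⁅B, C⁆ ⁅⁅A, B⁆, C⁆ := commute_comm hDF.symm hCF.symm
  have h3 : ⁅A, B⁆ * ⁅B, C⁆ * ⁅A, B⁆⁻¹ = ⁅B, C⁆ := by rw [hDF.eq]; group
  rw [h3, h2.eq] at h1
  exact mul_right_cancel h1

theorem comm_mul_left' {A B C : H} (h : Commute A ⁅B, C⁆) : ⁅A * B, C⁆ = ⁅B, C⁆ * ⁅A, C⁆ := by
  have h1 : ⁅A * B, C⁆ = A * ⁅B, C⁆ * A⁻¹ * ⁅A, C⁆ := by
    simp only [commutatorElement_def]; group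
  rw [h1, h.eq]; group

theorem comm_mul_right' {A B C : H} (h : Commute B ⁅A, C⁆) : ⁅A, B * C⁆ = ⁅A, B⁆ * ⁅A, C⁆ := by
  have h1 : ⁅A, B * C⁆ = ⁅A, B⁆ * (B * ⁅A, C⁆ * B⁻¹) := by
    simp only [commutatorElement_def]; group
  rw [h1, h.eq]; group

/-- Commuting involutions give an additive map on finitely supported functions. -/
theorem exists_hom {ι : Type*} (z : ι → H) (hc : ∀ a b, Commute (z a) (z b))
    (hs : ∀ a, z a * z a = 1) :
    ∃ φ : (ι →₀ ZMod 2) → H, (∀ a b, φ (a + b) = φ a * φ b) ∧
      ∀ a, φ (Finsupp.single a 1) = z a := by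
  let K : Subgroup H := Subgroup.closure (Set.range z)
  have hK : IsMulCommutative K := Subgroup.isMulCommutative_closure (by
    rintro _ ⟨a, rfl⟩ _ ⟨b, rfl⟩
    exact (hc a b).eq)
  let _ : CommGroup K := { (inferInstance : Group K) with
    mul_comm := fun a b => hK.is_comm.comm a b }
  let z' : ι → K := fun a => ⟨z a, Subgroup.subset_closure ⟨a, rfl⟩⟩
  let ψ : ι → ZMod 2 →+ Additive K := fun a =>
    ZMod.lift 2 ⟨zmultiplesHom (Additive K) (Additive.ofMul (z' a)), by
      have : z' a * z' a = 1 := Subtype.ext (hs a)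
      show ((2 : ℕ) : ℤ) • Additive.ofMul (z' a) = 0
      rw [natCast_zsmul, two_nsmul, ← ofMul_mul, this, ofMul_one]⟩
  let Φ : (ι →₀ ZMod 2) →+ Additive K := Finsupp.liftAddHom ψ
  refine ⟨fun a => ((Additive.toMul (Φ a) : K) : H), fun a b => ?_, fun a => ?_⟩
  · simp only [map_add, toMul_add, Subgroup.coe_mul]
  · have h1 : Φ (Finsupp.single a 1) = ψ a 1 := Finsupp.liftAddHom_apply_single ψ a 1
    have h2 : ψ a ((1 : ℤ) : ZMod 2) = Additive.ofMul (z' a) := by
      simp only [ψ]
      rw [ZMod.lift_coe]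
      simp
    have h3 : ((1 : ℤ) : ZMod 2) = 1 := Int.cast_one
    rw [h3] at h2
    show ((Additive.toMul (Φ (Finsupp.single a 1)) : K) : H) = z a
    rw [h1, h2]
    rfl

end Grp

/-- The data of the finite presentation. -/
structure Dat (n X H : Type) [Group H] where
  g : n → n → Option X → H
  pick : n → n → n → n → n
  p1 : ∀ i j k l, pick i j k l ≠ i
  p2 : ∀ i j k l, pick i j k l ≠ j
  p3 : ∀ i j k l, pick i j k l ≠ k
  p4 : ∀ i j k l, pick i j k l ≠ l
  sq : ∀ i j s, i ≠ j → g i j s * g i j s = 1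
  comm : ∀ i j k l s t, i ≠ j → k ≠ l → j ≠ k → i ≠ l → Commute (g i j s) (g k l t)
  mulL : ∀ i j k s, i ≠ j → j ≠ k → i ≠ k → ⁅g i j none, g j k s⁆ = g i k s
  mulR : ∀ i j k s, i ≠ j → j ≠ k → i ≠ k → ⁅g i j s, g j k none⁆ = g i k s

namespace Dat
variable {n X H : Type} [Group H] (D : Dat n X H)

/-- The elements attached to words. -/
def y : n → n → List X → H
  | i, j, [] => D.g i j none
  | i, j, [x] => D.g i j (some x)
  | i, j, x :: x' :: w => ⁅D.g i (D.pick i j i j) (some x), y (D.pick i j i j) j (x' :: w)⁆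

include D in
theorem spare (i j k l : n) : ∃ a, a ≠ i ∧ a ≠ j ∧ a ≠ k ∧ a ≠ l :=
  ⟨D.pick i j k l, D.p1 _ _ _ _, D.p2 _ _ _ _, D.p3 _ _ _ _, D.p4 _ _ _ _⟩

/-- The product rule up to total length `d`. -/
def P (d : ℕ) : Prop := ∀ i j k : n, i ≠ j → j ≠ k → i ≠ k → ∀ u v : List X,
  u.length + v.length ≤ d → ⁅D.y i j u, D.y j k v⁆ = D.y i k (u ++ v)

/-- The commutation rule up to length `d`. -/
def C (d : ℕ) : Prop := ∀ i j k l : n, i ≠ j → k ≠ l → j ≠ k → i ≠ l → ∀ u v : List X,
  u.length ≤ d → v.length ≤ d → Commute (D.y i j u) (D.y k l v)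

theorem short (i j : n) (u : List X) (hu : u.length ≤ 1) : ∃ s, D.y i j u = D.g i j s := by
  match u, hu with
  | [], _ => exact ⟨none, rfl⟩
  | [x], _ => exact ⟨some x, rfl⟩
  | _ :: _ :: _, h => simp at h

theorem C_of_P {d : ℕ} (hP : D.P d) : D.C d := by
  have key : ∀ m : ℕ, ∀ i j k l : n, i ≠ j → k ≠ l → j ≠ k → i ≠ l → ∀ u v : List X,
      u.length + v.length ≤ m → u.length ≤ d → v.length ≤ d →
      Commute (D.y i j u) (D.y k l v) := by
    intro m
    induction m with
    | zero =>
      intro i j k l hij hkl hjk hil u v hm _ _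
      obtain ⟨s, hs⟩ := D.short i j u (by omega)
      obtain ⟨t, ht⟩ := D.short k l v (by omega)
      rw [hs, ht]
      exact D.comm _ _ _ _ _ _ hij hkl hjk hil
    | succ m ih =>
      intro i j k l hij hkl hjk hil u v hm hu hv
      obtain ⟨a, hai, haj, hak, hal⟩ := D.spare i j k l
      by_cases h1 : u.length ≤ 1
      · by_cases h2 : v.length ≤ 1
        · obtain ⟨s, hs⟩ := D.short i j u h1
          obtain ⟨t, ht⟩ := D.short k l v h2
          rw [hs, ht]
          exact D.comm _ _ _ _ _ _ hij hkl hjk hil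
        · match v, h2, hm, hv with
          | [], h2, _, _ => simp at h2
          | [_], h2, _, _ => simp at h2
          | x :: x' :: w, _, hm, hv =>
            simp only [List.length_cons] at hm hv
            have e := hP k a l hak.symm hal hkl [x] (x' :: w) (by simp; omega)
            have e' : D.y k l (x :: x' :: w) = ⁅D.y k a [x], D.y a l (x' :: w)⁆ := e.symm
            rw [e']
            refine commute_comm ?_ ?_
            · exact ih i j k a hij hak.symm hjk hai.symm u [x] (by simp; omega) hu (by simp; omega)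
            · exact ih i j a l hij hal haj.symm hil u (x' :: w) (by simp; omega) hu
                (by simp; omega)
      · match u, h1, hm, hu with
        | [], h1, _, _ => simp at h1
        | [_], h1, _, _ => simp at h1
        | x :: x' :: w, _, hm, hu =>
          simp only [List.length_cons] at hm hu
          have e := hP i a j hai.symm haj hij [x] (x' :: w) (by simp; omega)
          have e' : D.y i j (x :: x' :: w) = ⁅D.y i a [x], D.y a j (x' :: w)⁆ := e.symm
          rw [e']
          refine (commute_comm ?_ ?_).symm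
          · exact (ih i a k l hai.symm hkl hak hil [x] v (by simp; omega) (by simp; omega) hv).symm
          · exact (ih a j k l haj hkl hjk hal (x' :: w) v (by simp; omega) (by simp; omega)
              hv).symm
  intro i j k l hij hkl hjk hil u v hu hv
  exact key _ i j k l hij hkl hjk hil u v le_rfl hu hv

theorem P_one : D.P 1 := by
  intro i j k hij hjk hik u v h
  match u, v, h with
  | [], [], _ => exact D.mulL i j k none hij hjk hik
  | [], [x], _ => exact D.mulL i j k (some x) hij hjk hik
  | [x], [], _ => exact D.mulR i j k (some x) hij hjk hik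
  | [], _ :: _ :: _, h => simp at h
  | _ :: _ :: _, _, h => simp at h; omega
  | [_], _ :: _, h => simp at h

theorem shift {d : ℕ} (hP : D.P d) (i a b j : n) (hia : i ≠ a) (hib : i ≠ b) (hij : i ≠ j)
    (hab : a ≠ b) (haj : a ≠ j) (hbj : b ≠ j) (u v t : List X) (h1 : u.length + v.length ≤ d)
    (h2 : v.length + t.length ≤ d) :
    ⁅D.y i a u, D.y a j (v ++ t)⁆ = ⁅D.y i b (u ++ v), D.y b j t⁆ := by
  have hC := D.C_of_P hP
  have e1 := hP i a b hia hab hib u v h1
  have e2 := hP a b j hab hbj haj v t h2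
  rw [← e1, ← e2]
  refine assoc_comm ?_ ?_ ?_
  · exact hC i a b j hia hbj hab hij u t (by omega) (by omega)
  · rw [e1, e2]
    exact hC i b a j hib haj hab.symm hij _ _ (by simpa using h1) (by simpa using h2)
  · rw [e2]
    exact hC b j a j hbj haj haj.symm hbj _ _ (by omega) (by simpa using h2)

theorem P_ne {d : ℕ} (hP : D.P d) (i b j : n) (hib : i ≠ b) (hbj : b ≠ j) (hij : i ≠ j)
    (u t : List X) (hu : u ≠ []) (ht : t ≠ []) (h : u.length + t.length ≤ d + 1) :
    ⁅D.y i b u, D.y b j t⁆ = D.y i j (u ++ t) := by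
  obtain ⟨x, u', rfl⟩ := List.exists_cons_of_ne_nil hu
  have htl : 0 < t.length := List.length_pos_iff.2 ht
  simp only [List.length_cons] at h
  obtain ⟨a, hai, hab, haj, hap⟩ := D.spare i b j (D.pick i j i j)
  have e1 := D.shift hP i a b j hai.symm hib hij hab haj hbj [x] u' t (by simp; omega) (by omega)
  have hne : u' ++ t ≠ [] := by simp [ht]
  obtain ⟨x', w, hw⟩ := List.exists_cons_of_ne_nil hne
  have hl : (x' :: w).length = u'.length + t.length := by rw [← hw]; simp
  have e2 := D.shift hP i a (D.pick i j i j) j hai.symm (D.p1 _ _ _ _).symm hij hap haj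
    (D.p2 _ _ _ _) [x] [] (x' :: w) (by simp; omega) (by simp only [List.length_nil]; omega)
  have e3 : D.y i j (x :: u' ++ t) =
      ⁅D.y i (D.pick i j i j) ([x] ++ []), D.y (D.pick i j i j) j (x' :: w)⁆ := by
    rw [List.cons_append, hw]; rfl
  rw [e3, ← e2]
  rw [hw] at e1
  exact e1.symm

theorem P_succ {d : ℕ} (hd : 1 ≤ d) (hP : D.P d) : D.P (d + 1) := by
  have hC := D.C_of_P hP
  intro i a j hia haj hij u t h
  by_cases hle : u.length + t.length ≤ d
  · exact hP i a j hia haj hij u t hle
  by_cases hu : u = []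
  · subst hu
    match t, h, hle with
    | [], _, hle => simp at hle
    | [_], _, hle => simp at hle; omega
    | x :: x' :: w, h, _ =>
      simp only [List.length_cons, List.length_nil] at h
      obtain ⟨b, hbi, hba, hbj, -⟩ := D.spare i a j j
      obtain ⟨c, hci, hca, hcb, hcj⟩ := D.spare i a b j
      have hv : ([x] : List X).length ≤ d := by simpa using hd
      have ht : (x' :: w).length ≤ d := by simp; omega
      have hvt : ([x] : List X).length + (x' :: w).length ≤ d + 1 := by simp; omega
      have eD : ⁅D.y i a [], D.y a b [x]⁆ = D.y i b [x] :=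
        hP i a b hia hba.symm hbi.symm [] [x] (by simpa using hd)
      have eF : ⁅D.y a b [x], D.y b j (x' :: w)⁆ = D.y a j (x :: x' :: w) :=
        D.P_ne hP a b j hba.symm hbj haj [x] (x' :: w) (by simp) (by simp) hvt
      have eF' : ⁅D.y a c [x], D.y c j (x' :: w)⁆ = D.y a j (x :: x' :: w) :=
        D.P_ne hP a c j hca.symm hcj haj [x] (x' :: w) (by simp) (by simp) hvt
      have eG : ⁅D.y i b [x], D.y b j (x' :: w)⁆ = D.y i j (x :: x' :: w) :=
        D.P_ne hP i b j hbi.symm hbj hij [x] (x' :: w) (by simp) (by simp) hvt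
      rw [List.nil_append, ← eG, ← eD, ← eF]
      refine assoc_comm ?_ ?_ ?_
      · exact hC i a b j hia hbj hba.symm hij _ _ (by simp) ht
      · rw [eD, eF, ← eF']
        exact commute_comm (hC i b a c hbi.symm hca.symm hba hci.symm _ _ hv hv)
          (hC i b c j hbi.symm hcj hcb.symm hij _ _ hv ht)
      · rw [eF, ← eF']
        exact commute_comm (hC b j a c hbj hca.symm haj.symm hcb.symm _ _ ht hv)
          (hC b j c j hbj hcj hcj.symm hbj _ _ ht ht)
  by_cases ht : t = []
  · subst ht
    match u, h, hle with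
    | [], _, hle => simp at hle
    | [_], _, hle => simp at hle; omega
    | x :: x' :: w, h, _ =>
      simp only [List.length_cons, List.length_nil] at h
      obtain ⟨b, hbi, hba, hbj, -⟩ := D.spare i a j j
      obtain ⟨c, hci, hca, hcb, hcj⟩ := D.spare i a b j
      have hv : ([x] : List X).length ≤ d := by simpa using hd
      have ht : (x' :: w).length ≤ d := by simp; omega
      have hvt : ([x] : List X).length + (x' :: w).length ≤ d + 1 := by simp; omega
      have eD : ⁅D.y i b [x], D.y b a (x' :: w)⁆ = D.y i a (x :: x' :: w) :=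
        D.P_ne hP i b a hbi.symm hba hia [x] (x' :: w) (by simp) (by simp) hvt
      have eD' : ⁅D.y i c [x], D.y c a (x' :: w)⁆ = D.y i a (x :: x' :: w) :=
        D.P_ne hP i c a hci.symm hca hia [x] (x' :: w) (by simp) (by simp) hvt
      have eF : ⁅D.y b a (x' :: w), D.y a j []⁆ = D.y b j (x' :: w) := by
        have := hP b a j hba haj hbj (x' :: w) [] (by simp; omega)
        rwa [List.append_nil] at this
      have eG : ⁅D.y i b [x], D.y b j (x' :: w)⁆ = D.y i j (x :: x' :: w) :=
        D.P_ne hP i b j hbi.symm hbj hij [x] (x' :: w) (by simp) (by simp) hvt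
      rw [List.append_nil, ← eG, ← eD, ← eF]
      refine (assoc_comm ?_ ?_ ?_).symm
      · exact hC i b a j hbi.symm haj hba hij _ _ hv (by simp)
      · rw [eD, eF, ← eD']
        exact (commute_comm (hC i c b j hci.symm hbj hcb hij _ _ hv ht).symm
          (hC c a b j hca hbj hba.symm hcj _ _ ht ht).symm).symm
      · rw [eF]
        exact hC a j b j haj hbj hbj.symm haj _ _ (by simp) ht
  exact D.P_ne hP i a j hia haj hij u t hu ht h

theorem P_all (d : ℕ) : D.P (d + 1) := by
  induction d with
  | zero => exact D.P_one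
  | succ d ih => exact D.P_succ (by omega) ih

theorem y_mul (i j k : n) (hij : i ≠ j) (hjk : j ≠ k) (hik : i ≠ k) (u v : List X) :
    ⁅D.y i j u, D.y j k v⁆ = D.y i k (u ++ v) :=
  D.P_all (u.length + v.length) i j k hij hjk hik u v (by omega)

theorem y_comm (i j k l : n) (hij : i ≠ j) (hkl : k ≠ l) (hjk : j ≠ k) (hil : i ≠ l)
    (u v : List X) : Commute (D.y i j u) (D.y k l v) :=
  D.C_of_P (D.P_all (u.length + v.length)) i j k l hij hkl hjk hil u v (by omega) (by omega)

theorem y_sq (i j : n) (hij : i ≠ j) (w : List X) : D.y i j w * D.y i j w = 1 := by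
  obtain ⟨a, hai, haj, -, -⟩ := D.spare i j i j
  have e : ⁅D.y i a [], D.y a j w⁆ = D.y i j w := D.y_mul i a j hai.symm haj hij [] w
  have h1 : D.y i a [] * D.y i a [] = 1 := D.sq i a none hai.symm
  have h2 : Commute (D.y i a []) ⁅D.y i a [], D.y a j w⁆ := by
    rw [e]; exact D.y_comm i a i j hai.symm hij hai hij _ _
  have h3 := comm_mul_left' h2
  rw [h1, commutatorElement_one_left, e] at h3
  exact h3.symm

end Dat

section Free
variable (X : Type)

/-- The monomial of a word. -/
noncomputable def mono (w : List X) : FreeAlgebra (ZMod 2) X :=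
  (w.map (FreeAlgebra.ι (ZMod 2))).prod

theorem mono_append (u v : List X) : mono X (u ++ v) = mono X u * mono X v := by
  simp [mono]

theorem mono_single (x : X) : mono X [x] = FreeAlgebra.ι (ZMod 2) x := by
  simp [mono]

theorem basis_eq (w : List X) :
    FreeAlgebra.basisFreeMonoid (ZMod 2) X (FreeMonoid.ofList w) = mono X w := by
  simp [FreeAlgebra.basisFreeMonoid, FreeAlgebra.equivMonoidAlgebraFreeMonoid, mono,
    FreeMonoid.lift_apply]

theorem free_induction {p : FreeAlgebra (ZMod 2) X → Prop} (h0 : p 0) (h1 : ∀ w, p (mono X w))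
    (h2 : ∀ a b, p a → p b → p (a + b)) (r : FreeAlgebra (ZMod 2) X) : p r := by
  have hr : r ∈ Submodule.span (ZMod 2) (Set.range (FreeAlgebra.basisFreeMonoid (ZMod 2) X)) := by
    rw [Module.Basis.span_eq]; trivial
  induction hr using Submodule.span_induction with
  | mem x hx =>
    obtain ⟨w, rfl⟩ := hx
    have := h1 (FreeMonoid.toList w)
    rwa [← basis_eq] at this
  | zero => exact h0
  | add a b _ _ ha hb => exact h2 a b ha hb
  | smul c a _ ha =>
    have hc : c = 0 ∨ c = 1 := by revert c; decide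
    rcases hc with rfl | rfl
    · rw [zero_smul]; exact h0
    · rw [one_smul]; exact ha

end Free

theorem Dat.exists_Y {n X H : Type} [Group H] (D : Dat n X H) :
    ∃ Y : ∀ i j : n, i ≠ j → FreeAlgebra (ZMod 2) X → H,
      (∀ i j h a b, Y i j h a * Y i j h b = Y i j h (a + b)) ∧
      (∀ i j k l h h', j ≠ k → i ≠ l → ∀ a b, Commute (Y i j h a) (Y k l h' b)) ∧
      (∀ i j k h h' hik a b, ⁅Y i j h a, Y j k h' b⁆ = Y i k hik (a * b)) ∧
      ∀ i j h w, Y i j h (mono X w) = D.y i j w := by
  have hex : ∀ i j : n, i ≠ j → ∃ φ : (FreeMonoid X →₀ ZMod 2) → H,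
      (∀ a b, φ (a + b) = φ a * φ b) ∧
      ∀ a, φ (Finsupp.single a 1) = D.y i j (FreeMonoid.toList a) := fun i j h =>
    exists_hom (fun a => D.y i j (FreeMonoid.toList a))
      (fun a b => D.y_comm i j i j h h h.symm h _ _) (fun a => D.y_sq i j h _)
  choose φ hφa hφs using hex
  let Y : ∀ i j : n, i ≠ j → FreeAlgebra (ZMod 2) X → H := fun i j h r =>
    φ i j h ((FreeAlgebra.basisFreeMonoid (ZMod 2) X).repr r)
  have hadd : ∀ i j h a b, Y i j h a * Y i j h b = Y i j h (a + b) := by
    intro i j h a b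
    simp only [Y, map_add, hφa]
  have hzero : ∀ i j h, Y i j h 0 = 1 := by
    intro i j h
    have := hadd i j h 0 0
    rw [add_zero] at this
    exact mul_eq_left.1 this
  have hmono : ∀ i j h w, Y i j h (mono X w) = D.y i j w := by
    intro i j h w
    simp only [Y]
    rw [← basis_eq, Module.Basis.repr_self, hφs]
    rfl
  have hcomm : ∀ i j k l h h', j ≠ k → i ≠ l → ∀ a b, Commute (Y i j h a) (Y k l h' b) := by
    intro i j k l h h' hjk hil a b
    induction a using free_induction X with
    | h0 => rw [hzero]; exact Commute.one_left _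
    | h2 a a' ha ha' => rw [← hadd]; exact ha.mul_left ha'
    | h1 u =>
      induction b using free_induction X with
      | h0 => rw [hzero]; exact Commute.one_right _
      | h2 b b' hb hb' => rw [← hadd]; exact hb.mul_right hb'
      | h1 v => rw [hmono, hmono]; exact D.y_comm i j k l h h' hjk hil u v
  refine ⟨Y, hadd, hcomm, ?_, hmono⟩
  intro i j k h h' hik a b
  induction a using free_induction X with
  | h0 => rw [hzero, zero_mul, hzero, commutatorElement_one_left]
  | h2 a a' ha ha' =>
    rw [← hadd, comm_mul_left' (by rw [ha']; exact hcomm i j i k h hik h.symm hik _ _), ha, ha',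
      hadd, add_mul, add_comm]
  | h1 u =>
    induction b using free_induction X with
    | h0 => rw [hzero, mul_zero, hzero, commutatorElement_one_right]
    | h2 b b' hb hb' =>
      rw [← hadd, comm_mul_right' (by
        rw [hb']; exact hcomm j k i k h' hik hik.symm h' _ _), hb, hb', hadd, mul_add]
    | h1 v => rw [hmono, hmono, ← mono_append, hmono]; exact D.y_mul i j k h h' hik u v

section Pres
variable (n X : Type) [DecidableEq n]

/-- The generators of the finite presentation. -/
abbrev Gn : Type := n × n × Option X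

/-- The relators of the finite presentation. -/
def rels : Set (FreeGroup (Gn n X)) :=
  Set.range (fun p : n × Option X => FreeGroup.of (p.1, p.1, p.2)) ∪
  Set.range (fun p : Gn n X => FreeGroup.of p * FreeGroup.of p) ∪
  Set.range (fun p : Gn n X × Gn n X =>
    if p.1.1 ≠ p.1.2.1 ∧ p.2.1 ≠ p.2.2.1 ∧ p.1.2.1 ≠ p.2.1 ∧ p.1.1 ≠ p.2.2.1 then
      ⁅FreeGroup.of p.1, FreeGroup.of p.2⁆ else 1) ∪
  Set.range (fun p : n × n × n × Option X =>
    if p.1 ≠ p.2.1 ∧ p.2.1 ≠ p.2.2.1 ∧ p.1 ≠ p.2.2.1 then
      ⁅(FreeGroup.of (p.1, p.2.1, none) : FreeGroup (Gn n X)),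
        FreeGroup.of (p.2.1, p.2.2.1, p.2.2.2)⁆ *
        (FreeGroup.of (p.1, p.2.2.1, p.2.2.2))⁻¹ else 1) ∪
  Set.range (fun p : n × n × n × Option X =>
    if p.1 ≠ p.2.1 ∧ p.2.1 ≠ p.2.2.1 ∧ p.1 ≠ p.2.2.1 then
      ⁅(FreeGroup.of (p.1, p.2.1, p.2.2.2) : FreeGroup (Gn n X)),
        FreeGroup.of (p.2.1, p.2.2.1, none)⁆ *
        (FreeGroup.of (p.1, p.2.2.1, p.2.2.2))⁻¹ else 1)

theorem rels_finite [Finite n] [Finite X] : (rels n X).Finite :=
  ((((Set.finite_range _).union (Set.finite_range _)).union (Set.finite_range _)).union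
    (Set.finite_range _)).union (Set.finite_range _)

/-- The value of a generator label. -/
noncomputable def val : Option X → FreeAlgebra (ZMod 2) X
  | none => 1
  | some x => FreeAlgebra.ι (ZMod 2) x

theorem two_free (a : FreeAlgebra (ZMod 2) X) : a + a = 0 := by
  rw [← two_smul (ZMod 2) a]
  have : (2 : ZMod 2) = 0 := rfl
  rw [this, zero_smul]

/-- The image of a generator in the Steinberg group. -/
noncomputable def img (p : Gn n X) : St n (FreeAlgebra (ZMod 2) X) :=
  if h : p.1 ≠ p.2.1 then St.x p.1 p.2.1 h (val X p.2.2) else 1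

theorem img_eq (i j : n) (h : i ≠ j) (s : Option X) :
    img n X (i, j, s) = St.x i j h (val X s) := dif_pos h

/-- The map from the finitely presented group to the Steinberg group. -/
noncomputable def toSt : PresentedGroup (rels n X) →* St n (FreeAlgebra (ZMod 2) X) :=
  PresentedGroup.toGroup (f := img n X) (by
    rintro r ((((⟨⟨i, s⟩, rfl⟩ | ⟨⟨i, j, s⟩, rfl⟩) | ⟨⟨⟨i, j, s⟩, ⟨k, l, t⟩⟩, rfl⟩) |
      ⟨⟨i, j, k, s⟩, rfl⟩) | ⟨⟨i, j, k, s⟩, rfl⟩)
    · simp [img]
    · by_cases h : i ≠ j
      · simp only [map_mul, FreeGroup.lift_apply_of, img_eq n X i j h, St.x_add, two_free,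
          St.x_zero]
      · simp only [map_mul, FreeGroup.lift_apply_of, img, dif_neg h, mul_one]
    · dsimp only
      split_ifs with h
      · obtain ⟨h1, h2, h3, h4⟩ := h
        rw [map_commutatorElement, FreeGroup.lift_apply_of, FreeGroup.lift_apply_of,
          img_eq n X i j h1, img_eq n X k l h2]
        exact commutatorElement_eq_one_iff_commute.2 (St.x_comm i j k l h1 h2 h3 h4 _ _)
      · exact map_one _
    · dsimp only
      split_ifs with h
      · obtain ⟨h1, h2, h3⟩ := h
        rw [map_mul, map_inv, map_commutatorElement, FreeGroup.lift_apply_of,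
          FreeGroup.lift_apply_of, FreeGroup.lift_apply_of,
          img_eq n X i j h1, img_eq n X j k h2, img_eq n X i k h3, St.x_mul i j k h1 h2 h3]
        simp [val]
      · exact map_one _
    · dsimp only
      split_ifs with h
      · obtain ⟨h1, h2, h3⟩ := h
        rw [map_mul, map_inv, map_commutatorElement, FreeGroup.lift_apply_of,
          FreeGroup.lift_apply_of, FreeGroup.lift_apply_of,
          img_eq n X i j h1, img_eq n X j k h2, img_eq n X i k h3, St.x_mul i j k h1 h2 h3]
        simp [val]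
      · exact map_one _)

theorem toSt_of (p : Gn n X) : toSt n X (PresentedGroup.of p) = img n X p :=
  PresentedGroup.toGroup.of _

theorem exists_pick [Fintype n] (hn : 5 ≤ Fintype.card n) (i j k l : n) :
    ∃ a, a ≠ i ∧ a ≠ j ∧ a ≠ k ∧ a ≠ l := by
  by_contra hc
  push Not at hc
  have hsub : (Finset.univ : Finset n) ⊆ {i, j, k, l} := by
    intro a _
    simp only [Finset.mem_insert, Finset.mem_singleton]
    by_contra h
    push Not at h
    exact h.2.2.2 (hc a h.1 h.2.1 h.2.2.1)
  have h1 := Finset.card_le_card hsub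
  have h2 : ({i, j, k, l} : Finset n).card ≤ 4 := Finset.card_le_four
  rw [Finset.card_univ] at h1
  omega

theorem rel_one {r : FreeGroup (Gn n X)} (h : r ∈ rels n X) :
    (PresentedGroup.mk (rels n X) r : PresentedGroup (rels n X)) = 1 :=
  PresentedGroup.one_of_mem h

/-- The data attached to the finite presentation. -/
noncomputable def dat [Fintype n] (hn : 5 ≤ Fintype.card n) :
    Dat n X (PresentedGroup (rels n X)) where
  g i j s := PresentedGroup.of (i, j, s)
  pick i j k l := (exists_pick n hn i j k l).choose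
  p1 i j k l := (exists_pick n hn i j k l).choose_spec.1
  p2 i j k l := (exists_pick n hn i j k l).choose_spec.2.1
  p3 i j k l := (exists_pick n hn i j k l).choose_spec.2.2.1
  p4 i j k l := (exists_pick n hn i j k l).choose_spec.2.2.2
  sq i j s _ := by
    have := rel_one n X (Or.inl (Or.inl (Or.inl (Or.inr ⟨(i, j, s), rfl⟩))))
    simp only [map_mul] at this
    exact this
  comm i j k l s t h1 h2 h3 h4 := by
    have := rel_one n X (Or.inl (Or.inl (Or.inr ⟨((i, j, s), (k, l, t)), rfl⟩)))
    dsimp only at this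
    rw [if_pos ⟨h1, h2, h3, h4⟩, map_commutatorElement] at this
    exact commutatorElement_eq_one_iff_commute.1 this
  mulL i j k s h1 h2 h3 := by
    have := rel_one n X (Or.inl (Or.inr ⟨(i, j, k, s), rfl⟩))
    dsimp only at this
    rw [if_pos ⟨h1, h2, h3⟩, map_mul, map_inv, map_commutatorElement] at this
    exact mul_inv_eq_one.1 this
  mulR i j k s h1 h2 h3 := by
    have := rel_one n X (Or.inr ⟨(i, j, k, s), rfl⟩)
    dsimp only at this
    rw [if_pos ⟨h1, h2, h3⟩, map_mul, map_inv, map_commutatorElement] at this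
    exact mul_inv_eq_one.1 this

theorem toSt_y [Fintype n] (hn : 5 ≤ Fintype.card n) (w : List X) : ∀ (i j : n) (h : i ≠ j),
    toSt n X ((dat n X hn).y i j w) = St.x i j h (mono X w) := by
  induction w with
  | nil =>
    intro i j h
    exact (toSt_of n X (i, j, none)).trans (img_eq n X i j h none)
  | cons x w ih =>
    intro i j h
    obtain ⟨a, hai, haj, -, -⟩ := exists_pick n hn i j i j
    have e := (dat n X hn).y_mul i a j hai.symm haj h [x] w
    have e1 : toSt n X ((dat n X hn).y i a [x]) = St.x i a hai.symm (mono X [x]) := by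
      have := (toSt_of n X (i, a, some x)).trans (img_eq n X i a hai.symm (some x))
      rw [mono_single]
      exact this
    have e' : (dat n X hn).y i j (x :: w) = ⁅(dat n X hn).y i a [x], (dat n X hn).y a j w⁆ :=
      e.symm
    rw [e', map_commutatorElement, e1, ih a j haj, St.x_mul i a j hai.symm haj h, ← mono_append]
    rfl

theorem free_fp [Fintype n] [Finite X] (hn : 5 ≤ Fintype.card n) :
    Group.IsFinitelyPresented (St n (FreeAlgebra (ZMod 2) X)) := by
  have : Finite (rels n X) := (rels_finite n X).to_subtype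
  obtain ⟨Y, h1, h2, h3, h4⟩ := (dat n X hn).exists_Y
  let ψ : St n (FreeAlgebra (ZMod 2) X) →* PresentedGroup (rels n X) := St.lift Y h1 h2 h3
  have hl : ψ.comp (toSt n X) = MonoidHom.id _ := by
    refine PresentedGroup.ext ?_
    rintro ⟨i, j, s⟩
    rw [MonoidHom.comp_apply, toSt_of, MonoidHom.id_apply]
    by_cases h : i ≠ j
    · rw [img_eq n X i j h, St.lift_x]
      cases s with
      | none => exact h4 i j h []
      | some x =>
        have := h4 i j h [x]
        rw [mono_single] at this
        exact this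
    · have hij : i = j := not_not.1 h
      subst hij
      have := rel_one n X (Or.inl (Or.inl (Or.inl (Or.inl ⟨(i, s), rfl⟩))))
      simp only [img, dif_neg h, map_one]
      exact this.symm
  refine Group.IsFinitelyPresented.of_surjective (toSt n X) ?_ ?_
  · rw [← MonoidHom.range_eq_top, eq_top_iff, ← St.closure_x, Subgroup.closure_le]
    rintro _ ⟨i, j, h, a, rfl⟩
    induction a using free_induction X with
    | h0 => rw [St.x_zero]; exact Subgroup.one_mem _
    | h2 a b ha hb => rw [← St.x_add]; exact Subgroup.mul_mem _ ha hb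
    | h1 w => exact ⟨_, toSt_y n X hn w i j h⟩
  · have hinj : Function.Injective (toSt n X) := by
      intro a b hab
      have := congrArg ψ hab
      rwa [← MonoidHom.comp_apply, ← MonoidHom.comp_apply, hl] at this
    rw [(MonoidHom.ker_eq_bot_iff _).2 hinj]
    exact .bot

end Pres

theorem quot_fp {n F R : Type} [Ring F] [Ring R] [Fintype n] [DecidableEq n]
    (hn : 5 ≤ Fintype.card n) [Group.IsFinitelyPresented (St n F)] (π : F →+* R) (S : Set F)
    (hS : S.Finite) (hπ : Function.Surjective π) (hk : ∀ p, π p = 0 ↔ p ∈ TwoSidedIdeal.span S) :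
    Group.IsFinitelyPresented (St n R) := by
  let f : St n F →* St n R := St.lift (fun i j h a => St.x i j h (π a))
    (fun i j h a b => by rw [St.x_add, map_add])
    (fun i j k l h h' hjk hil a b => St.x_comm i j k l h h' hjk hil _ _)
    (fun i j k h h' hik a b => by rw [St.x_mul i j k h h' hik, map_mul])
  have hf : ∀ i j h a, f (St.x i j h a) = St.x i j h (π a) := fun i j h a => St.lift_x _ _ _ _ _ _ _ _
  let T : Set (St n F) := {z | ∃ i j h, ∃ a ∈ S, z = St.x i j h a}
  have hT : T.Finite := by
    have : T ⊆ ⋃ p : {p : n × n // p.1 ≠ p.2}, (fun a => St.x p.1.1 p.1.2 p.2 a) '' S := by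
      rintro _ ⟨i, j, h, a, ha, rfl⟩
      exact Set.mem_iUnion.2 ⟨⟨(i, j), h⟩, a, ha, rfl⟩
    exact (Set.finite_iUnion fun p => hS.image _).subset this
  let N : Subgroup (St n F) := Subgroup.normalClosure T
  have hN : ∀ a ∈ TwoSidedIdeal.span S, ∀ (i j : n) (h : i ≠ j), St.x i j h a ∈ N := by
    intro a ha
    induction ha using TwoSidedIdeal.span_induction with
    | mem a ha => exact fun i j h => Subgroup.subset_normalClosure ⟨i, j, h, a, ha, rfl⟩
    | zero => intro i j h; rw [St.x_zero]; exact N.one_mem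
    | add a b _ _ ha hb => intro i j h; rw [← St.x_add]; exact N.mul_mem (ha i j h) (hb i j h)
    | neg a _ ha => intro i j h; rw [← St.x_neg]; exact N.inv_mem (ha i j h)
    | left_absorb r a _ ha =>
      intro i j h
      obtain ⟨c, hci, hcj, -, -⟩ := exists_pick n hn i j i j
      rw [← St.x_mul i c j hci.symm hcj h, commutatorElement_def]
      exact N.mul_mem (Subgroup.normalClosure_normal.conj_mem _ (ha c j hcj) _)
        (N.inv_mem (ha c j hcj))
    | right_absorb r a _ ha =>
      intro i j h
      obtain ⟨c, hci, hcj, -, -⟩ := exists_pick n hn i j i j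
      rw [← St.x_mul i c j hci.symm hcj h, commutatorElement_def, mul_assoc, mul_assoc,
        ← mul_assoc (St.x c j hcj r)]
      exact N.mul_mem (ha i c hci.symm)
        (Subgroup.normalClosure_normal.conj_mem _ (N.inv_mem (ha i c hci.symm)) _)
  have hq : ∀ (i j : n) (h : i ≠ j) (a b : F), π a = π b →
      (QuotientGroup.mk' N (St.x i j h a)) = QuotientGroup.mk' N (St.x i j h b) := by
    intro i j h a b hab
    rw [QuotientGroup.mk'_apply, QuotientGroup.mk'_apply, QuotientGroup.eq, St.x_neg, St.x_add]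
    refine hN _ ((hk _).1 ?_) i j h
    rw [map_add, map_neg, hab, neg_add_cancel]
  let σ : R → F := Function.surjInv hπ
  have hσ : ∀ r, π (σ r) = r := Function.surjInv_eq hπ
  let g : St n R →* St n F ⧸ N := St.lift (fun i j h a => QuotientGroup.mk' N (St.x i j h (σ a)))
    (fun i j h a b => by
      rw [← map_mul, St.x_add]
      exact hq i j h _ _ (by rw [map_add, hσ, hσ, hσ]))
    (fun i j k l h h' hjk hil a b => (St.x_comm i j k l h h' hjk hil _ _).map _)
    (fun i j k h h' hik a b => by
      rw [← map_commutatorElement, St.x_mul i j k h h' hik]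
      exact hq i k hik _ _ (by rw [map_mul, hσ, hσ, hσ]))
  have hgf : g.comp f = QuotientGroup.mk' N := by
    refine St.hom_ext fun i j h a => ?_
    rw [MonoidHom.comp_apply, hf, St.lift_x]
    exact hq i j h _ _ (hσ _)
  refine Group.IsFinitelyPresented.of_surjective f ?_ ⟨T, hT, le_antisymm ?_ ?_⟩
  · rw [← MonoidHom.range_eq_top, eq_top_iff, ← St.closure_x, Subgroup.closure_le]
    rintro _ ⟨i, j, h, a, rfl⟩
    exact ⟨St.x i j h (σ a), by rw [hf, hσ]⟩
  · refine Subgroup.normalClosure_le_normal ?_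
    rintro _ ⟨i, j, h, a, ha, rfl⟩
    show f (St.x i j h a) = 1
    rw [hf, (hk a).2 (TwoSidedIdeal.subset_span ha), St.x_zero]
  · intro z hz
    have h1 : g.comp f z = 1 := by
      rw [MonoidHom.comp_apply, (MonoidHom.mem_ker).1 hz, map_one]
    rw [hgf] at h1
    exact (QuotientGroup.eq_one_iff z).1 h1

end StFPAux

theorem St_fp {n R : Type} [Ring R] [Algebra (ZMod 2) R] [Fintype n] [DecidableEq n]
    (hn : 5 ≤ Fintype.card n) (hR : RingFP R) : Group.IsFinitelyPresented (St n R) := by
  obtain ⟨X, hX, π, S, hS, hπ, hk⟩ := hR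
  have := StFPAux.free_fp n X hn
  exact StFPAux.quot_fp hn π.toRingHom S hS hπ hk

end Vale.Agent.P193
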