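import Vale.Agent.P193.StInj
import Vale.Agent.P193.StFP

/-! Part A, assembled. -/

namespace Vale.Agent.P193

/-- The diagonal embedding of the unit group. -/
def diagUnits {R : Type} [Ring R] : Rˣ →* (Matrix (Fin 5) (Fin 5) R)ˣ :=
  Units.map ((Matrix.scalar (Fin 5) : R →+* Matrix (Fin 5) (Fin 5) R) : R →* _)

theorem diagUnits_injective {R : Type} [Ring R] :
    Function.Injective (diagUnits : Rˣ →* (Matrix (Fin 5) (Fin 5) R)ˣ) := by
  intro a b h
  have h1 := congrArg (fun g : (Matrix (Fin 5) (Fin 5) R)ˣ => (g : Matrix (Fin 5) (Fin 5) R) 0 0) h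
  ext
  simpa [diagUnits] using h1

theorem exists_group {R : Type} [Ring R] [Algebra (ZMod 2) R] (H : Hyp R) (hR : RingFP R) :
    ∃ (K : Type) (_ : Group K), IsSimpleGroup K ∧ Group.IsFinitelyPresented K ∧
      ∃ f : Rˣ →* K, Function.Injective f := by
  refine ⟨(Matrix (Fin 5) (Fin 5) R)ˣ, inferInstance, GL_simple H (by simp), ?_, diagUnits,
    diagUnits_injective⟩
  have := St_fp (n := Fin 5) (by simp) hR
  exact Group.IsFinitelyPresented.equiv
    (MulEquiv.ofBijective (St.toGL : St (Fin 5) R →* _)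
      ⟨toGL_injective H (by simp), toGL_surjective H (by simp)⟩)

end Vale.Agent.P193
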