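import Vale.Agent.P193.MachineAuxE

/-! Task C8, part F: the self-reference. -/

namespace Vale.Agent.P193.MachAux

variable {N : CM} {n : ℕ}

theorem relFin_indep (e : ℕ) (r : RelIdx (sigOf N) n) (hr : r ≠ .master) :
    relFin (fx (sigOf N) n) (machOf N n e) r = relFin (fx (sigOf N) n) (machOf N n 0) r := by
  cases r with
  | master => exact absurd rfl hr
  | _ => rfl

theorem brOf_indep (e : ℕ) (τ : Th N) (hτ : τ ≠ .load) : brOf N n e τ = brOf N n 0 τ := by
  cases τ with
  | load => exact absurd rfl hτ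
  | _ => rfl

/-- The term of the master relation belonging to one history symbol. -/
noncomputable def mTerm (N : CM) (n e : ℕ) (τ : (sigOf N).Γ (sigOf N).H) : FA (sigOf N) n :=
  (((machOf N n e).br τ).map fun b => b.mv (fx (sigOf N) n) * fx (sigOf N) n .Φ *
    opsVal (fx (sigOf N) n) b.all * fx (sigOf N) n (.pop (sigOf N).H τ)).sum

/-- The loading symbol. -/
def ldS (N : CM) : (sigOf N).Γ (sigOf N).H := Th.load

/-- The generator incrementing the input register. -/
def incG (N : CM) (n : ℕ) : Gen (sigOf N) n := .push (Stk.reg N.r0) ()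

/-- The final part of the loading monomial. -/
noncomputable def ldW (N : CM) (n : ℕ) : List (Gen (sigOf N) n) :=
  [.push Stk.C (Ctl.st N.q0), .pop Stk.C Ctl.init, .pop (sigOf N).K (sigOf N).tick,
    .pop (sigOf N).H (ldS N)]

theorem opsVal_rep (e : ℕ) :
    opsVal (fx (sigOf N) n) (List.replicate e (puR N.r0)) =
      word (fx (sigOf N) n) (List.replicate e (incG N n)) := by
  have h1 : word (fx (sigOf N) n) (List.replicate e (incG N n)) =
      fx (sigOf N) n (incG N n) ^ e := by
    simp [word]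
  rw [h1]
  clear h1
  induction e with
  | zero => rfl
  | succ e ih =>
    rw [List.replicate_succ, opsVal, ih, pow_succ]
    rfl

theorem mTerm_load (e : ℕ) : mTerm N n e (ldS N) =
    word (fx (sigOf N) n) ([.Φ] ++ List.replicate e (incG N n) ++ ldW N n) := by
  have h1 : mTerm N n e (ldS N) = 1 * fx (sigOf N) n .Φ *
      (opsVal (fx (sigOf N) n) (List.replicate e (puR N.r0)) *
        fx (sigOf N) n (.push Stk.C (Ctl.st N.q0)) * fx (sigOf N) n (.pop Stk.C Ctl.init) *
        fx (sigOf N) n (.pop (sigOf N).K (sigOf N).tick)) *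
      fx (sigOf N) n (.pop (sigOf N).H (ldS N)) + 0 := rfl
  rw [h1, opsVal_rep, word_append, word_append]
  simp only [word, ldW, List.map_cons, List.map_nil, List.prod_cons, List.prod_nil, mul_one,
    one_mul, add_zero, mul_assoc]

/-- The part of the master relator that does not depend on the parameter. -/
noncomputable def mRest (N : CM) (n : ℕ) : FA (sigOf N) n :=
  fx (sigOf N) n .Φ + (fx (sigOf N) n .S + ∑ τ ∈ Finset.univ.erase (ldS N), mTerm N n 0 τ)

theorem relFin_master (e : ℕ) : relFin (fx (sigOf N) n) (machOf N n e) .master =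
    mRest N n + word (fx (sigOf N) n) ([.Φ] ++ List.replicate e (incG N n) ++ ldW N n) := by
  have h1 : relFin (fx (sigOf N) n) (machOf N n e) .master =
      fx (sigOf N) n .Φ - (fx (sigOf N) n .S + ∑ τ, mTerm N n e τ) := rfl
  have h2 : ∑ τ ∈ Finset.univ.erase (ldS N), mTerm N n e τ =
      ∑ τ ∈ Finset.univ.erase (ldS N), mTerm N n 0 τ := by
    refine Finset.sum_congr rfl fun τ hτ => ?_
    have h3 : (machOf N n e).br τ = (machOf N n 0).br τ :=
      brOf_indep e τ (Finset.ne_of_mem_erase (α := (sigOf N).Γ (sigOf N).H) hτ)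
    unfold mTerm
    rw [h3]
  rw [h1, fa_sub, ← Finset.sum_erase_add _ _ (Finset.mem_univ (ldS N)), h2, mTerm_load, mRest]
  simp only [add_assoc]

theorem exists_param (N : CM) (n : ℕ) : ∃ e : ℕ,
    (∀ l ∈ (dataOf e).1, ValidS (sigOf N) n l ∧ (Vpre (sigOf N) n l = 0 ∨
      ∃ r, Vpre (sigOf N) n l = relFin (fx (sigOf N) n) (machOf N n e) r)) ∧
    (∀ r, r ≠ .master → ∃ l ∈ (dataOf e).1,
      Vpre (sigOf N) n l = relFin (fx (sigOf N) n) (machOf N n e) r) ∧
    ValidS (sigOf N) n
      ((dataOf e).2.1 ++ List.replicate e (dataOf e).2.2.2 ++ (dataOf e).2.2.1) ∧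
    Vpre (sigOf N) n ((dataOf e).2.1 ++ List.replicate e (dataOf e).2.2.2 ++ (dataOf e).2.2.1) =
      relFin (fx (sigOf N) n) (machOf N n e) .master := by
  classical
  choose str hstr using exists_repS (σ := sigOf N) (n := n)
  have : Fintype (RelIdx (sigOf N) n) := Fintype.ofFinite _
  let L : List (List ℕ) := (Finset.univ : Finset (RelIdx (sigOf N) n)).toList.map fun r =>
    if r = .master then [] else 0 :: str (relFin (fx (sigOf N) n) (machOf N n 0) r)
  let D : List (List ℕ) × List ℕ × List ℕ × ℕ :=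
    (L, 0 :: (str (mRest N n) ++ codes [(.Φ : Gen (sigOf N) n)]), codes (ldW N n) ++ [0],
      jc0 (incG N n) + 1)
  obtain ⟨e, he⟩ : ∃ e, dataOf e = D := ⟨_, Denumerable.ofNat_encode D⟩
  have hm : RepS (relFin (fx (sigOf N) n) (machOf N n e) .master)
      (str (mRest N n) ++ (codes ([.Φ] ++ List.replicate e (incG N n) ++ ldW N n) ++ [0])) := by
    rw [relFin_master]
    exact repS_add (hstr _) (repS_word _)
  have hs : (dataOf e).2.1 ++ List.replicate e (dataOf e).2.2.2 ++ (dataOf e).2.2.1 =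
      0 :: (str (mRest N n) ++
        (codes ([.Φ] ++ List.replicate e (incG N n) ++ ldW N n) ++ [0])) := by
    rw [he]
    simp [D, codes]
  refine ⟨e, ?_, ?_, ?_, ?_⟩
  · intro l hl
    rw [he] at hl
    obtain ⟨r, -, rfl⟩ := List.mem_map.1 hl
    by_cases hr : r = .master
    · rw [if_pos hr]
      exact ⟨validS_nil, Or.inl rfl⟩
    · rw [if_neg hr]
      exact ⟨validS_zero (hstr _).1, Or.inr ⟨r, by rw [(hstr _).eq, relFin_indep e r hr]⟩⟩
  · intro r hr
    refine ⟨0 :: str (relFin (fx (sigOf N) n) (machOf N n 0) r), ?_, ?_⟩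
    · rw [he]
      exact List.mem_map.2 ⟨r, Finset.mem_toList.2 (Finset.mem_univ r), if_neg hr⟩
    · rw [(hstr _).eq, relFin_indep e r hr]
  · rw [hs]
    exact validS_zero hm.1
  · rw [hs, hm.eq]

theorem baseStr_zero (triv : List (Fin n × Bool) → Bool) (e k : ℕ) :
    baseStr triv e (Nat.pair 0 k) = (dataOf e).1.getD k [] := by
  simp [baseStr]

theorem baseStr_one (triv : List (Fin n × Bool) → Bool) (e : ℕ) :
    baseStr triv e (Nat.pair 1 0) =
      (dataOf e).2.1 ++ List.replicate e (dataOf e).2.2.2 ++ (dataOf e).2.2.1 := by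
  simp [baseStr]

theorem baseStr_two (triv : List (Fin n × Bool) → Bool) (e : ℕ) (w : List (Fin n × Bool)) :
    baseStr triv e (Nat.pair 2 (Encodable.encode w)) = gStr triv w := by
  simp [baseStr, gStr]

theorem baseStr_cases (triv : List (Fin n × Bool) → Bool) (e k : ℕ) :
    baseStr triv e k = [] ∨ baseStr triv e k ∈ (dataOf e).1 ∨
      baseStr triv e k = (dataOf e).2.1 ++ List.replicate e (dataOf e).2.2.2 ++ (dataOf e).2.2.1 ∨
      ∃ w, baseStr triv e k = gStr triv w := by
  unfold baseStr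
  split_ifs with h0 h1
  · by_cases hk : k.unpair.2 < (dataOf e).1.length
    · rw [List.getD_eq_getElem _ _ hk]
      exact Or.inr (Or.inl (List.getElem_mem hk))
    · rw [List.getD_eq_default _ _ (by omega)]
      exact Or.inl rfl
  · exact Or.inr (Or.inr (Or.inl rfl))
  · cases (Encodable.decode k.unpair.2 : Option (List (Fin n × Bool))) with
    | none => exact Or.inl rfl
    | some w => exact Or.inr (Or.inr (Or.inr ⟨w, rfl⟩))

theorem exists_base {G : Type} [Group G] (s : Fin n → G)
    (triv : List (Fin n × Bool) → Bool) (htriv : ∀ w, triv w = true ↔ wordVal s w = 1)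
    (N : CM) : ∃ e : ℕ,
      (∀ k, ValidS (sigOf N) n (baseStr triv e k) ∧ (Vpre (sigOf N) n (baseStr triv e k) = 0 ∨
        IsBase (machOf N n e) s (Vpre (sigOf N) n (baseStr triv e k)))) ∧
      ∀ b, IsBase (machOf N n e) s b → ∃ k, Vpre (sigOf N) n (baseStr triv e k) = b := by
  obtain ⟨e, h1, h2, h3, h4⟩ := exists_param N n
  refine ⟨e, fun k => ?_, fun b hb => ?_⟩
  · rcases baseStr_cases triv e k with h | h | h | ⟨w, h⟩
    · rw [h]
      exact ⟨validS_nil, Or.inl rfl⟩
    · obtain ⟨hv, h0 | ⟨r, hr⟩⟩ := h1 _ h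
      · exact ⟨hv, Or.inl h0⟩
      · exact ⟨hv, Or.inr (Or.inl ⟨r, hr⟩)⟩
    · rw [h]
      exact ⟨h3, Or.inr (Or.inl ⟨_, h4⟩)⟩
    · rw [h]
      obtain ⟨hv, hg⟩ := gStr_spec (machOf N n e) rfl s triv htriv w
      exact ⟨hv, Or.inr (Or.inr ⟨w, hg⟩)⟩
  · rcases hb with ⟨r, rfl⟩ | ⟨w, rfl⟩
    · by_cases hr : r = .master
      · refine ⟨Nat.pair 1 0, ?_⟩
        rw [baseStr_one, h4, hr]
      · obtain ⟨l, hl, hv⟩ := h2 r hr
        obtain ⟨k, hk, rfl⟩ := List.getElem_of_mem hl
        refine ⟨Nat.pair 0 k, ?_⟩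
        rw [baseStr_zero, List.getD_eq_getElem _ _ hk, hv]
    · refine ⟨Nat.pair 2 (Encodable.encode w), ?_⟩
      rw [baseStr_two]
      exact (gStr_spec (machOf N n e) rfl s triv htriv w).2

end Vale.Agent.P193.MachAux
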