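import Vale.Agent.P193.RingCfg
import Vale.Agent.P193.FamComp
import Vale.Agent.P193.MachineAuxF

/-! Task C8: the concrete machine built from a counter machine. -/

namespace Vale.Agent.P193

open MachAux in
theorem exists_mach {n : ℕ} {G : Type} [Group G] (s : Fin n → G)
    (triv : List (Fin n × Bool) → Bool) (htriv : ∀ w, triv w = true ↔ wordVal s w = 1)
    (N : CM) (hN : ∀ (e : ℕ) (out : List (Fin 4)),
      N.Run N.q0 (Pi.single N.r0 e) out ↔ ∃ k, out.map Fin.val = famF triv e k) :
    ∃ (σ : Sig) (M : Mach σ n), Sound M s ∧ Complete M s := by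
  obtain ⟨e, h1, h2⟩ := exists_base s triv htriv N
  have hf : ∀ k, Vpre (sigOf N) n (famF triv e k) =
      (phiP (machOf N n e))^[k.unpair.1 + 1] (Vpre (sigOf N) n (baseStr triv e k.unpair.2)) :=
    fun k => Vpre_iter (machOf N n e) rfl _ (h1 _).1
  refine ⟨sigOf N, machOf N n e, fun h w hw => ?_, fun j b hb => ?_⟩
  · rcases acc_val (n := n) e h w hw with h0 | ⟨out, hr, hv⟩
    · exact Or.inl h0
    · obtain ⟨k, hk⟩ := (hN e out).1 hr
      have hv' : val (fx (sigOf N) n) (machOf N n e) h w =
          (phiP (machOf N n e))^[k.unpair.1 + 1]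
            (Vpre (sigOf N) n (baseStr triv e k.unpair.2)) := by
        rw [← hf, ← hk]
        exact hv
      rcases (h1 k.unpair.2).2 with h0 | hb
      · left
        rw [hv', h0, phiP_iter_zero]
      · exact Or.inr ⟨_, _, hb, hv'⟩
  · obtain ⟨k, hk⟩ := h2 b hb
    have hlt := famF_lt triv e (Nat.pair j k)
    have hout : ((famF triv e (Nat.pair j k)).attach.map
        (fun a => (⟨a.1, hlt a.1 a.2⟩ : Fin 4))).map Fin.val = famF triv e (Nat.pair j k) := by
      rw [List.map_map]
      exact List.attach_map_subtype_val _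
    obtain ⟨h, w, hw, hv⟩ := exists_acc (n := n) e ((hN e _).2 ⟨_, hout⟩)
    refine ⟨h, w, hw, ?_⟩
    rw [hout, hf, Nat.unpair_pair, hk] at hv
    exact hv

end Vale.Agent.P193
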