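import Vale.Agent.P193.RingDefs

/-! Task C8, part A: strings and the polynomials they describe. -/

namespace Vale.Agent.P193.MachAux

variable {σ : Sig} {n : ℕ}

/-- The code of the generators that are not special. -/
noncomputable def jcRest : Gen σ n → ℕ
  | .a p => 5 + 2 * Encodable.encode p
  | y => 6 + 2 * (Fintype.equivFin (Gen σ n) y).val

/-- The coding of the generators. -/
noncomputable def jc0 (y : Gen σ n) : ℕ :=
  if y = .Z then 0 else if y = .push σ.I σ.i0 then 1 else if y = .push σ.I σ.i1 then 2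
  else if y = .S then 3 else if y = .T then 4 else jcRest y

theorem jcRest_cases (y : Gen σ n) :
    (∃ p, y = .a p ∧ jcRest y = 5 + 2 * Encodable.encode p) ∨
      jcRest y = 6 + 2 * (Fintype.equivFin (Gen σ n) y).val := by
  cases y with
  | a p => exact Or.inl ⟨p, rfl, rfl⟩
  | _ => exact Or.inr rfl

theorem jcRest_inj : Function.Injective (jcRest : Gen σ n → ℕ) := by
  intro y y' h
  rcases jcRest_cases y with ⟨p, rfl, hp⟩ | hy <;> rcases jcRest_cases y' with ⟨p', rfl, hp'⟩ | hy'
  · have : Encodable.encode p = Encodable.encode p' := by omega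
    rw [Encodable.encode_injective this]
  · omega
  · omega
  · have : (Fintype.equivFin (Gen σ n) y).val = (Fintype.equivFin (Gen σ n) y').val := by omega
    exact (Fintype.equivFin (Gen σ n)).injective (Fin.ext this)

theorem jcRest_ge (y : Gen σ n) : 5 ≤ jcRest y := by
  rcases jcRest_cases y with ⟨p, -, hp⟩ | hy <;> omega

theorem jc0_cases (y : Gen σ n) :
    (y = .Z ∧ jc0 y = 0) ∨ (y = .push σ.I σ.i0 ∧ jc0 y = 1) ∨ (y = .push σ.I σ.i1 ∧ jc0 y = 2) ∨
      (y = .S ∧ jc0 y = 3) ∨ (y = .T ∧ jc0 y = 4) ∨ jc0 y = jcRest y := by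
  unfold jc0
  split_ifs with h1 h2 h3 h4 h5
  · exact Or.inl ⟨h1, rfl⟩
  · exact Or.inr (Or.inl ⟨h2, rfl⟩)
  · exact Or.inr (Or.inr (Or.inl ⟨h3, rfl⟩))
  · exact Or.inr (Or.inr (Or.inr (Or.inl ⟨h4, rfl⟩)))
  · exact Or.inr (Or.inr (Or.inr (Or.inr (Or.inl ⟨h5, rfl⟩))))
  · exact Or.inr (Or.inr (Or.inr (Or.inr (Or.inr rfl))))

theorem jc0_inj : Function.Injective (jc0 : Gen σ n → ℕ) := by
  intro y y' h
  have g1 := jcRest_ge y
  have g2 := jcRest_ge y'
  rcases jc0_cases y with ⟨e, h1⟩ | ⟨e, h1⟩ | ⟨e, h1⟩ | ⟨e, h1⟩ | ⟨e, h1⟩ | h1 <;>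
    rcases jc0_cases y' with ⟨e', h2⟩ | ⟨e', h2⟩ | ⟨e', h2⟩ | ⟨e', h2⟩ | ⟨e', h2⟩ | h2 <;>
    first
      | exact e.trans e'.symm
      | exact jcRest_inj (h1.symm.trans (h.trans h2))
      | omega

theorem jc0_Z : jc0 (.Z : Gen σ n) = 0 := by simp [jc0]

theorem jc0_i0 : jc0 (.push σ.I σ.i0 : Gen σ n) = 1 := by simp [jc0]

theorem jc0_i1 : jc0 (.push σ.I σ.i1 : Gen σ n) = 2 := by
  have := σ.i_ne.symm
  simp [jc0, this]

theorem jc0_S : jc0 (.S : Gen σ n) = 3 := by simp [jc0]

theorem jc0_T : jc0 (.T : Gen σ n) = 4 := by simp [jc0]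

theorem jc0_a (p : Fin n × Bool) : jc0 (.a p : Gen σ n) = 5 + 2 * Encodable.encode p := by
  simp [jc0, jcRest]

open Classical in
/-- The generator described by a string letter. -/
noncomputable def decL (σ : Sig) (n : ℕ) (a : ℕ) : FA σ n :=
  if h : ∃ y : Gen σ n, jc0 y + 1 = a then fx σ n h.choose else 0

theorem decL_jc (y : Gen σ n) : decL σ n (jc0 y + 1) = fx σ n y := by
  have h : ∃ y' : Gen σ n, jc0 y' + 1 = jc0 y + 1 := ⟨y, rfl⟩
  unfold decL
  rw [dif_pos h]
  have := h.choose_spec
  rw [jc0_inj (Nat.succ_injective this)]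

/-- The first monomial of a string. -/
noncomputable def Vin (σ : Sig) (n : ℕ) : List ℕ → FA σ n
  | [] => 0
  | a :: l => if a = 0 then 1 else decL σ n a * Vin σ n l

/-- The sum of the monomials of a string lying between two separators. -/
noncomputable def Vpre (σ : Sig) (n : ℕ) : List ℕ → FA σ n
  | [] => 0
  | a :: l => if a = 0 then Vpre σ n l + Vin σ n l else Vpre σ n l

/-- Strings whose letters are separators or codes. -/
def ValidS (σ : Sig) (n : ℕ) (l : List ℕ) : Prop := ∀ a ∈ l, a = 0 ∨ ∃ y : Gen σ n, a = jc0 y + 1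

/-- The string of a monomial. -/
noncomputable def codes (w : List (Gen σ n)) : List ℕ := w.map fun y => jc0 y + 1

theorem Vin_zero (l : List ℕ) : Vin σ n (0 :: l) = 1 := by simp [Vin]

theorem Vpre_zero (l : List ℕ) : Vpre σ n (0 :: l) = Vpre σ n l + Vin σ n l := by simp [Vpre]

theorem Vin_codes (w : List (Gen σ n)) (l : List ℕ) :
    Vin σ n (codes w ++ l) = word (fx σ n) w * Vin σ n l := by
  induction w with
  | nil => simp [codes, word]
  | cons y w ih =>
    have : codes (y :: w) ++ l = (jc0 y + 1) :: (codes w ++ l) := rfl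
    rw [this, Vin, if_neg (Nat.succ_ne_zero _), ih, decL_jc]
    simp [word, mul_assoc]

theorem Vpre_codes (w : List (Gen σ n)) (l : List ℕ) :
    Vpre σ n (codes w ++ l) = Vpre σ n l := by
  induction w with
  | nil => simp [codes]
  | cons y w ih =>
    have : codes (y :: w) ++ l = (jc0 y + 1) :: (codes w ++ l) := rfl
    rw [this, Vpre, if_neg (Nat.succ_ne_zero _), ih]

theorem codes_append (w w' : List (Gen σ n)) : codes (w ++ w') = codes w ++ codes w' := by
  simp [codes]

theorem word_append {R : Type} [Ring R] (x : Gen σ n → R) (w w' : List (Gen σ n)) :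
    word x (w ++ w') = word x w * word x w' := by
  simp [word]

theorem validS_append {l l' : List ℕ} (h : ValidS σ n l) (h' : ValidS σ n l') :
    ValidS σ n (l ++ l') := by
  intro a ha
  rcases List.mem_append.1 ha with ha | ha
  · exact h a ha
  · exact h' a ha

theorem validS_codes (w : List (Gen σ n)) : ValidS σ n (codes w) := by
  intro a ha
  obtain ⟨y, -, rfl⟩ := List.mem_map.1 ha
  exact Or.inr ⟨y, rfl⟩

theorem validS_zero {l : List ℕ} (h : ValidS σ n l) : ValidS σ n (0 :: l) := by
  intro a ha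
  rcases List.mem_cons.1 ha with ha | ha
  · exact Or.inl ha
  · exact h a ha

theorem validS_nil : ValidS σ n [] := by
  intro a ha
  simp at ha

theorem validS_tail {a : ℕ} {l : List ℕ} (h : ValidS σ n (a :: l)) : ValidS σ n l :=
  fun b hb => h b (List.mem_cons_of_mem _ hb)

/-- The word of `phg y`. -/
noncomputable def phW (y : Gen σ n) : List (Gen σ n) :=
  .Z :: (List.replicate (jc0 y) (.push σ.I σ.i1) ++ [.push σ.I σ.i0])

theorem codes_phW (y : Gen σ n) : codes (phW y) = phiL (jc0 y + 1) := by
  simp [codes, phW, phiL, jc0_Z, jc0_i0, jc0_i1]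

theorem codes_qW : codes (phW (.S : Gen σ n) ++ phW .T) = qs := by
  rw [codes_append, codes_phW, codes_phW, jc0_S, jc0_T]
  rfl

section

variable (M : Mach σ n) (hM : M.jc = jc0)
include hM

theorem word_phW {R : Type} [Ring R] (x : Gen σ n → R) (y : Gen σ n) :
    word x (phW y) = phg x M y := by
  simp [word, phW, phg, tw, Mach.code, hM]

theorem word_qW {R : Type} [Ring R] (x : Gen σ n → R) :
    word x (phW (.S : Gen σ n) ++ phW .T) = qq x M := by
  rw [word_append, word_phW M hM, word_phW M hM, qq]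

theorem Vin_phiS {l : List ℕ} (hl : ValidS σ n l) : Vin σ n (phiS l) = psiP M (Vin σ n l) := by
  induction l with
  | nil => simp [phiS, Vin]
  | cons a l ih =>
    have e : phiS (a :: l) = phiL a ++ phiS l := by simp [phiS]
    rcases hl a List.mem_cons_self with rfl | ⟨y, rfl⟩
    · rw [e, Vin_zero, map_one]
      exact Vin_zero _
    · rw [e, ← codes_phW, Vin_codes, ih (validS_tail hl), word_phW M hM, Vin,
        if_neg (Nat.succ_ne_zero _), decL_jc, map_mul]
      simp [psiP, fx]

theorem Vpre_phiS {l : List ℕ} (hl : ValidS σ n l) :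
    Vpre σ n (phiS l) = phiP M (Vpre σ n l) := by
  induction l with
  | nil => simp [phiS, Vpre, phiP]
  | cons a l ih =>
    have e : phiS (a :: l) = phiL a ++ phiS l := by simp [phiS]
    rcases hl a List.mem_cons_self with rfl | ⟨y, rfl⟩
    · have e2 : phiL 0 ++ phiS l = 0 :: (codes (phW (.S : Gen σ n) ++ phW .T) ++ phiS l) := by
        rw [codes_qW]
        rfl
      rw [e, e2, Vpre_zero, Vpre_zero, Vpre_codes, Vin_codes, ih (validS_tail hl),
        Vin_phiS M hM (validS_tail hl), word_qW M hM]
      simp only [phiP, map_add, mul_add]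
    · rw [e, ← codes_phW, Vpre_codes, ih (validS_tail hl), Vpre, if_neg (Nat.succ_ne_zero _)]

end

theorem validS_phiS {l : List ℕ} (hl : ValidS σ n l) : ValidS σ n (phiS l) := by
  induction l with
  | nil => exact validS_nil
  | cons a l ih =>
    have e : phiS (a :: l) = phiL a ++ phiS l := by simp [phiS]
    rw [e]
    refine validS_append ?_ (ih (validS_tail hl))
    rcases hl a List.mem_cons_self with rfl | ⟨y, rfl⟩
    · have e2 : phiL 0 = 0 :: codes (phW (.S : Gen σ n) ++ phW .T) := by
        rw [codes_qW]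
        rfl
      rw [e2]
      exact validS_zero (validS_codes _)
    · rw [← codes_phW]
      exact validS_codes _

theorem Vpre_iter (M : Mach σ n) (hM : M.jc = jc0) (j : ℕ) {l : List ℕ} (hl : ValidS σ n l) :
    Vpre σ n (phiS^[j] l) = (phiP M)^[j] (Vpre σ n l) := by
  induction j generalizing l with
  | zero => rfl
  | succ j ih =>
    rw [Function.iterate_succ_apply, Function.iterate_succ_apply, ih (validS_phiS hl),
      Vpre_phiS M hM hl]

theorem phiP_iter_zero (M : Mach σ n) (j : ℕ) : (phiP M)^[j] 0 = 0 := by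
  induction j with
  | zero => rfl
  | succ j ih =>
    rw [Function.iterate_succ_apply]
    have : phiP M 0 = 0 := by simp [phiP]
    rw [this, ih]

theorem fa_two (b : FA σ n) : b + b = 0 := by
  have h : ((1 : ZMod 2) + 1) • b = 0 := by
    have : (1 : ZMod 2) + 1 = 0 := rfl
    rw [this, zero_smul]
  rwa [add_smul, one_smul] at h

theorem fa_sub (a b : FA σ n) : a - b = a + b := by
  rw [sub_eq_add_neg, neg_eq_of_add_eq_zero_right (fa_two b)]

/-- `l` lists the monomials of `b`, each followed by a separator. -/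
def RepS (b : FA σ n) (l : List ℕ) : Prop :=
  ValidS σ n l ∧ ∀ l', Vpre σ n (0 :: (l ++ l')) = b + Vpre σ n (0 :: l')

theorem repS_zero : RepS (0 : FA σ n) [] := ⟨validS_nil, fun l' => by simp⟩

theorem repS_word (w : List (Gen σ n)) : RepS (word (fx σ n) w) (codes w ++ [0]) := by
  refine ⟨validS_append (validS_codes w) (validS_zero validS_nil), fun l' => ?_⟩
  rw [List.append_assoc, Vpre_zero, Vpre_codes, Vin_codes]
  simp only [List.cons_append, List.nil_append, Vin_zero, mul_one]
  rw [add_comm]

theorem repS_add {b b' : FA σ n} {l l' : List ℕ} (h : RepS b l) (h' : RepS b' l') :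
    RepS (b + b') (l ++ l') := by
  refine ⟨validS_append h.1 h'.1, fun l'' => ?_⟩
  rw [List.append_assoc, h.2, h'.2, add_assoc]

theorem RepS.eq {b : FA σ n} {l : List ℕ} (h : RepS b l) : Vpre σ n (0 :: l) = b := by
  have := h.2 []
  rw [List.append_nil] at this
  rw [this, Vpre_zero]
  simp [Vpre, Vin]

theorem fa_mem_closure (b : FA σ n) :
    b ∈ AddSubmonoid.closure (Set.range (word (fx σ n))) := by
  induction b using FreeAlgebra.induction with
  | grade0 r =>
    have hr : r = 0 ∨ r = 1 := by
      revert r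
      decide
    rcases hr with rfl | rfl
    · rw [map_zero]
      exact zero_mem _
    · rw [map_one]
      exact AddSubmonoid.subset_closure ⟨[], rfl⟩
  | grade1 y => exact AddSubmonoid.subset_closure ⟨[y], by simp [word, fx]⟩
  | add a b ha hb => exact add_mem ha hb
  | mul a b ha hb =>
    induction ha using AddSubmonoid.closure_induction with
    | zero =>
      rw [zero_mul]
      exact zero_mem _
    | add a a' _ _ h1 h2 =>
      rw [add_mul]
      exact add_mem h1 h2
    | mem a ha =>
      obtain ⟨w, rfl⟩ := ha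
      induction hb using AddSubmonoid.closure_induction with
      | zero =>
        rw [mul_zero]
        exact zero_mem _
      | add b b' _ _ h1 h2 =>
        rw [mul_add]
        exact add_mem h1 h2
      | mem b hb =>
        obtain ⟨w', rfl⟩ := hb
        exact AddSubmonoid.subset_closure ⟨w ++ w', word_append _ _ _⟩

theorem exists_repS (b : FA σ n) : ∃ l, RepS b l := by
  have hb := fa_mem_closure b
  induction hb using AddSubmonoid.closure_induction with
  | zero => exact ⟨[], repS_zero⟩
  | add a a' _ _ h1 h2 =>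
    obtain ⟨l, hl⟩ := h1
    obtain ⟨l', hl'⟩ := h2
    exact ⟨l ++ l', repS_add hl hl'⟩
  | mem a ha =>
    obtain ⟨w, rfl⟩ := ha
    exact ⟨_, repS_word w⟩

theorem codes_a (w : List (Fin n × Bool)) : codes (w.map (Gen.a : _ → Gen σ n)) = codeW w := by
  simp only [codes, codeW, List.map_map]
  refine List.map_congr_left fun p _ => ?_
  simp only [Function.comp, jc0_a]
  omega

theorem word_a {R : Type} [Ring R] (x : Gen σ n → R) (w : List (Fin n × Bool)) :
    word x (w.map Gen.a) = aw x w := by
  simp only [word, aw, List.map_map]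
  rfl

/-- The string of a group relator. -/
def gStr (triv : List (Fin n × Bool) → Bool) (w : List (Fin n × Bool)) : List ℕ :=
  if triv w then 0 :: (codeW w ++ [0, 0]) else 0 :: (qs ++ codeW w ++ qs ++ [0])

theorem gStr_spec (M : Mach σ n) (hM : M.jc = jc0) {G : Type} [Group G] (s : Fin n → G)
    (triv : List (Fin n × Bool) → Bool) (htriv : ∀ w, triv w = true ↔ wordVal s w = 1)
    (w : List (Fin n × Bool)) :
    ValidS σ n (gStr triv w) ∧ Vpre σ n (gStr triv w) = relG (fx σ n) M s w := by
  unfold gStr relG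
  by_cases hw : triv w = true
  · rw [if_pos hw, if_pos ((htriv w).1 hw)]
    have h := repS_add (repS_word (σ := σ) (w.map Gen.a)) (repS_word (σ := σ) (n := n) [])
    have e : codes (w.map (Gen.a : _ → Gen σ n)) ++ [0] ++ (codes ([] : List (Gen σ n)) ++ [0]) =
        codeW w ++ [0, 0] := by
      rw [codes_a]
      simp [codes]
    rw [e] at h
    refine ⟨validS_zero h.1, ?_⟩
    rw [h.eq, word_a, fa_sub]
    rfl
  · rw [if_neg hw, if_neg (fun h => hw ((htriv w).2 h))]
    have h := repS_word (σ := σ) ((phW (.S : Gen σ n) ++ phW .T) ++ w.map Gen.a ++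
      (phW (.S : Gen σ n) ++ phW .T))
    rw [codes_append, codes_append, codes_qW, codes_a] at h
    refine ⟨validS_zero h.1, ?_⟩
    rw [h.eq, word_append, word_append, word_qW M hM, word_a]

end Vale.Agent.P193.MachAux
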