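import Vale.Agent.P193.MachineAuxA

/-! Task C8, part B: the signature and the machine attached to a counter machine. -/

namespace Vale.Agent.P193.MachAux

/-- The stacks. -/
inductive Stk (nr : ℕ) : Type
  | H
  | K
  | I
  | U
  | C
  | M
  | reg (r : Fin nr)

/-- The control symbols. -/
inductive Ctl (nq : ℕ) : Type
  | start
  | init
  | st (q : Fin nq)

/-- The output modes. -/
inductive Md : Type
  | pre
  | mid
  | post

/-- The history symbols. -/
inductive Th (N : CM) : Type
  | idle
  | noop
  | poison
  | wind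
  | cI (b : Bool)
  | cU
  | cC (c : Ctl N.nq)
  | cM (μ : Md)
  | cR (r : Fin N.nr)
  | cK (b : Bool)
  | go
  | load
  | ins (i : Fin N.ni)
  | fin

instance (nr : ℕ) : Finite (Stk nr) := by
  let f : Fin 6 ⊕ Fin nr → Stk nr := fun z =>
    match z with
    | .inl j => if j = 0 then .H else if j = 1 then .K else if j = 2 then .I else if j = 3 then .U
        else if j = 4 then .C else .M
    | .inr r => .reg r
  refine Finite.of_surjective f ?_
  intro y
  cases y with
  | H => exact ⟨.inl 0, rfl⟩
  | K => exact ⟨.inl 1, rfl⟩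
  | I => exact ⟨.inl 2, rfl⟩
  | U => exact ⟨.inl 3, rfl⟩
  | C => exact ⟨.inl 4, rfl⟩
  | M => exact ⟨.inl 5, rfl⟩
  | reg r => exact ⟨.inr r, rfl⟩

instance (nq : ℕ) : Finite (Ctl nq) := by
  let f : Bool ⊕ Fin nq → Ctl nq := fun z =>
    match z with
    | .inl true => .start
    | .inl false => .init
    | .inr q => .st q
  refine Finite.of_surjective f ?_
  intro y
  cases y with
  | start => exact ⟨.inl true, rfl⟩
  | init => exact ⟨.inl false, rfl⟩
  | st q => exact ⟨.inr q, rfl⟩

instance : Finite Md := by
  let f : Fin 3 → Md := fun j => if j = 0 then .pre else if j = 1 then .mid else .post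
  refine Finite.of_surjective f ?_
  intro y
  cases y with
  | pre => exact ⟨0, rfl⟩
  | mid => exact ⟨1, rfl⟩
  | post => exact ⟨2, rfl⟩

instance (N : CM) : Finite (Th N) := by
  let f : Fin 8 ⊕ Bool ⊕ Bool ⊕ Ctl N.nq ⊕ Md ⊕ Fin N.nr ⊕ Fin N.ni → Th N := fun z =>
    match z with
    | .inl j => if j = 0 then .idle else if j = 1 then .noop else if j = 2 then .poison
        else if j = 3 then .wind else if j = 4 then .cU else if j = 5 then .go
        else if j = 6 then .load else .fin
    | .inr (.inl b) => .cI b
    | .inr (.inr (.inl b)) => .cK b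
    | .inr (.inr (.inr (.inl c))) => .cC c
    | .inr (.inr (.inr (.inr (.inl μ)))) => .cM μ
    | .inr (.inr (.inr (.inr (.inr (.inl r))))) => .cR r
    | .inr (.inr (.inr (.inr (.inr (.inr i))))) => .ins i
  refine Finite.of_surjective f ?_
  intro y
  cases y with
  | idle => exact ⟨.inl 0, rfl⟩
  | noop => exact ⟨.inl 1, rfl⟩
  | poison => exact ⟨.inl 2, rfl⟩
  | wind => exact ⟨.inl 3, rfl⟩
  | cU => exact ⟨.inl 4, rfl⟩
  | go => exact ⟨.inl 5, rfl⟩
  | load => exact ⟨.inl 6, rfl⟩
  | fin => exact ⟨.inl 7, rfl⟩
  | cI b => exact ⟨.inr (.inl b), rfl⟩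
  | cK b => exact ⟨.inr (.inr (.inl b)), rfl⟩
  | cC c => exact ⟨.inr (.inr (.inr (.inl c))), rfl⟩
  | cM μ => exact ⟨.inr (.inr (.inr (.inr (.inl μ)))), rfl⟩
  | cR r => exact ⟨.inr (.inr (.inr (.inr (.inr (.inl r))))), rfl⟩
  | ins i => exact ⟨.inr (.inr (.inr (.inr (.inr (.inr i))))), rfl⟩

/-- The alphabets. -/
def Gam (N : CM) : Stk N.nr → Type
  | .H => Th N
  | .K => Bool
  | .I => Bool
  | .U => Unit
  | .C => Ctl N.nq
  | .M => Md
  | .reg _ => Unit

theorem Gam_finite (N : CM) (i : Stk N.nr) : Finite (Gam N i) := by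
  cases i with
  | H => exact inferInstanceAs (Finite (Th N))
  | K => exact inferInstanceAs (Finite Bool)
  | I => exact inferInstanceAs (Finite Bool)
  | U => exact inferInstanceAs (Finite Unit)
  | C => exact inferInstanceAs (Finite (Ctl N.nq))
  | M => exact inferInstanceAs (Finite Md)
  | reg r => exact inferInstanceAs (Finite Unit)

/-- The signature attached to a counter machine. -/
noncomputable def sigOf (N : CM) : Sig where
  ι := Stk N.nr
  Γ := Gam N
  fι := Fintype.ofFinite _
  dι := Classical.decEq _
  fΓ := fun i => @Fintype.ofFinite _ (Gam_finite N i)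
  dΓ := fun _ => Classical.decEq _
  H := .H
  K := .K
  I := .I
  U := .U
  C := .C
  hHK := by intro h; cases h
  hHI := by intro h; cases h
  hHU := by intro h; cases h
  hHC := by intro h; cases h
  hKI := by intro h; cases h
  hKU := by intro h; cases h
  hKC := by intro h; cases h
  hIU := by intro h; cases h
  tick := true
  zero := false
  tick_ne := by intro h; cases h
  k_cases := by
    intro b
    cases b
    · exact Or.inr rfl
    · exact Or.inl rfl
  i0 := false
  i1 := true
  i_ne := by intro h; cases h
  u := ()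
  u_eq := fun _ => rfl
  start := Ctl.start

variable {N : CM} {n : ℕ}

/-- Push on the control stack. -/
def puC (c : Ctl N.nq) : BOp (sigOf N) := .push Stk.C c

/-- Pop from the control stack. -/
def poC (c : Ctl N.nq) : BOp (sigOf N) := .pop Stk.C c

/-- Test the control stack. -/
def teC (N : CM) : BOp (sigOf N) := .test Stk.C

/-- Push on the mode stack. -/
def puM (μ : Md) : BOp (sigOf N) := .push Stk.M μ

/-- Pop from the mode stack. -/
def poM (μ : Md) : BOp (sigOf N) := .pop Stk.M μ

/-- Test the mode stack. -/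
def teM (N : CM) : BOp (sigOf N) := .test Stk.M

/-- Increment a register. -/
def puR (r : Fin N.nr) : BOp (sigOf N) := .push (Stk.reg r) ()

/-- Decrement a register. -/
def poR (r : Fin N.nr) : BOp (sigOf N) := .pop (Stk.reg r) ()

/-- Test a register. -/
def teR (r : Fin N.nr) : BOp (sigOf N) := .test (Stk.reg r)

/-- The generator written by an output letter. -/
noncomputable def letG (N : CM) (n : ℕ) (a : Fin 4) : Gen (sigOf N) n :=
  if a = 1 then .Z else if a = 2 then .push (sigOf N).I (sigOf N).i0
  else .push (sigOf N).I (sigOf N).i1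

/-- The mode moves of an output letter. -/
noncomputable def moves (N : CM) (n : ℕ) (a : Fin 4) : List (Option (Gen (sigOf N) n) × Md × Md) :=
  if a = 0 then
    [(none, .pre, .pre), (none, .pre, .mid), (none, .mid, .post), (none, .post, .post)]
  else [(none, .pre, .pre), (some (letG N n a), .mid, .mid), (none, .post, .post)]

/-- The branches of an instruction, without the control part. -/
noncomputable def opBr (N : CM) (n : ℕ) : Op N.nr → List (Option (Gen (sigOf N) n) × List (BOp (sigOf N)))
  | .inc r => [(none, [puR r])]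
  | .dec r => [(none, [poR r])]
  | .zero r => [(none, [teR r])]
  | .nop => [(none, [])]
  | .emit a => (moves N n a).map fun z => (z.1, [poM z.2.1, puM z.2.2])

/-- The branches of all history symbols. -/
noncomputable def brOf (N : CM) (n e : ℕ) : Th N → List (Branch (sigOf N) n)
  | .idle => [⟨none, .tick, []⟩]
  | .noop => [⟨none, .cheat0, []⟩]
  | .poison => [⟨none, .poison, []⟩]
  | .wind => [⟨none, .wind, [poC .start, puC .start]⟩]
  | .cI b => [⟨none, .cheat0, [.pop Stk.I b]⟩]
  | .cU => [⟨none, .cheat0, [.pop Stk.U ()]⟩]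
  | .cC c => [⟨none, .cheat0, [.pop Stk.C c]⟩]
  | .cM μ => [⟨none, .cheat0, [.pop Stk.M μ]⟩]
  | .cR r => [⟨none, .cheat0, [.pop (Stk.reg r) ()]⟩]
  | .cK b => [⟨none, .cheatK b, []⟩]
  | .go => [⟨none, .tick, [poC .start, teC N, puC .init, teM N, puM .pre] ++
      (List.finRange N.nr).map teR⟩]
  | .load => [⟨none, .tick, [poC .init, puC (.st N.q0)] ++ List.replicate e (puR N.r0)⟩]
  | .ins i => (opBr N n (N.op i)).map fun z =>
      ⟨z.1, .tick, [poC (.st (N.src i)), puC (.st (N.dst i))] ++ z.2⟩
  | .fin => [⟨none, .tick, [poC (.st N.qf), poM .post]⟩]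

/-- The cheating pop symbols. -/
def cpopOf (N : CM) : ∀ i : Stk N.nr, i ≠ Stk.H → i ≠ Stk.K → Gam N i → Th N
  | .H, h, _, _ => absurd rfl h
  | .K, _, h, _ => absurd rfl h
  | .I, _, _, b => .cI b
  | .U, _, _, _ => .cU
  | .C, _, _, c => .cC c
  | .M, _, _, μ => .cM μ
  | .reg r, _, _, _ => .cR r

/-- An operation on a work stack. -/
def WorkOp (o : BOp (sigOf N)) : Prop := o.stk ≠ (sigOf N).H ∧ o.stk ≠ (sigOf N).K

theorem work_of_stk {o : BOp (sigOf N)} {i : Stk N.nr} (h : o.stk = i) (h1 : i ≠ Stk.H)
    (h2 : i ≠ Stk.K) : WorkOp o := by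
  unfold WorkOp
  rw [h]
  exact ⟨h1, h2⟩

theorem work_puC (c : Ctl N.nq) : WorkOp (puC c) := work_of_stk (i := Stk.C) rfl (by simp) (by simp)
theorem work_poC (c : Ctl N.nq) : WorkOp (poC c) := work_of_stk (i := Stk.C) rfl (by simp) (by simp)
theorem work_teC : WorkOp (teC N) := work_of_stk (i := Stk.C) rfl (by simp) (by simp)
theorem work_puM (c : Md) : WorkOp (puM (N := N) c) :=
  work_of_stk (i := Stk.M) rfl (by simp) (by simp)
theorem work_poM (c : Md) : WorkOp (poM (N := N) c) :=
  work_of_stk (i := Stk.M) rfl (by simp) (by simp)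
theorem work_teM : WorkOp (teM N) := work_of_stk (i := Stk.M) rfl (by simp) (by simp)
theorem work_puR (r : Fin N.nr) : WorkOp (puR r) :=
  work_of_stk (i := Stk.reg r) rfl (by simp) (by simp)
theorem work_poR (r : Fin N.nr) : WorkOp (poR r) :=
  work_of_stk (i := Stk.reg r) rfl (by simp) (by simp)
theorem work_teR (r : Fin N.nr) : WorkOp (teR r) :=
  work_of_stk (i := Stk.reg r) rfl (by simp) (by simp)

theorem opBr_work (op : Op N.nr) : ∀ z ∈ opBr N n op, ∀ o ∈ z.2, WorkOp o := by
  intro z hz o ho
  cases op with
  | emit a =>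
    obtain ⟨t, -, rfl⟩ := List.mem_map.1 hz
    simp only [List.mem_cons, List.not_mem_nil, or_false] at ho
    rcases ho with rfl | rfl
    · exact work_poM _
    · exact work_puM _
  | inc r =>
    simp only [opBr, List.mem_singleton] at hz
    subst hz
    rw [List.mem_singleton.1 ho]
    exact work_puR _
  | dec r =>
    simp only [opBr, List.mem_singleton] at hz
    subst hz
    rw [List.mem_singleton.1 ho]
    exact work_poR _
  | zero r =>
    simp only [opBr, List.mem_singleton] at hz
    subst hz
    rw [List.mem_singleton.1 ho]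
    exact work_teR _
  | nop =>
    simp only [opBr, List.mem_singleton] at hz
    subst hz
    simp at ho

theorem brOf_work (e : ℕ) (τ : Th N) : ∀ b ∈ brOf N n e τ, ∀ o ∈ b.ops, WorkOp o := by
  intro b hb o ho
  cases τ with
  | ins i =>
    obtain ⟨z, hz, rfl⟩ := List.mem_map.1 hb
    simp only [List.cons_append, List.nil_append, List.mem_cons] at ho
    rcases ho with rfl | rfl | ho
    · exact work_poC _
    · exact work_puC _
    · exact opBr_work _ z hz o ho
  | go =>
    rw [List.mem_singleton.1 hb] at ho
    simp only [List.cons_append, List.nil_append, List.mem_cons, List.mem_map] at ho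
    rcases ho with rfl | rfl | rfl | rfl | rfl | ⟨r, -, rfl⟩
    · exact work_poC _
    · exact work_teC
    · exact work_puC _
    · exact work_teM
    · exact work_puM _
    · exact work_teR _
  | load =>
    rw [List.mem_singleton.1 hb] at ho
    simp only [List.cons_append, List.nil_append, List.mem_cons, List.mem_replicate] at ho
    rcases ho with rfl | rfl | ⟨-, rfl⟩
    · exact work_poC _
    · exact work_puC _
    · exact work_puR _
  | fin =>
    rw [List.mem_singleton.1 hb] at ho
    simp only [List.mem_cons, List.not_mem_nil, or_false] at ho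
    rcases ho with rfl | rfl
    · exact work_poC _
    · exact work_poM _
  | wind =>
    rw [List.mem_singleton.1 hb] at ho
    simp only [List.mem_cons, List.not_mem_nil, or_false] at ho
    rcases ho with rfl | rfl
    · exact work_poC _
    · exact work_puC _
  | idle => rw [List.mem_singleton.1 hb] at ho; simp at ho
  | noop => rw [List.mem_singleton.1 hb] at ho; simp at ho
  | poison => rw [List.mem_singleton.1 hb] at ho; simp at ho
  | cK b => rw [List.mem_singleton.1 hb] at ho; simp at ho
  | cI b =>
    rw [List.mem_singleton.1 hb] at ho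
    rw [List.mem_singleton.1 ho]
    exact work_of_stk (i := Stk.I) rfl (by simp) (by simp)
  | cU =>
    rw [List.mem_singleton.1 hb] at ho
    rw [List.mem_singleton.1 ho]
    exact work_of_stk (i := Stk.U) rfl (by simp) (by simp)
  | cC c =>
    rw [List.mem_singleton.1 hb] at ho
    rw [List.mem_singleton.1 ho]
    exact work_of_stk (i := Stk.C) rfl (by simp) (by simp)
  | cM μ =>
    rw [List.mem_singleton.1 hb] at ho
    rw [List.mem_singleton.1 ho]
    exact work_of_stk (i := Stk.M) rfl (by simp) (by simp)
  | cR r =>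
    rw [List.mem_singleton.1 hb] at ho
    rw [List.mem_singleton.1 ho]
    exact work_of_stk (i := Stk.reg r) rfl (by simp) (by simp)

theorem brOf_wind (e : ℕ) (τ : Th N) :
    ∀ b ∈ brOf N n e τ, b.kop = .wind → b.ops = [poC .start, puC .start] := by
  intro b hb hk
  cases τ with
  | ins i =>
    obtain ⟨z, -, rfl⟩ := List.mem_map.1 hb
    cases hk
  | wind => rw [List.mem_singleton.1 hb]
  | _ =>
    rw [List.mem_singleton.1 hb] at hk
    cases hk

/-- The machine with parameter `e`. -/
noncomputable def machOf (N : CM) (n e : ℕ) : Mach (sigOf N) n where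
  br := brOf N n e
  jc := jc0
  jc_inj := jc0_inj
  ops_ne := brOf_work e
  wind_ops := brOf_wind e
  idle := Th.idle
  noop := Th.noop
  poison := Th.poison
  wind := Th.wind
  cpop := cpopOf N
  cpopK := Th.cK
  br_idle := rfl
  br_noop := rfl
  br_poison := rfl
  br_wind := rfl
  br_cpop := by
    intro i h1 h2 b
    cases i with
    | H => exact absurd rfl h1
    | K => exact absurd rfl h2
    | _ => rfl
  br_cpopK := fun _ => rfl

end Vale.Agent.P193.MachAux
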