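import Vale.Agent.P193.MachineAuxB

/-! Task C8, part C: single operations on explicit configurations. -/

namespace Vale.Agent.P193.MachAux

variable {N : CM} {n : ℕ}

/-- Explicit configurations, as a dependent function on the stacks. -/
def mk0 (j : ℕ) (i : List Bool) (u : List Unit) (c : List (Ctl N.nq)) (m : List Md)
    (ρ : Fin N.nr → ℕ) : ∀ s : Stk N.nr, List (Gam N s)
  | .H => ([] : List (Th N))
  | .K => List.replicate j true
  | .I => i
  | .U => u
  | .C => c
  | .M => m
  | .reg r => List.replicate (ρ r) ()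

/-- Explicit configurations with empty history and pure clock. -/
def mk (j : ℕ) (i : List Bool) (u : List Unit) (c : List (Ctl N.nq)) (m : List Md)
    (ρ : Fin N.nr → ℕ) : Cfg (sigOf N) := mk0 j i u c m ρ

variable (j : ℕ) (i : List Bool) (u : List Unit) (c : List (Ctl N.nq)) (m : List Md)
  (ρ : Fin N.nr → ℕ)

theorem upd_K (j' : ℕ) :
    Function.update (mk j i u c m ρ) (sigOf N).K (List.replicate j' true) = mk j' i u c m ρ := by
  refine Function.update_eq_iff.2 ⟨rfl, fun s hs => ?_⟩
  cases s with
  | K => exact absurd rfl hs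
  | _ => rfl

theorem upd_C (c' : List (Ctl N.nq)) :
    Function.update (mk j i u c m ρ) Stk.C c' = mk j i u c' m ρ := by
  refine Function.update_eq_iff.2 ⟨rfl, fun s hs => ?_⟩
  cases s with
  | C => exact absurd rfl hs
  | _ => rfl

theorem upd_M (m' : List Md) :
    Function.update (mk j i u c m ρ) Stk.M m' = mk j i u c m' ρ := by
  refine Function.update_eq_iff.2 ⟨rfl, fun s hs => ?_⟩
  cases s with
  | M => exact absurd rfl hs
  | _ => rfl

theorem upd_R (r : Fin N.nr) (k : ℕ) :
    Function.update (mk j i u c m ρ) (Stk.reg r) (List.replicate k ()) =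
      mk j i u c m (Function.update ρ r k) := by
  refine Function.update_eq_iff.2 ⟨?_, fun s hs => ?_⟩
  · change List.replicate k () = List.replicate (Function.update ρ r k r) ()
    rw [Function.update_self]
  · cases s with
    | reg r' =>
      have hr : r' ≠ r := fun h => hs (by rw [h])
      change List.replicate (ρ r') () = List.replicate (Function.update ρ r k r') ()
      rw [Function.update_of_ne hr]
    | _ => rfl

section Gen

variable {σ : Sig}

theorem act_pop_nil {w : Cfg σ} {s : σ.ι} (b : σ.Γ s) (h : w s = []) :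
    (BOp.pop s b).act w = none := by
  simp only [BOp.act, h]

theorem act_pop_eq {w : Cfg σ} {s : σ.ι} (b : σ.Γ s) {l : List (σ.Γ s)} (h : w s = b :: l) :
    (BOp.pop s b).act w = some (Function.update w s l) := by
  simp only [BOp.act, h, if_true]

theorem act_pop_ne {w : Cfg σ} {s : σ.ι} (b : σ.Γ s) {b' : σ.Γ s} {l : List (σ.Γ s)}
    (h : w s = b' :: l) (hb : b' ≠ b) : (BOp.pop s b).act w = none := by
  simp only [BOp.act, h, if_neg hb]

theorem act_test_nil {w : Cfg σ} {s : σ.ι} (h : w s = []) : (BOp.test s).act w = some w := by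
  simp only [BOp.act, h, if_true]

theorem act_test_ne {w : Cfg σ} {s : σ.ι} (h : w s ≠ []) : (BOp.test s).act w = none := by
  simp only [BOp.act, if_neg h]

theorem ops_none {o : BOp σ} {os : List (BOp σ)} {w : Cfg σ} (h : o.act w = none) :
    opsAct (o :: os) w = none := by
  simp only [opsAct, h, Option.bind_none]

theorem ops_some {o : BOp σ} {os : List (BOp σ)} {w w' : Cfg σ} (h : o.act w = some w') :
    opsAct (o :: os) w = opsAct os w' := by
  simp only [opsAct, h, Option.bind_some]

end Gen

theorem a_tick_zero :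
    (BOp.pop (sigOf N).K (sigOf N).tick).act (mk 0 i u c m ρ) = none := act_pop_nil _ rfl

theorem a_tick_succ :
    (BOp.pop (sigOf N).K (sigOf N).tick).act (mk (j + 1) i u c m ρ) = some (mk j i u c m ρ) := by
  rw [act_pop_eq (l := List.replicate j true) _ rfl, upd_K]

theorem a_zero : (BOp.pop (sigOf N).K (sigOf N).zero).act (mk j i u c m ρ) = none := by
  cases j with
  | zero => exact act_pop_nil _ rfl
  | succ j => exact act_pop_ne (b' := true) (l := List.replicate j true) _ rfl (by intro h; cases h)

theorem a_wind :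
    (BOp.push (sigOf N).K (sigOf N).tick).act (mk j i u c m ρ) = some (mk (j + 1) i u c m ρ) :=
  congrArg some (upd_K j i u c m ρ (j + 1))

theorem a_puC (b : Ctl N.nq) : (puC b).act (mk j i u c m ρ) = some (mk j i u (b :: c) m ρ) :=
  congrArg some (upd_C j i u c m ρ (b :: c))

theorem a_poC_eq (b : Ctl N.nq) :
    (poC b).act (mk j i u (b :: c) m ρ) = some (mk j i u c m ρ) :=
  (act_pop_eq (σ := sigOf N) (w := mk j i u (b :: c) m ρ) (s := Stk.C) (l := c) b rfl).trans
    (congrArg some (upd_C j i u (b :: c) m ρ c))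

theorem a_poC_ne (b : Ctl N.nq) (h : c.head? ≠ some b) : (poC b).act (mk j i u c m ρ) = none := by
  cases c with
  | nil => exact act_pop_nil _ rfl
  | cons b' c =>
    exact act_pop_ne (σ := sigOf N) (s := Stk.C) (b' := b') (l := c) _ rfl
      (fun e => h (congrArg some e))

theorem a_teC_nil : (teC N).act (mk j i u [] m ρ) = some (mk j i u [] m ρ) := act_test_nil rfl

theorem a_teC_ne (h : c ≠ []) : (teC N).act (mk j i u c m ρ) = none := act_test_ne h

theorem a_puM (b : Md) : (puM b).act (mk j i u c m ρ) = some (mk j i u c (b :: m) ρ) :=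
  congrArg some (upd_M j i u c m ρ (b :: m))

theorem a_poM_eq (b : Md) :
    (poM b).act (mk j i u c (b :: m) ρ) = some (mk j i u c m ρ) :=
  (act_pop_eq (σ := sigOf N) (w := mk j i u c (b :: m) ρ) (s := Stk.M) (l := m) b rfl).trans
    (congrArg some (upd_M j i u c (b :: m) ρ m))

theorem a_poM_ne (b b' : Md) (h : b' ≠ b) : (poM b).act (mk j i u c (b' :: m) ρ) = none :=
  act_pop_ne (σ := sigOf N) (s := Stk.M) (b' := b') (l := m) _ rfl h

theorem a_teM_nil : (teM N).act (mk j i u c [] ρ) = some (mk j i u c [] ρ) := act_test_nil rfl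

theorem a_teM_ne (h : m ≠ []) : (teM N).act (mk j i u c m ρ) = none := act_test_ne h

theorem a_puR (r : Fin N.nr) :
    (puR r).act (mk j i u c m ρ) = some (mk j i u c m (Function.update ρ r (ρ r + 1))) :=
  congrArg some (upd_R j i u c m ρ r (ρ r + 1))

theorem a_poR_zero (r : Fin N.nr) (h : ρ r = 0) : (poR r).act (mk j i u c m ρ) = none := by
  refine act_pop_nil _ ?_
  change List.replicate (ρ r) () = []
  rw [h]
  rfl

theorem a_poR_ne (r : Fin N.nr) (h : ρ r ≠ 0) :
    (poR r).act (mk j i u c m ρ) = some (mk j i u c m (Function.update ρ r (ρ r - 1))) := by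
  refine (act_pop_eq (σ := sigOf N) (w := mk j i u c m ρ) (s := Stk.reg r)
    (l := List.replicate (ρ r - 1) ()) () ?_).trans (congrArg some (upd_R j i u c m ρ r (ρ r - 1)))
  change List.replicate (ρ r) () = List.replicate (ρ r - 1 + 1) ()
  congr 1
  omega

theorem a_teR_zero (r : Fin N.nr) (h : ρ r = 0) :
    (teR r).act (mk j i u c m ρ) = some (mk j i u c m ρ) := by
  refine act_test_nil ?_
  change List.replicate (ρ r) () = []
  rw [h]
  rfl

theorem a_teR_ne (r : Fin N.nr) (h : ρ r ≠ 0) : (teR r).act (mk j i u c m ρ) = none := by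
  refine act_test_ne ?_
  change List.replicate (ρ r) () ≠ []
  simpa using h

theorem ops_teR_zero (L : List (Fin N.nr)) (h : ∀ r ∈ L, ρ r = 0) :
    opsAct (L.map teR) (mk j i u c m ρ) = some (mk j i u c m ρ) := by
  induction L with
  | nil => rfl
  | cons r L ih =>
    rw [List.map_cons, ops_some (a_teR_zero j i u c m ρ r (h r List.mem_cons_self))]
    exact ih fun r' hr' => h r' (List.mem_cons_of_mem _ hr')

theorem ops_teR_ne (L : List (Fin N.nr)) (h : ¬ ∀ r ∈ L, ρ r = 0) :
    opsAct (L.map teR) (mk j i u c m ρ) = none := by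
  induction L with
  | nil => simp at h
  | cons r L ih =>
    by_cases hr : ρ r = 0
    · rw [List.map_cons, ops_some (a_teR_zero j i u c m ρ r hr)]
      refine ih fun h' => h fun r' hr' => ?_
      rcases List.mem_cons.1 hr' with rfl | hr'
      · exact hr
      · exact h' r' hr'
    · rw [List.map_cons, ops_none (a_teR_ne j i u c m ρ r hr)]

theorem ops_rep_puR (r : Fin N.nr) (e : ℕ) :
    opsAct (List.replicate e (puR r)) (mk j i u c m ρ) =
      some (mk j i u c m (Function.update ρ r (ρ r + e))) := by
  induction e generalizing ρ with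
  | zero => simp [opsAct]
  | succ e ih =>
    rw [List.replicate_succ, ops_some (a_puR j i u c m ρ r), ih, Function.update_idem,
      Function.update_self, Nat.add_assoc, Nat.add_comm 1 e]

theorem mk_eq_nil {j : ℕ} {i : List Bool} {u : List Unit} {c : List (Ctl N.nq)} {m : List Md}
    {ρ : Fin N.nr → ℕ} (h : mk j i u c m ρ = Cfg.nil (sigOf N)) : c = [] ∧ ρ = fun _ => 0 := by
  refine ⟨congrFun h Stk.C, funext fun r => ?_⟩
  have h1 : List.replicate (ρ r) () = [] := congrFun h (Stk.reg r)
  simpa using h1

theorem mk_nil : mk 0 [] [] [] [] (fun _ : Fin N.nr => 0) = Cfg.nil (sigOf N) := by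
  funext s
  cases s <;> rfl

theorem exists_mk (w : Cfg (sigOf N)) (hH : w (sigOf N).H = []) (hK : w (sigOf N).K = []) :
    w = mk 0 (w Stk.I) (w Stk.U) (w Stk.C) (w Stk.M) fun r => (w (Stk.reg r)).length := by
  funext s
  cases s with
  | H => exact hH
  | K => exact hK
  | reg r => exact List.eq_replicate_length.2 fun b _ => rfl
  | _ => rfl

end Vale.Agent.P193.MachAux
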