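import Vale.Agent.P193.MachineAuxC

/-! Task C8, part D: one step of the evaluation. -/

namespace Vale.Agent.P193.MachAux

section Gen

variable {σ : Sig} {n : ℕ} {R : Type} [Ring R] (x : Gen σ n → R) (M : Mach σ n)

/-- The contribution of one branch. -/
def brv (h : List (σ.Γ σ.H)) (w : Cfg σ) (b : Branch σ n) : R :=
  (opsAct b.all w).elim 0 fun w' => b.mv x * val x M h w'

theorem val_cons (τ : σ.Γ σ.H) (h : List (σ.Γ σ.H)) (w : Cfg σ) :
    val x M (τ :: h) w = ((M.br τ).map (brv x M h w)).sum := by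
  unfold val
  rw [Ev]
  congr 1
  refine List.map_congr_left fun b _ => ?_
  unfold brv
  cases opsAct b.all w <;> rfl

theorem brv_none {h : List (σ.Γ σ.H)} {w : Cfg σ} {b : Branch σ n} (hb : opsAct b.all w = none) :
    brv x M h w b = 0 := by
  unfold brv
  rw [hb]
  rfl

theorem brv_some {h : List (σ.Γ σ.H)} {w w' : Cfg σ} {b : Branch σ n}
    (hb : opsAct b.all w = some w') : brv x M h w b = b.mv x * val x M h w' := by
  unfold brv
  rw [hb]
  rfl

theorem val_cons_zero {τ : σ.Γ σ.H} (h : List (σ.Γ σ.H)) {w : Cfg σ}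
    (hb : ∀ b ∈ M.br τ, opsAct b.all w = none) : val x M (τ :: h) w = 0 := by
  rw [val_cons]
  refine List.sum_eq_zero fun r hr => ?_
  obtain ⟨b, hb', rfl⟩ := List.mem_map.1 hr
  exact brv_none x M (hb b hb')

theorem val_cons_one {τ : σ.Γ σ.H} (h : List (σ.Γ σ.H)) {w w' : Cfg σ} {k : KOp σ}
    {os : List (BOp σ)} (hτ : M.br τ = [⟨none, k, os⟩]) (hb : opsAct (k.ops ++ os) w = some w') :
    val x M (τ :: h) w = val x M h w' := by
  rw [val_cons, hτ, List.map_singleton, List.sum_singleton,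
    brv_some x M (b := ⟨none, k, os⟩) hb]
  exact one_mul _

theorem val_cons_none {τ : σ.Γ σ.H} (h : List (σ.Γ σ.H)) {w : Cfg σ} {k : KOp σ}
    {os : List (BOp σ)} (hτ : M.br τ = [⟨none, k, os⟩]) (hb : opsAct (k.ops ++ os) w = none) :
    val x M (τ :: h) w = 0 := by
  refine val_cons_zero x M h fun b hb' => ?_
  rw [hτ, List.mem_singleton] at hb'
  rw [hb']
  exact hb

theorem val_nil (w : Cfg σ) : val x M [] w = if w = Cfg.nil σ then 1 else 0 := rfl

end Gen

variable {N : CM} {n : ℕ} (e : ℕ)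

/-- The value of a history for the machine with parameter `e`. -/
noncomputable def vl (n e : ℕ) (h : List (Th N)) (w : Cfg (sigOf N)) : FA (sigOf N) n :=
  val (fx (sigOf N) n) (machOf N n e) h w

theorem vl_one {τ : Th N} (h : List (Th N)) {w w' : Cfg (sigOf N)} (k : KOp (sigOf N))
    (os : List (BOp (sigOf N))) (hτ : brOf N n e τ = [⟨none, k, os⟩])
    (hb : opsAct (k.ops ++ os) w = some w') : vl n e (τ :: h) w = vl n e h w' :=
  val_cons_one (fx (sigOf N) n) (machOf N n e) (τ := τ) h hτ hb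

theorem vl_none {τ : Th N} (h : List (Th N)) {w : Cfg (sigOf N)} (k : KOp (sigOf N))
    (os : List (BOp (sigOf N))) (hτ : brOf N n e τ = [⟨none, k, os⟩])
    (hb : opsAct (k.ops ++ os) w = none) : vl n e (τ :: h) w = 0 :=
  val_cons_none (fx (sigOf N) n) (machOf N n e) (τ := τ) h hτ hb

theorem vl_zero {τ : Th N} (h : List (Th N)) {w : Cfg (sigOf N)}
    (hb : ∀ b ∈ brOf N n e τ, opsAct b.all w = none) : vl n e (τ :: h) w = 0 :=
  val_cons_zero (fx (sigOf N) n) (machOf N n e) (τ := τ) h hb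

theorem vl_cons (τ : Th N) (h : List (Th N)) (w : Cfg (sigOf N)) :
    vl n e (τ :: h) w = ((brOf N n e τ).map (brv (fx (sigOf N) n) (machOf N n e) h w)).sum :=
  val_cons (fx (sigOf N) n) (machOf N n e) τ h w

theorem vl_nil (w : Cfg (sigOf N)) : vl n e [] w = if w = Cfg.nil (sigOf N) then 1 else 0 := rfl

variable (h : List (Th N)) (j : ℕ) (i : List Bool) (u : List Unit) (c : List (Ctl N.nq))
  (m : List Md) (ρ : Fin N.nr → ℕ)

theorem tick_ops (os : List (BOp (sigOf N))) :
    opsAct ((KOp.tick : KOp (sigOf N)).ops ++ os) (mk (j + 1) i u c m ρ) =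
      opsAct os (mk j i u c m ρ) := ops_some (a_tick_succ j i u c m ρ)

theorem tick_ops_zero (os : List (BOp (sigOf N))) :
    opsAct ((KOp.tick : KOp (sigOf N)).ops ++ os) (mk 0 i u c m ρ) = none :=
  ops_none (a_tick_zero i u c m ρ)

theorem tick_ops_none {os : List (BOp (sigOf N))} (hos : ∀ j, opsAct os (mk j i u c m ρ) = none) :
    opsAct ((KOp.tick : KOp (sigOf N)).ops ++ os) (mk j i u c m ρ) = none := by
  cases j with
  | zero => exact tick_ops_zero i u c m ρ os
  | succ j => rw [tick_ops, hos]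

theorem v_nil (hc : c ≠ []) : vl n e [] (mk j i u c m ρ) = 0 := by
  rw [vl_nil, if_neg fun h => hc (mk_eq_nil h).1]

theorem v_idle_zero : vl n e (.idle :: h) (mk 0 i u c m ρ) = 0 :=
  vl_none e h .tick [] rfl (tick_ops_zero i u c m ρ _)

theorem v_idle : vl n e (.idle :: h) (mk (j + 1) i u c m ρ) = vl n e h (mk j i u c m ρ) :=
  vl_one e h .tick [] rfl (tick_ops j i u c m ρ _)

/-- The cheating symbols. -/
def Cheat : Th N → Prop
  | .noop => True
  | .poison => True
  | .cI _ => True
  | .cU => True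
  | .cC _ => True
  | .cM _ => True
  | .cR _ => True
  | .cK _ => True
  | _ => False

theorem v_cheat {τ : Th N} (hτ : Cheat τ) : vl n e (τ :: h) (mk j i u c m ρ) = 0 := by
  cases τ with
  | noop => exact vl_none e h .cheat0 _ rfl (ops_none (a_zero j i u c m ρ))
  | poison => exact vl_none e h .poison _ rfl (ops_none (a_zero j i u c m ρ))
  | cI b => exact vl_none e h .cheat0 _ rfl (ops_none (a_zero j i u c m ρ))
  | cU => exact vl_none e h .cheat0 _ rfl (ops_none (a_zero j i u c m ρ))
  | cC b => exact vl_none e h .cheat0 _ rfl (ops_none (a_zero j i u c m ρ))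
  | cM b => exact vl_none e h .cheat0 _ rfl (ops_none (a_zero j i u c m ρ))
  | cR b => exact vl_none e h .cheat0 _ rfl (ops_none (a_zero j i u c m ρ))
  | cK b => exact vl_none e h (.cheatK b) _ rfl (ops_none (a_zero j i u c m ρ))
  | _ => exact absurd hτ id

theorem v_wind : vl n e (.wind :: h) (mk j i u (.start :: c) m ρ) =
    vl n e h (mk (j + 1) i u (.start :: c) m ρ) := by
  refine vl_one e h .wind ([poC .start, puC .start]) rfl ?_
  refine (ops_some (a_wind j i u _ m ρ)).trans ?_
  refine (ops_some (a_poC_eq _ i u _ m ρ _)).trans ?_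
  exact ops_some (a_puC _ i u _ m ρ _)

theorem v_wind_ne (hc : c.head? ≠ some .start) : vl n e (.wind :: h) (mk j i u c m ρ) = 0 := by
  refine vl_none e h .wind ([poC .start, puC .start]) rfl ?_
  refine (ops_some (a_wind j i u _ m ρ)).trans ?_
  exact ops_none (a_poC_ne _ i u _ m ρ _ hc)

theorem v_go : vl n e (.go :: h) (mk (j + 1) i u ([.start] : List (Ctl N.nq)) [] fun _ => 0) =
    vl n e h (mk j i u [.init] [.pre] fun _ => 0) := by
  refine vl_one e h .tick ([poC .start, teC N, puC .init, teM N, puM .pre] ++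
      (List.finRange N.nr).map teR) rfl ?_
  rw [tick_ops]
  refine (ops_some (a_poC_eq _ i u _ _ _ _)).trans ?_
  refine (ops_some (a_teC_nil _ i u _ _)).trans ?_
  refine (ops_some (a_puC _ i u _ _ _ _)).trans ?_
  refine (ops_some (a_teM_nil _ i u _ _)).trans ?_
  refine (ops_some (a_puM _ i u _ _ _ _)).trans ?_
  exact ops_teR_zero _ i u _ _ _ _ fun _ _ => rfl

theorem v_go_ne (hc : ¬ (0 < j ∧ c = [.start] ∧ m = [] ∧ ρ = fun _ => 0)) :
    vl n e (.go :: h) (mk j i u c m ρ) = 0 := by
  refine vl_none e h .tick ([poC .start, teC N, puC .init, teM N, puM .pre] ++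
      (List.finRange N.nr).map teR) rfl ?_
  cases j with
  | zero => exact tick_ops_zero i u c m ρ _
  | succ j =>
    rw [tick_ops]
    by_cases h1 : c.head? = some .start
    · obtain ⟨c, rfl⟩ : ∃ c', c = .start :: c' := by
        cases c with
        | nil => simp at h1
        | cons b c' =>
          simp only [List.head?_cons, Option.some.injEq] at h1
          exact ⟨c', by rw [h1]⟩
      refine (ops_some (a_poC_eq _ i u _ _ _ _)).trans ?_
      by_cases h2 : c = []
      · subst h2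
        refine (ops_some (a_teC_nil _ i u _ _)).trans ?_
        refine (ops_some (a_puC _ i u _ _ _ _)).trans ?_
        by_cases h3 : m = []
        · subst h3
          refine (ops_some (a_teM_nil _ i u _ _)).trans ?_
          refine (ops_some (a_puM _ i u _ _ _ _)).trans ?_
          refine ops_teR_ne _ i u _ _ _ _ fun h4 => hc ⟨Nat.succ_pos _, rfl, rfl, ?_⟩
          funext r
          exact h4 r (List.mem_finRange r)
        · exact ops_none (a_teM_ne _ i u _ _ _ h3)
      · exact ops_none (a_teC_ne _ i u _ _ _ h2)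
    · exact ops_none (a_poC_ne _ i u _ m ρ _ h1)

theorem v_load : vl n e (.load :: h) (mk (j + 1) i u ([.init] : List (Ctl N.nq)) m fun _ => 0) =
    vl n e h (mk j i u [.st N.q0] m (Pi.single N.r0 e)) := by
  refine vl_one e h .tick
    ([poC .init, puC (.st N.q0)] ++ List.replicate e (puR N.r0)) rfl ?_
  rw [tick_ops]
  refine (ops_some (a_poC_eq _ i u _ _ _ _)).trans ?_
  refine (ops_some (a_puC _ i u _ _ _ _)).trans ?_
  refine (ops_rep_puR _ i u _ _ _ _ _).trans ?_
  rw [Nat.zero_add]
  rfl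

theorem v_load_zero : vl n e (.load :: h) (mk 0 i u c m ρ) = 0 :=
  vl_none e h .tick
    ([poC .init, puC (.st N.q0)] ++ List.replicate e (puR N.r0)) rfl
    (tick_ops_zero i u c m ρ _)

theorem v_load_ne (hc : c.head? ≠ some .init) : vl n e (.load :: h) (mk j i u c m ρ) = 0 :=
  vl_none e h .tick
    ([poC .init, puC (.st N.q0)] ++ List.replicate e (puR N.r0)) rfl
    (tick_ops_none j i u c m ρ fun _ => ops_none (a_poC_ne _ i u _ m ρ _ hc))

theorem v_fin : vl n e (.fin :: h) (mk (j + 1) i u [.st N.qf] [.post] ρ) =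
    vl n e h (mk j i u [] [] ρ) := by
  refine vl_one e h .tick ([poC (.st N.qf), poM .post]) rfl ?_
  rw [tick_ops]
  refine (ops_some (a_poC_eq _ i u _ _ _ _)).trans ?_
  exact ops_some (a_poM_eq _ i u _ _ _ _)

theorem v_fin_zero : vl n e (.fin :: h) (mk 0 i u c m ρ) = 0 :=
  vl_none e h .tick ([poC (.st N.qf), poM .post]) rfl
    (tick_ops_zero i u c m ρ _)

theorem v_fin_ne (hc : c.head? ≠ some (.st N.qf)) : vl n e (.fin :: h) (mk j i u c m ρ) = 0 :=
  vl_none e h .tick ([poC (.st N.qf), poM .post]) rfl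
    (tick_ops_none j i u c m ρ fun _ => ops_none (a_poC_ne _ i u _ m ρ _ hc))

theorem v_fin_md (μ : Md) (hμ : μ ≠ .post) :
    vl n e (.fin :: h) (mk j i u [.st N.qf] [μ] ρ) = 0 :=
  vl_none e h .tick ([poC (.st N.qf), poM .post]) rfl
    (tick_ops_none j i u _ _ ρ fun _ => (ops_some (a_poC_eq _ i u _ _ _ _)).trans
      (ops_none (a_poM_ne _ i u _ _ _ _ _ hμ)))

theorem v_ins_zero (k : Fin N.ni) : vl n e (.ins k :: h) (mk 0 i u c m ρ) = 0 := by
  refine vl_zero e h fun b hb => ?_
  obtain ⟨z, -, rfl⟩ := List.mem_map.1 hb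
  exact tick_ops_zero i u c m ρ _

theorem v_ins_ne (k : Fin N.ni) (hc : c.head? ≠ some (.st (N.src k))) :
    vl n e (.ins k :: h) (mk j i u c m ρ) = 0 := by
  refine vl_zero e h fun b hb => ?_
  obtain ⟨z, -, rfl⟩ := List.mem_map.1 hb
  exact tick_ops_none j i u c m ρ fun _ => ops_none (a_poC_ne _ i u _ m ρ _ hc)

/-- The output letter. -/
noncomputable def mvO (y : Option (Gen (sigOf N) n)) : FA (sigOf N) n :=
  y.elim 1 (fx (sigOf N) n)

/-- The contribution of one branch of an instruction. -/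
noncomputable def opv (n e : ℕ) (h : List (Th N)) (w : Cfg (sigOf N))
    (z : Option (Gen (sigOf N) n) × List (BOp (sigOf N))) : FA (sigOf N) n :=
  (opsAct z.2 w).elim 0 fun w' => mvO z.1 * vl n e h w'

theorem v_ins (k : Fin N.ni) : vl n e (.ins k :: h) (mk (j + 1) i u [.st (N.src k)] m ρ) =
    ((opBr N n (N.op k)).map (opv n e h (mk j i u [.st (N.dst k)] m ρ))).sum := by
  refine (vl_cons e (Th.ins k) h _).trans ?_
  change (((opBr N n (N.op k)).map fun z => (⟨z.1, .tick,
    [poC (.st (N.src k)), puC (.st (N.dst k))] ++ z.2⟩ : Branch (sigOf N) n)).map _).sum = _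
  rw [List.map_map]
  congr 1
  refine List.map_congr_left fun z _ => ?_
  have h1 : opsAct (⟨z.1, .tick, [poC (.st (N.src k)), puC (.st (N.dst k))] ++ z.2⟩ :
      Branch (sigOf N) n).all (mk (j + 1) i u [.st (N.src k)] m ρ) =
      opsAct z.2 (mk j i u [.st (N.dst k)] m ρ) := by
    refine (tick_ops j i u _ m ρ _).trans ?_
    refine (ops_some (a_poC_eq _ i u _ _ _ _)).trans ?_
    exact ops_some (a_puC _ i u _ _ _ _)
  simp only [Function.comp, brv, opv, h1]
  congr 1
  funext w'
  obtain ⟨y, os⟩ := z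
  cases y <;> rfl

theorem opv_none {w : Cfg (sigOf N)} {z : Option (Gen (sigOf N) n) × List (BOp (sigOf N))}
    (hz : opsAct z.2 w = none) : opv n e h w z = 0 := by
  unfold opv
  rw [hz]
  rfl

theorem opv_some {w w' : Cfg (sigOf N)} {z : Option (Gen (sigOf N) n) × List (BOp (sigOf N))}
    (hz : opsAct z.2 w = some w') : opv n e h w z = mvO z.1 * vl n e h w' := by
  unfold opv
  rw [hz]
  rfl

theorem opv_move_eq (y : Option (Gen (sigOf N) n)) (μ μ' : Md) :
    opv n e h (mk j i u c [μ] ρ) (y, [poM μ, puM μ']) = mvO y * vl n e h (mk j i u c [μ'] ρ) :=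
  opv_some e h ((ops_some (a_poM_eq _ i u _ _ _ _)).trans (ops_some (a_puM _ i u _ _ _ _)))

theorem opv_move_ne (y : Option (Gen (sigOf N) n)) {μ ν : Md} (μ' : Md) (hμ : μ ≠ ν) :
    opv n e h (mk j i u c [μ] ρ) (y, [poM ν, puM μ']) = 0 :=
  opv_none e h (ops_none (a_poM_ne _ i u _ _ _ _ _ hμ))

/-- The transfer of mode values along an output letter. -/
noncomputable def trL (a : Fin 4) (f : Md → FA (sigOf N) n) : Md → FA (sigOf N) n
  | .pre => if a = 0 then f .pre + f .mid else f .pre
  | .mid => if a = 0 then f .post else fx (sigOf N) n (letG N n a) * f .mid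
  | .post => f .post

/-- The transfer of mode values along an output word. -/
noncomputable def tr (o : List (Fin 4)) (f : Md → FA (sigOf N) n) : Md → FA (sigOf N) n :=
  o.foldr trL f

theorem mvO_none : mvO (none : Option (Gen (sigOf N) n)) = 1 := rfl

theorem mvO_some (y : Gen (sigOf N) n) : mvO (some y) = fx (sigOf N) n y := rfl

theorem op_act (op : Op N.nr) (o : List (Fin 4)) (ρ' : Fin N.nr → ℕ) (hop : op.Act ρ o ρ')
    (μ : Md) : ((opBr N n op).map (opv n e h (mk j i u c [μ] ρ))).sum =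
      tr o (fun μ' => vl n e h (mk j i u c [μ'] ρ')) μ := by
  cases op with
  | inc r =>
    obtain ⟨rfl, rfl⟩ := hop
    rw [opBr, List.map_singleton, List.sum_singleton,
      opv_some e h (ops_some (a_puR j i u c _ ρ r)), mvO_none, one_mul]
    rfl
  | dec r =>
    obtain ⟨rfl, hr, rfl⟩ := hop
    rw [opBr, List.map_singleton, List.sum_singleton,
      opv_some e h (ops_some (a_poR_ne j i u c _ ρ r hr)), mvO_none, one_mul]
    rfl
  | zero r =>
    obtain ⟨rfl, hr, rfl⟩ := hop
    rw [opBr, List.map_singleton, List.sum_singleton,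
      opv_some e h (ops_some (a_teR_zero j i u c _ _ r hr)), mvO_none, one_mul]
    rfl
  | nop =>
    obtain ⟨rfl, rfl⟩ := hop
    rw [opBr, List.map_singleton, List.sum_singleton, opv_some e h (w' := mk j i u c [μ] ρ') rfl,
      mvO_none, one_mul]
    rfl
  | emit a =>
    obtain ⟨rfl, rfl⟩ := hop
    rw [opBr, moves]
    by_cases ha : a = 0
    · rw [if_pos ha]
      cases μ <;>
        simp [tr, trL, ha, opv_move_eq, opv_move_ne, mvO_none]
    · rw [if_neg ha]
      cases μ <;>
        simp [tr, trL, ha, opv_move_eq, opv_move_ne, mvO_none, mvO_some]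

theorem op_not_act (op : Op N.nr) (hop : ¬ ∃ o ρ', op.Act ρ o ρ') :
    ((opBr N n op).map (opv n e h (mk j i u c m ρ))).sum = 0 := by
  cases op with
  | inc r => exact absurd ⟨_, _, rfl, rfl⟩ hop
  | dec r =>
    have hr : ρ r = 0 := by
      by_contra hr
      exact hop ⟨_, _, rfl, hr, rfl⟩
    rw [opBr, List.map_singleton, List.sum_singleton,
      opv_none e h (ops_none (a_poR_zero j i u c _ ρ r hr))]
  | zero r =>
    have hr : ρ r ≠ 0 := fun hr => hop ⟨_, _, rfl, hr, rfl⟩
    rw [opBr, List.map_singleton, List.sum_singleton,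
      opv_none e h (ops_none (a_teR_ne j i u c _ ρ r hr))]
  | nop => exact absurd ⟨_, _, rfl, rfl⟩ hop
  | emit a => exact absurd ⟨_, _, rfl, rfl⟩ hop

end Vale.Agent.P193.MachAux
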