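import Vale.Agent.P193.MachineAuxD

/-! Task C8, part E: the values of all histories. -/

namespace Vale.Agent.P193.MachAux

variable {N : CM} {n : ℕ} (e : ℕ)

/-- The value of an output word in each mode. -/
noncomputable def VV (N : CM) (n : ℕ) (out : List (Fin 4)) : Md → FA (sigOf N) n
  | .pre => Vpre (sigOf N) n (out.map Fin.val)
  | .mid => Vin (sigOf N) n (out.map Fin.val)
  | .post => 1

theorem decL_letG (a : Fin 4) (ha : a ≠ 0) :
    decL (sigOf N) n a.val = fx (sigOf N) n (letG N n a) := by
  rw [← decL_jc]
  congr 1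
  fin_cases a
  · exact absurd rfl ha
  · simp [letG, jc0_Z]
  · simp [letG, jc0_i0]
  · simp [letG, jc0_i1]

theorem VV_cons (a : Fin 4) (out : List (Fin 4)) : VV N n (a :: out) = trL a (VV N n out) := by
  funext μ
  by_cases ha : a = 0
  · subst ha
    cases μ
    · simp [VV, trL, Vpre]
    · simp [VV, trL, Vin]
    · simp [VV, trL]
  · have ha' : a.val ≠ 0 := fun h => ha (Fin.ext h)
    cases μ
    · simp [VV, trL, Vpre, ha]
    · simp only [VV, trL, Vin, List.map_cons, if_neg ha, if_neg ha', decL_letG a ha]
    · simp [VV, trL]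

theorem VV_append (o out : List (Fin 4)) : VV N n (o ++ out) = tr o (VV N n out) := by
  induction o with
  | nil => rfl
  | cons a o ih =>
    rw [List.cons_append, VV_cons, ih]
    rfl

theorem tr_zero (o : List (Fin 4)) : tr o (fun _ => (0 : FA (sigOf N) n)) = fun _ => 0 := by
  induction o with
  | nil => rfl
  | cons a o ih =>
    change trL a (tr o _) = _
    rw [ih]
    funext μ
    cases μ <;> simp [trL]

variable (i : List Bool) (u : List Unit)

theorem end_phase (ρ : Fin N.nr → ℕ) (h : List (Th N)) (j : ℕ) :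
    vl n e h (mk j i u [] [] ρ) = 0 ∨ (vl n e h (mk j i u [] [] ρ) = 1 ∧ ρ = fun _ => 0) := by
  induction h generalizing j with
  | nil =>
    rw [vl_nil]
    split_ifs with h
    · exact Or.inr ⟨rfl, (mk_eq_nil h).2⟩
    · exact Or.inl rfl
  | cons τ h ih =>
    cases τ with
    | idle =>
      cases j with
      | zero => exact Or.inl (v_idle_zero e h i u _ _ _)
      | succ j =>
        rw [v_idle]
        exact ih j
    | wind => exact Or.inl (v_wind_ne e h j i u _ _ _ (by simp))
    | go => exact Or.inl (v_go_ne e h j i u _ _ _ (by simp))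
    | load => exact Or.inl (v_load_ne e h j i u _ _ _ (by simp))
    | ins k => exact Or.inl (v_ins_ne e h j i u _ _ _ k (by simp))
    | fin => exact Or.inl (v_fin_ne e h j i u _ _ _ (by simp))
    | _ => exact Or.inl (v_cheat e h j i u _ _ _ trivial)

theorem main_phase (h : List (Th N)) (j : ℕ) (q : Fin N.nq) (ρ : Fin N.nr → ℕ) :
    (∀ μ, vl n e h (mk j i u [.st q] [μ] ρ) = 0) ∨
      ∃ out, N.Run q ρ out ∧ ∀ μ, vl n e h (mk j i u [.st q] [μ] ρ) = VV N n out μ := by
  induction h generalizing j q ρ with
  | nil => exact Or.inl fun μ => v_nil e j i u _ _ _ (by simp)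
  | cons τ h ih =>
    cases τ with
    | idle =>
      cases j with
      | zero => exact Or.inl fun μ => v_idle_zero e h i u _ _ _
      | succ j =>
        simp only [v_idle]
        exact ih j q ρ
    | wind => exact Or.inl fun μ => v_wind_ne e h j i u _ _ _ (by simp)
    | go => exact Or.inl fun μ => v_go_ne e h j i u _ _ _ (by simp)
    | load => exact Or.inl fun μ => v_load_ne e h j i u _ _ _ (by simp)
    | ins k =>
      by_cases hq : q = N.src k
      · subst hq
        cases j with
        | zero => exact Or.inl fun μ => v_ins_zero e h i u _ _ _ k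
        | succ j =>
          by_cases hop : ∃ o ρ', (N.op k).Act ρ o ρ'
          · obtain ⟨o, ρ', hop⟩ := hop
            have h1 : ∀ μ, vl n e (.ins k :: h) (mk (j + 1) i u [.st (N.src k)] [μ] ρ) =
                tr o (fun μ' => vl n e h (mk j i u [.st (N.dst k)] [μ'] ρ')) μ := fun μ => by
              rw [v_ins, op_act e h j i u _ ρ _ o ρ' hop]
            rcases ih j (N.dst k) ρ' with h0 | ⟨out, hr, hv⟩
            · refine Or.inl fun μ => ?_
              rw [h1, funext h0, tr_zero]
            · refine Or.inr ⟨o ++ out, CM.Run.step k ρ ρ' o out hop hr, fun μ => ?_⟩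
              rw [h1, funext hv, VV_append]
          · refine Or.inl fun μ => ?_
            rw [v_ins, op_not_act e h j i u _ _ ρ _ hop]
      · exact Or.inl fun μ => v_ins_ne e h j i u _ _ _ k (by simpa using hq)
    | fin =>
      by_cases hq : q = N.qf
      · subst hq
        cases j with
        | zero => exact Or.inl fun μ => v_fin_zero e h i u _ _ _
        | succ j =>
          rcases end_phase (n := n) e i u ρ h j with h0 | ⟨h1, rfl⟩
          · refine Or.inl fun μ => ?_
            by_cases hμ : μ = .post
            · rw [hμ, v_fin, h0]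
            · exact v_fin_md e h _ i u _ μ hμ
          · refine Or.inr ⟨[], CM.Run.done, fun μ => ?_⟩
            cases μ
            · exact v_fin_md e h _ i u _ _ (by simp)
            · exact v_fin_md e h _ i u _ _ (by simp)
            · rw [v_fin, h1]
              rfl
      · exact Or.inl fun μ => v_fin_ne e h j i u _ _ _ (by simpa using hq)
    | _ => exact Or.inl fun μ => v_cheat e h j i u _ _ _ trivial

/-- The possible nonzero values. -/
def Acc (N : CM) (n e : ℕ) (v : FA (sigOf N) n) : Prop :=
  v = 0 ∨ ∃ out, N.Run N.q0 (Pi.single N.r0 e) out ∧ v = Vpre (sigOf N) n (out.map Fin.val)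

theorem init_phase (h : List (Th N)) (j : ℕ) :
    Acc N n e (vl n e h (mk j i u [.init] [.pre] fun _ => 0)) := by
  induction h generalizing j with
  | nil => exact Or.inl (v_nil e j i u _ _ _ (by simp))
  | cons τ h ih =>
    cases τ with
    | idle =>
      cases j with
      | zero => exact Or.inl (v_idle_zero e h i u _ _ _)
      | succ j =>
        rw [v_idle]
        exact ih j
    | wind => exact Or.inl (v_wind_ne e h j i u _ _ _ (by simp))
    | go => exact Or.inl (v_go_ne e h j i u _ _ _ (by simp))
    | load =>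
      cases j with
      | zero => exact Or.inl (v_load_zero e h i u _ _ _)
      | succ j =>
        rw [v_load]
        rcases main_phase (n := n) e i u h j N.q0 (Pi.single N.r0 e) with h0 | ⟨out, hr, hv⟩
        · exact Or.inl (h0 _)
        · exact Or.inr ⟨out, hr, hv _⟩
    | ins k => exact Or.inl (v_ins_ne e h j i u _ _ _ k (by simp))
    | fin => exact Or.inl (v_fin_ne e h j i u _ _ _ (by simp))
    | _ => exact Or.inl (v_cheat e h j i u _ _ _ trivial)

theorem start_phase (c : List (Ctl N.nq)) (m : List Md) (ρ : Fin N.nr → ℕ) (h : List (Th N))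
    (j : ℕ) : Acc N n e (vl n e h (mk j i u (.start :: c) m ρ)) := by
  induction h generalizing j with
  | nil => exact Or.inl (v_nil e j i u _ _ _ (by simp))
  | cons τ h ih =>
    cases τ with
    | idle =>
      cases j with
      | zero => exact Or.inl (v_idle_zero e h i u _ _ _)
      | succ j =>
        rw [v_idle]
        exact ih j
    | wind =>
      rw [v_wind]
      exact ih _
    | go =>
      by_cases hc : 0 < j ∧ Ctl.start :: c = [.start] ∧ m = [] ∧ ρ = fun _ => 0
      · obtain ⟨hj, hc, rfl, rfl⟩ := hc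
        obtain ⟨j, rfl⟩ : ∃ j', j = j' + 1 := ⟨j - 1, by omega⟩
        rw [hc, v_go]
        exact init_phase e i u h j
      · exact Or.inl (v_go_ne e h j i u _ _ _ hc)
    | load => exact Or.inl (v_load_ne e h j i u _ _ _ (by simp))
    | ins k => exact Or.inl (v_ins_ne e h j i u _ _ _ k (by simp))
    | fin => exact Or.inl (v_fin_ne e h j i u _ _ _ (by simp))
    | _ => exact Or.inl (v_cheat e h j i u _ _ _ trivial)

theorem acc_val (h : List (Th N)) (w : Cfg (sigOf N)) (hw : IsAcc w) : Acc N n e (vl n e h w) := by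
  obtain ⟨hH, hK, l, hl⟩ := hw
  have hl' : w Stk.C = Ctl.start :: l := hl
  rw [exists_mk w hH hK, hl']
  exact start_phase e _ _ _ _ _ h 0

theorem run_val {q : Fin N.nq} {ρ : Fin N.nr → ℕ} {out : List (Fin 4)} (hr : N.Run q ρ out) :
    ∃ h j, ∀ μ, vl n e h (mk j [] [] [.st q] [μ] ρ) = VV N n out μ := by
  induction hr with
  | done =>
    refine ⟨[.fin], 1, fun μ => ?_⟩
    cases μ
    · exact v_fin_md e _ _ _ _ _ _ (by simp)
    · exact v_fin_md e _ _ _ _ _ _ (by simp)
    · rw [v_fin, vl_nil, if_pos mk_nil]
      rfl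
  | step k ρ ρ' o out hop _ ih =>
    obtain ⟨h, j, hv⟩ := ih
    refine ⟨.ins k :: h, j + 1, fun μ => ?_⟩
    rw [v_ins, op_act e h j _ _ _ ρ _ o ρ' hop, funext hv, VV_append]

theorem wind_val (k j : ℕ) (h : List (Th N)) (c : List (Ctl N.nq)) (m : List Md)
    (ρ : Fin N.nr → ℕ) :
    vl n e (List.replicate k .wind ++ h) (mk j i u (.start :: c) m ρ) =
      vl n e h (mk (j + k) i u (.start :: c) m ρ) := by
  induction k generalizing j with
  | zero => rfl
  | succ k ih =>
    rw [List.replicate_succ, List.cons_append, v_wind, ih, Nat.add_assoc, Nat.add_comm 1 k]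

theorem exists_acc {out : List (Fin 4)} (hr : N.Run N.q0 (Pi.single N.r0 e) out) :
    ∃ h w, IsAcc w ∧ vl n e h w = Vpre (sigOf N) n (out.map Fin.val) := by
  obtain ⟨h, j, hv⟩ := run_val (n := n) e hr
  refine ⟨List.replicate (j + 2) .wind ++ (.go :: .load :: h),
    mk 0 [] [] [.start] [] fun _ => 0, ⟨rfl, rfl, [], rfl⟩, ?_⟩
  rw [wind_val, Nat.zero_add, v_go, v_load, hv]
  rfl

end Vale.Agent.P193.MachAux
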