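import Vale.Agent.P193.ModelAux3

/-! Task C6: the model; the relators generate a proper ideal. -/

namespace Vale.Agent.P193

variable {σ : Sig} {n : ℕ}

theorem one_notMem_span_Fam (M : Mach σ n) {G : Type} [Group G] (s : Fin n → G)
    (hsound : Sound M s) : (1 : FA σ n) ∉ TwoSidedIdeal.span (Fam M s) := by
  obtain ⟨B, e, size, ⟨b0⟩, hs⟩ := Model.exists_base ((1 : G), Cfg.nil σ)
    (fun c => c.2.size) (Cfg.size_eq_zero.2 rfl)
  obtain ⟨ρ, hρ⟩ := Model.exists_fix M s e hs
  have hz : ∀ r : Model.EE B, (∀ b, r (Finsupp.single b 1) = 0) → r = 0 := fun r h =>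
    Finsupp.lhom_ext' fun b => LinearMap.ext_ring (h b)
  let A : Model.Mod M s (Model.EE B) :=
    { x := ρ
      ins := Model.insE e
      fix := fun y c => by rw [← Model.step_ins, hρ]
      ext0 := fun r h => hz r fun b => by
        obtain ⟨⟨c, b⟩, rfl⟩ := e.surjective b
        rw [← Model.insE_single, ← Module.End.mul_apply, h c, LinearMap.zero_apply] }
  have : Nontrivial (Model.EE B) := by
    refine ⟨1, 0, fun h => ?_⟩
    have h1 : (1 : Model.EE B) (Finsupp.single b0 1) b0 = 0 := by rw [h]; rfl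
    rw [Module.End.one_apply, Finsupp.single_eq_same] at h1
    exact one_ne_zero h1
  refine A.one_notMem (A.ev_Fam hsound
    (fun k r => ∀ b, size b < k → r (Finsupp.single b 1) = 0) ?_ ?_ ?_ ?_ ?_)
  · intro k r h b hb
    obtain ⟨⟨⟨g, β⟩, b⟩, rfl⟩ := e.surjective b
    rw [hs] at hb
    simp only [] at hb
    rw [← Model.insE_single, ← Module.End.mul_apply]
    exact h g β (by omega) b (by omega)
  · intro k r r' h b hb
    rw [Module.End.mul_apply, h b hb, map_zero]
  · exact fun k k' r h hk b hb => h b (by omega)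
  · exact fun _ _ _ => rfl
  · exact fun r h => hz r fun b => h _ b (Nat.lt_succ_self _)

end Vale.Agent.P193
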