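import Vale.Agent.P193.RingSys0

/-! Task C7: the quotient ring is a `Sys` and is finitely presented. -/

namespace Vale.Agent.P193

variable {σ : Sig} {n : ℕ}

namespace QuotAux

theorem FA_induction {C : FA σ n → Prop} (h0 : C 0) (h1 : C 1) (hx : ∀ y, C (fx σ n y))
    (hmul : ∀ a b, C a → C b → C (a * b)) (hadd : ∀ a b, C a → C b → C (a + b)) (a : FA σ n) :
    C a := by
  refine FreeAlgebra.induction (ZMod 2) (Gen σ n) (fun r => ?_) hx hmul hadd a
  have h01 : ∀ r : ZMod 2, r = 0 ∨ r = 1 := by decide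
  rcases h01 r with rfl | rfl
  · rw [map_zero]; exact h0
  · rw [map_one]; exact h1

theorem FA_two (a : FA σ n) : a + a = 0 := by
  have h : (1 : ZMod 2) + 1 = 0 := by decide
  rw [← one_smul (ZMod 2) a, ← add_smul, h, zero_smul]

theorem psiP_fx (M : Mach σ n) (y : Gen σ n) : psiP M (fx σ n y) = phg (fx σ n) M y :=
  FreeAlgebra.lift_ι_apply _ y

section Map

variable {M : Mach σ n} {R : Type} [Ring R] (F : FA σ n →+* R)

/-- The image of the free algebra as a `Sys0`. -/
def sys0 (hsurj : Function.Surjective F) (hrel : ∀ r, F (relFin (fx σ n) M r) = 0) : Sys0 M R where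
  x y := F (fx σ n y)
  two r := by
    obtain ⟨a, rfl⟩ := hsurj r
    rw [← map_add, FA_two, map_zero]
  rel r := by rw [← relFin_map]; exact hrel r

variable {F} {A : Sys0 M R} (hA : A.x = fun y => F (fx σ n y))

include hA

theorem map_psi_fx (y : Gen σ n) : F (psiP M (fx σ n y)) = phg A.x M y := by
  rw [psiP_fx, phg_map_c1a, hA]

theorem map_phi (b : FA σ n) : F (phiP M b) = qq A.x M * F (psiP M b) := by
  rw [phiP, map_mul, qq_map_c1a, hA]

theorem commute_q_psi (b : FA σ n) : Commute (qq A.x M) (F (psiP M b)) := by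
  induction b using FA_induction with
  | h0 => rw [map_zero, map_zero]; exact Commute.zero_right _
  | h1 => rw [map_one, map_one]; exact Commute.one_right _
  | hx y =>
    rw [map_psi_fx hA]
    exact (A.q_phg y).trans (A.phg_q y).symm
  | hmul a b ha hb => rw [map_mul, map_mul]; exact ha.mul_right hb
  | hadd a b ha hb => rw [map_add, map_add]; exact ha.add_right hb

theorem S_psi (b : FA σ n) : A.x .S * F (psiP M b) = F b * A.x .S := by
  induction b using FA_induction with
  | h0 => simp
  | h1 => simp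
  | hx y =>
    rw [map_psi_fx hA, A.S_phg]
    exact congrArg (· * A.x .S) (congrFun hA y)
  | hmul a b ha hb =>
    rw [map_mul, map_mul, map_mul, ← mul_assoc, ha, mul_assoc, hb, mul_assoc]
  | hadd a b ha hb => rw [map_add, map_add, map_add, mul_add, add_mul, ha, hb]

theorem S_phi_T (b : FA σ n) : A.x .S * F (phiP M b) * A.x .T = F b := by
  rw [map_phi hA, ← mul_assoc, A.S_q, S_psi hA, mul_assoc, A.S_T, mul_one]

theorem phi_mul (a b : FA σ n) : F (phiP M (a * b)) = F (phiP M a) * F (phiP M b) := by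
  rw [map_phi hA, map_phi hA, map_phi hA, map_mul, map_mul, mul_assoc, ← mul_assoc (F (psiP M a)),
    ← (commute_q_psi hA a).eq, mul_assoc, ← mul_assoc (qq A.x M) (qq A.x M), A.q_q]

theorem phi_fx (y : Gen σ n) : F (phiP M (fx σ n y)) = phg A.x M y := by
  rw [map_phi hA, map_psi_fx hA, A.q_phg]

theorem phi_one : F (phiP M 1) = qq A.x M := by
  rw [map_phi hA, map_one, map_one, mul_one]

/-- In a ring with the finitely many relations all relators vanish. -/
theorem fam_zero {G : Type} [Group G] {s : Fin n → G} (hcomp : Complete M s) {c : FA σ n}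
    (hc : c ∈ Fam M s) : F c = 0 := by
  have hpos : ∀ j b, IsBase M s b → F ((phiP M)^[j + 1] b) = 0 := by
    intro j b hb
    obtain ⟨h, w, hw, he⟩ := hcomp j b hb
    rw [← he, val_map, ← hA]
    refine A.val_start h w hw.1 ?_ hw.2.2
    unfold Cfg.Pure
    rw [hw.2.1]
    exact List.not_mem_nil
  obtain ⟨j, b, hb, rfl⟩ := hc
  cases j with
  | zero =>
    have h := hpos 0 b hb
    rw [Function.iterate_zero_apply, ← S_phi_T hA b]
    change F (phiP M b) = 0 at h
    rw [h, mul_zero, zero_mul]
  | succ j => exact hpos j b hb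

end Map

theorem phiP_add (M : Mach σ n) (a b : FA σ n) : phiP M (a + b) = phiP M a + phiP M b := by
  rw [phiP, phiP, phiP, map_add, mul_add]

theorem phiP_zero (M : Mach σ n) : phiP M 0 = 0 := by rw [phiP, map_zero, mul_zero]

theorem phiP_neg (M : Mach σ n) (a : FA σ n) : phiP M (-a) = -phiP M a := by
  rw [phiP, phiP, map_neg, mul_neg]

theorem phiP_sub (M : Mach σ n) (a b : FA σ n) : phiP M (a - b) = phiP M a - phiP M b := by
  rw [phiP, phiP, phiP, map_sub, mul_sub]

/-- The quotient map of a two-sided ideal. -/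
def qm (J : TwoSidedIdeal (FA σ n)) : FA σ n →ₐ[ZMod 2] J.ringCon.Quotient :=
  J.ringCon.mkₐ (ZMod 2)

theorem qm_surj (J : TwoSidedIdeal (FA σ n)) : Function.Surjective (qm J) :=
  J.ringCon.mkₐ_surjective

theorem qm_eq_zero (J : TwoSidedIdeal (FA σ n)) (a : FA σ n) : qm J a = 0 ↔ a ∈ J := by
  rw [← map_zero (qm J), TwoSidedIdeal.mem_iff]
  exact RingCon.eq _

theorem wordVal_append {G : Type} [Group G] (s : Fin n → G) (w w' : List (Fin n × Bool)) :
    wordVal s (w ++ w') = wordVal s w * wordVal s w' := by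
  simp [wordVal]

theorem aw_append {R : Type} [Ring R] (x : Gen σ n → R) (w w' : List (Fin n × Bool)) :
    aw x (w ++ w') = aw x w * aw x w' := by
  simp [aw]

theorem wordVal_surj {G : Type} [Group G] (s : Fin n → G)
    (hs : Subgroup.closure (Set.range s) = ⊤) : Function.Surjective (wordVal s) := by
  intro γ
  have hγ : γ ∈ Subgroup.closure (Set.range s) := by rw [hs]; trivial
  induction hγ using Subgroup.closure_induction'' with
  | one => exact ⟨[], rfl⟩
  | mem x hx =>
    obtain ⟨i, rfl⟩ := hx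
    exact ⟨[(i, true)], by simp [wordVal]⟩
  | inv_mem x hx =>
    obtain ⟨i, rfl⟩ := hx
    exact ⟨[(i, false)], by simp [wordVal]⟩
  | mul x y _ _ hx hy =>
    obtain ⟨w, rfl⟩ := hx
    obtain ⟨w', rfl⟩ := hy
    exact ⟨w ++ w', wordVal_append s w w'⟩

theorem exists_hom {G : Type} [Group G] (s : Fin n → G)
    (hs : Subgroup.closure (Set.range s) = ⊤) {R : Type} [Ring R] (x : Gen σ n → R)
    (h : ∀ w, wordVal s w = 1 → aw x w = 1) : ∃ g : G →* R, ∀ w, g (wordVal s w) = aw x w := by
  have hsurj := wordVal_surj s hs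
  have key : ∀ w w', wordVal s w = wordVal s w' → aw x w = aw x w' := by
    intro w w' e
    obtain ⟨v, hv⟩ := hsurj (wordVal s w)⁻¹
    have h1 := h (w ++ v) (by rw [wordVal_append, hv, mul_inv_cancel])
    have h2 := h (v ++ w') (by rw [wordVal_append, hv, e, inv_mul_cancel])
    rw [aw_append] at h1 h2
    rw [← mul_one (aw x w), ← h2, ← mul_assoc, h1, one_mul]
  have key' : ∀ w, aw x (Function.surjInv hsurj (wordVal s w)) = aw x w := fun w =>
    key _ _ (Function.surjInv_eq hsurj _)
  refine ⟨⟨⟨fun γ => aw x (Function.surjInv hsurj γ), key' []⟩, fun a b => ?_⟩, key'⟩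
  obtain ⟨w, rfl⟩ := hsurj a
  obtain ⟨w', rfl⟩ := hsurj b
  change aw x (Function.surjInv hsurj (wordVal s w * wordVal s w')) =
    aw x (Function.surjInv hsurj (wordVal s w)) * aw x (Function.surjInv hsurj (wordVal s w'))
  rw [← wordVal_append, key', key', key', aw_append]

theorem mem_closure_word {R : Type} [Ring R] (F : FA σ n →+* R) (a : FA σ n) :
    F a ∈ AddSubmonoid.closure (Set.range (word fun y => F (fx σ n y))) := by
  induction a using FA_induction with
  | h0 => rw [map_zero]; exact zero_mem _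
  | h1 => rw [map_one]; exact AddSubmonoid.subset_closure ⟨[], rfl⟩
  | hx y => exact AddSubmonoid.subset_closure ⟨[y], by simp [word]⟩
  | hmul a b ha hb =>
    rw [map_mul]
    refine closure_mul_mem_c1a ?_ ha hb
    rintro _ ⟨w, rfl⟩ _ ⟨w', rfl⟩
    exact AddSubmonoid.subset_closure ⟨w ++ w', by simp [word]⟩
  | hadd a b ha hb => rw [map_add]; exact add_mem ha hb

theorem span_fam_eq (M : Mach σ n) {G : Type} [Group G] (s : Fin n → G) (hcomp : Complete M s) :
    TwoSidedIdeal.span (Fam M s) = TwoSidedIdeal.span (Set.range (relFin (fx σ n) M)) := by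
  refine le_antisymm (TwoSidedIdeal.span_le.mpr fun c hc => ?_)
    (TwoSidedIdeal.span_mono ?_)
  · let J := TwoSidedIdeal.span (Set.range (relFin (fx σ n) M))
    let A : Sys0 M J.ringCon.Quotient := sys0 (qm J).toRingHom (qm_surj J) fun r =>
      (qm_eq_zero J _).mpr (TwoSidedIdeal.subset_span ⟨r, rfl⟩)
    exact (qm_eq_zero J c).mp (fam_zero (F := (qm J).toRingHom) (A := A) rfl hcomp hc)
  · rintro _ ⟨r, rfl⟩
    exact ⟨0, _, Or.inl ⟨r, rfl⟩, rfl⟩

end QuotAux

open QuotAux in
theorem exists_sys (M : Mach σ n) {G : Type} [Group G] (s : Fin n → G)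
    (hs : Subgroup.closure (Set.range s) = ⊤) (hcomp : Complete M s)
    (h1 : (1 : FA σ n) ∉ TwoSidedIdeal.span (Fam M s)) :
    ∃ (R : Type) (_ : Ring R) (_ : Algebra (ZMod 2) R),
      Nonempty (Sys M s R) ∧ RingFP R ∧ (1 : R) ≠ 0 := by
  let J := TwoSidedIdeal.span (Fam M s)
  let F : FA σ n →+* J.ringCon.Quotient := (qm J).toRingHom
  have hsurj : Function.Surjective F := qm_surj J
  have hker : ∀ a, F a = 0 ↔ a ∈ J := qm_eq_zero J
  have hbase : ∀ b, IsBase M s b → F b = 0 := fun b hb =>
    (hker b).mpr (TwoSidedIdeal.subset_span ⟨0, b, hb, rfl⟩)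
  let A : Sys0 M J.ringCon.Quotient := sys0 F hsurj fun r => hbase _ (Or.inl ⟨r, rfl⟩)
  have hA : A.x = fun y => F (fx σ n y) := rfl
  have hG : ∀ w, relG A.x M s w = 0 := fun w => by
    rw [hA, ← relG_map]
    exact hbase _ (Or.inr ⟨w, rfl⟩)
  obtain ⟨g, hg⟩ := exists_hom s hs A.x fun w hw => by
    have := hG w
    rw [relG, if_pos hw] at this
    exact sub_eq_zero.mp this
  have hkill : ∀ b, b ∈ J → F (phiP M b) = 0 := by
    intro b hb
    induction hb using TwoSidedIdeal.span_induction with
    | mem c hc =>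
      obtain ⟨j, b, hb, rfl⟩ := hc
      exact (hker _).mpr (TwoSidedIdeal.subset_span
        ⟨j + 1, b, hb, (Function.iterate_succ_apply' _ _ _).symm⟩)
    | zero => rw [phiP_zero, map_zero]
    | add a b _ _ ha hb => rw [phiP_add, map_add, ha, hb, add_zero]
    | neg a _ ha => rw [phiP_neg, map_neg, ha, neg_zero]
    | left_absorb a b _ hb => rw [phi_mul hA, hb, mul_zero]
    | right_absorb a b _ hb => rw [phi_mul hA, hb, zero_mul]
  have key : ∀ a, F (phiP M (Function.surjInv hsurj (F a))) = F (phiP M a) := by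
    intro a
    rw [← sub_eq_zero, ← map_sub, ← phiP_sub]
    refine hkill _ ((hker _).mp ?_)
    rw [map_sub, Function.surjInv_eq hsurj, sub_self]
  let φ : J.ringCon.Quotient →ₙ+* J.ringCon.Quotient :=
    { toFun := fun r => F (phiP M (Function.surjInv hsurj r))
      map_mul' := fun a b => by
        obtain ⟨a, rfl⟩ := hsurj a
        obtain ⟨b, rfl⟩ := hsurj b
        rw [← map_mul F, key, key, key, phi_mul hA]
      map_zero' := by rw [← map_zero F, key, phiP_zero]
      map_add' := fun a b => by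
        obtain ⟨a, rfl⟩ := hsurj a
        obtain ⟨b, rfl⟩ := hsurj b
        rw [← map_add F, key, key, key, phiP_add, map_add] }
  have hφ : ∀ a, φ (F a) = F (phiP M a) := key
  refine ⟨J.ringCon.Quotient, inferInstance, inferInstance, ⟨
    { toSys0 := A
      g := g
      φ := φ
      g_a := fun p => ?_
      g_gen := hs
      qgq := fun γ hγ => ?_
      φ_x := fun y => (hφ (fx σ n y)).trans (phi_fx hA y)
      φ_one := ?_
      gen := fun r => ?_ }⟩, ⟨Gen σ n, inferInstance, qm J, Set.range (relFin (fx σ n) M),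
        Set.finite_range _, qm_surj J, fun p => ?_⟩, fun h => h1 ?_⟩
  · have := hg [p]
    simpa [wordVal, aw] using this
  · obtain ⟨w, rfl⟩ := wordVal_surj s hs γ
    have := hG w
    rw [relG, if_neg hγ] at this
    rw [hg, this]
  · rw [← map_one F, hφ, phi_one hA]
  · obtain ⟨a, rfl⟩ := hsurj r
    exact mem_closure_word F a
  · rw [← span_fam_eq M s hcomp]
    exact qm_eq_zero J p
  · exact (hker 1).mp ((map_one F).trans h)

end Vale.Agent.P193
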