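import Vale.Agent.P193.QSAux3

/-! Task C5: evaluation and removal terms. -/

namespace Vale.Agent.P193.Sys0

variable {σ : Sig} {n : ℕ} {M : Mach σ n} {R : Type} [Ring R] (A : Sys0 M R)

theorem drop_app_xi {l a : List (σ.Γ σ.K)} {s L : ℕ} (hL : a.length ≤ L) (hs : L ≤ s)
    (h : a <+: l ++ (List.replicate s σ.tick ++ [σ.zero])) (h' : ¬ a <+: l) :
    ∃ o s', o + s' = s ∧ s ≤ s' + L ∧
      (l ++ (List.replicate s σ.tick ++ [σ.zero])).drop a.length =
        List.replicate s' σ.tick ++ [σ.zero] := by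
  have hl : l.length < a.length := by
    by_contra h4
    exact h' (List.prefix_of_prefix_length_le h (List.prefix_append _ _) (by omega))
  obtain ⟨o, ho⟩ : ∃ o, a.length = l.length + o := ⟨a.length - l.length, by omega⟩
  refine ⟨o, s - o, by omega, by omega, ?_⟩
  rw [ho, List.drop_length_add_append, List.drop_append_of_le_length (by simp; omega),
    List.drop_replicate]

section Cases

variable {I : TwoSidedIdeal R} {m : ℕ} (hI : ∀ r ∈ Flt A.x m, r ∈ I → r = 0)
  {fQ : Cfg σ × Cfg σ →₀ R} {fS : Cfg σ →₀ R}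
  (hQ : ∀ d, fQ d ∈ Flt A.x (m - potQ d.1 d.2))
  (hrI : ∀ w : Cfg σ, A.DD fQ w (w σ.H) (ind R (Cfg.nil σ)) + fS w ∈ I)
  {L : ℕ} (hL1 : ∀ d ∈ fQ.support, ∀ i, (d.1 i).length ≤ L ∧ (d.2 i).length ≤ L)
  (hL2 : ∀ α ∈ fS.support, ∀ i, (α i).length ≤ L)

include hI hQ hrI

open Classical in
theorem imp_mem (w0 : Cfg σ) (u : List (σ.Γ σ.H)) :
    (∑ d ∈ fQ.support, if (actW d w0 ∧ d.2 σ.H <+: u) ∧ ¬ (wk d w0).Pure then
      fQ d * val A.x M (hs d u) (wk d w0) else 0) ∈ Flt A.x m := by
  rcases List.eq_nil_or_concat u with rfl | ⟨u, τ, rfl⟩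
  · refine sum_mem fun d _ => ?_
    split_ifs with h1
    · have := A.term_mem (hQ d) [] (by simp) (wk d w0) (ind R (Cfg.nil σ))
        (fun γ => ind_mem_Fle _ _ _ _)
      refine Flt_mono A.x (Nat.sub_le m (d.2 σ.H).length) ?_
      simpa [hs, val] using this
    · exact zero_mem _
  · rw [List.concat_eq_append]
    have key : (∑ d ∈ fQ.support, if (actW d w0 ∧ d.2 σ.H <+: u ++ [τ]) ∧ ¬ (wk d w0).Pure then
        fQ d * val A.x M (hs d (u ++ [τ])) (wk d w0) else 0) =
        A.DD fQ w0 u (fun γ => if ¬ γ.Pure ∧ γ σ.H = [] then val A.x M [τ] γ else 0) +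
        ∑ d ∈ fQ.support, if (actW d w0 ∧ d.2 σ.H = u ++ [τ]) ∧ ¬ (wk d w0).Pure then
          fQ d * val A.x M (hs d (u ++ [τ])) (wk d w0) else 0 := by
      unfold DD
      rw [← Finset.sum_add_distrib]
      refine Finset.sum_congr rfl fun d _ => ?_
      by_cases h1 : actW d w0
      swap
      · simp [h1]
      by_cases h2 : d.2 σ.H <+: u
      · have h3 : d.2 σ.H <+: u ++ [τ] := h2.trans (List.prefix_append _ _)
        have h4 : d.2 σ.H ≠ u ++ [τ] := by
          intro h5
          have := h2.length_le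
          rw [h5] at this
          simp at this
        by_cases h5 : (wk d w0).Pure
        · rw [Ev_congr A.x M (f' := fun _ => 0) (fun γ hγ => by simp [hγ.pure h5]), Ev_zero]
          simp [h5]
        · rw [hs_append d h2, A.IMP [τ] (by simp) _ _ (wk_H d w0) h5]
          simp [h1, h2, h3, h4, h5]
      · by_cases h3 : d.2 σ.H = u ++ [τ]
        · have h5 : ¬ (u ++ [τ]) <+: u := h3 ▸ h2
          simp [h1, h3, h5]
        · have h4 : ¬ d.2 σ.H <+: u ++ [τ] := by
            intro h5
            rcases List.prefix_concat_iff.1 h5 with h6 | h6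
            · exact h3 h6
            · exact h2 h6
          simp [h2, h3, h4]
    rw [key]
    refine add_mem ?_ (sum_mem fun d _ => ?_)
    · refine A.DD_mem_of (k := 1) (A.TI hI hQ hrI w0 u) _ (fun γ' => ?_)
        (fun γ' h => if_neg h) (by omega)
      split_ifs
      · exact Ev_ind_mem_Fle A.x M [τ] γ' _
      · exact zero_mem _
    · split_ifs with h1
      · have := A.term_mem (hQ d) [] (by simp) (wk d w0) (ind R (Cfg.nil σ))
          (fun γ => ind_mem_Fle _ _ _ _)
        refine Flt_mono A.x (Nat.sub_le m (d.2 σ.H).length) ?_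
        simpa [hs, val, h1.1.2] using this
      · exact zero_mem _

include hL1 in
open Classical in
theorem pure_mem (w0 : Cfg σ) (u : List (σ.Γ σ.H)) :
    (∑ d ∈ fQ.support, if (actW d w0 ∧ d.2 σ.H <+: u) ∧ (wk d w0).Pure then
      fQ d * val A.x M (hs d u) (wk d w0) else 0) ∈ Flt A.x m := by
  set s := 2 * L + (w0 σ.K).length + (M.Cb + 1) * (L + u.length) + 1 with hs_def
  have hlen : ∀ d ∈ fQ.support, (hs d u).length ≤ L + u.length := by
    intro d hd
    have := (hL1 d hd σ.H).1
    simp only [hs, List.length_append, List.length_drop]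
    omega
  have hmul : ∀ d ∈ fQ.support, M.Cb * (hs d u).length + (hs d u).length ≤
      (M.Cb + 1) * (L + u.length) := by
    intro d hd
    have := Nat.mul_le_mul_left (M.Cb + 1) (hlen d hd)
    rw [Nat.add_mul, one_mul] at this
    exact this
  have hxi : ∀ i, i ≠ σ.K → (w0.app (xi σ s)) i = w0 i := fun i hi => Cfg.app_single_ne _ hi _
  have hxiK : (w0.app (xi σ s)) σ.K = w0 σ.K ++ (List.replicate s σ.tick ++ [σ.zero]) :=
    Cfg.app_single_self _ _ _
  have key : A.DD fQ (w0.app (xi σ s)) u (ind R (xi σ s)) =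
      (∑ d ∈ fQ.support, if (actW d w0 ∧ d.2 σ.H <+: u) ∧ (wk d w0).Pure then
        fQ d * val A.x M (hs d u) (wk d w0) else 0) +
      ∑ d ∈ fQ.support, if (actW d (w0.app (xi σ s)) ∧ d.2 σ.H <+: u) ∧ ¬ actW d w0 then
        fQ d * Ev A.x M (hs d u) (wk d (w0.app (xi σ s))) (ind R (xi σ s)) else 0 := by
    unfold DD
    rw [← Finset.sum_add_distrib]
    refine Finset.sum_congr rfl fun d hd => ?_
    by_cases h2 : d.2 σ.H <+: u
    swap
    · simp [h2]
    by_cases h1 : actW d w0
    swap
    · simp [h1]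
    have h3 : actW d (w0.app (xi σ s)) := fun i hi => (h1 i hi).trans (List.prefix_append _ _)
    have h4 : wk d (w0.app (xi σ s)) = (wk d w0).app (xi σ s) := by
      funext i
      by_cases hi : i = σ.H
      · subst hi
        simp [wk_H, Cfg.app, xi_H]
      · simp only [Cfg.app, wk_ne _ _ hi, List.append_assoc]
        rw [List.drop_append_of_le_length (h1 i hi).length_le]
    have h5 := hmul d hd
    by_cases h6 : (wk d w0).Pure
    · have := A.PERT_pure (hs d u) (wk d w0) (wk_H d w0) h6 0 s (by omega)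
      simp only [zero_add, List.replicate_zero, List.append_nil] at this
      simp [h1, h2, h3, h4, h6, this]
    · have := A.PERT_impure (hs d u) (wk d w0) h6 s s (by
        rw [wk_ne _ _ σ.hHK.symm]
        have := (hL1 d hd σ.K).1
        simp only [List.length_append, List.length_drop]
        omega)
      simp [h1, h2, h3, h4, h6, this]
  have h1 := A.TI hI hQ hrI (w0.app (xi σ s)) u (xi σ s) (xi_H s) (xi_impure s)
  have h2 : (∑ d ∈ fQ.support, if (actW d (w0.app (xi σ s)) ∧ d.2 σ.H <+: u) ∧ ¬ actW d w0 then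
        fQ d * Ev A.x M (hs d u) (wk d (w0.app (xi σ s))) (ind R (xi σ s)) else 0) ∈
      Flt A.x m := by
    refine sum_mem fun d hd => ?_
    split_ifs with h3
    swap
    · exact zero_mem _
    obtain ⟨⟨h3, -⟩, h4⟩ := h3
    have h5 : ¬ d.2 σ.K <+: w0 σ.K := by
      intro h6
      apply h4
      intro i hi
      by_cases hiK : i = σ.K
      · subst hiK; exact h6
      · have := h3 i hi
        rwa [hxi i hiK] at this
    have h6 := h3 σ.K σ.hHK.symm
    rw [hxiK] at h6
    obtain ⟨o, s', hos, hs', h7⟩ := drop_app_xi (hL1 d hd σ.K).2 (by omega) h6 h5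
    let v : Cfg σ := Function.update (wk d w0) σ.K (d.1 σ.K)
    have hvK : v σ.K = d.1 σ.K := by simp [v]
    have hvH : v σ.H = [] := by simp [v, Function.update_of_ne σ.hHK, wk_H]
    have h8 : wk d (w0.app (xi σ s)) = v.app (xi σ s') := by
      funext i
      by_cases hi : i = σ.H
      · subst hi
        simp [wk_H, Cfg.app, xi_H, hvH]
      · by_cases hiK : i = σ.K
        · subst hiK
          rw [wk_ne _ _ hi, hxiK, h7, xi, Cfg.app_single_self, hvK]
        · rw [wk_ne _ _ hi, hxi i hiK, xi, Cfg.app_single_ne _ hiK]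
          simp [v, Function.update_of_ne hiK, wk_ne _ _ hi]
    have h9 := hmul d hd
    rw [h8]
    by_cases hp : v.Pure
    · rw [← hos, A.PERT_pure _ v hvH hp o s' (by omega)]
      have := A.PL (hs d u ++ List.replicate o M.idle) v hvH hp
      rw [hvK] at this
      refine Flt_mul_one A.x (hQ d) this ?_
      unfold potQ
      omega
    · rw [A.PERT_impure _ v hp s s' (by
        rw [hvK]
        have := (hL1 d hd σ.K).1
        omega), mul_zero]
      exact zero_mem _
  have h3 := add_mem (Flt_mono A.x (by omega : m - 1 - u.length ≤ m) h1) h2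
  rwa [key, add_assoc, A.two, add_zero] at h3

include hL1 in
theorem DD_root_mem (w0 : Cfg σ) (u : List (σ.Γ σ.H)) :
    A.DD fQ w0 u (ind R (Cfg.nil σ)) ∈ Flt A.x m := by
  classical
  have := add_mem (A.imp_mem hI hQ hrI w0 u) (A.pure_mem hI hQ hrI hL1 w0 u)
  rw [← Finset.sum_add_distrib] at this
  unfold DD
  convert this using 2 with d hd
  by_cases h1 : actW d w0 ∧ d.2 σ.H <+: u <;> by_cases h2 : (wk d w0).Pure <;>
    simp [h1, h2, val]

omit hI hQ hrI in
include hL2 in
theorem S_part_dead (π : Cfg σ) (D : Finset σ.ι) (i0 : σ.ι) (hi0 : L < (π i0).length)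
    (hl : ∀ i, i ∉ D → L ≤ (π i).length) :
    (fS.sum fun α c => c * A.x .S * A.sB α) * A.tB π * A.pD D = 0 := by
  unfold Finsupp.sum
  simp only [Finset.sum_mul]
  refine Finset.sum_eq_zero fun α hα => ?_
  by_cases h : α.Pre π
  · have : π.sub α ≠ Cfg.nil σ := by
      intro h2
      have h3 := congrArg List.length (congrFun h2 i0)
      have := hL2 α hα i0
      simp only [Cfg.sub, Cfg.nil, List.length_drop, List.length_nil] at h3
      omega
    rw [mul_assoc _ (A.sB α), A.sB_tB_of_pre h, mul_assoc _ (A.x .S), A.S_tB this]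
    simp
  · have := A.sB_tB_pD_of_not_pre (D := D) (fun i hi => (hL2 α hα i).trans (hl i hi)) h
    simp only [mul_assoc] at this ⊢
    simp [this]

omit hI hQ hrI in
include hL1 hL2 in
theorem case_dead (π : Cfg σ) (D : Finset σ.ι) (hH : σ.H ∈ D) (i0 : σ.ι) (hi0 : i0 ∉ D)
    (hl : ∀ i, i ∉ D → L + M.Cb * (L + (π σ.H).length) < (π i).length) :
    ((fQ.sum fun d c => c * A.x .Φ * A.tB d.1 * A.sB d.2) +
      fS.sum fun α c => c * A.x .S * A.sB α) * A.tB π * A.pD D = 0 := by
  rw [add_mul, add_mul, A.S_part_dead hL2 π D i0 (by have := hl i0 hi0; omega)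
    (fun i hi => by have := hl i hi; omega), add_zero]
  unfold Finsupp.sum
  simp only [Finset.sum_mul]
  refine Finset.sum_eq_zero fun d hd => ?_
  by_cases h : d.2.Pre π
  · have h1 := A.Φ_dead 1 (fun i => A.CS_one i) D hH (d.1.app (π.sub d.2)) i0 hi0 (by
      intro i hi
      have h2 := hl i hi
      have h3 := hL1 d hd i
      have h4 := (hL1 d hd σ.H).1
      have h5 : ((d.1.app (π.sub d.2)) σ.H).length ≤ L + (π σ.H).length := by
        simp only [Cfg.app, Cfg.sub, List.length_append, List.length_drop]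
        omega
      have h6 := Nat.mul_le_mul_left M.Cb h5
      simp only [Cfg.app, Cfg.sub, List.length_append, List.length_drop] at h6 ⊢
      omega)
    rw [mul_one] at h1
    rw [A.Qterm_pD _ _ _ _ h, h1, mul_zero]
  · have := A.sB_tB_pD_of_not_pre (D := D)
      (fun i hi => by have := hl i hi; have := (hL1 d hd i).2; omega) h
    simp only [mul_assoc] at this ⊢
    simp [this]

include hL1 hL2 in
theorem case_deep (hm : m ≤ L) (π : Cfg σ) (D : Finset σ.ι) (hH : σ.H ∉ D)
    (u1 u2 : List (σ.Γ σ.H)) (hu : π σ.H = u1 ++ u2) (hu1 : u1.length = L + 1)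
    (hl : ∀ i, i ∉ D → i ≠ σ.H → L + M.Cb * (2 * L + 1) < (π i).length)
    (hK : σ.K ∈ D → L + (π σ.K).length + M.Cb * (2 * L + 1) < u2.length) :
    ((fQ.sum fun d c => c * A.x .Φ * A.tB d.1 * A.sB d.2) +
      fS.sum fun α c => c * A.x .S * A.sB α) * A.tB π * A.pD D = 0 := by
  classical
  have hl' : ∀ i, i ∉ D → L ≤ (π i).length := by
    intro i hi
    by_cases hiH : i = σ.H
    · subst hiH
      rw [hu, List.length_append]
      omega
    · have := hl i hi hiH
      omega
  have hlen : ∀ d ∈ fQ.support, M.Cb * (hs d u1).length ≤ M.Cb * (2 * L + 1) := by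
    intro d hd
    have := (hL1 d hd σ.H).1
    refine Nat.mul_le_mul_left _ ?_
    simp only [hs, List.length_append, List.length_drop]
    omega
  rw [add_mul, add_mul, A.S_part_dead hL2 π D σ.H (by rw [hu, List.length_append]; omega) hl',
    add_zero]
  have key : (fQ.sum fun d c => c * A.x .Φ * A.tB d.1 * A.sB d.2) * A.tB π * A.pD D =
      A.DD fQ π u1 fun γ => A.x .Φ * tw A.x σ.H u2 * A.tB γ * A.pD D := by
    unfold DD Finsupp.sum
    simp only [Finset.sum_mul]
    refine Finset.sum_congr rfl fun d hd => ?_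
    have hiff : d.2.Pre π ↔ actW d π ∧ d.2 σ.H <+: u1 := by
      rw [pre_iff, hu]
      refine and_congr_right fun _ => ⟨fun h => ?_, fun h => h.trans (List.prefix_append _ _)⟩
      exact List.prefix_of_prefix_length_le h (List.prefix_append _ _)
        (by have := (hL1 d hd σ.H).2; omega)
    by_cases h : d.2.Pre π
    · have h1 := A.SR 1 (fun i => A.CS_one i) D (hs d u1) u2 (wk d π) (wk_H d π) (by
        intro i hi hiH
        have h2 := hl i hi hiH
        have h3 := hL1 d hd i
        have h4 := hlen d hd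
        rw [wk_ne _ _ hiH]
        simp only [List.length_append, List.length_drop]
        omega)
      simp only [mul_one] at h1
      rw [A.Qterm_pD _ _ _ _ h, if_pos (hiff.1 h), ← h1, A.tB_split _ σ.H, app_sub_H, hu,
        hs_append d (hiff.1 h).2]
      simp only [mul_assoc]
      rfl
    · rw [if_neg (fun h1 => h (hiff.2 h1))]
      have := A.sB_tB_pD_of_not_pre (D := D) (fun i hi => (hL1 d hd i).2.trans (hl' i hi)) h
      simp only [mul_assoc] at this ⊢
      simp [this]
  rw [key]
  by_cases hKD : σ.K ∈ D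
  · rw [A.DD_congr fQ π u1 (f' := fun γ => if ¬ γ.Pure ∧ γ σ.H = [] then
      A.x .Φ * tw A.x σ.H u2 * A.tB γ * A.pD D else 0)]
    · exact A.DD_eq_zero hI hQ hrI π u1 (by omega) _ fun γ h => if_neg h
    · intro d hd _ _ γ hγ
      have h1 : γ σ.H = [] := hγ.apply_H.trans (wk_H d π)
      by_cases h2 : γ.Pure
      · rw [if_neg (by simp [h2])]
        have h3 : γ σ.K = List.replicate (γ σ.K).length σ.tick := by
          refine List.eq_replicate_iff.2 ⟨rfl, fun b hb => ?_⟩
          rcases σ.k_cases b with h4 | h4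
          · exact h4
          · exact absurd (h4 ▸ hb) h2
        have h4 := (hγ.length_le σ.K).2
        have h5 := hlen d hd
        have h6 := (hL1 d hd σ.K).1
        have h7 := hK hKD
        rw [wk_ne _ _ σ.hHK.symm] at h4
        simp only [List.length_append, List.length_drop] at h4
        have h8 := A.KP (γ σ.K).length u2 (by omega)
        rw [← h3] at h8
        have h9 : Commute (A.tB (Function.update γ σ.K [])) (pE A.x σ.K) :=
          (A.CS_tB (by simp)).pE
        rw [A.tB_split γ σ.K, ← A.pE_pD hKD]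
        calc _ = A.x .Φ * tw A.x σ.H u2 * tw A.x σ.K (γ σ.K) *
              (A.tB (Function.update γ σ.K []) * pE A.x σ.K) * A.pD D := by
              simp only [mul_assoc]
          _ = A.x .Φ * tw A.x σ.H u2 * (tw A.x σ.K (γ σ.K) * pE A.x σ.K) *
              A.tB (Function.update γ σ.K []) * A.pD D := by
              rw [h9.eq]; simp only [mul_assoc]
          _ = 0 := by rw [h8]; simp
      · rw [if_pos ⟨h2, h1⟩]
  · let F : Cfg σ → R := fun γ => A.x .Φ * tw A.x σ.H u2 * A.tB γ * A.pD D
    let F' : Cfg σ → R := fun γ => if ¬ γ.Pure ∧ γ σ.H = [] then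
      F (Function.update γ σ.K (γ σ.K).dropLast) else 0
    have hz := A.DD_eq_zero hI hQ hrI (π.app (Cfg.single σ.K [σ.zero])) u1 (by omega) F'
      fun γ h => if_neg h
    rw [← hz]
    unfold DD
    refine Finset.sum_congr rfl fun d hd => ?_
    have hKl := hl σ.K hKD σ.hHK.symm
    have h0 := hL1 d hd σ.K
    have h1 : actW d (π.app (Cfg.single σ.K [σ.zero])) ↔ actW d π := by
      refine forall_congr' fun i => forall_congr' fun hi => ?_
      by_cases hiK : i = σ.K
      · subst hiK
        rw [Cfg.app_single_self]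
        exact ⟨fun h => List.prefix_of_prefix_length_le h (List.prefix_append _ _) (by omega),
          fun h => h.trans (List.prefix_append _ _)⟩
      · rw [Cfg.app_single_ne _ hiK]
    by_cases h2 : actW d π ∧ d.2 σ.H <+: u1
    · have h4 : wk d (π.app (Cfg.single σ.K [σ.zero])) =
          (wk d π).app (Cfg.single σ.K [σ.zero]) := by
        funext i
        by_cases hi : i = σ.H
        · subst hi
          simp [wk_H, Cfg.app_single_ne _ σ.hHK]
        · simp only [Cfg.app, wk_ne _ _ hi, List.append_assoc]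
          rw [List.drop_append_of_le_length (h2.1 i hi).length_le]
      rw [if_pos h2, if_pos ⟨h1.2 h2.1, h2.2⟩, h4, Ev_app]
      · congr 1
        refine Ev_congr A.x M fun γ hγ => ?_
        have h5 : γ σ.H = [] := hγ.apply_H.trans (wk_H d π)
        have h6 : ¬ (γ.app (Cfg.single σ.K [σ.zero])).Pure ∧
            (γ.app (Cfg.single σ.K [σ.zero])) σ.H = [] :=
          ⟨by simp [Cfg.Pure, Cfg.app_single_self], by rw [Cfg.app_single_ne _ σ.hHK, h5]⟩
        simp only [F', if_pos h6, Cfg.app_single_self, List.dropLast_concat]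
        rw [Cfg.app_single_eq]
        simp [F]
      · intro i hi
        by_cases hiK : i = σ.K
        · subst hiK
          have := hlen d hd
          rw [wk_ne _ _ σ.hHK.symm]
          simp only [List.length_append, List.length_drop]
          omega
        · exact absurd (Cfg.single_apply_ne hiK _) hi
    · rw [if_neg h2, if_neg (fun h3 => h2 ⟨h1.1 h3.1, h3.2⟩)]

end Cases

theorem pD_union {D D' : Finset σ.ι} (h : Disjoint D D') :
    A.pD (D ∪ D') = A.pD D * A.pD D' := by
  induction D using Finset.induction_on with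
  | empty => simp [A.pD_empty]
  | insert i D hi ih =>
    rw [Finset.disjoint_insert_left] at h
    rw [Finset.insert_union, A.pD_insert (by simp [hi, h.1]), A.pD_insert hi, ih h.2, mul_assoc]

theorem refine_one (r : R) (π : Cfg σ) (D : Finset σ.ι) (i : σ.ι) (hi : i ∉ D) (k : ℕ)
    (h1 : ∀ l : List (σ.Γ i), l.length < k →
      r * A.tB (π.app (Cfg.single i l)) * A.pD (insert i D) = 0)
    (h2 : ∀ l : List (σ.Γ i), l.length = k → r * A.tB (π.app (Cfg.single i l)) * A.pD D = 0) :
    r * A.tB π * A.pD D = 0 := by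
  refine A.eq_zero_of_refine _ i k (fun l hl => ?_) (fun l hl => ?_)
  · have := h1 l hl
    rw [A.tB_app, A.tB_single, A.pD_insert hi, ← (A.CS_pD hi).pE.eq] at this
    rw [mul_assoc _ (A.pD D), ((A.CS_pD hi).tw l).eq]
    simpa only [mul_assoc] using this
  · have := h2 l hl
    rw [A.tB_app, A.tB_single] at this
    rw [mul_assoc _ (A.pD D), ((A.CS_pD hi).tw l).eq]
    simpa only [mul_assoc] using this

theorem refine_rest (r : R) (π : Cfg σ) (D E : Finset σ.ι) (hDE : Disjoint D E) (k : ℕ)
    (h : ∀ (π' : Cfg σ) (D' : Finset σ.ι), D' ⊆ E → (∀ i, i ∉ E → π' i = []) →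
      (∀ i ∈ E, i ∉ D' → (π' i).length = k) → r * A.tB (π.app π') * A.pD (D ∪ D') = 0) :
    r * A.tB π * A.pD D = 0 := by
  refine A.eq_zero_of_refine_all _ E k fun π' D' h1 h2 _ h4 => ?_
  have := h π' D' h1 h2 h4
  have hc : Commute (A.pD D) (A.tB π') := A.commute_tB fun i hi => A.CS_pD fun hiD =>
    hi (h2 i (Finset.disjoint_left.1 hDE hiD))
  rw [A.tB_app, A.pD_union (hDE.mono_right h1)] at this
  rw [mul_assoc _ (A.pD D), hc.eq]
  simpa only [mul_assoc] using this

theorem QS (I : TwoSidedIdeal R) (m : ℕ) (hI : ∀ r ∈ Flt A.x m, r ∈ I → r = 0)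
    (fQ : Cfg σ × Cfg σ →₀ R) (fS : Cfg σ →₀ R)
    (hQ : ∀ d, fQ d ∈ Flt A.x (m - potQ d.1 d.2)) (hS : ∀ α, fS α ∈ Flt A.x m) (r : R)
    (hr : r = (fQ.sum fun d c => c * A.x .Φ * A.tB d.1 * A.sB d.2) +
      fS.sum fun α c => c * A.x .S * A.sB α)
    (hrI : ∀ w : Cfg σ, r * A.tB w * A.x .T ∈ I) : r = 0 := by
  classical
  have hrI' : ∀ w : Cfg σ, A.DD fQ w (w σ.H) (ind R (Cfg.nil σ)) + fS w ∈ I := by
    intro w
    rw [← A.exact_formula_T, ← hr]
    exact hrI w
  set L := m + fQ.support.sup (fun d => d.1.size + d.2.size) + fS.support.sup Cfg.size with hL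
  have hL1 : ∀ d ∈ fQ.support, ∀ i, (d.1 i).length ≤ L ∧ (d.2 i).length ≤ L := by
    intro d hd i
    have := Finset.le_sup (f := fun d : Cfg σ × Cfg σ => d.1.size + d.2.size) hd
    have h1 := d.1.length_le_size i
    have h2 := d.2.length_le_size i
    omega
  have hL2 : ∀ α ∈ fS.support, ∀ i, (α i).length ≤ L := by
    intro α hα i
    have := Finset.le_sup (f := Cfg.size) hα
    have h1 := α.length_le_size i
    omega
  have hm : m ≤ L := by omega
  clear_value L
  have hexact : ∀ π : Cfg σ, r * A.tB π * A.pD Finset.univ = 0 := by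
    intro π
    rw [hr, A.exact_formula,
      hI _ (add_mem (A.DD_root_mem hI hQ hrI' hL1 π (π σ.H)) (hS π)) (hrI' π), zero_mul]
  have hHin : ∀ (π : Cfg σ) (D : Finset σ.ι), σ.H ∈ D →
      (∀ i, i ∉ D → L + M.Cb * (L + (π σ.H).length) < (π i).length) →
      r * A.tB π * A.pD D = 0 := by
    intro π D hH hl
    by_cases hD : D = Finset.univ
    · rw [hD]; exact hexact π
    · obtain ⟨i0, hi0⟩ : ∃ i0, i0 ∉ D := by
        by_contra h
        push Not at h
        exact hD (Finset.eq_univ_of_forall h)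
      rw [hr]
      exact A.case_dead hL1 hL2 π D hH i0 hi0 hl
  set N1 := L + M.Cb * (2 * L + 1) + 1 with hN1
  set N2 := L + 1 + (L + N1 + M.Cb * (2 * L + 1) + 1) with hN2
  set N3 := L + M.Cb * (L + N2) + N1 with hN3
  set E : Finset σ.ι := (Finset.univ.erase σ.H).erase σ.K with hE
  have hEmem : ∀ i, i ∈ E ↔ i ≠ σ.K ∧ i ≠ σ.H := by intro i; simp [hE]
  have hfin : ∀ (lK : List (σ.Γ σ.K)) (lH : List (σ.Γ σ.H)) (D : Finset σ.ι),
      (∀ i ∈ D, i = σ.H ∨ i = σ.K) →
      (∀ (π : Cfg σ) (D' : Finset σ.ι), π σ.K = lK → π σ.H = lH → (σ.H ∈ D' ↔ σ.H ∈ D) →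
        (σ.K ∈ D' ↔ σ.K ∈ D) → (∀ i, i ∉ D' → i ≠ σ.H → i ≠ σ.K → (π i).length = N3) →
        r * A.tB π * A.pD D' = 0) →
      r * A.tB (((Cfg.nil σ).app (Cfg.single σ.K lK)).app (Cfg.single σ.H lH)) * A.pD D = 0 := by
    intro lK lH D hD h
    refine A.refine_rest r _ D E ?_ N3 fun π' D' h1 h2 h3 => h _ _ ?_ ?_ ?_ ?_ ?_
    · rw [Finset.disjoint_left]
      intro i hi hiE
      rw [hEmem] at hiE
      rcases hD i hi with h1 | h1
      · exact hiE.2 h1
      · exact hiE.1 h1
    · simp [Cfg.app, h2 σ.K (by simp [hEmem]), Cfg.single_apply_self,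
        Cfg.single_apply_ne σ.hHK.symm, Cfg.nil]
    · simp [Cfg.app, h2 σ.H (by simp [hEmem]), Cfg.single_apply_self,
        Cfg.single_apply_ne σ.hHK, Cfg.nil]
    · have : σ.H ∉ D' := fun h4 => ((hEmem _).1 (h1 h4)).2 rfl
      simp [this]
    · have : σ.K ∉ D' := fun h4 => ((hEmem _).1 (h1 h4)).1 rfl
      simp [this]
    · intro i hi hiH hiK
      have := h3 i ((hEmem i).2 ⟨hiK, hiH⟩) (fun h4 => hi (Finset.mem_union_right _ h4))
      simpa [Cfg.app, Cfg.single_apply_ne hiK, Cfg.single_apply_ne hiH, Cfg.nil] using this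
  have hmono : ∀ a b : ℕ, a ≤ b → M.Cb * a ≤ M.Cb * b := fun a b h => Nat.mul_le_mul_left _ h
  have goal : r * A.tB (Cfg.nil σ) * A.pD ∅ = 0 := by
    refine A.refine_one r _ ∅ σ.K (by simp) N1 (fun lK hlK => ?_) (fun lK hlK => ?_)
    · refine A.refine_one r _ _ σ.H (by simpa using σ.hHK) N2 (fun lH hlH => ?_) (fun lH hlH => ?_)
      · refine hfin lK lH _ (by simp) fun π D' h1 h2 h3 h4 h5 => ?_
        have h6 : σ.H ∈ D' := h3.2 (by simp)
        have h7 : σ.K ∈ D' := h4.2 (by simp)
        refine hHin π D' h6 fun i hi => ?_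
        rw [h5 i hi (fun h => hi (h ▸ h6)) (fun h => hi (h ▸ h7)), h2]
        have := hmono (L + lH.length) (L + N2) (by omega)
        omega
      · refine hfin lK lH _ (by simp) fun π D' h1 h2 h3 h4 h5 => ?_
        have h6 : σ.H ∉ D' := fun h => by simpa [σ.hHK] using h3.1 h
        have h7 : σ.K ∈ D' := h4.2 (by simp)
        rw [hr]
        refine A.case_deep hI hQ hrI' hL1 hL2 hm π D' h6 (lH.take (L + 1)) (lH.drop (L + 1))
          (by rw [h2, List.take_append_drop]) (by rw [List.length_take]; omega)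
          (fun i hi hiH => ?_) (fun _ => ?_)
        · rw [h5 i hi hiH (fun h => hi (h ▸ h7))]
          omega
        · rw [h1, List.length_drop]
          omega
    · refine A.refine_one r _ _ σ.H (by simp) (L + 1) (fun lH hlH => ?_) (fun lH hlH => ?_)
      · refine hfin lK lH _ (by simp) fun π D' h1 h2 h3 h4 h5 => ?_
        have h6 : σ.H ∈ D' := h3.2 (by simp)
        refine hHin π D' h6 fun i hi => ?_
        have := hmono (L + lH.length) (2 * L + 1) (by omega)
        by_cases hiK : i = σ.K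
        · subst hiK
          rw [h1, h2]
          omega
        · rw [h5 i hi (fun h => hi (h ▸ h6)) hiK, h2]
          omega
      · refine hfin lK lH _ (by simp) fun π D' h1 h2 h3 h4 h5 => ?_
        have h6 : σ.H ∉ D' := fun h => by simpa using h3.1 h
        have h7 : σ.K ∉ D' := fun h => by simpa using h4.1 h
        rw [hr]
        refine A.case_deep hI hQ hrI' hL1 hL2 hm π D' h6 lH [] (by rw [h2, List.append_nil]) hlH
          (fun i hi hiH => ?_) (fun h => absurd h h7)
        by_cases hiK : i = σ.K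
        · subst hiK
          rw [h1]
          omega
        · rw [h5 i hi hiH hiK]
          omega
  simpa [A.tB_nil, A.pD_empty] using goal

end Vale.Agent.P193.Sys0
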