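import Vale.Agent.P193.NFDefs

/-! Task C4, auxiliary lemmas: action of the normal form terms on explicit levels. -/

namespace Vale.Agent.P193

variable {σ : Sig} {n : ℕ}

theorem Cfg.app_nil_c4 (β : Cfg σ) : β.app (Cfg.nil σ) = β := by
  funext i; simp [Cfg.app, Cfg.nil]

theorem Cfg.sub_self_c4 (β : Cfg σ) : β.sub β = Cfg.nil σ := by
  funext i; simp [Cfg.sub, Cfg.nil]

theorem Cfg.eq_of_pre_c4 {α β : Cfg σ} (h : α.Pre β) (hs : β.size ≤ α.size) : α = β := by
  have h1 := Cfg.app_sub h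
  have h2 := Cfg.size_app α (β.sub α)
  rw [h1] at h2
  rw [Cfg.size_eq_zero.1 (show (β.sub α).size = 0 by omega), Cfg.app_nil_c4] at h1
  exact h1

theorem eq_of_length_U_c4 {l l' : List (σ.Γ σ.U)} (h : l.length = l'.length) : l = l' :=
  List.ext_getElem h fun _ _ _ => (σ.u_eq _).trans (σ.u_eq _).symm

theorem length_le_sizeL_c4 {G : Type} {l : List (Lev σ G)} {c : Lev σ G} (h : c ∈ l) (i : σ.ι) :
    (c.2 i).length ≤ sizeL l :=
  (Cfg.length_le_size _ _).trans (List.le_sum_of_mem (List.mem_map.2 ⟨c, h, rfl⟩))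

open Classical in
theorem exists_part_c4 {R α β : Type} [Ring R] (f : α →₀ R) (p : α → Prop) (φ : α → β)
    (K : β → AddSubmonoid R) (hK : ∀ a, f a ∈ K (φ a)) :
    ∃ f0 : β →₀ R, (∀ b, f0 b ∈ K b) ∧ ∀ F : β → R → R, (∀ b, F b 0 = 0) →
      (∀ b c c', F b (c + c') = F b c + F b c') →
      f0.sum F = ∑ a ∈ f.support, if p a then F (φ a) (f a) else 0 := by
  refine ⟨∑ a ∈ f.support, Finsupp.single (φ a) (if p a then f a else 0), fun b => ?_,
    fun F h0 h1 => ?_⟩
  · rw [Finsupp.finsetSum_apply]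
    refine sum_mem fun a _ => ?_
    rw [Finsupp.single_apply]
    split_ifs with h h'
    · exact h ▸ hK a
    · exact zero_mem _
    · exact zero_mem _
  · rw [← Finsupp.sum_finsetSum_index h0 h1]
    refine Finset.sum_congr rfl fun a _ => ?_
    rw [Finsupp.sum_single_index (h0 _)]
    split_ifs
    · rfl
    · exact h0 _

namespace Sys

variable {M : Mach σ n} {G : Type} [Group G] {s : Fin n → G} {R : Type} [Ring R]
  (A : Sys M s R)

open Classical in
theorem SL_TL_concat {l l' : List (Lev σ G)} {c c' : Lev σ G} (h1 : c ∉ l') (h2 : c' ∉ l) :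
    A.SL (l ++ [c]) * A.TL (l' ++ [c']) = if l = l' ∧ c = c' then 1 else 0 := by
  split_ifs with h
  · rw [h.1, h.2, A.SL_TL_self]
  · have hne : l ++ [c] ≠ l' ++ [c'] := fun e => by
      have := List.append_inj' e rfl
      exact h ⟨this.1, by simpa using this.2⟩
    refine A.SL_TL_of_incomp (fun e => ?_) (fun e => ?_)
    · rcases List.prefix_concat_iff.1 e with e | e
      · exact hne e
      · exact h1 (e.subset (by simp))
    · rcases List.prefix_concat_iff.1 e with e | e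
      · exact hne e.symm
      · exact h2 (e.subset (by simp))

theorem TL_concat (l : List (Lev σ G)) (c : Lev σ G) : A.TL (l ++ [c]) = A.TL l * A.Tc c := by
  rw [A.TL_append, A.TL_cons, A.TL_nil, mul_one]

theorem valP_Tc_pos (d : DP σ G) (γ : G) {w : Cfg σ} (h : d.α.Pre w) :
    A.valP d * A.Tc (γ, w) = A.TL (d.l ++ [(d.g * γ, d.β.app (w.sub d.α))]) := by
  rw [valP, mul_assoc, A.sB_Tc_of_pre (c := (γ, w)) h, mul_assoc, A.tB_Tc, mul_assoc, A.g_Tc,
    A.TL_concat]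

theorem valP_Tc_neg (d : DP σ G) (γ : G) {w : Cfg σ} (h : ¬ d.α.Pre w) :
    A.valP d * A.Tc (γ, w) = 0 := by
  rw [valP, mul_assoc, A.sB_Tc_of_not_pre (c := (γ, w)) h, mul_zero]

theorem valL_Tc_pos (d : DL σ G) (c : R) {γ : G} {w : Cfg σ} (h : d.α.Pre w) (h1 : d.g' * γ = 1)
    (h2 : ∀ i, i ≠ σ.U → w.sub d.α i = []) :
    A.valL d c * A.Tc (γ, w) = A.TL (d.l ++ [(d.g, d.β.app (w.sub d.α))]) * c := by
  rw [valL, mul_assoc, A.g_Tc, mul_assoc, A.sB_Tc_of_pre (c := (d.g' * γ, w)) h, mul_assoc,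
    A.φ_Tc_pos c (c := (d.g' * γ, w.sub d.α)) h1 h2, mul_assoc, ← mul_assoc (A.tB _), A.tB_Tc,
    mul_assoc, ← mul_assoc (A.g _), A.g_Tc, A.TL_concat, ← mul_assoc]
  simp only [h1, mul_one]

theorem valL_Tc_neg (d : DL σ G) (c : R) {γ : G} {w : Cfg σ}
    (h : ¬ (d.α.Pre w ∧ d.g' * γ = 1 ∧ ∀ i, i ≠ σ.U → w.sub d.α i = [])) :
    A.valL d c * A.Tc (γ, w) = 0 := by
  rw [valL, mul_assoc, A.g_Tc, mul_assoc]
  by_cases hp : d.α.Pre w
  · rw [A.sB_Tc_of_pre (c := (d.g' * γ, w)) hp, mul_assoc,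
      A.φ_Tc_neg c (c := (d.g' * γ, w.sub d.α)) (fun e => h ⟨hp, e⟩), mul_zero]
  · rw [A.sB_Tc_of_not_pre (c := (d.g' * γ, w)) hp, mul_zero]

theorem valQ_Tc_pos (d : DQ σ G) (c : R) (γ : G) {w : Cfg σ} (h : d.α.Pre w) :
    A.valQ d c * A.Tc (γ, w) = c * (A.x .Φ * A.Tc (d.g * γ, d.β.app (w.sub d.α))) := by
  rw [valQ, mul_assoc, A.sB_Tc_of_pre (c := (γ, w)) h, mul_assoc, A.tB_Tc, mul_assoc, A.g_Tc,
    mul_assoc]

theorem valQ_Tc_neg (d : DQ σ G) (c : R) (γ : G) {w : Cfg σ} (h : ¬ d.α.Pre w) :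
    A.valQ d c * A.Tc (γ, w) = 0 := by
  rw [valQ, mul_assoc, A.sB_Tc_of_not_pre (c := (γ, w)) h, mul_zero]

theorem valQ_Tc_of_ne (d : DQ σ G) (c : R) {γ : G} (w : Cfg σ) (h : d.g * γ ≠ 1) :
    A.valQ d c * A.Tc (γ, w) = 0 := by
  by_cases hp : d.α.Pre w
  · rw [A.valQ_Tc_pos d c γ hp, A.Φ_Tc_neg (c := (d.g * γ, _)) h, mul_zero]
  · exact A.valQ_Tc_neg d c γ hp

theorem valS_Tc_pos (d : DS σ G) (c : R) (γ : G) {w : Cfg σ} (h : d.α.Pre w) :
    A.valS d c * A.Tc (γ, w) = c * (A.x .S * A.Tc (d.g * γ, w.sub d.α)) := by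
  rw [valS, mul_assoc, A.sB_Tc_of_pre (c := (γ, w)) h, mul_assoc, A.g_Tc, mul_assoc]

theorem valS_Tc_neg (d : DS σ G) (c : R) (γ : G) {w : Cfg σ} (h : ¬ d.α.Pre w) :
    A.valS d c * A.Tc (γ, w) = 0 := by
  rw [valS, mul_assoc, A.sB_Tc_of_not_pre (c := (γ, w)) h, mul_zero]

theorem valS_Tc_of_ne (d : DS σ G) (c : R) {γ : G} (w : Cfg σ) (h : d.g * γ ≠ 1) :
    A.valS d c * A.Tc (γ, w) = 0 := by
  by_cases hp : d.α.Pre w
  · rw [A.valS_Tc_pos d c γ hp, A.S_Tc_of_ne (fun e => h (congrArg Prod.fst e)), mul_zero]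
  · exact A.valS_Tc_neg d c γ hp

theorem valQ_eq (d : DQ σ G) (c : R) :
    A.valQ d c = c * A.x .Φ * A.tB d.β * A.sB d.α * A.g d.g := by
  have h1 := A.commute_tB (β := d.β) (fun i _ => A.CS_g d.g i)
  have h2 := A.commute_sB (β := d.α) (fun i _ => A.CS_g d.g i)
  rw [valQ, mul_assoc _ (A.g d.g), h1.eq, ← mul_assoc, mul_assoc _ (A.g d.g), h2.eq, ← mul_assoc]

theorem valS_eq (d : DS σ G) (c : R) : A.valS d c = c * A.x .S * A.sB d.α * A.g d.g := by
  have h2 := A.commute_sB (β := d.α) (fun i _ => A.CS_g d.g i)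
  rw [valS, mul_assoc _ (A.g d.g), h2.eq, ← mul_assoc]

/-- Passing terms cannot occur in an element of a proper ideal. -/
theorem P_vanish [Infinite G] (I : TwoSidedIdeal R) (h1 : (1 : R) ∉ I) (fP : Finset (DP σ G))
    (fL : DL σ G →₀ R) (fQ : DQ σ G →₀ R) (fS : DS σ G →₀ R)
    (hr : ∑ d ∈ fP, A.valP d + fL.sum A.valL + fQ.sum A.valQ + fS.sum A.valS ∈ I) : fP = ∅ := by
  classical
  by_contra hne
  obtain ⟨d, hd, hmin⟩ := fP.exists_min_image (fun d => d.α.size) (Finset.nonempty_iff_ne_empty.2 hne)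
  obtain ⟨γ, hγ⟩ := Infinite.exists_notMem_finset
    (fQ.support.image (fun d => d.g⁻¹) ∪ fS.support.image (fun d => d.g⁻¹) ∪
      fL.support.image (fun d => d.g'⁻¹) ∪
      (fP ×ˢ fP).biUnion (fun p => (p.2.l.map fun c => p.1.g⁻¹ * c.1).toFinset))
  simp only [Finset.mem_union, not_or, Finset.mem_image, not_exists, not_and, Finset.mem_biUnion,
    List.mem_toFinset, List.mem_map, Finset.mem_product] at hγ
  obtain ⟨⟨⟨hQ, hS⟩, hL⟩, hP⟩ := hγ
  have hP' : ∀ d1 ∈ fP, ∀ d2 ∈ fP, ∀ β, (d1.g * γ, β) ∉ d2.l := fun d1 a1 d2 a2 β hm =>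
    hP (d1, d2) ⟨a1, a2⟩ _ hm (by simp)
  have key := I.mul_mem_left (A.SL (d.l ++ [(d.g * γ, d.β)])) _ (I.mul_mem_right _ (A.Tc (γ, d.α)) hr)
  apply h1
  convert key using 1
  rw [add_mul, add_mul, add_mul, Finsupp.sum, Finsupp.sum, Finsupp.sum, Finset.sum_mul,
    Finset.sum_mul, Finset.sum_mul, Finset.sum_mul,
    Finset.sum_eq_zero (s := fL.support), Finset.sum_eq_zero (s := fQ.support),
    Finset.sum_eq_zero (s := fS.support), add_zero, add_zero, add_zero, Finset.mul_sum,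
    Finset.sum_eq_single_of_mem d hd]
  · rw [A.valP_Tc_pos d γ (fun i => List.prefix_refl _), Cfg.sub_self_c4, Cfg.app_nil_c4,
      A.SL_TL_self]
  · intro d' hd' hne'
    by_cases hp : d'.α.Pre d.α
    · have e := Cfg.eq_of_pre_c4 hp (hmin d' hd')
      rw [A.valP_Tc_pos d' γ hp, A.SL_TL_concat (hP' d hd d' hd' _) (hP' d' hd' d hd _), if_neg]
      rintro ⟨e1, e2⟩
      rw [e, Cfg.sub_self_c4, Cfg.app_nil_c4] at e2
      obtain ⟨e3, e4⟩ := Prod.mk.inj e2
      apply hne'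
      cases d; cases d'
      simp only [DP.mk.injEq]
      exact ⟨e1.symm, (mul_right_cancel e3).symm, e4.symm, e⟩
    · rw [A.valP_Tc_neg d' γ hp, mul_zero]
  · exact fun d' hd' => A.valS_Tc_of_ne d' _ _ fun e => hS d' hd' (inv_eq_of_mul_eq_one_right e)
  · exact fun d' hd' => A.valQ_Tc_of_ne d' _ _ fun e => hQ d' hd' (inv_eq_of_mul_eq_one_right e)
  · exact fun d' hd' => A.valL_Tc_neg d' _ fun e => hL d' hd' (inv_eq_of_mul_eq_one_right e.2.1)

/-- The coefficients of the line terms of an element of an ideal lie in the ideal. -/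
theorem L_mem (I : TwoSidedIdeal R) (fL : DL σ G →₀ R) (fQ : DQ σ G →₀ R) (fS : DS σ G →₀ R)
    (hred : ∀ d ∈ fL.support, d.β σ.U = [] ∨ d.α σ.U = [])
    (hr : fL.sum A.valL + fQ.sum A.valQ + fS.sum A.valS ∈ I) (d : DL σ G) (hd : d ∈ fL.support) :
    fL d ∈ I := by
  classical
  obtain ⟨J, hJL, hJQ, hJS⟩ : ∃ J : ℕ,
      (∀ d1 ∈ fL.support, ∀ d2 ∈ fL.support, (d1.α σ.U).length + sizeL d2.l < J) ∧
      (∀ d1 ∈ fQ.support, (d1.α σ.U).length +
        M.Cb * ((d1.β σ.H).length + (d.α σ.H).length) < J) ∧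
      (∀ d1 ∈ fS.support, (d1.α σ.U).length < J) := by
    refine ⟨fL.support.sup (fun d1 => (d1.α σ.U).length) + fL.support.sup (fun d1 => sizeL d1.l) +
      fQ.support.sup (fun d1 => (d1.α σ.U).length +
        M.Cb * ((d1.β σ.H).length + (d.α σ.H).length)) +
      fS.support.sup (fun d1 => (d1.α σ.U).length) + 1, fun d1 a1 d2 a2 => ?_, fun d1 a1 => ?_,
      fun d1 a1 => ?_⟩
    · have b1 := Finset.le_sup (f := fun d1 : DL σ G => (d1.α σ.U).length) a1
      have b2 := Finset.le_sup (f := fun d1 : DL σ G => sizeL d1.l) a2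
      omega
    · have b1 := Finset.le_sup (f := fun d1 : DQ σ G => (d1.α σ.U).length +
        M.Cb * ((d1.β σ.H).length + (d.α σ.H).length)) a1
      omega
    · have b1 := Finset.le_sup (f := fun d1 : DS σ G => (d1.α σ.U).length) a1
      omega
  set w : Cfg σ := d.α.app (Cfg.single σ.U (List.replicate J σ.u)) with hw
  have hwU : (w σ.U).length = (d.α σ.U).length + J := by simp [hw, Cfg.app, Cfg.single]
  have hwi : ∀ i, i ≠ σ.U → w i = d.α i := fun i hi => by
    simp [hw, Cfg.app, Cfg.single, Function.update_of_ne hi, Cfg.nil]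
  have hsub : ∀ α : Cfg σ, (w.sub α σ.U).length = (d.α σ.U).length + J - (α σ.U).length :=
    fun α => by rw [Cfg.sub, List.length_drop, hwU]
  have hnot : ∀ d1 ∈ fL.support, ∀ d2 ∈ fL.support, (d1.g, d1.β.app (w.sub d1.α)) ∉ d2.l := by
    intro d1 a1 d2 a2 hm
    have b1 := length_le_sizeL_c4 hm σ.U
    have b2 := hJL d1 a1 d2 a2
    simp only [Cfg.app, List.length_append, hsub] at b1
    omega
  have hpre : d.α.Pre w := fun i => List.prefix_append _ _
  have hnil : ∀ i, i ≠ σ.U → w.sub d.α i = [] := fun i hi => by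
    rw [Cfg.sub, hwi i hi, List.drop_length]
  have key := I.mul_mem_left (A.SL (d.l ++ [(d.g, d.β.app (w.sub d.α))])) _
    (I.mul_mem_right _ (A.Tc (d.g'⁻¹, w)) hr)
  convert key using 1
  rw [add_mul, add_mul, Finsupp.sum, Finsupp.sum, Finsupp.sum, Finset.sum_mul,
    Finset.sum_mul, Finset.sum_mul, Finset.sum_eq_zero (s := fQ.support),
    Finset.sum_eq_zero (s := fS.support), add_zero, add_zero, Finset.mul_sum,
    Finset.sum_eq_single_of_mem d hd]
  · rw [A.valL_Tc_pos d _ hpre (mul_inv_cancel _) hnil, ← mul_assoc, A.SL_TL_self, one_mul]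
  · intro d' hd' hne'
    by_cases hp : d'.α.Pre w ∧ d'.g' * d.g'⁻¹ = 1 ∧ ∀ i, i ≠ σ.U → w.sub d'.α i = []
    · obtain ⟨p1, p2, p3⟩ := hp
      rw [A.valL_Tc_pos d' _ p1 p2 p3, ← mul_assoc,
        A.SL_TL_concat (hnot d hd d' hd') (hnot d' hd' d hd), if_neg, zero_mul]
      rintro ⟨e1, e2⟩
      obtain ⟨e3, e4⟩ := Prod.mk.inj e2
      have eU := congrArg (fun c : Cfg σ => (c σ.U).length) e4
      simp only [Cfg.app, List.length_append, hsub] at eU
      have b1 := hJL d' hd' d hd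
      have r1 := hred d hd
      have r2 := hred d' hd'
      rw [← List.length_eq_zero_iff, ← List.length_eq_zero_iff] at r1 r2
      have eα : d'.α = d.α := by
        funext i
        by_cases hi : i = σ.U
        · subst hi
          exact eq_of_length_U_c4 (by omega)
        · have b2 := congrFun (Cfg.app_sub p1) i
          simp only [Cfg.app] at b2
          rw [p3 i hi, List.append_nil, hwi i hi] at b2
          exact b2
      have eβ : d'.β = d.β := by
        funext i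
        have b2 := congrFun e4 i
        simp only [Cfg.app, eα] at b2
        exact (List.append_cancel_right b2).symm
      apply hne'
      cases d; cases d'
      simp only [DL.mk.injEq]
      exact ⟨e1.symm, e3.symm, eβ, eα, mul_inv_eq_one.1 p2⟩
    · rw [A.valL_Tc_neg d' _ hp, mul_zero]
  · intro d' hd'
    by_cases hp : d'.α.Pre w
    · rw [A.valS_Tc_pos d' _ _ hp, A.S_Tc_of_ne, mul_zero]
      intro e
      have b1 := congrArg (fun c : Lev σ G => (c.2 σ.U).length) e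
      have b2 := hJS d' hd'
      simp only [hsub, Cfg.nil, List.length_nil] at b1
      omega
    · exact A.valS_Tc_neg d' _ _ hp
  · intro d' hd'
    by_cases hg : d'.g * d.g'⁻¹ = 1
    · by_cases hp : d'.α.Pre w
      · rw [A.valQ_Tc_pos d' _ _ hp, A.Φ_Tc_pos (c := (_, _)) hg,
          val_eq_zero_of_long A.x M _ _ σ.U, mul_zero]
        have b2 := hJQ d' hd'
        rw [Function.update_of_ne σ.hHU.symm]
        have b3 : (d'.β.app (w.sub d'.α) σ.H).length ≤ (d'.β σ.H).length + (d.α σ.H).length := by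
          simp only [Cfg.app, Cfg.sub, List.length_append, List.length_drop, hwi _ σ.hHU]
          omega
        have b4 := Nat.mul_le_mul_left M.Cb b3
        simp only [Cfg.app, List.length_append, hsub] at b4 ⊢
        omega
      · exact A.valQ_Tc_neg d' _ _ hp
    · exact A.valQ_Tc_of_ne d' _ _ hg

end Sys

end Vale.Agent.P193
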