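import Vale.Agent.P193.NFClosure
import Vale.Agent.P193.QS
import Vale.Agent.P193.SimpleAux

/-! Task C4: passing and line terms vanish; every proper two-sided ideal is zero. -/

namespace Vale.Agent.P193.Sys

variable {σ : Sig} {n : ℕ} {M : Mach σ n} {G : Type} [Group G] {s : Fin n → G} {R : Type} [Ring R]
  (A : Sys M s R)

theorem eq_zero_of_NF [Infinite G] (I : TwoSidedIdeal R) (h1 : (1 : R) ∉ I) (m : ℕ)
    (hI : ∀ r ∈ Flt A.x m, r ∈ I → r = 0) (r : R) (hr : A.NF m r) (hrI : r ∈ I) : r = 0 := by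
  classical
  obtain ⟨fP, fL, fQ, fS, rfl, hL, hQ, hS⟩ := hr
  have hP := A.P_vanish I h1 fP fL fQ fS hrI
  subst hP
  rw [Finset.sum_empty, zero_add] at hrI ⊢
  have hL0 : fL = 0 := by
    by_contra hne
    obtain ⟨d, hd⟩ := Finsupp.support_nonempty_iff.2 hne
    have hm := A.L_mem I fL fQ fS (fun d hd => (hL d hd).1) hrI d hd
    rcases (hL d hd).2 with h | ⟨y, h⟩
    · exact Finsupp.mem_support_iff.1 hd (hI _ h hm)
    · obtain ⟨a, b, hab⟩ := A.exists_x_inv y
      rw [h] at hm
      exact h1 (hab ▸ I.mul_mem_right _ b (I.mul_mem_left a _ hm))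
  subst hL0
  rw [Finsupp.sum_zero_index, zero_add] at hrI ⊢
  have key : ∀ g0 : G,
      (∑ d ∈ fQ.support, if d.g = g0 then fQ d * A.x .Φ * A.tB d.β * A.sB d.α else 0) +
      (∑ d ∈ fS.support, if d.g = g0 then fS d * A.x .S * A.sB d.α else 0) = 0 := by
    intro g0
    obtain ⟨q0, hq1, hq2⟩ := exists_part_c4 fQ (fun d => d.g = g0) (fun d => (d.β, d.α))
      (fun d => Flt A.x (m - potQ d.1 d.2)) hQ
    obtain ⟨s0, hs1, hs2⟩ := exists_part_c4 fS (fun d => d.g = g0) (fun d => d.α)
      (fun _ => Flt A.x m) hS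
    refine A.toSys0.QS I m hI q0 s0 hq1 hs1 _ ?_ fun w => ?_
    · rw [hq2 _ (fun _ => by simp) (fun _ _ _ => by simp [add_mul]),
        hs2 _ (fun _ => by simp) (fun _ _ _ => by simp [add_mul])]
    · have hm := I.mul_mem_right _ (A.Tc (g0⁻¹, w)) hrI
      convert hm using 1
      rw [add_mul, add_mul, add_mul, Finsupp.sum, Finsupp.sum]
      simp only [Finset.sum_mul]
      have e : A.g g0 * A.Tc (g0⁻¹, w) = A.tB w * A.x .T := by
        rw [A.g_Tc]; simp [Tc]
      congr 1
      · refine Finset.sum_congr rfl fun d _ => ?_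
        split_ifs with h
        · rw [A.valQ_eq, h, mul_assoc _ (A.g g0), e, mul_assoc]
        · rw [A.valQ_Tc_of_ne d _ _ (fun e => h (mul_inv_eq_one.1 e)), zero_mul, zero_mul]
      · refine Finset.sum_congr rfl fun d _ => ?_
        split_ifs with h
        · rw [A.valS_eq, h, mul_assoc _ (A.g g0), e, mul_assoc]
        · rw [A.valS_Tc_of_ne d _ _ (fun e => h (mul_inv_eq_one.1 e)), zero_mul, zero_mul]
  have h2 := Finset.sum_eq_zero (s := fQ.support.image (·.g) ∪ fS.support.image (·.g))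
    (fun g0 _ => (congrArg (· * A.g g0) (key g0)).trans (zero_mul _))
  rw [← h2]
  simp only [add_mul, Finset.sum_add_distrib, Finset.sum_mul, Finsupp.sum]
  congr 1
  · rw [Finset.sum_comm]
    refine Finset.sum_congr rfl fun d hd => ?_
    rw [Finset.sum_eq_single_of_mem d.g
      (Finset.mem_union_left _ (Finset.mem_image_of_mem _ hd)), if_pos rfl, A.valQ_eq]
    intro b _ hb
    rw [if_neg hb.symm, zero_mul]
  · rw [Finset.sum_comm]
    refine Finset.sum_congr rfl fun d hd => ?_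
    rw [Finset.sum_eq_single_of_mem d.g
      (Finset.mem_union_right _ (Finset.mem_image_of_mem _ hd)), if_pos rfl, A.valS_eq]
    intro b _ hb
    rw [if_neg hb.symm, zero_mul]

include A in
theorem ideal_eq_zero [Infinite G] (I : TwoSidedIdeal R) (h1 : (1 : R) ∉ I) :
    ∀ r ∈ I, r = 0 := by
  have key : ∀ m, ∀ r ∈ Flt A.x m, r ∈ I → r = 0 := by
    intro m
    induction m with
    | zero => exact fun r hr _ => Flt_zero _ hr
    | succ m ih =>
      intro r hr hrI
      rw [Flt_succ] at hr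
      exact A.eq_zero_of_NF I h1 m ih r (A.nf_of_mem_Fle m r hr) hrI
  intro r hr
  obtain ⟨k, hk⟩ := A.exists_mem_Fle r
  exact key (k + 1) r (by rwa [Flt_succ]) hr

end Vale.Agent.P193.Sys
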