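import Vale.Agent.P193.GroupMain
import Vale.Agent.P193.CMCompile
import Vale.Agent.P193.FamComp
import Vale.Agent.P193.Simple
import Vale.Agent.P193.Excision
import Vale.Agent.P193.Model
import Vale.Agent.P193.Quot
import Vale.Agent.P193.Machine

/-! P193: assembly. -/

namespace Vale.Agent.P193

theorem boone_higman {G : Type*} [Group G] {n : ℕ} (s : Fin n → G)
    (hs : Subgroup.closure (Set.range s) = ⊤)
    (hdec : ComputablePred fun w : List (Fin n × Bool) => wordVal s w = 1) :
    ∃ (K : Type) (_ : Group K), IsSimpleGroup K ∧ Group.IsFinitelyPresented K ∧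
      ∃ f : G →* K, Function.Injective f := by
  obtain ⟨G', _, _, m, s', triv, hs', hc, htriv, f, hf⟩ := exists_infinite_overgroup s hs hdec
  obtain ⟨N, hN⟩ := exists_CM (famF triv) (famF_computable triv hc)
  obtain ⟨σ, M, hsound, hcomp⟩ := exists_mach s' triv htriv N hN
  obtain ⟨R, _, _, ⟨A⟩, hfp, h1⟩ := exists_sys M s' hs' hcomp (one_notMem_span_Fam M s' hsound)
  obtain ⟨K, _, hK1, hK2, j, hj⟩ := exists_group (A.hyp h1 A.ideal_eq_zero) hfp
  refine ⟨K, inferInstance, hK1, hK2, j.comp (A.g.toHomUnits.comp f), hj.comp ?_⟩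
  intro a b hab
  apply hf
  apply A.g_injective h1
  simpa using congrArg Units.val hab

end Vale.Agent.P193
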