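import Vale.Agent.P193.RingCfg

/-! Task C6, part 1: the relations hold in any ring with level insertion operators. -/

namespace Vale.Agent.P193.Model

variable {σ : Sig} {n : ℕ}

/-- Only the stack `U` may be nonempty. -/
def Line (β : Cfg σ) : Prop := ∀ i, i ≠ σ.U → β i = []

/-- Insert a level given by an optional configuration. -/
def oins {G E : Type} [Ring E] (ins : G × Cfg σ → E) (g : G) : Option (Cfg σ) → E
  | none => 0
  | some β => ins (g, β)

open Classical in
/-- The required value of `x y * ins c`. -/
noncomputable def rhs (M : Mach σ n) {G : Type} [Group G] (s : Fin n → G) {E : Type} [Ring E]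
    (x : Gen σ n → E) (ins : G × Cfg σ → E) : Gen σ n → G × Cfg σ → E
  | .a p, c => ins ((if p.2 then s p.1 else (s p.1)⁻¹) * c.1, c.2)
  | .push i b, c => oins ins c.1 ((BOp.push i b).act c.2)
  | .pop i b, c => oins ins c.1 ((BOp.pop i b).act c.2)
  | .S, c => if c = (1, Cfg.nil σ) then 1 else 0
  | .T, c => ins (1, Cfg.nil σ) * ins c
  | .Z, c => ∑ y : Gen σ n,
      if c.1 = 1 ∧ Line (Function.update c.2 σ.I []) ∧ c.2 σ.I = M.code y then
        ins (1, Function.update c.2 σ.I []) * x y else 0
  | .Φ, c => if c.1 = 1 then val x M (c.2 σ.H) (Function.update c.2 σ.H []) else 0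

/-- A ring with level insertion operators. -/
structure Mod (M : Mach σ n) {G : Type} [Group G] (s : Fin n → G) (E : Type) [Ring E] where
  x : Gen σ n → E
  ins : G × Cfg σ → E
  fix : ∀ y c, x y * ins c = rhs M s x ins y c
  ext0 : ∀ r : E, (∀ c, r * ins c = 0) → r = 0

theorem line_nil : Line (Cfg.nil σ) := fun _ _ => rfl

theorem line_update_U (β : Cfg σ) (l : List (σ.Γ σ.U)) :
    Line (Function.update β σ.U l) ↔ Line β := by
  refine forall_congr' fun i => forall_congr' fun hi => ?_
  rw [Function.update_of_ne hi]

theorem line_iff (β : Cfg σ) : Line β ↔ Line (Function.update β σ.I []) ∧ β σ.I = [] := by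
  constructor
  · intro h
    have h1 : β σ.I = [] := h _ σ.hIU
    refine ⟨?_, h1⟩
    rw [← h1, Function.update_eq_self]; exact h
  · rintro ⟨h, h1⟩
    rw [← h1, Function.update_eq_self] at h; exact h

theorem eq_nil_iff (β : Cfg σ) : β = Cfg.nil σ ↔ Line β ∧ β σ.U = [] := by
  constructor
  · rintro rfl; exact ⟨line_nil, rfl⟩
  · rintro ⟨h, h1⟩
    funext i
    by_cases hi : i = σ.U
    · subst hi; exact h1
    · exact h i hi

theorem act_update (o : BOp σ) (w : Cfg σ) (j : σ.ι) (l : List (σ.Γ j)) (h : o.stk ≠ j) :
    o.act (Function.update w j l) = (o.act w).map fun w' => Function.update w' j l := by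
  cases o with
  | push i b =>
    have h' : i ≠ j := h
    simp only [BOp.act, Option.map_some, Function.update_of_ne h', Option.some.injEq]
    exact Function.update_comm h'.symm _ _ _
  | pop i b =>
    have h' : i ≠ j := h
    simp only [BOp.act, Function.update_of_ne h']
    cases w i with
    | nil => rfl
    | cons b' l' =>
      by_cases hb : b' = b
      · simp only [if_pos hb, Option.map_some, Option.some.injEq]
        exact Function.update_comm h'.symm _ _ _
      · simp only [if_neg hb, Option.map_none]
  | test i =>
    have h' : i ≠ j := h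
    simp only [BOp.act, Function.update_of_ne h']
    by_cases hb : w i = []
    · simp only [if_pos hb, Option.map_some]
    · simp only [if_neg hb, Option.map_none]

theorem opsAct_update (os : List (BOp σ)) (w : Cfg σ) (j : σ.ι) (l : List (σ.Γ j))
    (h : ∀ o ∈ os, o.stk ≠ j) :
    opsAct os (Function.update w j l) = (opsAct os w).map fun w' => Function.update w' j l := by
  induction os generalizing w with
  | nil => rfl
  | cons o os ih =>
    simp only [opsAct]
    rw [act_update o w j l (h o List.mem_cons_self)]
    cases o.act w with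
    | none => rfl
    | some w' =>
      simp only [Option.map_some, Option.bind_some]
      exact ih w' fun o' ho' => h o' (List.mem_cons_of_mem _ ho')

theorem act_comm (o o' : BOp σ) (h : o.stk ≠ o'.stk) (w : Cfg σ) :
    (o.act w).bind o'.act = (o'.act w).bind o.act := by
  have key : ∀ (o : BOp σ) (w : Cfg σ), o.act w = none ∨
      ∃ l, o.act w = some (Function.update w o.stk l) := by
    intro o w
    cases o with
    | push i b => exact Or.inr ⟨_, rfl⟩
    | pop i b =>
      simp only [BOp.act]
      cases w i with
      | nil => exact Or.inl rfl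
      | cons b' l' =>
        by_cases hb : b' = b
        · exact Or.inr ⟨l', by simp only [if_pos hb]; rfl⟩
        · exact Or.inl (by simp only [if_neg hb])
    | test i =>
      simp only [BOp.act]
      by_cases hb : w i = []
      · exact Or.inr ⟨w i, by simp only [if_pos hb]; exact congrArg some (Function.update_eq_self _ _).symm⟩
      · exact Or.inl (by simp only [if_neg hb])
  rcases key o w with h1 | ⟨l, h1⟩ <;> rcases key o' w with h2 | ⟨l', h2⟩
  · rw [h1, h2]; rfl
  · rw [h1, h2, Option.bind_some, act_update o w _ l' h, h1]; rfl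
  · rw [h1, h2, Option.bind_some, act_update o' w _ l h.symm, h2]; rfl
  · rw [h1, h2, Option.bind_some, Option.bind_some, act_update o w _ l' h,
      act_update o' w _ l h.symm, h1, h2, Option.map_some, Option.map_some,
      Function.update_comm h]

namespace Mod

variable {M : Mach σ n} {G : Type} [Group G] {s : Fin n → G} {E : Type} [Ring E]
  (A : Mod M s E)

theorem ext {r r' : E} (h : ∀ g β, r * A.ins (g, β) = r' * A.ins (g, β)) : r = r' :=
  sub_eq_zero.1 (A.ext0 _ fun c => by rw [sub_mul, h c.1 c.2, sub_self])

theorem a_ins (p : Fin n × Bool) (g : G) (β : Cfg σ) :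
    A.x (.a p) * A.ins (g, β) = A.ins ((if p.2 then s p.1 else (s p.1)⁻¹) * g, β) := A.fix _ _

theorem push_ins (i : σ.ι) (b : σ.Γ i) (g : G) (β : Cfg σ) :
    A.x (.push i b) * A.ins (g, β) = A.ins (g, Function.update β i (b :: β i)) := A.fix _ _

theorem pop_ins (i : σ.ι) (b : σ.Γ i) (g : G) (β : Cfg σ) :
    A.x (.pop i b) * A.ins (g, β) = oins A.ins g ((BOp.pop i b).act β) := A.fix _ _

theorem pop_ins_nil {i : σ.ι} (b : σ.Γ i) (g : G) {β : Cfg σ} (h : β i = []) :
    A.x (.pop i b) * A.ins (g, β) = 0 := by
  rw [pop_ins]; simp only [BOp.act, h, oins]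

theorem pop_ins_cons {i : σ.ι} (b : σ.Γ i) (g : G) {β : Cfg σ} {b' : σ.Γ i} {l : List (σ.Γ i)}
    (h : β i = b' :: l) :
    A.x (.pop i b) * A.ins (g, β) =
      if b' = b then A.ins (g, Function.update β i l) else 0 := by
  rw [pop_ins]; simp only [BOp.act, h]
  split_ifs <;> rfl

theorem T_eq : A.x .T = A.ins (1, Cfg.nil σ) := A.ext fun _ _ => A.fix _ _

open Classical in
theorem S_ins (g : G) (β : Cfg σ) :
    A.x .S * A.ins (g, β) = if (g, β) = (1, Cfg.nil σ) then 1 else 0 := A.fix _ _

theorem S_T : A.x .S * A.x .T = 1 := by rw [T_eq, S_ins, if_pos rfl]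

open Classical in
theorem Z_ins (g : G) (β : Cfg σ) :
    A.x .Z * A.ins (g, β) = ∑ y : Gen σ n,
      if g = 1 ∧ Line (Function.update β σ.I []) ∧ β σ.I = M.code y then
        A.ins (1, Function.update β σ.I []) * A.x y else 0 := A.fix _ _

open Classical in
theorem Φ_ins (g : G) (β : Cfg σ) :
    A.x .Φ * A.ins (g, β) =
      if g = 1 then val A.x M (β σ.H) (Function.update β σ.H []) else 0 := A.fix _ _

theorem pE_ins (i : σ.ι) (g : G) (β : Cfg σ) :
    pE A.x i * A.ins (g, β) = if β i = [] then A.ins (g, β) else 0 := by
  simp only [pE, sub_mul, one_mul, Finset.sum_mul, mul_assoc]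
  cases h : β i with
  | nil =>
    rw [if_pos rfl, Finset.sum_eq_zero, sub_zero]
    intro b _
    rw [A.pop_ins_nil b g h, mul_zero]
  | cons b' l =>
    rw [if_neg (List.cons_ne_nil _ _), Finset.sum_eq_single b', A.pop_ins_cons b' g h,
      if_pos rfl, push_ins]
    · simp only [Function.update_self, Function.update_idem, ← h, Function.update_eq_self,
        sub_self]
    · intro b _ hb
      rw [A.pop_ins_cons b g h, if_neg (Ne.symm hb), mul_zero]
    · intro hb; exact absurd (Finset.mem_univ _) hb

theorem bop_ins (o : BOp σ) (g : G) (β : Cfg σ) :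
    o.val A.x * A.ins (g, β) = oins A.ins g (o.act β) := by
  cases o with
  | push i b => exact A.fix _ _
  | pop i b => exact A.fix _ _
  | test i =>
    simp only [BOp.val, BOp.act, pE_ins]
    split_ifs <;> rfl

theorem bop_oins (o : BOp σ) (g : G) (β : Option (Cfg σ)) :
    o.val A.x * oins A.ins g β = oins A.ins g (β.bind o.act) := by
  cases β with
  | none => exact mul_zero _
  | some β => exact A.bop_ins o g β

theorem ops_ins (os : List (BOp σ)) (g : G) (β : Cfg σ) :
    opsVal A.x os * A.ins (g, β) = oins A.ins g (opsAct os β) := by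
  induction os generalizing β with
  | nil => exact one_mul _
  | cons o os ih =>
    simp only [opsVal, opsAct, mul_assoc, bop_ins]
    cases o.act β with
    | none => exact mul_zero _
    | some β' => exact ih β'

theorem bop_comm (o o' : BOp σ) (h : o.stk ≠ o'.stk) :
    o.val A.x * o'.val A.x = o'.val A.x * o.val A.x := by
  refine A.ext fun g β => ?_
  rw [mul_assoc, mul_assoc, bop_ins, bop_ins, bop_oins, bop_oins, act_comm o o' h]

theorem a_bop_comm (p : Fin n × Bool) (o : BOp σ) :
    A.x (.a p) * o.val A.x = o.val A.x * A.x (.a p) := by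
  refine A.ext fun g β => ?_
  rw [mul_assoc, mul_assoc, bop_ins, a_ins, bop_ins]
  cases o.act β with
  | none => exact mul_zero _
  | some β' => exact A.a_ins _ _ _

theorem tw_ins (i : σ.ι) (l : List (σ.Γ i)) (g : G) (β : Cfg σ) :
    tw A.x i l * A.ins (g, β) = A.ins (g, Function.update β i (l ++ β i)) := by
  induction l with
  | nil => rw [tw_nil, one_mul, List.nil_append, Function.update_eq_self]
  | cons b l ih =>
    rw [tw_cons, mul_assoc, ih, push_ins, Function.update_self, Function.update_idem]; rfl

theorem sw_ins (i : σ.ι) (l : List (σ.Γ i)) (g : G) (β : Cfg σ) :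
    sw A.x i l * A.ins (g, β) =
      if l <+: β i then A.ins (g, Function.update β i ((β i).drop l.length)) else 0 := by
  induction l generalizing β with
  | nil => simp [sw_nil]
  | cons b l ih =>
    rw [sw_cons, mul_assoc]
    cases h : β i with
    | nil => rw [A.pop_ins_nil b g h, mul_zero, if_neg (by simp)]
    | cons b' l' =>
      rw [A.pop_ins_cons b g h]
      by_cases hb : b' = b
      · subst hb
        rw [if_pos rfl, ih]
        simp only [Function.update_self, Function.update_idem, List.cons_prefix_cons, true_and,
          List.length_cons, List.drop_succ_cons]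
      · rw [if_neg hb, mul_zero, if_neg]
        rw [List.cons_prefix_cons]
        exact fun h' => hb h'.1.symm

open Classical in
theorem phg_ins (y : Gen σ n) (g : G) (β : Cfg σ) :
    phg A.x M y * A.ins (g, β) = if g = 1 ∧ Line β then A.ins (g, β) * A.x y else 0 := by
  rw [phg, mul_assoc, tw_ins, Z_ins, Finset.sum_eq_single y]
  · simp only [Function.update_idem, Function.update_self, List.append_right_eq_self]
    by_cases h : g = 1 ∧ Line β
    · have h' := (line_iff β).1 h.2
      rw [if_pos h, if_pos ⟨h.1, h'⟩, ← h'.2, Function.update_eq_self, h.1]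
    · rw [if_neg h, if_neg fun h' => h ⟨h'.1, (line_iff β).2 h'.2⟩]
  · intro y' _ hy
    rw [if_neg]
    rintro ⟨_, _, h⟩
    rw [Function.update_self] at h
    exact hy (M.code_pre (l' := []) (by rw [h, List.append_nil])).symm
  · intro hb; exact absurd (Finset.mem_univ _) hb

open Classical in
theorem qq_ins (g : G) (β : Cfg σ) :
    qq A.x M * A.ins (g, β) = if g = 1 ∧ Line β then A.ins (g, β) else 0 := by
  rw [qq, mul_assoc, phg_ins]
  split_ifs with h
  · rw [← mul_assoc, phg_ins, if_pos h, mul_assoc, S_T, mul_one]
  · exact mul_zero _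

theorem aw_ins (w : List (Fin n × Bool)) (g : G) (β : Cfg σ) :
    aw A.x w * A.ins (g, β) = A.ins (wordVal s w * g, β) := by
  induction w with
  | nil => simp [aw, wordVal]
  | cons p w ih =>
    simp only [aw, wordVal, List.map_cons, List.prod_cons, mul_assoc] at ih ⊢
    rw [ih, a_ins]

theorem relG_eq (w : List (Fin n × Bool)) : relG A.x M s w = 0 := by
  refine A.ext fun g β => ?_
  rw [zero_mul, relG]
  split_ifs with h
  · rw [sub_mul, aw_ins, h, one_mul, one_mul, sub_self]
  · rw [mul_assoc, qq_ins]
    split_ifs with h'
    · rw [mul_assoc, aw_ins, qq_ins, if_neg]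
      rintro ⟨h1, _⟩
      rw [h'.1, mul_one] at h1
      exact h h1
    · exact mul_zero _

theorem master_eq : A.x .Φ = masterRhs A.x M := by
  refine A.ext fun g β => ?_
  rw [masterRhs, add_mul, Finset.sum_mul, S_ins, Φ_ins]
  simp only [← List.sum_map_mul_right, mul_assoc]
  cases h : β σ.H with
  | nil =>
    rw [Finset.sum_eq_zero, add_zero]
    · have h1 : Function.update β σ.H [] = β := by rw [← h, Function.update_eq_self]
      simp only [val, Ev, ind, h1, Prod.mk.injEq]
      by_cases hg : g = 1 <;> simp [hg]
    · intro τ _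
      simp only [A.pop_ins_nil τ g h, mul_zero, List.map_const', List.sum_replicate, smul_zero]
  | cons τ l =>
    rw [if_neg (c := (g, β) = (1, Cfg.nil σ)), zero_add, Finset.sum_eq_single τ]
    · simp only [A.pop_ins_cons τ g h, if_true, ops_ins]
      have h1 : Function.update β σ.H l =
          Function.update (Function.update β σ.H []) σ.H l := by rw [Function.update_idem]
      by_cases hg : g = 1
      · rw [if_pos hg]
        simp only [val, Ev]
        congr 1
        refine List.map_congr_left fun b hb => ?_
        rw [h1, opsAct_update _ _ _ l (M.all_ne_H hb)]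
        cases h2 : opsAct b.all (Function.update β σ.H []) with
        | none => simp only [Option.map_none, oins, mul_zero]
        | some w' =>
          have h3 : w' σ.H = [] := by
            rw [opsAct_apply_of_ne h2 (M.all_ne_H hb), Function.update_self]
          simp only [Option.map_some, oins, Φ_ins, if_pos hg, Function.update_self,
            Function.update_idem, val]
          rw [← h3, Function.update_eq_self]
      · rw [if_neg hg]
        symm
        refine List.sum_eq_zero fun r hr => ?_
        obtain ⟨b, _, rfl⟩ := List.mem_map.1 hr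
        cases opsAct b.all (Function.update β σ.H l) with
        | none => simp only [oins, mul_zero]
        | some w' => simp only [oins, Φ_ins, if_neg hg, mul_zero]
    · intro τ' _ hτ
      simp only [A.pop_ins_cons τ' g h, if_neg (Ne.symm hτ), mul_zero, List.map_const',
        List.sum_replicate, smul_zero]
    · intro hb; exact absurd (Finset.mem_univ _) hb
    · intro h'
      rw [(Prod.mk.inj h').2] at h
      exact List.cons_ne_nil _ _ h.symm

theorem zdef_eq : A.x .Z = ∑ y : Gen σ n, phg A.x M y * sw A.x σ.I (M.code y) := by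
  refine A.ext fun g β => ?_
  rw [Z_ins, Finset.sum_mul]
  refine Finset.sum_congr rfl fun y _ => ?_
  rw [mul_assoc, sw_ins]
  by_cases h : β σ.I = M.code y
  · rw [if_pos (c := M.code y <+: β σ.I) (h ▸ List.prefix_refl _), phg_ins, h, List.drop_length]
    by_cases h' : g = 1 ∧ Line (Function.update β σ.I [])
    · rw [if_pos h', if_pos ⟨h'.1, h'.2, rfl⟩, h'.1]
    · rw [if_neg h', if_neg fun h'' => h' ⟨h''.1, h''.2.1⟩]
  · rw [if_neg fun h' => h h'.2.2]
    split_ifs with h1
    · rw [phg_ins, if_neg]
      rintro ⟨_, h2⟩
      have h3 := h2 _ σ.hIU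
      rw [Function.update_self] at h3
      obtain ⟨t, ht⟩ := h1
      rw [← ht, List.drop_left] at h3
      exact h (by rw [← ht, h3, List.append_nil])
    · exact (mul_zero _).symm

theorem relFin_eq (r : RelIdx σ n) (hr : r ≠ .acc) : relFin A.x M r = 0 := by
  cases r with
  | cohn i b b' =>
    refine sub_eq_zero.2 (A.ext fun g β => ?_)
    rw [mul_assoc, push_ins, A.pop_ins_cons b g (Function.update_self _ _ _),
      Function.update_idem, Function.update_eq_self]
    by_cases hb : b = b'
    · rw [if_pos hb, if_pos hb.symm, one_mul]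
    · rw [if_neg hb, if_neg (Ne.symm hb), zero_mul]
  | comm y y' =>
    simp only [relFin]
    split_ifs with h
    · obtain ⟨h1, h2, h3⟩ := h
      refine sub_eq_zero.2 ?_
      cases y with
      | a p =>
        cases y' with
        | a p' => exact absurd rfl h3
        | push i b => exact A.a_bop_comm p (.push i b)
        | pop i b => exact A.a_bop_comm p (.pop i b)
        | _ => exact absurd rfl h2
      | push i b =>
        cases y' with
        | a p' => exact (A.a_bop_comm p' (.push i b)).symm
        | push j b' =>
          exact A.bop_comm (.push i b) (.push j b') fun h => h3 (congrArg (some ∘ some) h)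
        | pop j b' =>
          exact A.bop_comm (.push i b) (.pop j b') fun h => h3 (congrArg (some ∘ some) h)
        | _ => exact absurd rfl h2
      | pop i b =>
        cases y' with
        | a p' => exact (A.a_bop_comm p' (.pop i b)).symm
        | push j b' =>
          exact A.bop_comm (.pop i b) (.push j b') fun h => h3 (congrArg (some ∘ some) h)
        | pop j b' =>
          exact A.bop_comm (.pop i b) (.pop j b') fun h => h3 (congrArg (some ∘ some) h)
        | _ => exact absurd rfl h2
      | _ => exact absurd rfl h1
    · rfl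
  | st => exact sub_eq_zero.2 A.S_T
  | ts =>
    refine sub_eq_zero.2 (A.ext fun g β => ?_)
    rw [mul_assoc, mul_assoc, S_ins, pE_ins]
    by_cases h : (g, β) = (1, Cfg.nil σ)
    · obtain ⟨rfl, rfl⟩ := Prod.mk.inj h
      rw [if_pos rfl, if_pos (show Cfg.nil σ σ.U = [] from rfl), qq_ins,
        if_pos ⟨rfl, line_nil⟩, mul_one, T_eq]
    · rw [if_neg h, mul_zero]
      split_ifs with h1
      · rw [qq_ins, if_neg]
        rintro ⟨rfl, h2⟩
        exact h (by rw [(eq_nil_iff β).2 ⟨h2, h1⟩])
      · exact (mul_zero _).symm
  | ql y =>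
    refine sub_eq_zero.2 (A.ext fun g β => ?_)
    rw [mul_assoc, phg_ins]
    split_ifs with h
    · rw [← mul_assoc, qq_ins, if_pos h]
    · exact mul_zero _
  | qr y =>
    refine sub_eq_zero.2 (A.ext fun g β => ?_)
    rw [mul_assoc, qq_ins]
    split_ifs with h
    · rfl
    · rw [phg_ins, if_neg h, mul_zero]
  | qt i b =>
    simp only [relFin]
    split_ifs with hi
    · refine A.ext fun g β => ?_
      rw [mul_assoc, push_ins, qq_ins, zero_mul, if_neg]
      rintro ⟨_, h⟩
      have := h i hi
      rw [Function.update_self] at this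
      exact List.cons_ne_nil _ _ this
    · rfl
  | sq i b =>
    simp only [relFin]
    split_ifs with hi
    · refine A.ext fun g β => ?_
      rw [mul_assoc, qq_ins, zero_mul]
      split_ifs with h
      · exact A.pop_ins_nil b g (h.2 i hi)
      · exact mul_zero _
    · rfl
  | ut y =>
    refine sub_eq_zero.2 (A.ext fun g β => ?_)
    rw [mul_assoc, mul_assoc, push_ins, phg_ins, phg_ins, line_update_U]
    split_ifs with h
    · rw [← mul_assoc, push_ins]
    · exact (mul_zero _).symm
  | us y =>
    refine sub_eq_zero.2 (A.ext fun g β => ?_)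
    rw [mul_assoc, mul_assoc, phg_ins]
    cases h : β σ.U with
    | nil =>
      rw [A.pop_ins_nil _ g h, mul_zero]
      split_ifs
      · rw [← mul_assoc, A.pop_ins_nil _ g h, zero_mul]
      · exact (mul_zero _).symm
    | cons b l =>
      rw [A.pop_ins_cons _ g h, if_pos (σ.u_eq b), phg_ins, line_update_U]
      split_ifs
      · rw [← mul_assoc, A.pop_ins_cons _ g h, if_pos (σ.u_eq b)]
      · exact (mul_zero _).symm
  | zdef => exact sub_eq_zero.2 A.zdef_eq
  | phT y =>
    refine sub_eq_zero.2 ?_
    rw [T_eq, phg_ins, if_pos ⟨rfl, line_nil⟩]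
  | Sph y =>
    refine sub_eq_zero.2 (A.ext fun g β => ?_)
    rw [mul_assoc, mul_assoc, phg_ins, S_ins]
    by_cases h : (g, β) = (1, Cfg.nil σ)
    · obtain ⟨rfl, rfl⟩ := Prod.mk.inj h
      rw [if_pos ⟨rfl, line_nil⟩, if_pos rfl, ← mul_assoc, S_ins, if_pos rfl, one_mul, mul_one]
    · rw [if_neg h, mul_zero]
      split_ifs
      · rw [← mul_assoc, S_ins, if_neg h, zero_mul]
      · exact mul_zero _
  | master => exact sub_eq_zero.2 A.master_eq
  | acc => exact absurd rfl hr

/-- The action of the acceptance relator. -/
theorem acc_ins (g : G) (β : Cfg σ) :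
    relFin A.x M .acc * A.ins (g, β) = 0 ∨
      (1 ≤ β.size ∧ ∃ h w, IsAcc w ∧ relFin A.x M .acc * A.ins (g, β) = val A.x M h w) := by
  simp only [relFin, mul_assoc]
  cases h : β σ.C with
  | nil => left; rw [A.pop_ins_nil _ g h, mul_zero, mul_zero, mul_zero]
  | cons b l =>
    rw [A.pop_ins_cons _ g h]
    by_cases hb : b = σ.start
    · subst hb
      rw [if_pos rfl, push_ins, Function.update_self, Function.update_idem, ← h,
        Function.update_eq_self, pE_ins]
      by_cases hK : β σ.K = []
      · rw [if_pos hK, Φ_ins]
        by_cases hg : g = 1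
        · right
          refine ⟨?_, _, _, ?_, if_pos hg⟩
          · have := β.length_le_size σ.C
            rw [h, List.length_cons] at this
            omega
          · refine ⟨Function.update_self _ _ _, ?_, l, ?_⟩
            · rw [Function.update_of_ne σ.hHK.symm, hK]
            · rw [Function.update_of_ne σ.hHC.symm, h]
        · left; exact if_neg hg
      · left; rw [if_neg hK, mul_zero]
    · left; rw [if_neg hb, mul_zero, mul_zero, mul_zero]

end Mod

end Vale.Agent.P193.Model
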