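import Vale.Agent.P193.ModelAux1

/-! Task C6, part 2: all relators vanish in a filtered ring with level insertion operators. -/

namespace Vale.Agent.P193.Model

variable {σ : Sig} {n : ℕ}

namespace Mod

variable {M : Mach σ n} {G : Type} [Group G] {s : Fin n → G} {E : Type} [Ring E]
  [Algebra (ZMod 2) E] (A : Mod M s E)

/-- Evaluation of the free algebra. -/
noncomputable def ev : FA σ n →ₐ[ZMod 2] E := FreeAlgebra.lift (ZMod 2) A.x

theorem ev_fx (y : Gen σ n) : A.ev (fx σ n y) = A.x y := FreeAlgebra.lift_ι_apply _ _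

theorem ev_fun : (fun y => (A.ev : FA σ n →+* E) (fx σ n y)) = A.x := funext A.ev_fx

theorem ev_phg (y : Gen σ n) : A.ev (phg (fx σ n) M y) = phg A.x M y := by
  simp only [phg, tw, map_mul, map_list_prod, List.map_map, ev_fx, Function.comp_def]

theorem ev_qq : A.ev (qq (fx σ n) M) = qq A.x M := by
  simp only [qq, map_mul, ev_phg]

theorem ev_relFin (r : RelIdx σ n) : A.ev (relFin (fx σ n) M r) = relFin A.x M r := by
  have := relFin_map (fx σ n) M (A.ev : FA σ n →+* E) r
  rwa [ev_fun] at this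

theorem ev_relG (w : List (Fin n × Bool)) : A.ev (relG (fx σ n) M s w) = relG A.x M s w := by
  have := relG_map (fx σ n) M (A.ev : FA σ n →+* E) s w
  rwa [ev_fun] at this

theorem ev_val (h : List (σ.Γ σ.H)) (w : Cfg σ) : A.ev (val (fx σ n) M h w) = val A.x M h w := by
  have := val_map (fx σ n) M (A.ev : FA σ n →+* E) h w
  rwa [ev_fun] at this

theorem psi_fx (y : Gen σ n) : psiP M (fx σ n y) = phg (fx σ n) M y :=
  FreeAlgebra.lift_ι_apply _ _

theorem psi_ins_pos (b : FA σ n) (g : G) (β : Cfg σ) (h : g = 1 ∧ Line β) :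
    A.ev (psiP M b) * A.ins (g, β) = A.ins (g, β) * A.ev b := by
  induction b using FreeAlgebra.induction with
  | grade0 r => rw [AlgHom.commutes, AlgHom.commutes, Algebra.commutes]
  | grade1 y =>
    have h1 := psi_fx (M := M) y
    have h2 := A.ev_fx y
    simp only [fx] at h1 h2
    rw [h1, h2]
    have h3 := A.ev_phg y
    simp only [fx] at h3
    rw [h3, phg_ins, if_pos h]
  | mul a b ha hb => rw [map_mul, map_mul, map_mul, mul_assoc, hb, ← mul_assoc, ha, mul_assoc]
  | add a b ha hb => rw [map_add, map_add, map_add, add_mul, ha, hb, mul_add]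

theorem psi_ins_neg (b : FA σ n) (g : G) (β : Cfg σ) (h : ¬ (g = 1 ∧ Line β)) :
    ∃ t : ZMod 2, A.ev (psiP M b) * A.ins (g, β) = t • A.ins (g, β) := by
  induction b using FreeAlgebra.induction with
  | grade0 r => exact ⟨r, by rw [AlgHom.commutes, AlgHom.commutes, Algebra.smul_def]⟩
  | grade1 y =>
    have h1 := psi_fx (M := M) y
    simp only [fx] at h1
    have h3 := A.ev_phg y
    simp only [fx] at h3
    exact ⟨0, by rw [h1, h3, phg_ins, if_neg h, zero_smul]⟩
  | mul a b ha hb =>
    obtain ⟨t, ht⟩ := ha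
    obtain ⟨t', ht'⟩ := hb
    exact ⟨t' * t, by rw [map_mul, map_mul, mul_assoc, ht', mul_smul_comm, ht, mul_smul]⟩
  | add a b ha hb =>
    obtain ⟨t, ht⟩ := ha
    obtain ⟨t', ht'⟩ := hb
    exact ⟨t + t', by rw [map_add, map_add, add_mul, ht, ht', add_smul]⟩

open Classical in
theorem phi_ins (b : FA σ n) (g : G) (β : Cfg σ) :
    A.ev (phiP M b) * A.ins (g, β) = if g = 1 ∧ Line β then A.ins (g, β) * A.ev b else 0 := by
  rw [phiP, map_mul, ev_qq, mul_assoc]
  split_ifs with h
  · rw [A.psi_ins_pos b g β h, ← mul_assoc, qq_ins, if_pos h]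
  · obtain ⟨t, ht⟩ := A.psi_ins_neg b g β h
    rw [ht, mul_smul_comm, qq_ins, if_neg h, smul_zero]

theorem ev_Fam (hsound : Sound M s) (Kill : ℕ → E → Prop)
    (K1 : ∀ k r, (∀ g β, β.size < k → Kill (k - β.size) (r * A.ins (g, β))) → Kill k r)
    (K2 : ∀ k r r', Kill k r → Kill k (r' * r))
    (K3 : ∀ k k' r, Kill k r → k' ≤ k → Kill k' r)
    (K4 : ∀ k, Kill k 0) (K5 : ∀ r, (∀ k, Kill k r) → r = 0) :
    ∀ c ∈ Fam M s, A.ev c = 0 := by
  have key : ∀ k j b, IsBase M s b → Kill k (A.ev ((phiP M)^[j] b)) := by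
    intro k
    induction k using Nat.strong_induction_on with
    | _ k ih =>
      intro j b hb
      induction j with
      | zero =>
        rw [Function.iterate_zero_apply]
        rcases hb with ⟨r, rfl⟩ | ⟨w, rfl⟩
        · rw [ev_relFin]
          by_cases hr : r = .acc
          · subst hr
            refine K1 _ _ fun g β hβ => ?_
            rcases A.acc_ins g β with h | ⟨h1, h, w, hw, h2⟩
            · rw [h]; exact K4 _
            · rw [h2, ← ev_val]
              rcases hsound h w hw with h3 | ⟨j, b, hb, h3⟩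
              · rw [h3, map_zero]; exact K4 _
              · rw [h3]; exact ih _ (by omega) _ _ hb
          · rw [A.relFin_eq r hr]; exact K4 _
        · rw [ev_relG, relG_eq]; exact K4 _
      | succ j ihj =>
        rw [Function.iterate_succ_apply']
        refine K1 _ _ fun g β _ => ?_
        rw [phi_ins]
        split_ifs
        · exact K2 _ _ _ (K3 _ _ _ ihj (Nat.sub_le _ _))
        · exact K4 _
  rintro c ⟨j, b, hb, rfl⟩
  exact K5 _ fun k => key k j b hb

theorem one_notMem [Nontrivial E] (h : ∀ c ∈ Fam M s, A.ev c = 0) :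
    (1 : FA σ n) ∉ TwoSidedIdeal.span (Fam M s) := by
  intro h1
  have h2 : TwoSidedIdeal.span (Fam M s) ≤ TwoSidedIdeal.ker (A.ev : FA σ n →+* E) :=
    TwoSidedIdeal.span_le.2 fun c hc => (TwoSidedIdeal.mem_ker _).2 (h c hc)
  have h3 := (TwoSidedIdeal.mem_ker _).1 (h2 h1)
  rw [map_one] at h3
  exact one_ne_zero h3

end Mod

end Vale.Agent.P193.Model
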