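import Vale.Agent.P193.ModelAux2

/-! Task C6, part 3: construction of the model. -/

namespace Vale.Agent.P193.Model

variable {σ : Sig} {n : ℕ}

theorem exists_base {L : Type} (c0 : L) (sz : L → ℕ) (h0 : sz c0 = 0) :
    ∃ (B : Type) (e : L × B ≃ B) (size : B → ℕ),
      Nonempty B ∧ ∀ c b, size (e (c, b)) = sz c + size b := by
  classical
  let B := List (ℕ × {c : L // c ≠ c0})
  let bump : B → B := fun b => match b with
    | [] => []
    | (k, d) :: t => (k + 1, d) :: t
  let f : L × B → B := fun p => if h : p.1 = c0 then bump p.2 else (0, ⟨p.1, h⟩) :: p.2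
  let g : B → L × B := fun b => match b with
    | [] => (c0, [])
    | (0, d) :: t => (d.1, t)
    | (k + 1, d) :: t => (c0, (k, d) :: t)
  have h1 : ∀ p, g (f p) = p := by
    rintro ⟨c, b⟩
    by_cases h : c = c0
    · subst h
      simp only [f, dif_pos]
      rcases b with _ | ⟨⟨k, d⟩, t⟩ <;> rfl
    · simp only [f, dif_neg h, g]
  have h2 : ∀ b, f (g b) = b := by
    rintro (_ | ⟨⟨_ | k, d⟩, t⟩)
    · simp only [f, g, dif_pos, bump]
    · simp only [f, g, dif_neg d.2]
    · simp only [f, g, dif_pos, bump]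
  refine ⟨B, ⟨f, g, h1, h2⟩, fun b => (b.map fun p => sz p.2.1).sum, ⟨[]⟩, fun c b => ?_⟩
  simp only [Equiv.coe_fn_mk]
  by_cases h : c = c0
  · subst h
    simp only [f, dif_pos, h0, zero_add]
    rcases b with _ | ⟨⟨k, d⟩, t⟩ <;> rfl
  · simp only [f, dif_neg h, List.map_cons, List.sum_cons]

section Constr

variable (M : Mach σ n) {G : Type} [Group G] (s : Fin n → G) {B : Type}
  (e : (G × Cfg σ) × B ≃ B) (size : B → ℕ)

/-- The endomorphism ring of the model. -/
abbrev EE (B : Type) : Type := Module.End (ZMod 2) (B →₀ ZMod 2)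

/-- Vectors supported on basis elements of size less than `k`. -/
noncomputable def W (k : ℕ) : Submodule (ZMod 2) (B →₀ ZMod 2) :=
  Submodule.span (ZMod 2) ((fun b => Finsupp.single b (1 : ZMod 2)) '' {b | size b < k})

/-- Insertion of a level. -/
noncomputable def insE (c : G × Cfg σ) : EE B :=
  Finsupp.lmapDomain (ZMod 2) (ZMod 2) fun b => e (c, b)

/-- One step of the recursive construction. -/
noncomputable def step (ρ : Gen σ n → EE B) (y : Gen σ n) : EE B :=
  Finsupp.linearCombination (ZMod 2) fun b =>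
    rhs M s ρ (insE e) y (e.symm b).1 (Finsupp.single (e.symm b).2 1)

/-- Growth of size by at most one. -/
def Bd (ρ : Gen σ n → EE B) : Prop := ∀ y k, ∀ v ∈ W size k, ρ y v ∈ W size (k + 1)

/-- Agreement on small vectors. -/
def Ag (K : ℕ) (ρ ρ' : Gen σ n → EE B) : Prop := ∀ y, ∀ v ∈ W size K, ρ y v = ρ' y v

variable {size}

theorem W_mono {k k' : ℕ} (h : k ≤ k') : W size k ≤ W size k' :=
  Submodule.span_mono (Set.image_mono fun _ hb => lt_of_lt_of_le hb h)

theorem single_mem_W {b : B} {k : ℕ} (h : size b < k) :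
    Finsupp.single b (1 : ZMod 2) ∈ W size k := Submodule.subset_span ⟨b, h, rfl⟩

theorem mem_of_single {k : ℕ} {r : EE B} {P : Submodule (ZMod 2) (B →₀ ZMod 2)}
    (h : ∀ b, size b < k → r (Finsupp.single b 1) ∈ P) : ∀ v ∈ W size k, r v ∈ P := by
  have : W size k ≤ P.comap r := Submodule.span_le.2 (by rintro _ ⟨b, hb, rfl⟩; exact h b hb)
  exact fun v hv => this hv

theorem eq_of_single {k : ℕ} {r r' : EE B}
    (h : ∀ b, size b < k → r (Finsupp.single b 1) = r' (Finsupp.single b 1)) :
    ∀ v ∈ W size k, r v = r' v := by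
  intro v hv
  have := mem_of_single (size := size) (k := k) (r := r - r') (P := ⊥)
    (fun b hb => by rw [Submodule.mem_bot, LinearMap.sub_apply, h b hb, sub_self]) v hv
  rwa [Submodule.mem_bot, LinearMap.sub_apply, sub_eq_zero] at this

omit [Group G] in
theorem insE_single (c : G × Cfg σ) (b : B) :
    insE e c (Finsupp.single b 1) = Finsupp.single (e (c, b)) 1 := by
  simp only [insE, Finsupp.lmapDomain_apply, Finsupp.mapDomain_single]

theorem step_single (ρ : Gen σ n → EE B) (y : Gen σ n) (c : G × Cfg σ) (b : B) :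
    step M s e ρ y (Finsupp.single (e (c, b)) 1) =
      rhs M s ρ (insE e) y c (Finsupp.single b 1) := by
  simp only [step, Finsupp.linearCombination_single, one_smul, Equiv.symm_apply_apply]

theorem step_ins (ρ : Gen σ n → EE B) (y : Gen σ n) (c : G × Cfg σ) :
    step M s e ρ y * insE e c = rhs M s ρ (insE e) y c := by
  refine Finsupp.lhom_ext' fun b => LinearMap.ext_ring ?_
  simp only [LinearMap.comp_apply, Finsupp.lsingle_apply, Module.End.mul_apply, insE_single,
    step_single]

theorem word_aux {K : ℕ} {ρ ρ' : Gen σ n → EE B} (hb : Bd size ρ) (ha : Ag size K ρ ρ')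
    (l : List (Gen σ n)) (k : ℕ) (v : B →₀ ZMod 2) (hv : v ∈ W size k) :
    word ρ l v ∈ W size (k + l.length) ∧ (k + l.length ≤ K + 1 → word ρ l v = word ρ' l v) := by
  induction l with
  | nil => exact ⟨hv, fun _ => rfl⟩
  | cons y l ih =>
    simp only [word, List.map_cons, List.prod_cons, Module.End.mul_apply, List.length_cons] at ih ⊢
    refine ⟨hb y _ _ ih.1, fun h => ?_⟩
    rw [← ih.2 (by omega)]
    exact ha y _ (W_mono (by omega) ih.1)

theorem val_aux {K : ℕ} {ρ ρ' : Gen σ n → EE B} (hb : Bd size ρ) (ha : Ag size K ρ ρ')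
    (h : List (σ.Γ σ.H)) (w : Cfg σ) (k : ℕ) (v : B →₀ ZMod 2) (hv : v ∈ W size k) :
    val ρ M h w v ∈ W size (k + h.length) ∧
      (k + h.length ≤ K + 1 → val ρ M h w v = val ρ' M h w v) := by
  have e1 : ∀ ρ : Gen σ n → EE B,
      (fun y => (FreeAlgebra.lift (ZMod 2) ρ : FA σ n →+* EE B) (fx σ n y)) = ρ :=
    fun ρ => funext fun y => FreeAlgebra.lift_ι_apply _ _
  have e2 : ∀ ρ : Gen σ n → EE B,
      val ρ M h w = (FreeAlgebra.lift (ZMod 2) ρ : FA σ n →+* EE B) (val (fx σ n) M h w) :=
    fun ρ => by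
      have := val_map (R' := EE B) (fx σ n) M (FreeAlgebra.lift (ZMod 2) ρ : FA σ n →+* EE B) h w
      rw [e1] at this
      exact this.symm
  have e3 : ∀ (ρ : Gen σ n → EE B) (l : List (Gen σ n)),
      (FreeAlgebra.lift (ZMod 2) ρ : FA σ n →+* EE B) (word (fx σ n) l) = word ρ l := by
    intro ρ l
    rw [word, map_list_prod, List.map_map, word]
    exact congrArg (fun f => (List.map f l).prod) (e1 ρ)
  rw [e2, e2]
  have hm := val_mem_closure (fx σ n) M h w
  generalize val (fx σ n) M h w = a at hm
  induction hm using AddSubmonoid.closure_induction with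
  | mem a ha' =>
    obtain ⟨l, hl, rfl⟩ := ha'
    rw [e3, e3]
    have := word_aux hb ha l k v hv
    exact ⟨W_mono (by omega) this.1, fun h => this.2 (by omega)⟩
  | zero => simp only [map_zero, LinearMap.zero_apply, zero_mem, implies_true, and_self]
  | add a b _ _ h1 h2 =>
    simp only [map_add, LinearMap.add_apply]
    exact ⟨add_mem h1.1 h2.1, fun h => by rw [h1.2 h, h2.2 h]⟩

variable (hs : ∀ c b, size (e (c, b)) = c.2.size + size b)
include hs

omit [Group G] in
theorem insE_mem (c : G × Cfg σ) {k k' : ℕ} (h : k + c.2.size ≤ k') :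
    ∀ v ∈ W size k, insE e c v ∈ W size k' :=
  mem_of_single fun b hb => by
    rw [insE_single]; exact single_mem_W (by rw [hs]; omega)

theorem rhs_mem {ρ : Gen σ n → EE B} (hb : Bd size ρ) (y : Gen σ n) (c : G × Cfg σ) (k : ℕ)
    (v : B →₀ ZMod 2) (hv : v ∈ W size k) :
    rhs M s ρ (insE e) y c v ∈ W size (k + c.2.size + 1) := by
  obtain ⟨g, β⟩ := c
  cases y with
  | a p => exact insE_mem e hs ((if p.2 then s p.1 else (s p.1)⁻¹) * g, β) (Nat.le_succ _) v hv
  | push i b =>
    refine insE_mem e hs (g, Function.update β i (b :: β i)) ?_ v hv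
    rw [Cfg.size_cons]; exact le_rfl
  | pop i b =>
    simp only [rhs, BOp.act]
    cases h : β i with
    | nil => exact zero_mem _
    | cons b' l =>
      by_cases hb' : b' = b
      · simp only [if_pos hb', oins]
        refine insE_mem e hs _ ?_ v hv
        have := β.size_update i l
        rw [h, List.length_cons] at this
        simp only []
        omega
      · simp only [if_neg hb', oins]; exact zero_mem _
  | S =>
    simp only [rhs]
    split_ifs
    · exact W_mono (by omega) hv
    · exact zero_mem _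
  | T =>
    refine insE_mem e hs _ (k := k + β.size) ?_ _ (insE_mem e hs (g, β) le_rfl v hv)
    simp only [Cfg.size_eq_zero.2 rfl]
    omega
  | Z =>
    simp only [rhs, LinearMap.sum_apply]
    refine Submodule.sum_mem _ fun y _ => ?_
    split_ifs
    · refine insE_mem e hs _ ?_ _ (hb y k v hv)
      have := β.size_update σ.I []
      simp only [List.length_nil] at this ⊢
      omega
    · exact zero_mem _
  | Φ =>
    simp only [rhs]
    split_ifs
    · refine W_mono ?_ (val_aux M (K := 0) hb (fun _ _ _ => rfl) _ _ k v hv).1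
      have := β.length_le_size σ.H
      omega
    · exact zero_mem _

omit hs in
theorem rhs_eq {K : ℕ} {ρ ρ' : Gen σ n → EE B} (hb : Bd size ρ) (ha : Ag size K ρ ρ')
    (y : Gen σ n) (c : G × Cfg σ) (k : ℕ) (hk : k + c.2.size ≤ K + 1)
    (v : B →₀ ZMod 2) (hv : v ∈ W size k) :
    rhs M s ρ (insE e) y c v = rhs M s ρ' (insE e) y c v := by
  obtain ⟨g, β⟩ := c
  cases y with
  | Z =>
    simp only [rhs, LinearMap.sum_apply]
    refine Finset.sum_congr rfl fun y _ => ?_
    split_ifs with h
    · have h1 := β.length_le_size σ.I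
      rw [h.2.2, Mach.code, List.length_append, List.length_singleton] at h1
      simp only [] at hk
      rw [Module.End.mul_apply, Module.End.mul_apply, ha y v (W_mono (by omega) hv)]
    · rfl
  | Φ =>
    simp only [rhs]
    split_ifs
    · refine (val_aux M hb ha _ _ k v hv).2 ?_
      have := β.length_le_size σ.H
      simp only [] at hk
      omega
    · rfl
  | _ => rfl

theorem step_Bd {ρ : Gen σ n → EE B} (hb : Bd size ρ) : Bd size (step M s e ρ) := by
  refine fun y k => mem_of_single fun b hb' => ?_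
  obtain ⟨⟨c, b⟩, rfl⟩ := e.surjective b
  rw [step_single]
  rw [hs] at hb'
  exact W_mono (by omega) (rhs_mem M s e hs hb y c (size b + 1) _ (single_mem_W (Nat.lt_succ_self _)))

theorem step_Ag {K : ℕ} {ρ ρ' : Gen σ n → EE B} (hb : Bd size ρ) (ha : Ag size K ρ ρ') :
    Ag size (K + 1) (step M s e ρ) (step M s e ρ') := by
  refine fun y => eq_of_single fun b hb' => ?_
  obtain ⟨⟨c, b⟩, rfl⟩ := e.surjective b
  rw [step_single, step_single]
  rw [hs] at hb'
  exact rhs_eq M s e hb ha y c (size b + 1) (by omega) _ (single_mem_W (Nat.lt_succ_self _))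

theorem exists_fix : ∃ ρ : Gen σ n → EE B, step M s e ρ = ρ := by
  let R : ℕ → Gen σ n → EE B := fun k => (step M s e)^[k] 0
  have hR : ∀ k, R (k + 1) = step M s e (R k) := fun k => Function.iterate_succ_apply' _ _ _
  have hB : ∀ k, Bd size (R k) := by
    intro k
    induction k with
    | zero => exact fun y k v _ => zero_mem _
    | succ k ih => rw [hR]; exact step_Bd M s e hs ih
  have h0 : ∀ ρ ρ' : Gen σ n → EE B, Ag size 0 ρ ρ' :=
    fun ρ ρ' y => eq_of_single fun b hb => absurd hb (Nat.not_lt_zero _)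
  have hA : ∀ k m, Ag size k (R k) (R (k + m)) := by
    intro k
    induction k with
    | zero => exact fun m => h0 _ _
    | succ k ih =>
      intro m
      rw [show k + 1 + m = k + m + 1 by omega, hR, hR]
      exact step_Ag M s e hs (hB k) (ih m)
  let ρ : Gen σ n → EE B := fun y =>
    Finsupp.linearCombination (ZMod 2) fun b => R (size b + 1) y (Finsupp.single b 1)
  have hρ : ∀ y b, ρ y (Finsupp.single b 1) = R (size b + 1) y (Finsupp.single b 1) := by
    intro y b
    simp only [ρ, Finsupp.linearCombination_single, one_smul]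
  have hA' : ∀ k, Ag size k (R k) ρ := by
    refine fun k y => eq_of_single fun b hb => ?_
    obtain ⟨m, rfl⟩ := Nat.exists_eq_add_of_le (Nat.succ_le_of_lt hb)
    rw [hρ]
    exact (hA _ m y _ (single_mem_W (Nat.lt_succ_self _))).symm
  refine ⟨ρ, funext fun y => Finsupp.lhom_ext' fun b => LinearMap.ext_ring ?_⟩
  simp only [LinearMap.comp_apply, Finsupp.lsingle_apply]
  rw [hρ, hR]
  exact (step_Ag M s e hs (hB _) (hA' _) y _ (single_mem_W (Nat.lt_succ_self _))).symm

end Constr

end Vale.Agent.P193.Model
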