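import Vale.Agent.P193.NFDefs

/-! Task C2, auxiliary file: the filtration `N m` by normal terms is stable under generators. -/

namespace Vale.Agent.P193

variable {σ : Sig} {n : ℕ}

theorem Cfg.size_nil' : (Cfg.nil σ).size = 0 := Cfg.size_eq_zero.2 rfl

theorem Cfg.size_single' (i : σ.ι) (l : List (σ.Γ i)) : (Cfg.single i l).size = l.length := by
  have := Cfg.size_update (Cfg.nil σ) i l
  rw [Cfg.size_nil'] at this
  simpa [Cfg.nil, Cfg.single] using this

theorem Cfg.single_self' (i : σ.ι) (l : List (σ.Γ i)) : Cfg.single i l i = l := by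
  simp [Cfg.single]

theorem Cfg.single_ne' {i j : σ.ι} (h : j ≠ i) (l : List (σ.Γ i)) : Cfg.single i l j = [] := by
  simp [Cfg.single, Function.update_of_ne h, Cfg.nil]

theorem Cfg.size_sub_le' (β δ : Cfg σ) : (β.sub δ).size ≤ β.size :=
  Finset.sum_le_sum fun i _ => by simp [Cfg.sub]

theorem Cfg.size_sub_lt' (β δ : Cfg σ) (i : σ.ι) (h : β i ≠ []) (h' : δ i ≠ []) :
    (β.sub δ).size < β.size := by
  refine Finset.sum_lt_sum (fun i _ => by simp [Cfg.sub]) ⟨i, Finset.mem_univ _, ?_⟩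
  have := List.length_pos_iff.2 h
  have := List.length_pos_iff.2 h'
  simp only [Cfg.sub, List.length_drop]
  omega

theorem Cfg.two_le_size' (β : Cfg σ) {i j : σ.ι} (h : i ≠ j) :
    (β i).length + (β j).length ≤ β.size := by
  have e := Cfg.size_update β i []
  have e' := Cfg.length_le_size (Function.update β i []) j
  rw [Function.update_of_ne h.symm] at e'
  simp at e
  omega

theorem Cfg.exists_app_U' (β : Cfg σ) (h : β σ.U ≠ []) :
    ∃ β0 : Cfg σ, β = β0.app (Cfg.single σ.U [σ.u]) := by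
  refine ⟨Function.update β σ.U (β σ.U).dropLast, ?_⟩
  funext i
  by_cases e : i = σ.U
  · subst e
    simp only [Cfg.app, Function.update_self, Cfg.single_self']
    rw [← σ.u_eq ((β σ.U).getLast h), List.dropLast_append_getLast]
  · simp [Cfg.app, Function.update_of_ne e, Cfg.single_ne' e]

theorem Mach.code_ne_nil' (M : Mach σ n) (y : Gen σ n) : M.code y ≠ [] := by simp [Mach.code]

theorem Gen.wt_le_one' (y : Gen σ n) : y.wt ≤ 1 := by cases y <;> simp [Gen.wt]

theorem sizeL_cons' {G : Type} (c : Lev σ G) (l : List (Lev σ G)) :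
    sizeL (c :: l) = c.2.size + sizeL l := by simp [sizeL]

namespace Sys

variable {M : Mach σ n} {G : Type} [Group G] {s : Fin n → G} {R : Type} [Ring R]
  (A : Sys M s R)

/-- The terms generating the filtration. -/
inductive NT (m : ℕ) : R → Prop
  | P (d : DP σ G) : sizeL d.l + d.l.length + d.β.size + d.α.size ≤ m → NT m (A.valP d)
  | L (d : DL σ G) (c : R) (k : ℕ) : c ∈ Fle A.x k → 1 ≤ k →
      sizeL d.l + d.l.length + d.β.size + (d.α σ.U).length + 2 * k ≤ m + 1 → NT m (A.valL d c)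
  | Q (d : DQ σ G) (c : R) (a : ℕ) : c ∈ Fle A.x a → a + potQ d.β d.α < m → NT m (A.valQ d c)
  | S (d : DS σ G) (c : R) (a : ℕ) : c ∈ Fle A.x a → a < m → NT m (A.valS d c)

/-- The filtration by normal terms. -/
def NN (m : ℕ) : AddSubmonoid R := AddSubmonoid.closure {r | A.NT m r}

theorem NN_of {m : ℕ} {r : R} (h : A.NT m r) : r ∈ A.NN m := AddSubmonoid.subset_closure h

theorem NN_mono {m m' : ℕ} (h : m ≤ m') {r : R} (hr : r ∈ A.NN m) : r ∈ A.NN m' := by
  refine AddSubmonoid.closure_mono ?_ hr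
  intro r hr
  cases hr with
  | P d h1 => exact NT.P d (by omega)
  | L d c k h1 h2 h3 => exact NT.L d c k h1 h2 (by omega)
  | Q d c a h1 h2 => exact NT.Q d c a h1 (by omega)
  | S d c a h1 h2 => exact NT.S d c a h1 (by omega)

theorem mul_mem_of_NT {m : ℕ} {z : R} {B : AddSubmonoid R} (h : ∀ r, A.NT m r → z * r ∈ B)
    {r : R} (hr : r ∈ A.NN m) : z * r ∈ B := by
  induction hr using AddSubmonoid.closure_induction with
  | mem r hr => exact h r hr
  | zero => rw [mul_zero]; exact zero_mem _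
  | add a b _ _ ha hb => rw [mul_add]; exact add_mem ha hb

theorem mul_valQ (z : R) (d : DQ σ G) (c : R) : z * A.valQ d c = A.valQ d (z * c) := by
  simp only [valQ, mul_assoc]

theorem mul_valS (z : R) (d : DS σ G) (c : R) : z * A.valS d c = A.valS d (z * c) := by
  simp only [valS, mul_assoc]

theorem valP_cons (c : Lev σ G) (l : List (Lev σ G)) (γ : G) (β α : Cfg σ) :
    A.valP ⟨c :: l, γ, β, α⟩ = A.Tc c * A.valP ⟨l, γ, β, α⟩ := by
  simp only [valP, TL_cons, mul_assoc]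

theorem valL_cons (c : Lev σ G) (l : List (Lev σ G)) (γ : G) (β α : Cfg σ) (γ' : G) (r : R) :
    A.valL ⟨c :: l, γ, β, α, γ'⟩ r = A.Tc c * A.valL ⟨l, γ, β, α, γ'⟩ r := by
  simp only [valL, TL_cons, mul_assoc]

theorem valP_nil (γ : G) (β α : Cfg σ) :
    A.valP ⟨[], γ, β, α⟩ = A.g γ * (A.tB β * A.sB α) := by
  simp only [valP, TL_nil, one_mul, mul_assoc]

theorem valL_nil (γ : G) (β α : Cfg σ) (γ' : G) (r : R) :
    A.valL ⟨[], γ, β, α, γ'⟩ r = A.g γ * (A.tB β * (A.φ r * (A.sB α * A.g γ'))) := by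
  simp only [valL, TL_nil, one_mul, mul_assoc]

theorem Tc_mul_NN (c : Lev σ G) {p : ℕ} {t : R} (ht : t ∈ A.NN p) :
    A.Tc c * t ∈ A.NN (p + c.2.size + 1) := by
  refine A.mul_mem_of_NT ?_ ht
  intro r hr
  apply A.NN_of
  cases hr with
  | P d h1 =>
    obtain ⟨l, γ, β, α⟩ := d
    rw [← valP_cons]
    refine NT.P _ ?_
    simp only [sizeL_cons', List.length_cons] at h1 ⊢
    omega
  | L d r k h1 h2 h3 =>
    obtain ⟨l, γ, β, α, γ'⟩ := d
    rw [← valL_cons]
    refine NT.L _ _ k h1 h2 ?_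
    simp only [sizeL_cons', List.length_cons] at h3 ⊢
    omega
  | Q d r a h1 h2 =>
    rw [mul_valQ]
    exact NT.Q _ _ _ (Fle_mul _ (A.Tc_mem_Fle c) h1) (by omega)
  | S d r a h1 h2 =>
    rw [mul_valS]
    exact NT.S _ _ _ (Fle_mul _ (A.Tc_mem_Fle c) h1) (by omega)

theorem gtB_comm (γ : G) (β : Cfg σ) : Commute (A.g γ) (A.tB β) :=
  A.commute_tB fun i _ => A.CS_g γ i

theorem gsB_comm (γ : G) (β : Cfg σ) : Commute (A.g γ) (A.sB β) :=
  A.commute_sB fun i _ => A.CS_g γ i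

theorem pop_eq_sB (i : σ.ι) (b : σ.Γ i) : A.x (.pop i b) = A.sB (Cfg.single i [b]) := by
  rw [Sys0.sB_single]; simp [sw]

theorem push_eq_tB (i : σ.ι) (b : σ.Γ i) : A.x (.push i b) = A.tB (Cfg.single i [b]) := by
  rw [Sys0.tB_single]; simp [tw]

/-- The basic splitting of a line operator along the unary stack. -/
theorem φ_split (r : R) : A.φ r = A.x .T * r * A.x .S +
    A.tB (Cfg.single σ.U [σ.u]) * A.φ r * A.sB (Cfg.single σ.U [σ.u]) := by
  have e : ∑ b : σ.Γ σ.U, A.x (.push σ.U b) * A.x (.pop σ.U b) =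
      A.x (.push σ.U σ.u) * A.x (.pop σ.U σ.u) :=
    Finset.sum_eq_single σ.u (fun b _ hb => absurd (σ.u_eq b) hb) (by simp)
  conv_lhs => rw [← mul_one (A.φ r), A.one_eq σ.U, e, mul_add, φ_pE_U, ← mul_assoc,
    (A.CS_φ r σ.u).1.eq]
  rw [← pop_eq_sB, ← push_eq_tB]

theorem sB_g_tB (δ : Cfg σ) (γ : G) (β : Cfg σ) (t : R) :
    A.sB δ * (A.g γ * (A.tB β * t)) = 0 ∨
      A.sB δ * (A.g γ * (A.tB β * t)) = A.g γ * (A.tB (β.sub δ) * (A.sB (δ.sub β) * t)) := by
  rw [← mul_assoc, ← (A.gsB_comm γ δ).eq, mul_assoc, ← mul_assoc (A.sB δ)]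
  by_cases h : δ.Compat β
  · right; rw [A.sB_tB_of_compat h, mul_assoc]
  · left; rw [A.sB_tB_of_not_compat h, zero_mul, mul_zero]

theorem φ_g_tB (r : R) (γ : G) (β : Cfg σ) (t : R) :
    A.φ r * (A.g γ * (A.tB β * t)) = 0 ∨
      A.φ r * (A.g γ * (A.tB β * t)) = A.tB β * (A.φ r * (A.g γ * t)) := by
  rw [← mul_assoc (A.g γ), (A.gtB_comm γ β).eq, mul_assoc, ← mul_assoc (A.φ r)]
  by_cases h : ∀ i, β i ≠ [] → i = σ.U
  · right
    rw [(A.commute_tB (r := A.φ r) fun i hi => by rw [h i hi]; exact A.CS_φ r).eq, mul_assoc]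
  · left
    push Not at h
    obtain ⟨i, hi, hU⟩ := h
    rw [← φ_q, mul_assoc (A.φ r), A.q_tB hU hi, mul_zero, zero_mul]

theorem sB_φ (δ : Cfg σ) (r t : R) :
    (A.sB δ * (A.φ r * t) = 0) ∨
      ((∀ i, δ i ≠ [] → i = σ.U) ∧ A.sB δ * (A.φ r * t) = A.φ r * (A.sB δ * t)) := by
  by_cases h : ∀ i, δ i ≠ [] → i = σ.U
  · right
    refine ⟨h, ?_⟩
    rw [← mul_assoc,
      ← (A.commute_sB (r := A.φ r) fun i hi => by rw [h i hi]; exact A.CS_φ r).eq, mul_assoc]
  · left
    push Not at h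
    obtain ⟨i, hi, hU⟩ := h
    rw [← q_φ, ← mul_assoc, ← mul_assoc, A.sB_q hU hi, zero_mul, zero_mul]

theorem Z_eq' : A.x .Z = ∑ y : Gen σ n, A.φ (A.x y) * A.sB (Cfg.single σ.I (M.code y)) := by
  rw [A.Z_eq]
  exact Finset.sum_congr rfl fun y _ => by rw [A.φ_x, Sys0.sB_single]

theorem val_mem_Fle (h : List (σ.Γ σ.H)) (w : Cfg σ) : val A.x M h w ∈ Fle A.x h.length :=
  Ev_ind_mem_Fle A.x M h w _

/-- Evaluation applied to a line term gives removal terms. -/
theorem Φ_line {m k : ℕ} {r : R} (hr : r ∈ Fle A.x k) (γ γ' : G) (J : ℕ) :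
    ∀ β α : Cfg σ, M.Cb * (β σ.H).length < (β σ.U).length + J → (β σ.H).length + k < m →
      A.x .Φ * A.valL ⟨[], γ, β, α, γ'⟩ r ∈ A.NN m := by
  induction J with
  | zero =>
    intro β α h1 _
    have e := A.Φ_dead (A.g γ) (A.CS_g γ) (Finset.univ.erase σ.U) (by simp [σ.hHU]) β σ.U
      (by simp) (fun i hi => by
        have : i = σ.U := by simpa using hi
        subst this
        exact h1)
    rw [valL_nil, ← q_φ, ← A.pD_q (D := Finset.univ.erase σ.U) (by simp)]
    simp only [← mul_assoc]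
    rw [e]
    simp only [zero_mul]
    exact zero_mem _
  | succ J ih =>
    intro β α h1 h2
    have e : A.valL ⟨[], γ, β, α, γ'⟩ r = A.Tc (γ, β) * A.valS ⟨γ', α⟩ r +
        A.valL ⟨[], γ, β.app (Cfg.single σ.U [σ.u]), α.app (Cfg.single σ.U [σ.u]), γ'⟩ r := by
      rw [valL_nil, valL_nil, Sys0.tB_app, Sys0.sB_app, Tc, valS]
      conv_lhs => rw [A.φ_split r, ← (A.gsB_comm γ' α).eq]
      rw [← (A.gsB_comm γ' α).eq.symm]
      simp only [add_mul, mul_add, mul_assoc, (A.gsB_comm γ' α).eq]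
    rw [e, mul_add]
    refine add_mem ?_ (ih _ _ ?_ ?_)
    · rw [← mul_assoc, mul_valS]
      by_cases hγ : γ = 1
      · rw [A.Φ_Tc_pos (c := (γ, β)) hγ]
        exact A.NN_of (NT.S _ _ _ (Fle_mul _ (A.val_mem_Fle _ _) hr) h2)
      · rw [A.Φ_Tc_neg (c := (γ, β)) hγ, zero_mul]
        simp only [valS, zero_mul]
        exact zero_mem _
    · simp only [Cfg.app, Cfg.single_ne' σ.hHU, Cfg.single_self', List.append_nil,
        List.length_append, List.length_singleton]
      omega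
    · simpa only [Cfg.app, Cfg.single_ne' σ.hHU, List.append_nil] using h2

theorem x_a_eq (p : Fin n × Bool) : ∃ γ, A.x (.a p) = A.g γ := ⟨_, (A.g_a p).symm⟩

theorem key_P (y : Gen σ n) {m : ℕ} (γ : G) (β α : Cfg σ) (h : β.size + α.size ≤ m) :
    A.x y * A.valP ⟨[], γ, β, α⟩ ∈ A.NN (m + y.wt) := by
  have hs : sizeL ([] : List (Lev σ G)) = 0 := rfl
  cases y with
  | a p =>
    obtain ⟨γ', e⟩ := A.x_a_eq p
    rw [e, valP_nil, ← mul_assoc, ← map_mul, ← valP_nil]
    exact A.NN_of (NT.P _ (by simp [hs, Gen.wt]; omega))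
  | push i b =>
    rw [valP_nil, ← mul_assoc, ← (A.CS_g γ i b).1.eq, mul_assoc, ← mul_assoc (A.x _),
      ← Sys0.tB_cons, ← valP_nil]
    exact A.NN_of (NT.P _ (by simp [hs, Gen.wt, Cfg.size_cons]; omega))
  | pop i b =>
    rw [valP_nil, pop_eq_sB]
    rcases A.sB_g_tB (Cfg.single i [b]) γ β (A.sB α) with e | e
    · rw [e]; exact zero_mem _
    · rw [e, ← Sys0.sB_app, ← valP_nil]
      have h1 := Cfg.size_sub_le' β (Cfg.single i [b])
      have h2 := Cfg.size_sub_le' (Cfg.single i [b]) β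
      rw [Cfg.size_single'] at h2
      exact A.NN_of (NT.P _ (by simp [hs, Gen.wt, Cfg.size_app] at h2 ⊢; omega))
  | S =>
    by_cases hβ : β = Cfg.nil σ
    · subst hβ
      have : A.x .S * A.valP ⟨[], γ, Cfg.nil σ, α⟩ = A.valS ⟨γ, α⟩ 1 := by
        rw [valP_nil, Sys0.tB_nil, valS]; simp only [one_mul, mul_assoc]
      rw [this]
      exact A.NN_of (NT.S _ _ 0 (one_mem_Fle _ _) (by simp [Gen.wt]))
    · rw [valP_nil, ← mul_assoc (A.g γ), (A.gtB_comm γ β).eq, ← mul_assoc, ← mul_assoc, A.S_tB hβ,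
        zero_mul, zero_mul]
      exact zero_mem _
  | T =>
    rw [T_eq]
    have := A.Tc_mul_NN (1, Cfg.nil σ) (A.NN_of (NT.P ⟨[], γ, β, α⟩ (m := m) (by simp [hs, h])))
    rwa [Cfg.size_nil'] at this
  | Z =>
    rw [Z_eq', Finset.sum_mul]
    refine sum_mem fun y _ => ?_
    rw [valP_nil, mul_assoc]
    rcases A.sB_g_tB (Cfg.single σ.I (M.code y)) γ β (A.sB α) with e | e
    · rw [e, mul_zero]; exact zero_mem _
    rw [e, ← Sys0.sB_app]
    rcases A.φ_g_tB (A.x y) γ (β.sub (Cfg.single σ.I (M.code y)))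
      (A.sB (α.app ((Cfg.single σ.I (M.code y)).sub β))) with e | e
    · rw [e]; exact zero_mem _
    rw [e, (A.gsB_comm γ _).eq, ← one_mul (A.tB _ * _), ← map_one A.g, ← valL_nil]
    have h1 := Cfg.size_sub_le' β (Cfg.single σ.I (M.code y))
    have h2 := Cfg.length_le_size α σ.U
    refine A.NN_of (NT.L _ _ 1 (x_mem_Fle_one _ _) le_rfl ?_)
    simp [hs, Gen.wt, Cfg.app, Cfg.sub, Cfg.single_ne' σ.hIU.symm]
    omega
  | Φ =>
    have : A.x .Φ * A.valP ⟨[], γ, β, α⟩ = A.valQ ⟨γ, β, α⟩ 1 := by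
      rw [valP_nil, valQ]; simp only [one_mul, mul_assoc]
    rw [this]
    have h1 := Cfg.two_le_size' β σ.hHK
    have h2 := Cfg.length_le_size α σ.H
    exact A.NN_of (NT.Q _ _ 0 (one_mem_Fle _ _) (by simp [Gen.wt, potQ]; omega))

theorem key_L (y : Gen σ n) {m k : ℕ} (γ : G) (β α : Cfg σ) (γ' : G) {r : R}
    (hr : r ∈ Fle A.x k) (hk : 1 ≤ k) (h : β.size + (α σ.U).length + 2 * k ≤ m + 1) :
    A.x y * A.valL ⟨[], γ, β, α, γ'⟩ r ∈ A.NN (m + y.wt) := by
  have hs : sizeL ([] : List (Lev σ G)) = 0 := rfl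
  cases y with
  | a p =>
    obtain ⟨γ', e⟩ := A.x_a_eq p
    rw [e, valL_nil, ← mul_assoc, ← map_mul, ← valL_nil]
    exact A.NN_of (NT.L _ _ k hr hk (by simp [hs, Gen.wt]; omega))
  | push i b =>
    rw [valL_nil, ← mul_assoc, ← (A.CS_g γ i b).1.eq, mul_assoc, ← mul_assoc (A.x _),
      ← Sys0.tB_cons, ← valL_nil]
    exact A.NN_of (NT.L _ _ k hr hk (by simp [hs, Gen.wt, Cfg.size_cons]; omega))
  | pop i b =>
    rw [valL_nil, pop_eq_sB]
    rcases A.sB_g_tB (Cfg.single i [b]) γ β (A.φ r * (A.sB α * A.g γ')) with e | e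
    · rw [e]; exact zero_mem _
    rw [e]
    rcases A.sB_φ ((Cfg.single i [b]).sub β) r (A.sB α * A.g γ') with e | ⟨-, e⟩
    · rw [e, mul_zero, mul_zero]; exact zero_mem _
    rw [e, ← mul_assoc (A.sB _), ← Sys0.sB_app, ← valL_nil]
    have h1 := Cfg.size_sub_le' β (Cfg.single i [b])
    have h2 := Cfg.size_sub_le' (Cfg.single i [b]) β
    have h3 := Cfg.length_le_size ((Cfg.single i [b]).sub β) σ.U
    rw [Cfg.size_single'] at h2
    exact A.NN_of (NT.L _ _ k hr hk (by simp [hs, Gen.wt, Cfg.app] at h2 ⊢; omega))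
  | S =>
    by_cases hβ : β = Cfg.nil σ
    · subst hβ
      by_cases hγ : γ = 1
      · subst hγ
        have : A.x .S * A.valL ⟨[], 1, Cfg.nil σ, α, γ'⟩ r = A.valS ⟨γ', α⟩ r := by
          rw [valL_nil, Sys0.tB_nil, valS, map_one, one_mul, one_mul, ← mul_assoc, S_φ,
            ← (A.gsB_comm γ' α).eq]
          simp only [mul_assoc]
        rw [this]
        exact A.NN_of (NT.S _ _ k hr (by simp [Gen.wt]; omega))
      · rw [valL_nil, Sys0.tB_nil, one_mul, ← q_φ]
        simp only [← mul_assoc]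
        rw [A.S_g_q hγ]
        simp only [zero_mul]
        exact zero_mem _
    · rw [valL_nil, ← mul_assoc (A.g γ), (A.gtB_comm γ β).eq, ← mul_assoc (A.x _),
        ← mul_assoc (A.x _), A.S_tB hβ, zero_mul, zero_mul]
      exact zero_mem _
  | T =>
    rw [T_eq]
    have := A.Tc_mul_NN (1, Cfg.nil σ)
      (A.NN_of (NT.L ⟨[], γ, β, α, γ'⟩ r k (m := m) hr hk (by simp [hs, h])))
    rwa [Cfg.size_nil'] at this
  | Z =>
    rw [Z_eq', Finset.sum_mul]
    refine sum_mem fun y _ => ?_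
    rw [valL_nil, mul_assoc]
    rcases A.sB_g_tB (Cfg.single σ.I (M.code y)) γ β (A.φ r * (A.sB α * A.g γ')) with e | e
    · rw [e, mul_zero]; exact zero_mem _
    rw [e]
    rcases A.sB_φ ((Cfg.single σ.I (M.code y)).sub β) r (A.sB α * A.g γ') with e | ⟨hU, -⟩
    · rw [e, mul_zero, mul_zero, mul_zero]; exact zero_mem _
    have hnil : (Cfg.single σ.I (M.code y)).sub β = Cfg.nil σ := by
      funext i
      by_contra hc
      have := hU i hc
      subst this
      exact hc (by simp [Cfg.sub, Cfg.single_ne' σ.hIU.symm, Cfg.nil])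
    have hβ : β σ.I ≠ [] := by
      intro h0
      have := congrFun hnil σ.I
      simp [Cfg.sub, Cfg.single_self', h0, Cfg.nil, M.code_ne_nil' y] at this
    have h1 := Cfg.size_sub_lt' β (Cfg.single σ.I (M.code y)) σ.I hβ
      (by rw [Cfg.single_self']; exact M.code_ne_nil' y)
    rw [hnil, Sys0.sB_nil, one_mul]
    rcases A.φ_g_tB (A.x y) γ (β.sub (Cfg.single σ.I (M.code y)))
      (A.φ r * (A.sB α * A.g γ')) with e | e
    · rw [e]; exact zero_mem _
    rw [e]
    by_cases hγ : γ = 1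
    · subst hγ
      rw [map_one, one_mul, ← mul_assoc (A.φ _), ← map_mul, ← one_mul (A.tB _ * _),
        ← map_one A.g, ← valL_nil]
      refine A.NN_of (NT.L _ _ (1 + k) (Fle_mul _ (x_mem_Fle_one _ _) hr) (by omega) ?_)
      simp [hs, Gen.wt]
      omega
    · have : A.φ (A.x y) * (A.g γ * (A.φ r * (A.sB α * A.g γ'))) =
          A.φ (A.x y) * (qq A.x M * A.g γ * qq A.x M) * (A.φ r * (A.sB α * A.g γ')) := by
        conv_lhs => rw [← φ_q, ← A.q_φ r]
        simp only [mul_assoc]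
      rw [this, A.qgq γ hγ, mul_zero, zero_mul, mul_zero]
      exact zero_mem _
  | Φ =>
    have h1 := Cfg.length_le_size β σ.H
    exact A.Φ_line hr γ γ' (M.Cb * (β σ.H).length + 1) β α (by omega) (by simp [Gen.wt]; omega)

theorem word_mul_NN {m p : ℕ} (ih : ∀ p < m, ∀ y : Gen σ n, ∀ t ∈ A.NN p,
    A.x y * t ∈ A.NN (p + y.wt)) {t : R} (ht : t ∈ A.NN p) :
    ∀ l : List (Gen σ n), p + l.length ≤ m → word A.x l * t ∈ A.NN (p + l.length) := by
  intro l
  induction l with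
  | nil => intro _; simpa [word] using ht
  | cons y l ihl =>
    intro h
    simp only [List.length_cons] at h ⊢
    have e : word A.x (y :: l) * t = A.x y * (word A.x l * t) := by simp [word, mul_assoc]
    rw [e]
    have := y.wt_le_one'
    exact A.NN_mono (by omega) (ih _ (by omega) y _ (ihl (by omega)))

theorem key_cons {m p : ℕ} (ih : ∀ p < m, ∀ y : Gen σ n, ∀ t ∈ A.NN p,
    A.x y * t ∈ A.NN (p + y.wt)) (y : Gen σ n) (c : Lev σ G) {t : R} (ht : t ∈ A.NN p)
    (h : p + c.2.size + 1 ≤ m) : A.x y * (A.Tc c * t) ∈ A.NN (m + y.wt) := by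
  cases y with
  | a q =>
    obtain ⟨γ', e⟩ := A.x_a_eq q
    rw [e, ← mul_assoc, g_Tc]
    exact A.NN_mono (by simp only [Gen.wt]; omega) (A.Tc_mul_NN _ ht)
  | push i b =>
    rw [← mul_assoc, push_Tc]
    exact A.NN_mono (by simp only [Gen.wt, Cfg.size_cons]; omega) (A.Tc_mul_NN _ ht)
  | pop i b =>
    by_cases e : ∃ l, c.2 i = b :: l
    · obtain ⟨l, e⟩ := e
      rw [← mul_assoc, A.pop_Tc_pos e]
      have := Cfg.size_update c.2 i l
      rw [e, List.length_cons] at this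
      exact A.NN_mono (by simp only [Gen.wt]; omega) (A.Tc_mul_NN _ ht)
    · push Not at e
      rw [← mul_assoc, A.pop_Tc_neg e, zero_mul]; exact zero_mem _
  | S =>
    by_cases e : c = (1, Cfg.nil σ)
    · rw [e, ← T_eq, ← mul_assoc, A.S_T, one_mul]
      exact A.NN_mono (by omega) ht
    · rw [← mul_assoc, A.S_Tc_of_ne e, zero_mul]; exact zero_mem _
  | T =>
    rw [T_eq]
    exact A.NN_mono (by simp only [Gen.wt, Cfg.size_nil']; omega)
      (A.Tc_mul_NN _ (A.Tc_mul_NN _ ht))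
  | Z =>
    by_cases e : c.1 = 1 ∧ (∀ i, i ≠ σ.U → i ≠ σ.I → c.2 i = []) ∧ ∃ y, c.2 σ.I = M.code y
    · obtain ⟨h1, h2, y, h3⟩ := e
      rw [← mul_assoc, A.Z_Tc_pos h1 h2 h3, mul_assoc]
      have := Cfg.size_update c.2 σ.I []
      have := y.wt_le_one'
      exact A.NN_mono (by simp only [Gen.wt, List.length_nil] at *; omega)
        (A.Tc_mul_NN _ (ih p (by omega) y t ht))
    · rw [← mul_assoc, A.Z_Tc_neg e, zero_mul]; exact zero_mem _
  | Φ =>
    by_cases e : c.1 = 1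
    · rw [← mul_assoc, A.Φ_Tc_pos e]
      have hl := Cfg.length_le_size c.2 σ.H
      have hv := val_mem_closure A.x M (c.2 σ.H) (Function.update c.2 σ.H [])
      generalize val A.x M (c.2 σ.H) (Function.update c.2 σ.H []) = v at hv
      induction hv using AddSubmonoid.closure_induction with
      | mem r hr =>
        obtain ⟨l, hl', rfl⟩ := hr
        exact A.NN_mono (by omega) (A.word_mul_NN ih ht l (by omega))
      | zero => rw [zero_mul]; exact zero_mem _
      | add a b _ _ ha hb => rw [add_mul]; exact add_mem ha hb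
    · rw [← mul_assoc, A.Φ_Tc_neg e, zero_mul]; exact zero_mem _

/-- The filtration is stable under the generators. -/
theorem key (m : ℕ) : ∀ y : Gen σ n, ∀ t ∈ A.NN m, A.x y * t ∈ A.NN (m + y.wt) := by
  induction m using Nat.strong_induction_on with
  | _ m ih =>
    intro y t ht
    refine A.mul_mem_of_NT ?_ ht
    intro r hr
    cases hr with
    | P d h1 =>
      obtain ⟨l, γ, β, α⟩ := d
      cases l with
      | nil => exact A.key_P y γ β α (by simpa [sizeL] using h1)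
      | cons c l =>
        rw [valP_cons]
        simp only [sizeL_cons', List.length_cons] at h1
        exact A.key_cons ih y c (A.NN_of (NT.P ⟨l, γ, β, α⟩ le_rfl)) (by simp only; omega)
    | L d r k h1 h2 h3 =>
      obtain ⟨l, γ, β, α, γ'⟩ := d
      cases l with
      | nil => exact A.key_L y γ β α γ' h1 h2 (by simpa [sizeL] using h3)
      | cons c l =>
        rw [valL_cons]
        simp only [sizeL_cons', List.length_cons] at h3
        exact A.key_cons ih y c (p := m - c.2.size - 1)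
          (A.NN_of (NT.L ⟨l, γ, β, α, γ'⟩ r k h1 h2 (by simp only; omega))) (by omega)
    | Q d r a h1 h2 =>
      rw [mul_valQ]
      exact A.NN_of (NT.Q _ _ _ (Fle_mul _ (x_mem_Fle _ y) h1) (by omega))
    | S d r a h1 h2 =>
      rw [mul_valS]
      exact A.NN_of (NT.S _ _ _ (Fle_mul _ (x_mem_Fle _ y) h1) (by omega))

theorem word_mem_NN (w : List (Gen σ n)) : word A.x w ∈ A.NN (wtW w) := by
  induction w with
  | nil =>
    have : word A.x [] = A.valP ⟨[], 1, Cfg.nil σ, Cfg.nil σ⟩ := by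
      rw [valP_nil, Sys0.tB_nil, Sys0.sB_nil, map_one]; simp [word]
    rw [this]
    exact A.NN_of (NT.P _ (by simp [sizeL, Cfg.size_nil']))
  | cons y w ih =>
    have e : word A.x (y :: w) = A.x y * word A.x w := by simp [word]
    have e' : wtW (y :: w) = wtW w + y.wt := by simp [wtW, add_comm]
    rw [e, e']
    exact A.key _ y _ ih

theorem mem_NN_of_Fle {m : ℕ} {r : R} (hr : r ∈ Fle A.x m) : r ∈ A.NN m := by
  induction hr using AddSubmonoid.closure_induction with
  | mem r hr =>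
    obtain ⟨w, hw, rfl⟩ := hr
    exact A.NN_mono hw (A.word_mem_NN w)
  | zero => exact zero_mem _
  | add a b _ _ ha hb => exact add_mem ha hb

end Sys

end Vale.Agent.P193
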