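import Vale.Agent.P193.NFDefs
import Vale.Agent.P193.NFClosureAux

/-! Task C2: existence of the normal form. -/

namespace Vale.Agent.P193.Sys

variable {σ : Sig} {n : ℕ} {M : Mach σ n} {G : Type} [Group G] {s : Fin n → G} {R : Type} [Ring R]
  (A : Sys M s R)

theorem valL_zero (d : DL σ G) : A.valL d 0 = 0 := by simp [valL]

theorem valL_add (d : DL σ G) (a b : R) : A.valL d (a + b) = A.valL d a + A.valL d b := by
  simp [valL, mul_add, add_mul]

theorem valQ_zero (d : DQ σ G) : A.valQ d 0 = 0 := by simp [valQ]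

theorem valQ_add (d : DQ σ G) (a b : R) : A.valQ d (a + b) = A.valQ d a + A.valQ d b := by
  simp [valQ, add_mul]

theorem valS_zero (d : DS σ G) : A.valS d 0 = 0 := by simp [valS]

theorem valS_add (d : DS σ G) (a b : R) : A.valS d (a + b) = A.valS d a + A.valS d b := by
  simp [valS, add_mul]

include A in
theorem sum_symmDiff_two {ι : Type} [DecidableEq ι] (a b : Finset ι) (f : ι → R) :
    ∑ i ∈ symmDiff a b, f i = ∑ i ∈ a, f i + ∑ i ∈ b, f i := by
  rw [Finset.symmDiff_def, Finset.sum_union disjoint_sdiff_sdiff,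
    ← Finset.sum_sdiff (Finset.inter_subset_left (s₁ := a) (s₂ := b)),
    ← Finset.sum_sdiff (Finset.inter_subset_right (s₁ := a) (s₂ := b)),
    Finset.sdiff_inter_self_left, Finset.sdiff_inter_self_right]
  have := A.two (∑ i ∈ a ∩ b, f i)
  calc _ = ∑ i ∈ a \ b, f i + ∑ i ∈ b \ a, f i + (∑ i ∈ a ∩ b, f i + ∑ i ∈ a ∩ b, f i) := by
        rw [this, add_zero]
    _ = _ := by abel

/-- Normal forms whose line coefficients lie in prescribed additive submonoids. -/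
def NFE (E : DL σ G → AddSubmonoid R) (m : ℕ) : AddSubmonoid R where
  carrier := {r | ∃ (fP : Finset (DP σ G)) (fL : DL σ G →₀ R) (fQ : DQ σ G →₀ R)
    (fS : DS σ G →₀ R),
    r = ∑ d ∈ fP, A.valP d + fL.sum A.valL + fQ.sum A.valQ + fS.sum A.valS ∧
    (∀ d, fL d ∈ E d) ∧ (∀ d, fQ d ∈ Flt A.x (m - potQ d.β d.α)) ∧ (∀ d, fS d ∈ Flt A.x m)}
  zero_mem' := ⟨∅, 0, 0, 0, by simp, fun _ => zero_mem _, fun _ => zero_mem _,
    fun _ => zero_mem _⟩
  add_mem' := by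
    classical
    rintro _ _ ⟨p, l, q, t, rfl, h1, h2, h3⟩ ⟨p', l', q', t', rfl, h1', h2', h3'⟩
    refine ⟨symmDiff p p', l + l', q + q', t + t', ?_, fun d => add_mem (h1 d) (h1' d),
      fun d => add_mem (h2 d) (h2' d), fun d => add_mem (h3 d) (h3' d)⟩
    rw [A.sum_symmDiff_two, Finsupp.sum_add_index' A.valL_zero A.valL_add,
      Finsupp.sum_add_index' A.valQ_zero A.valQ_add, Finsupp.sum_add_index' A.valS_zero A.valS_add]
    abel

theorem single_mem {ι : Type} (E : ι → AddSubmonoid R) {d : ι} {c : R} (h : c ∈ E d) (d' : ι) :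
    (Finsupp.single d c : ι →₀ R) d' ∈ E d' := by
  classical
  rw [Finsupp.single_apply]
  split_ifs with e
  · exact e ▸ h
  · exact zero_mem _

variable {E : DL σ G → AddSubmonoid R} {m : ℕ}

theorem P_mem (d : DP σ G) : A.valP d ∈ A.NFE E m :=
  ⟨{d}, 0, 0, 0, by simp, fun _ => zero_mem _, fun _ => zero_mem _, fun _ => zero_mem _⟩

theorem L_mem_nf (d : DL σ G) {c : R} (h : c ∈ E d) : A.valL d c ∈ A.NFE E m :=
  ⟨∅, Finsupp.single d c, 0, 0, by simp [Finsupp.sum_single_index (A.valL_zero d)],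
    single_mem E h, fun _ => zero_mem _, fun _ => zero_mem _⟩

theorem Q_mem (d : DQ σ G) {c : R} (h : c ∈ Flt A.x (m - potQ d.β d.α)) :
    A.valQ d c ∈ A.NFE E m :=
  ⟨∅, 0, Finsupp.single d c, 0, by simp [Finsupp.sum_single_index (A.valQ_zero d)],
    fun _ => zero_mem _, single_mem (fun d : DQ σ G => Flt A.x (m - potQ d.β d.α)) h,
    fun _ => zero_mem _⟩

theorem S_mem (d : DS σ G) {c : R} (h : c ∈ Flt A.x m) : A.valS d c ∈ A.NFE E m :=
  ⟨∅, 0, 0, Finsupp.single d c, by simp [Finsupp.sum_single_index (A.valS_zero d)],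
    fun _ => zero_mem _, fun _ => zero_mem _, single_mem (fun _ : DS σ G => Flt A.x m) h⟩

theorem NF_of_NFE (hE : ∀ d c, c ∈ E d → c ≠ 0 →
    (d.β σ.U = [] ∨ d.α σ.U = []) ∧ (c ∈ Flt A.x m ∨ ∃ y, c = A.x y)) {r : R}
    (hr : r ∈ A.NFE E m) : A.NF m r := by
  obtain ⟨p, l, q, t, e, h1, h2, h3⟩ := hr
  exact ⟨p, l, q, t, e, fun d hd => hE d _ (h1 d) (Finsupp.mem_support_iff.1 hd), h2, h3⟩

/-- The general condition on line coefficients. -/
def EG (m : ℕ) (d : DL σ G) : AddSubmonoid R where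
  carrier := {c | c = 0 ∨ ((d.β σ.U = [] ∨ d.α σ.U = []) ∧ c ∈ Flt A.x m)}
  zero_mem' := Or.inl rfl
  add_mem' := by
    rintro a b (rfl | ⟨h1, h2⟩) (rfl | ⟨h3, h4⟩)
    · exact Or.inl (add_zero _)
    · exact Or.inr ⟨h3, by rwa [zero_add]⟩
    · exact Or.inr ⟨h1, by rwa [add_zero]⟩
    · exact Or.inr ⟨h1, add_mem h2 h4⟩

/-- The condition on line coefficients at level one. -/
def E1 (d : DL σ G) : AddSubmonoid R where
  carrier := {c | c = 0 ∨ (d.α σ.U = [] ∧ ∃ y, d.α σ.I = M.code y ∧ c = A.x y)}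
  zero_mem' := Or.inl rfl
  add_mem' := by
    rintro a b (rfl | ⟨h1, y, h2, rfl⟩) (rfl | ⟨h3, y', h4, rfl⟩)
    · exact Or.inl (add_zero _)
    · exact Or.inr ⟨h3, y', h4, zero_add _⟩
    · exact Or.inr ⟨h1, y, h2, add_zero _⟩
    · rw [M.code_injective (h2.symm.trans h4)]
      exact Or.inl (A.two _)

theorem L_normalise {k : ℕ} {c : R} (hc : c ∈ Fle A.x k) (hk : 1 ≤ k) (hkm : k < m)
    (l : List (Lev σ G)) (γ γ' : G) (j : ℕ) : ∀ β α : Cfg σ, (α σ.U).length = j →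
      sizeL l + l.length + β.size + (α σ.U).length + 2 * k ≤ m + 1 →
      A.valL ⟨l, γ, β, α, γ'⟩ c ∈ A.NFE (A.EG m) m := by
  induction j with
  | zero =>
    intro β α h _
    exact A.L_mem_nf _ (Or.inr ⟨Or.inr (List.length_eq_zero_iff.1 h), Fle_le_Flt _ hkm hc⟩)
  | succ j ih =>
    intro β α h hb
    by_cases hβ : β σ.U = []
    · exact A.L_mem_nf _ (Or.inr ⟨Or.inl hβ, Fle_le_Flt _ hkm hc⟩)
    obtain ⟨β0, rfl⟩ := Cfg.exists_app_U' β hβ
    obtain ⟨α0, rfl⟩ := Cfg.exists_app_U' α (by intro e; simp [e] at h)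
    have e : A.valL ⟨l, γ, β0, α0, γ'⟩ c = A.valS ⟨γ', α0⟩ (A.TL l * A.Tc (γ, β0) * c) +
        A.valL ⟨l, γ, β0.app (Cfg.single σ.U [σ.u]), α0.app (Cfg.single σ.U [σ.u]), γ'⟩ c := by
      simp only [valL, valS, Tc, Sys0.tB_app, Sys0.sB_app]
      conv_lhs => rw [A.φ_split c]
      simp only [add_mul, mul_add, mul_assoc, (A.gsB_comm γ' α0).eq]
    have e' : A.valL ⟨l, γ, β0.app (Cfg.single σ.U [σ.u]), α0.app (Cfg.single σ.U [σ.u]), γ'⟩ c =
        A.valS ⟨γ', α0⟩ (A.TL l * A.Tc (γ, β0) * c) + A.valL ⟨l, γ, β0, α0, γ'⟩ c := by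
      rw [e, ← add_assoc, A.two, zero_add]
    rw [e']
    simp only [Cfg.size_app, Cfg.size_single', Cfg.app, Cfg.single_self', List.length_append,
      List.length_singleton] at h hb
    refine add_mem (A.S_mem _ (Fle_le_Flt _ ?_
      (Fle_mul _ (Fle_mul _ (A.TL_mem_Fle l) (A.Tc_mem_Fle (γ, β0))) hc))) (ih _ _ ?_ ?_)
    · simp only
      omega
    · omega
    · omega

theorem NFE_of_NN (hm : m ≠ 1) {r : R} (hr : r ∈ A.NN m) : r ∈ A.NFE (A.EG m) m := by
  refine (AddSubmonoid.closure_le.2 ?_) hr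
  intro r hr
  cases hr with
  | P d h1 => exact A.P_mem d
  | L d c k h1 h2 h3 => exact A.L_normalise h1 h2 (by omega) d.l d.g d.g' _ d.β d.α rfl h3
  | Q d c a h1 h2 => exact A.Q_mem d (Fle_le_Flt _ (by omega) h1)
  | S d c a h1 h2 => exact A.S_mem d (Fle_le_Flt _ h2 h1)

theorem word_wt_zero (w : List (Gen σ n)) (h : wtW w = 0) : ∃ γ, word A.x w = A.g γ := by
  induction w with
  | nil => exact ⟨1, by simp [word]⟩
  | cons y w ih =>
    have e : wtW (y :: w) = y.wt + wtW w := by simp [wtW]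
    obtain ⟨γ, hγ⟩ := ih (by omega)
    have e' : word A.x (y :: w) = A.x y * word A.x w := by simp [word]
    cases y with
    | a p =>
      obtain ⟨γ', h'⟩ := A.x_a_eq p
      exact ⟨γ' * γ, by rw [e', h', hγ, map_mul]⟩
    | _ => simp [e, Gen.wt] at h

theorem level_one (γ γ' : G) (y : Gen σ n) : A.g γ * (A.x y * A.g γ') ∈ A.NFE A.E1 1 := by
  have h1 : (1 : R) ∈ Flt A.x 1 := Fle_le_Flt _ Nat.one_pos (one_mem_Fle _ _)
  have hg : A.g γ ∈ Flt A.x 1 := Fle_le_Flt _ Nat.one_pos (A.g_mem_Fle γ)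
  cases y with
  | a p =>
    obtain ⟨γ'', e⟩ := A.x_a_eq p
    have : A.g γ * (A.x (.a p) * A.g γ') = A.valP ⟨[], γ * (γ'' * γ'), Cfg.nil σ, Cfg.nil σ⟩ := by
      rw [valP_nil, Sys0.tB_nil, Sys0.sB_nil, e, map_mul, map_mul, mul_one, mul_one]
    rw [this]; exact A.P_mem _
  | push i b =>
    have : A.g γ * (A.x (.push i b) * A.g γ') =
        A.valP ⟨[], γ * γ', Cfg.single i [b], Cfg.nil σ⟩ := by
      rw [valP_nil, Sys0.sB_nil, map_mul, mul_one, push_eq_tB, ← (A.gtB_comm _ _).eq, mul_assoc]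
    rw [this]; exact A.P_mem _
  | pop i b =>
    have : A.g γ * (A.x (.pop i b) * A.g γ') =
        A.valP ⟨[], γ * γ', Cfg.nil σ, Cfg.single i [b]⟩ := by
      rw [valP_nil, Sys0.tB_nil, map_mul, one_mul, pop_eq_sB, ← (A.gsB_comm _ _).eq, mul_assoc]
    rw [this]; exact A.P_mem _
  | S =>
    have : A.g γ * (A.x .S * A.g γ') = A.valS ⟨γ', Cfg.nil σ⟩ (A.g γ) := by
      simp only [valS, Sys0.sB_nil, mul_one, mul_assoc]
    rw [this]; exact A.S_mem _ hg
  | T =>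
    have : A.g γ * (A.x .T * A.g γ') = A.valP ⟨[(γ, Cfg.nil σ)], γ', Cfg.nil σ, Cfg.nil σ⟩ := by
      simp only [valP_cons, valP_nil, Tc, Sys0.tB_nil, Sys0.sB_nil, mul_one, mul_assoc]
    rw [this]; exact A.P_mem _
  | Z =>
    rw [Z_eq', Finset.sum_mul, Finset.mul_sum]
    refine sum_mem fun y _ => ?_
    have : A.g γ * (A.φ (A.x y) * A.sB (Cfg.single σ.I (M.code y)) * A.g γ') =
        A.valL ⟨[], γ, Cfg.nil σ, Cfg.single σ.I (M.code y), γ'⟩ (A.x y) := by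
      simp only [valL_nil, Sys0.tB_nil, one_mul, mul_assoc]
    rw [this]
    exact A.L_mem_nf _ (Or.inr ⟨Cfg.single_ne' σ.hIU.symm _, y, Cfg.single_self' _ _, rfl⟩)
  | Φ =>
    have : A.g γ * (A.x .Φ * A.g γ') = A.valQ ⟨γ', Cfg.nil σ, Cfg.nil σ⟩ (A.g γ) := by
      simp only [valQ, Sys0.tB_nil, Sys0.sB_nil, mul_one, mul_assoc]
    rw [this]; exact A.Q_mem _ hg

theorem word_level_one (w : List (Gen σ n)) (h : wtW w ≤ 1) (γ : G) :
    A.g γ * word A.x w ∈ A.NFE A.E1 1 := by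
  induction w generalizing γ with
  | nil =>
    have : A.g γ * word A.x [] = A.valP ⟨[], γ, Cfg.nil σ, Cfg.nil σ⟩ := by
      simp [valP_nil, Sys0.tB_nil, Sys0.sB_nil, word]
    rw [this]; exact A.P_mem _
  | cons y w ih =>
    have e : wtW (y :: w) = y.wt + wtW w := by simp [wtW]
    have e' : word A.x (y :: w) = A.x y * word A.x w := by simp [word]
    by_cases h0 : wtW w = 0
    · obtain ⟨γ', h'⟩ := A.word_wt_zero w h0
      rw [e', h']
      exact A.level_one γ γ' y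
    · cases y with
      | a p =>
        obtain ⟨γ', h'⟩ := A.x_a_eq p
        rw [e', h', ← mul_assoc, ← map_mul]
        exact ih (by omega) _
      | _ => simp only [e, Gen.wt] at h; omega

theorem nf_of_mem_Fle (m : ℕ) (r : R) (hr : r ∈ Fle A.x m) : A.NF m r := by
  by_cases hm : m = 1
  · subst hm
    refine A.NF_of_NFE (E := A.E1) ?_ ((AddSubmonoid.closure_le.2 ?_) hr)
    · rintro d c (rfl | ⟨h1, y, -, rfl⟩) h0
      · exact absurd rfl h0
      · exact ⟨Or.inr h1, Or.inr ⟨y, rfl⟩⟩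
    · rintro _ ⟨w, hw, rfl⟩
      have := A.word_level_one w hw 1
      rwa [map_one, one_mul] at this
  · refine A.NF_of_NFE (E := A.EG m) ?_ (A.NFE_of_NN hm (A.mem_NN_of_Fle hr))
    rintro d c (rfl | ⟨h1, h2⟩) h0
    · exact absurd rfl h0
    · exact ⟨h1, Or.inl h2⟩

end Vale.Agent.P193.Sys
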