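import Vale.Agent.P193.RingBasic

/-!
P193, part C: data of the normal form.
-/

namespace Vale.Agent.P193

variable {σ : Sig} {n : ℕ}

/-- Data of a passing term `T_l g t_β s_α`. -/
structure DP (σ : Sig) (G : Type) where
  l : List (Lev σ G)
  g : G
  β : Cfg σ
  α : Cfg σ

/-- Data of a line term `T_l g t_β φ(c) s_α g'`. -/
structure DL (σ : Sig) (G : Type) where
  l : List (Lev σ G)
  g : G
  β : Cfg σ
  α : Cfg σ
  g' : G

/-- Data of an evaluation term `c Φ g t_β s_α`. -/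
structure DQ (σ : Sig) (G : Type) where
  g : G
  β : Cfg σ
  α : Cfg σ

/-- Data of a removal term `c S g s_α`. -/
structure DS (σ : Sig) (G : Type) where
  g : G
  α : Cfg σ

/-- The potential of an evaluation term. -/
def potQ (β α : Cfg σ) : ℕ := (β σ.H).length + (α σ.H).length + (β σ.K).length

namespace Sys

variable {M : Mach σ n} {G : Type} [Group G] {s : Fin n → G} {R : Type} [Ring R]
  (A : Sys M s R)

def valP (d : DP σ G) : R := A.TL d.l * A.g d.g * A.tB d.β * A.sB d.α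

def valL (d : DL σ G) (c : R) : R := A.TL d.l * A.g d.g * A.tB d.β * A.φ c * A.sB d.α * A.g d.g'

def valQ (d : DQ σ G) (c : R) : R := c * A.x .Φ * A.g d.g * A.tB d.β * A.sB d.α

def valS (d : DS σ G) (c : R) : R := c * A.x .S * A.g d.g * A.sB d.α

/-- `r` has a normal form of level `m`. -/
def NF (m : ℕ) (r : R) : Prop :=
  ∃ (fP : Finset (DP σ G)) (fL : DL σ G →₀ R) (fQ : DQ σ G →₀ R) (fS : DS σ G →₀ R),
    r = ∑ d ∈ fP, A.valP d + fL.sum A.valL + fQ.sum A.valQ + fS.sum A.valS ∧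
    (∀ d ∈ fL.support, (d.β σ.U = [] ∨ d.α σ.U = []) ∧
      (fL d ∈ Flt A.x m ∨ ∃ y, fL d = A.x y)) ∧
    (∀ d, fQ d ∈ Flt A.x (m - potQ d.β d.α)) ∧ (∀ d, fS d ∈ Flt A.x m)

end Sys

end Vale.Agent.P193
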