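import Vale.Agent.P193.NFDefs

/-! Task C5, auxiliary file 1: the clock stack. -/

namespace Vale.Agent.P193

variable {σ : Sig} {n : ℕ}

theorem BOp.act_inj {o : BOp σ} {w w' γ : Cfg σ} (h : o.act w = some γ) (h' : o.act w' = some γ) :
    w = w' := by
  cases o with
  | push i b =>
    simp only [BOp.act, Option.some.injEq] at h h'
    funext j
    by_cases hj : j = i
    · subst hj
      have h1 := congrFun h j
      have h2 := congrFun h' j
      simp only [Function.update_self] at h1 h2
      exact (List.cons.inj (h1.trans h2.symm)).2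
    · have h1 := congrFun h j
      have h2 := congrFun h' j
      simp only [Function.update_of_ne hj] at h1 h2
      exact h1.trans h2.symm
  | pop i b =>
    simp only [BOp.act] at h h'
    rcases hw : w i with _ | ⟨c, l⟩
    · simp [hw] at h
    rcases hw' : w' i with _ | ⟨c', l'⟩
    · simp [hw'] at h'
    simp only [hw, hw'] at h h'
    split_ifs at h h' with hc hc'
    simp only [Option.some.injEq] at h h'
    funext j
    by_cases hj : j = i
    · subst hj
      have h1 := congrFun h j
      have h2 := congrFun h' j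
      simp only [Function.update_self] at h1 h2
      rw [hw, hw', hc, hc', h1, h2]
    · have h1 := congrFun h j
      have h2 := congrFun h' j
      simp only [Function.update_of_ne hj] at h1 h2
      exact h1.trans h2.symm
  | test i =>
    simp only [BOp.act] at h h'
    split_ifs at h h'
    simp only [Option.some.injEq] at h h'
    exact h.trans h'.symm

theorem opsAct_inj {os : List (BOp σ)} : ∀ {w w' γ : Cfg σ}, opsAct os w = some γ →
    opsAct os w' = some γ → w = w' := by
  induction os with
  | nil =>
    intro w w' γ h h'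
    simp only [opsAct, Option.some.injEq] at h h'
    exact h.trans h'.symm
  | cons o os ih =>
    intro w w' γ h h'
    simp only [opsAct, Option.bind_eq_some_iff] at h h'
    obtain ⟨a, ha, ha2⟩ := h
    obtain ⟨a', ha', ha2'⟩ := h'
    have := ih ha2 ha2'
    subst this
    exact BOp.act_inj ha ha'

theorem Cfg.app_update (w ξ : Cfg σ) (i : σ.ι) (l : List (σ.Γ i)) :
    Cfg.app (Function.update w i l) ξ = Function.update (w.app ξ) i (l ++ ξ i) := by
  funext j
  by_cases hj : j = i
  · subst hj; simp [Cfg.app]
  · simp [Cfg.app, Function.update_of_ne hj]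

theorem opsAct_app' (os : List (BOp σ)) (ξ : Cfg σ) (hξ : ∀ o ∈ os, ξ o.stk = []) :
    ∀ w : Cfg σ, opsAct os (w.app ξ) = (opsAct os w).map fun w' => w'.app ξ := by
  induction os with
  | nil => intro w; simp [opsAct]
  | cons o os ih =>
    intro w
    have ho := hξ o (by simp)
    have ih' := ih (fun o' ho' => hξ o' (by simp [ho']))
    have key : o.act (w.app ξ) = (o.act w).map fun w' => w'.app ξ := by
      cases o with
      | push i b =>
        simp only [BOp.stk] at ho
        simp [BOp.act, Cfg.app_update, ho, Cfg.app]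
      | pop i b =>
        simp only [BOp.stk] at ho
        have : (w.app ξ) i = w i := by simp [Cfg.app, ho]
        simp only [BOp.act, this]
        rcases w i with _ | ⟨c, l⟩
        · simp
        · by_cases hc : c = b
          · simp [hc, Cfg.app_update, ho]
          · simp [hc]
      | test i =>
        simp only [BOp.stk] at ho
        have : (w.app ξ) i = w i := by simp [Cfg.app, ho]
        simp only [BOp.act, this]
        split_ifs <;> simp
    simp only [opsAct, key]
    rcases o.act w with _ | w1
    · simp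
    · simpa using ih' w1

/-- The action of a clock operation on the clock stack. -/
def kAct : KOp σ → List (σ.Γ σ.K) → Option (List (σ.Γ σ.K))
  | .tick, [] => none
  | .tick, c :: l => if c = σ.tick then some l else none
  | .wind, l => some (σ.tick :: l)
  | .cheat0, [] => none
  | .cheat0, c :: l => if c = σ.zero then some (σ.zero :: l) else none
  | .cheatK _, [] => none
  | .cheatK _, [_] => none
  | .cheatK b, c :: c' :: l => if c = σ.zero ∧ c' = b then some (σ.zero :: l) else none
  | .poison, [] => none
  | .poison, c :: l => if c = σ.zero ∧ l = [] then some [] else none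

theorem opsAct_kop (k : KOp σ) (w : Cfg σ) :
    opsAct k.ops w = (kAct k (w σ.K)).map fun l => Function.update w σ.K l := by
  cases k with
  | tick =>
    rcases hw : w σ.K with _ | ⟨c, l⟩
    · simp [KOp.ops, opsAct, BOp.act, hw, kAct]
    · by_cases hc : c = σ.tick <;> simp [KOp.ops, opsAct, BOp.act, hw, kAct, hc]
  | wind => simp [KOp.ops, opsAct, BOp.act, kAct]
  | cheat0 =>
    rcases hw : w σ.K with _ | ⟨c, l⟩
    · simp [KOp.ops, opsAct, BOp.act, hw, kAct]
    · by_cases hc : c = σ.zero <;> simp [KOp.ops, opsAct, BOp.act, hw, kAct, hc]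
  | cheatK b =>
    rcases hw : w σ.K with _ | ⟨c, _ | ⟨c', l⟩⟩
    · simp [KOp.ops, opsAct, BOp.act, hw, kAct]
    · by_cases hc : c = σ.zero <;> simp [KOp.ops, opsAct, BOp.act, hw, kAct, hc]
    · by_cases hc : c = σ.zero <;> by_cases hc' : c' = b <;>
        simp [KOp.ops, opsAct, BOp.act, hw, kAct, hc, hc']
  | poison =>
    rcases hw : w σ.K with _ | ⟨c, l⟩
    · simp [KOp.ops, opsAct, BOp.act, hw, kAct]
    · by_cases hc : c = σ.zero <;> by_cases hl : l = [] <;>
        simp [KOp.ops, opsAct, BOp.act, hw, kAct, hc, hl]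

theorem opsAct_all (b : Branch σ n) (w : Cfg σ) :
    opsAct b.all w = (kAct b.kop (w σ.K)).bind fun l => opsAct b.ops (Function.update w σ.K l) := by
  rw [Branch.all, opsAct_append, opsAct_kop]
  rcases kAct b.kop (w σ.K) with _ | l <;> simp

theorem Mach.step_K (M : Mach σ n) {τ : σ.Γ σ.H} {b : Branch σ n} (hb : b ∈ M.br τ)
    {w w' : Cfg σ} (h : opsAct b.all w = some w') : kAct b.kop (w σ.K) = some (w' σ.K) := by
  rw [opsAct_all, Option.bind_eq_some_iff] at h
  obtain ⟨l, hl, h2⟩ := h
  rw [hl, opsAct_apply_of_ne h2 (fun o ho => (M.ops_ne τ b hb o ho).2)]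
  simp

theorem kAct_pure {k : KOp σ} {l l' : List (σ.Γ σ.K)} (h : kAct k l = some l')
    (hp : σ.zero ∉ l) : σ.zero ∉ l' ∧ (k = .tick ∧ l = σ.tick :: l' ∨ k = .wind ∧ l' = σ.tick :: l) := by
  cases k with
  | tick =>
    rcases l with _ | ⟨c, l⟩
    · simp [kAct] at h
    · simp only [kAct] at h
      split_ifs at h with hc
      simp only [Option.some.injEq] at h
      subst h hc
      exact ⟨fun hm => hp (List.mem_cons_of_mem _ hm), Or.inl ⟨rfl, rfl⟩⟩
  | wind =>
    simp only [kAct, Option.some.injEq] at h
    subst h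
    refine ⟨?_, Or.inr ⟨rfl, rfl⟩⟩
    simp only [List.mem_cons, not_or]
    exact ⟨σ.tick_ne.symm, hp⟩
  | cheat0 =>
    rcases l with _ | ⟨c, l⟩
    · simp [kAct] at h
    · simp only [kAct] at h
      split_ifs at h with hc
      exact absurd (by simp [hc]) hp
  | cheatK b =>
    rcases l with _ | ⟨c, _ | ⟨c', l⟩⟩
    · simp [kAct] at h
    · simp [kAct] at h
    · simp only [kAct] at h
      split_ifs at h with hc
      exact absurd (by simp [hc.1]) hp
  | poison =>
    rcases l with _ | ⟨c, l⟩
    · simp [kAct] at h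
    · simp only [kAct] at h
      split_ifs at h with hc
      exact absurd (by simp [hc.1]) hp

theorem kAct_impure {k : KOp σ} {l l' : List (σ.Γ σ.K)} (h : kAct k l = some l')
    (hp : σ.zero ∈ l) :
    l' = [] ∨ (σ.zero ∈ l' ∧ l'.idxOf σ.zero ≤ l.idxOf σ.zero + 1) := by
  cases k with
  | tick =>
    rcases l with _ | ⟨c, l⟩
    · simp [kAct] at h
    · simp only [kAct] at h
      split_ifs at h with hc
      simp only [Option.some.injEq] at h
      subst h hc
      right
      have : σ.zero ∈ l := by
        rcases List.mem_cons.1 hp with h1 | h1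
        · exact absurd h1.symm σ.tick_ne
        · exact h1
      refine ⟨this, ?_⟩
      rw [List.idxOf_cons_ne _ σ.tick_ne]
      omega
  | wind =>
    simp only [kAct, Option.some.injEq] at h
    subst h
    right
    refine ⟨List.mem_cons_of_mem _ hp, ?_⟩
    rw [List.idxOf_cons_ne _ σ.tick_ne]
  | cheat0 =>
    rcases l with _ | ⟨c, l⟩
    · simp [kAct] at h
    · simp only [kAct] at h
      split_ifs at h with hc
      simp only [Option.some.injEq] at h
      subst h
      right
      simp
  | cheatK b =>
    rcases l with _ | ⟨c, _ | ⟨c', l⟩⟩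
    · simp [kAct] at h
    · simp [kAct] at h
    · simp only [kAct] at h
      split_ifs at h with hc
      simp only [Option.some.injEq] at h
      subst h
      right
      simp
  | poison =>
    rcases l with _ | ⟨c, l⟩
    · simp [kAct] at h
    · simp only [kAct] at h
      split_ifs at h with hc
      simp only [Option.some.injEq] at h
      exact Or.inl h.symm

theorem Mach.Reach.pure {M : Mach σ n} {h : List (σ.Γ σ.H)} {w γ : Cfg σ}
    (hr : M.Reach h w γ) (hp : w.Pure) : γ.Pure := by
  induction hr with
  | nil w => exact hp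
  | cons τ h w w' γ b hb hw _ ih => exact ih (kAct_pure (M.step_K hb hw) hp).1

theorem Mach.Reach.lead {M : Mach σ n} {h : List (σ.Γ σ.H)} {w γ : Cfg σ}
    (hr : M.Reach h w γ) (hp : ¬ w.Pure) :
    γ.Pure ∨ (γ σ.K).idxOf σ.zero ≤ (w σ.K).idxOf σ.zero + h.length := by
  induction hr with
  | nil w => right; simp
  | cons τ h w w' γ b hb hw hr ih =>
    rcases kAct_impure (M.step_K hb hw) (not_not.1 hp) with h1 | ⟨h1, h2⟩
    · left
      exact hr.pure (by simp [Cfg.Pure, h1])
    · rcases ih (not_not.2 h1) with h3 | h3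
      · exact Or.inl h3
      · right
        simp only [List.length_cons]
        omega

section Ev

variable {R : Type} [Ring R] (x : Gen σ n → R) (M : Mach σ n)

/-- A history symbol without output. -/
def Mach.Silent (M : Mach σ n) (τ : σ.Γ σ.H) : Prop := ∀ b ∈ M.br τ, b.m = none

theorem Ev_silent_mem (v : List (σ.Γ σ.H)) (hv : ∀ τ ∈ v, M.Silent τ) (f : Cfg σ → R) (k : ℕ)
    (hf : ∀ γ, f γ ∈ Fle x k) : ∀ w, Ev x M v w f ∈ Fle x k := by
  induction v with
  | nil => intro w; exact hf w
  | cons τ v ih =>
    intro w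
    simp only [Ev]
    refine list_sum_mem ?_
    intro r hr
    obtain ⟨b, hb, rfl⟩ := List.mem_map.1 hr
    have hm : b.mv x = 1 := by simp [Branch.mv, hv τ (by simp) b hb]
    rcases opsAct b.all w with _ | w'
    · exact zero_mem _
    · simp only [hm, one_mul]
      exact ih (fun τ' h' => hv τ' (by simp [h'])) w'

theorem ind_mem_Fle (γ γ' : Cfg σ) (k : ℕ) : ind R γ γ' ∈ Fle x k := by
  unfold ind
  split_ifs
  · exact one_mem_Fle x k
  · exact zero_mem _

/-- One injective silent step. -/
theorem val_cons_ind {τ : σ.Γ σ.H} {k : KOp σ} {os : List (BOp σ)}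
    (hτ : M.br τ = [⟨none, k, os⟩]) {γ γ1 : Cfg σ} (h1 : opsAct (k.ops ++ os) γ = some γ1)
    {v : List (σ.Γ σ.H)} (hv : ∀ γ', val x M v γ' = ind R γ1 γ') (γ' : Cfg σ) :
    val x M (τ :: v) γ' = ind R γ γ' := by
  have hv' : ∀ γ', Ev x M v γ' (ind R (Cfg.nil σ)) = ind R γ1 γ' := hv
  simp only [val, Ev, hτ, List.map_cons, List.map_nil, List.sum_cons, List.sum_nil, add_zero,
    Branch.all, Branch.mv, one_mul]
  rcases h2 : opsAct (k.ops ++ os) γ' with _ | w'
  · have : γ' ≠ γ := by
      rintro rfl
      rw [h1] at h2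
      cases h2
    simp [ind, this]
  · simp only [hv']
    by_cases hw : w' = γ1
    · subst hw
      have := opsAct_inj h2 h1
      simp [ind, this]
    · have : γ' ≠ γ := by
        rintro rfl
        rw [h1] at h2
        exact hw (Option.some.inj h2).symm
      simp [ind, this, hw]

theorem Mach.silent_of_eq {τ : σ.Γ σ.H} {k : KOp σ} {os : List (BOp σ)}
    (hτ : M.br τ = [⟨none, k, os⟩]) : M.Silent τ := by
  intro b hb
  rw [hτ, List.mem_singleton] at hb
  rw [hb]

theorem opsAct_kop_append (k : KOp σ) (os : List (BOp σ)) (w : Cfg σ) {l : List (σ.Γ σ.K)}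
    (h : kAct k (w σ.K) = some l) :
    opsAct (k.ops ++ os) w = opsAct os (Function.update w σ.K l) := by
  rw [opsAct_append, opsAct_kop, h]
  simp

/-- An impure configuration is erased by a silent history that accepts nothing else. -/
theorem erase (γ : Cfg σ) (hH : γ σ.H = []) (hp : ¬ γ.Pure) :
    ∃ v : List (σ.Γ σ.H), (∀ τ ∈ v, M.Silent τ) ∧ ∀ γ', val x M v γ' = ind R γ γ' := by
  induction hs : γ.size using Nat.strong_induction_on generalizing γ with
  | _ k ih =>
  have hp' : σ.zero ∈ γ σ.K := not_not.1 hp
  rcases hK : γ σ.K with _ | ⟨c, l⟩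
  · simp [hK] at hp'
  rcases σ.k_cases c with rfl | rfl
  · have hl : σ.zero ∈ l := by
      rw [hK] at hp'
      rcases List.mem_cons.1 hp' with h1 | h1
      · exact absurd h1.symm σ.tick_ne
      · exact h1
    have hsz := Cfg.size_update γ σ.K l
    rw [hK, List.length_cons] at hsz
    obtain ⟨v, hv1, hv2⟩ := ih (Cfg.size (Function.update γ σ.K l)) (by omega)
      (Function.update γ σ.K l) (by rw [Function.update_of_ne σ.hHK, hH])
      (by simpa [Cfg.Pure] using hl) rfl
    refine ⟨M.idle :: v, ?_, val_cons_ind x M M.br_idle ?_ hv2⟩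
    · intro τ hτ
      rcases List.mem_cons.1 hτ with rfl | h1
      · exact M.silent_of_eq M.br_idle
      · exact hv1 τ h1
    · rw [opsAct_kop_append _ _ _ (l := l) (by simp [hK, kAct])]
      rfl
  · by_cases hex : ∃ i, i ≠ σ.K ∧ γ i ≠ []
    · obtain ⟨i, hiK, hi⟩ := hex
      have hiH : i ≠ σ.H := by
        rintro rfl
        exact hi hH
      rcases hi2 : γ i with _ | ⟨b, l'⟩
      · exact absurd hi2 hi
      have hsz := Cfg.size_update γ i l'
      rw [hi2, List.length_cons] at hsz
      obtain ⟨v, hv1, hv2⟩ := ih (Cfg.size (Function.update γ i l')) (by omega)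
        (Function.update γ i l') (by rw [Function.update_of_ne hiH.symm, hH])
        (by simpa [Cfg.Pure, Function.update_of_ne hiK.symm] using hp') rfl
      refine ⟨M.cpop i hiH hiK b :: v, ?_, val_cons_ind x M (M.br_cpop i hiH hiK b) ?_ hv2⟩
      · intro τ hτ
        rcases List.mem_cons.1 hτ with rfl | h1
        · exact M.silent_of_eq (M.br_cpop i hiH hiK b)
        · exact hv1 τ h1
      · rw [opsAct_kop_append _ _ _ (l := σ.zero :: l) (by simp [hK, kAct]), ← hK,
          Function.update_eq_self]
        simp [opsAct, BOp.act, hi2]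
    · push Not at hex
      rcases l with _ | ⟨b, l'⟩
      · refine ⟨[M.poison], ?_, val_cons_ind x M M.br_poison (γ1 := Cfg.nil σ) ?_ fun _ => rfl⟩
        · intro τ hτ
          rw [List.mem_singleton.1 hτ]
          exact M.silent_of_eq M.br_poison
        · rw [opsAct_kop_append _ _ _ (l := []) (by simp [hK, kAct])]
          simp only [opsAct, Option.some.injEq]
          funext j
          by_cases hj : j = σ.K
          · subst hj; simp [Cfg.nil]
          · simp [Function.update_of_ne hj, hex j hj, Cfg.nil]
      · have hsz := Cfg.size_update γ σ.K (σ.zero :: l')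
        rw [hK] at hsz
        simp only [List.length_cons] at hsz
        obtain ⟨v, hv1, hv2⟩ := ih (Cfg.size (Function.update γ σ.K (σ.zero :: l'))) (by omega)
          (Function.update γ σ.K (σ.zero :: l')) (by rw [Function.update_of_ne σ.hHK, hH])
          (by simp [Cfg.Pure]) rfl
        refine ⟨M.cpopK b :: v, ?_, val_cons_ind x M (M.br_cpopK b) ?_ hv2⟩
        · intro τ hτ
          rcases List.mem_cons.1 hτ with rfl | h1
          · exact M.silent_of_eq (M.br_cpopK b)
          · exact hv1 τ h1
        · rw [opsAct_kop_append _ _ _ (l := σ.zero :: l') (by simp [hK, kAct])]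
          rfl

/-- The erasing history may be taken arbitrarily long. -/
theorem erase_long (L : ℕ) : ∀ γ : Cfg σ, γ σ.H = [] → ¬ γ.Pure →
    ∃ v : List (σ.Γ σ.H), L ≤ v.length ∧ (∀ τ ∈ v, M.Silent τ) ∧
      ∀ γ', val x M v γ' = ind R γ γ' := by
  induction L with
  | zero =>
    intro γ hH hp
    obtain ⟨v, h1, h2⟩ := erase x M γ hH hp
    exact ⟨v, Nat.zero_le _, h1, h2⟩
  | succ L ih =>
    intro γ hH hp
    have hp' : σ.zero ∈ γ σ.K := not_not.1 hp
    rcases hK : γ σ.K with _ | ⟨c, l⟩
    · simp [hK] at hp'
    rcases σ.k_cases c with rfl | rfl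
    · have hl : σ.zero ∈ l := by
        rw [hK] at hp'
        rcases List.mem_cons.1 hp' with h1 | h1
        · exact absurd h1.symm σ.tick_ne
        · exact h1
      obtain ⟨v, hv0, hv1, hv2⟩ := ih (Function.update γ σ.K l)
        (by rw [Function.update_of_ne σ.hHK, hH]) (by simpa [Cfg.Pure] using hl)
      refine ⟨M.idle :: v, by simpa using hv0, ?_, val_cons_ind x M M.br_idle ?_ hv2⟩
      · intro τ hτ
        rcases List.mem_cons.1 hτ with rfl | h1
        · exact M.silent_of_eq M.br_idle
        · exact hv1 τ h1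
      · rw [opsAct_kop_append _ _ _ (l := l) (by simp [hK, kAct])]
        rfl
    · obtain ⟨v, hv0, hv1, hv2⟩ := ih γ hH hp
      refine ⟨M.noop :: v, by simpa using hv0, ?_, val_cons_ind x M M.br_noop ?_ hv2⟩
      · intro τ hτ
        rcases List.mem_cons.1 hτ with rfl | h1
        · exact M.silent_of_eq M.br_noop
        · exact hv1 τ h1
      · rw [opsAct_kop_append _ _ _ (l := σ.zero :: l) (by simp [hK, kAct]), ← hK,
          Function.update_eq_self]
        rfl

theorem val_idle (s : ℕ) (γ' : Cfg σ) :
    val x M (List.replicate s M.idle) γ' =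
      ind R (Cfg.single σ.K (List.replicate s σ.tick)) γ' := by
  induction s generalizing γ' with
  | zero =>
    have : Cfg.single σ.K (List.replicate 0 σ.tick) = Cfg.nil σ := by
      simp [Cfg.single, Cfg.nil]
    rw [this]
    rfl
  | succ s ih =>
    rw [List.replicate_succ]
    refine val_cons_ind x M M.br_idle ?_ ih γ'
    rw [opsAct_kop_append _ _ _ (l := List.replicate s σ.tick)
      (by simp [Cfg.single, kAct, List.replicate_succ])]
    simp [opsAct, Cfg.single]

end Ev

end Vale.Agent.P193
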