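import Vale.Agent.P193.QSAux1

/-! Task C5, auxiliary file 2: pure and impure clocks. -/

namespace Vale.Agent.P193

variable {σ : Sig} {n : ℕ}

theorem Cfg.single_apply_self (i : σ.ι) (l : List (σ.Γ i)) : Cfg.single i l i = l := by
  simp [Cfg.single]

theorem Cfg.single_apply_ne {i j : σ.ι} (h : j ≠ i) (l : List (σ.Γ i)) :
    Cfg.single i l j = [] := by
  simp [Cfg.single, Function.update_of_ne h, Cfg.nil]

theorem Cfg.app_single_self (w : Cfg σ) (i : σ.ι) (l : List (σ.Γ i)) :
    (w.app (Cfg.single i l)) i = w i ++ l := by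
  simp [Cfg.app, Cfg.single_apply_self]

theorem Cfg.app_single_ne (w : Cfg σ) {i j : σ.ι} (h : j ≠ i) (l : List (σ.Γ i)) :
    (w.app (Cfg.single i l)) j = w j := by
  simp [Cfg.app, Cfg.single_apply_ne h]

theorem Cfg.app_single_eq (w : Cfg σ) (i : σ.ι) (l : List (σ.Γ i)) :
    w.app (Cfg.single i l) = Function.update w i (w i ++ l) := by
  funext j
  by_cases hj : j = i
  · subst hj; simp [Cfg.app_single_self]
  · simp [Cfg.app_single_ne _ hj, Function.update_of_ne hj]

theorem Cfg.app_single_append (w : Cfg σ) (i : σ.ι) (l l' : List (σ.Γ i)) :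
    w.app (Cfg.single i (l ++ l')) = (w.app (Cfg.single i l)).app (Cfg.single i l') := by
  funext j
  by_cases hj : j = i
  · subst hj; simp [Cfg.app_single_self]
  · simp [Cfg.app_single_ne _ hj]

theorem Cfg.app_single_eq_single_iff (w : Cfg σ) (i : σ.ι) (l l' : List (σ.Γ i)) :
    w.app (Cfg.single i l') = Cfg.single i (l ++ l') ↔ w = Cfg.single i l := by
  constructor
  · intro h
    funext j
    have := congrFun h j
    by_cases hj : j = i
    · subst hj
      rw [Cfg.app_single_self, Cfg.single_apply_self] at this
      rw [Cfg.single_apply_self]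
      exact List.append_cancel_right this
    · rw [Cfg.app_single_ne _ hj, Cfg.single_apply_ne hj] at this
      rw [this, Cfg.single_apply_ne hj]
  · rintro rfl
    funext j
    by_cases hj : j = i
    · subst hj; simp [Cfg.app_single_self, Cfg.single_apply_self]
    · simp [Cfg.app_single_ne _ hj, Cfg.single_apply_ne hj]

theorem Mach.step_H (M : Mach σ n) {τ : σ.Γ σ.H} {b : Branch σ n} (hb : b ∈ M.br τ)
    {w w' : Cfg σ} (h : opsAct b.all w = some w') : w' σ.H = w σ.H :=
  opsAct_apply_of_ne h (M.all_ne_H hb)

theorem mv_mem_Fle {R : Type} [Ring R] (x : Gen σ n → R) (b : Branch σ n) : b.mv x ∈ Fle x 1 := by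
  unfold Branch.mv
  rcases b.m with _ | y
  · exact one_mem_Fle x 1
  · exact x_mem_Fle_one x y

theorem val_cons {R : Type} [Ring R] (x : Gen σ n → R) (M : Mach σ n) (τ : σ.Γ σ.H)
    (h : List (σ.Γ σ.H)) (w : Cfg σ) :
    val x M (τ :: h) w = ((M.br τ).map fun b =>
      match opsAct b.all w with
      | none => 0
      | some w' => b.mv x * val x M h w').sum := rfl

theorem Ev_cons {R : Type} [Ring R] (x : Gen σ n → R) (M : Mach σ n) (τ : σ.Γ σ.H)
    (h : List (σ.Γ σ.H)) (w : Cfg σ) (f : Cfg σ → R) :
    Ev x M (τ :: h) w f = ((M.br τ).map fun b =>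
      match opsAct b.all w with
      | none => 0
      | some w' => b.mv x * Ev x M h w' f).sum := rfl

theorem val_append {R : Type} [Ring R] (x : Gen σ n → R) (M : Mach σ n)
    (h v : List (σ.Γ σ.H)) (w : Cfg σ) :
    val x M (h ++ v) w = Ev x M h w fun γ => val x M v γ := Ev_append x M h v w _

namespace Sys0

variable {M : Mach σ n} {R : Type} [Ring R] (A : Sys0 M R)

/-- On a pure clock the value is paid for by the clock. -/
theorem PL (h : List (σ.Γ σ.H)) : ∀ w : Cfg σ, w σ.H = [] → w.Pure →
    val A.x M h w ∈ Fle A.x (w σ.K).length := by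
  induction h with
  | nil => intro w _ _; exact ind_mem_Fle _ _ _ _
  | cons τ h ih =>
    intro w hH hp
    by_cases hs : ∃ l, w σ.C = σ.start :: l
    · rw [A.val_start _ w hH hp hs]
      exact zero_mem _
    rw [val_cons]
    refine list_sum_mem ?_
    intro r hr
    obtain ⟨b, hb, rfl⟩ := List.mem_map.1 hr
    rcases hw : opsAct b.all w with _ | w'
    · exact zero_mem _
    · obtain ⟨hp', h1 | h1⟩ := kAct_pure (M.step_K hb hw) hp
      · have := Fle_mul A.x (mv_mem_Fle A.x b) (ih w' ((M.step_H hb hw).trans hH) hp')
        rw [h1.2, List.length_cons, add_comm]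
        exact this
      · exfalso
        rw [opsAct_all, h1.1, M.wind_ops τ b hb h1.1] at hw
        simp only [kAct, Option.bind_some, opsAct, BOp.act,
          Function.update_of_ne σ.hKC.symm] at hw
        rcases hC : w σ.C with _ | ⟨c, l⟩
        · simp [hC] at hw
        · by_cases hc : c = σ.start
          · exact hs ⟨l, by rw [hC, hc]⟩
          · simp [hC, hc] at hw

/-- One more tick at the bottom is used up by one more idle step at the end. -/
theorem CL2 (h : List (σ.Γ σ.H)) : ∀ w : Cfg σ, w σ.H = [] → w.Pure →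
    val A.x M (h ++ [M.idle]) (w.app (Cfg.single σ.K [σ.tick])) = val A.x M h w := by
  induction h with
  | nil =>
    intro w _ _
    have := val_idle A.x M 1 (w.app (Cfg.single σ.K [σ.tick]))
    simp only [List.replicate_one] at this
    rw [List.nil_append, this]
    have h2 := Cfg.app_single_eq_single_iff w σ.K [] [σ.tick]
    have h3 : Cfg.single σ.K ([] : List (σ.Γ σ.K)) = Cfg.nil σ := by simp [Cfg.single, Cfg.nil]
    rw [List.nil_append, h3] at h2
    simp only [val, Ev, ind, h2]
  | cons τ h ih =>
    intro w hH hp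
    rw [List.cons_append, val_cons, val_cons]
    congr 1
    refine List.map_congr_left ?_
    intro b hb
    have hops : ∀ o ∈ b.ops, Cfg.single σ.K [σ.tick] o.stk = [] := fun o ho =>
      Cfg.single_apply_ne (M.ops_ne τ b hb o ho).2 _
    have hupd : ∀ l : List (σ.Γ σ.K),
        Function.update (w.app (Cfg.single σ.K [σ.tick])) σ.K (l ++ [σ.tick]) =
          Cfg.app (Function.update w σ.K l) (Cfg.single σ.K [σ.tick]) := by
      intro l
      rw [Cfg.app_update, Cfg.single_apply_self]
    have hgood : ∀ l : List (σ.Γ σ.K), kAct b.kop (w σ.K) = some l →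
        kAct b.kop (w σ.K ++ [σ.tick]) = some (l ++ [σ.tick]) →
        (match opsAct b.all (w.app (Cfg.single σ.K [σ.tick])) with
          | none => 0
          | some w' => b.mv A.x * val A.x M (h ++ [M.idle]) w') =
        (match opsAct b.all w with
          | none => 0
          | some w' => b.mv A.x * val A.x M h w') := by
      intro l h1 h2
      have e1 : opsAct b.all (w.app (Cfg.single σ.K [σ.tick])) =
          (opsAct b.all w).map fun w' => w'.app (Cfg.single σ.K [σ.tick]) := by
        rw [opsAct_all, opsAct_all, Cfg.app_single_self, h1, h2, Option.bind_some,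
          Option.bind_some, hupd, opsAct_app' _ _ hops]
      rw [e1]
      rcases hw : opsAct b.all w with _ | w'
      · rfl
      · simp only [Option.map_some]
        rw [ih w' ((M.step_H hb hw).trans hH) (kAct_pure (M.step_K hb hw) hp).1]
    have hbad : kAct b.kop (w σ.K) = none → kAct b.kop (w σ.K ++ [σ.tick]) = none →
        (match opsAct b.all (w.app (Cfg.single σ.K [σ.tick])) with
          | none => 0
          | some w' => b.mv A.x * val A.x M (h ++ [M.idle]) w') =
        (match opsAct b.all w with
          | none => 0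
          | some w' => b.mv A.x * val A.x M h w') := by
      intro h1 h2
      rw [opsAct_all, opsAct_all, Cfg.app_single_self, h1, h2]
      rfl
    have hz := σ.tick_ne
    rcases hK : w σ.K with _ | ⟨c, l⟩
    · rw [hK] at hgood hbad
      cases hk : b.kop with
      | tick =>
        have e2 : opsAct b.all w = none := by rw [opsAct_all, hK, hk]; rfl
        rw [e2]
        rcases hw : opsAct b.all (w.app (Cfg.single σ.K [σ.tick])) with _ | w'
        · rfl
        · have h1 := M.step_K hb hw
          rw [Cfg.app_single_self, hK, hk] at h1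
          simp only [List.nil_append, kAct, if_true, Option.some.injEq] at h1
          have h2 := M.step_H hb hw
          rw [Cfg.app_single_ne _ σ.hHK, hH] at h2
          simp only
          rw [A.val_pure_long _ w' h2 (by simp [Cfg.Pure, ← h1]) (by simp [← h1]), mul_zero]
      | wind => exact hgood [σ.tick] (by rw [hk]; rfl) (by rw [hk]; rfl)
      | cheat0 => exact hbad (by rw [hk]; rfl) (by rw [hk]; simp [kAct, hz])
      | cheatK c => exact hbad (by rw [hk]; rfl) (by rw [hk]; rfl)
      | poison => exact hbad (by rw [hk]; rfl) (by rw [hk]; simp [kAct, hz])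
    · have hc : c = σ.tick := by
        rcases σ.k_cases c with h1 | h1
        · exact h1
        · exact absurd (by simp [hK, h1]) hp
      subst hc
      rw [hK] at hgood hbad
      cases hk : b.kop with
      | tick => exact hgood l (by rw [hk]; simp [kAct]) (by rw [hk]; simp [kAct])
      | wind => exact hgood (σ.tick :: σ.tick :: l) (by rw [hk]; rfl) (by rw [hk]; rfl)
      | cheat0 => exact hbad (by rw [hk]; simp [kAct, hz]) (by rw [hk]; simp [kAct, hz])
      | cheatK c =>
        refine hbad ?_ ?_
        · rw [hk]; rcases l with _ | ⟨c', l⟩ <;> simp [kAct, hz]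
        · rw [hk]; rcases l with _ | ⟨c', l⟩ <;> simp [kAct, hz]
      | poison => exact hbad (by rw [hk]; simp [kAct, hz]) (by rw [hk]; simp [kAct, hz])

theorem CL2_iter (s : ℕ) : ∀ (h : List (σ.Γ σ.H)) (w : Cfg σ), w σ.H = [] → w.Pure →
    val A.x M (h ++ List.replicate s M.idle)
      (w.app (Cfg.single σ.K (List.replicate s σ.tick))) = val A.x M h w := by
  induction s with
  | zero =>
    intro h w _ _
    have : w.app (Cfg.single σ.K (List.replicate 0 σ.tick)) = w := by
      rw [Cfg.app_single_eq]; simp
    rw [this]; simp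
  | succ s ih =>
    intro h w hH hp
    rw [List.replicate_succ', List.replicate_succ', ← List.append_assoc, Cfg.app_single_append,
      A.CL2, ih h w hH hp]
    · rw [Cfg.app_single_ne _ σ.hHK, hH]
    · simp only [Cfg.Pure, Cfg.app_single_self, List.mem_append, not_or]
      exact ⟨hp, fun h1 => σ.tick_ne (List.eq_of_mem_replicate h1).symm⟩

open Classical in
/-- From an impure clock only runs that stay impure contribute. -/
theorem IMP (v : List (σ.Γ σ.H)) (hv : v ≠ []) (h : List (σ.Γ σ.H)) :
    ∀ w : Cfg σ, w σ.H = [] → ¬ w.Pure →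
    val A.x M (h ++ v) w =
      Ev A.x M h w fun γ => if ¬ γ.Pure ∧ γ σ.H = [] then val A.x M v γ else 0 := by
  induction h with
  | nil => intro w hH hp; simp [Ev, hH, hp]
  | cons τ h ih =>
    intro w hH hp
    rw [List.cons_append, val_cons, Ev_cons]
    congr 1
    refine List.map_congr_left ?_
    intro b hb
    rcases hw : opsAct b.all w with _ | w'
    · rfl
    · simp only
      have hH' := (M.step_H hb hw).trans hH
      rcases kAct_impure (M.step_K hb hw) (not_not.1 hp) with h1 | h1
      · have hp' : w'.Pure := by simp [Cfg.Pure, h1]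
        rw [A.val_pure_long _ w' hH' hp' (by
          rw [h1]; simp [List.length_pos_iff, hv])]
        rw [Ev_congr A.x M (f' := fun _ => 0) (fun γ hγ => by simp [hγ.pure hp']), Ev_zero]
      · rw [ih w' hH' (not_not.2 h1.1)]

/-- The poisoned clock used as a test configuration. -/
def xi (σ : Sig) (s : ℕ) : Cfg σ := Cfg.single σ.K (List.replicate s σ.tick ++ [σ.zero])

theorem xi_H (s : ℕ) : xi σ s σ.H = [] := Cfg.single_apply_ne σ.hHK _

theorem xi_impure (s : ℕ) : ¬ (xi σ s).Pure := by
  simp [Cfg.Pure, xi, Cfg.single_apply_self]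

theorem idxOf_xi (s : ℕ) : (xi σ s σ.K).idxOf σ.zero = s := by
  rw [xi, Cfg.single_apply_self, List.idxOf_append_of_notMem]
  · simp
  · exact fun h1 => σ.tick_ne (List.eq_of_mem_replicate h1).symm

theorem PERT_impure (h : List (σ.Γ σ.H)) (v : Cfg σ) (hp : ¬ v.Pure) (s s' : ℕ)
    (hs : (v σ.K).length + h.length ≤ s) :
    Ev A.x M h (v.app (xi σ s')) (ind R (xi σ s)) = 0 := by
  rw [Ev_congr A.x M (f' := fun _ => 0), Ev_zero]
  intro γ hγ
  have hz : σ.zero ∈ v σ.K := not_not.1 hp
  have hp' : ¬ (v.app (xi σ s')).Pure := by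
    simp only [Cfg.Pure, Cfg.app, List.mem_append, not_not]
    exact Or.inl hz
  have hne : γ ≠ xi σ s := by
    rintro rfl
    rcases hγ.lead hp' with h1 | h1
    · exact xi_impure s h1
    · rw [idxOf_xi] at h1
      have h2 : (v.app (xi σ s') σ.K).idxOf σ.zero < (v σ.K).length := by
        simp only [Cfg.app]
        rw [List.idxOf_append_of_mem hz]
        exact List.idxOf_lt_length_of_mem hz
      omega
  simp [ind, hne]

theorem PERT_pure (h : List (σ.Γ σ.H)) (v : Cfg σ) (hH : v σ.H = []) (hp : v.Pure) (o s' : ℕ)
    (hs : M.Cb * h.length < s') :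
    Ev A.x M h (v.app (xi σ s')) (ind R (xi σ (o + s'))) =
      val A.x M (h ++ List.replicate o M.idle) v := by
  rw [xi, Cfg.app_single_append, Ev_app]
  · have e1 : (fun γ : Cfg σ => ind R (xi σ (o + s')) (γ.app (Cfg.single σ.K [σ.zero]))) =
        fun γ => val A.x M (List.replicate (o + s') M.idle) γ := by
      funext γ
      rw [val_idle]
      simp only [ind, xi, Cfg.app_single_eq_single_iff]
    rw [e1, ← val_append, List.replicate_add, ← List.append_assoc, A.CL2_iter s' _ v hH hp]
  · intro i hi
    by_cases hiK : i = σ.K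
    · subst hiK
      rw [Cfg.app_single_self]
      simp only [List.length_append, List.length_replicate]
      omega
    · exact absurd (Cfg.single_apply_ne hiK _) hi

end Sys0

end Vale.Agent.P193
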