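import Vale.Agent.P193.QSAux2

/-! Task C5, auxiliary file 3: the tree induction. -/

namespace Vale.Agent.P193

variable {σ : Sig} {n : ℕ}

/-- The term `d` is active on the work stacks of `w0`. -/
def actW (d : Cfg σ × Cfg σ) (w0 : Cfg σ) : Prop := ∀ i, i ≠ σ.H → d.2 i <+: w0 i

/-- The work configuration produced by the term `d`. -/
def wk (d : Cfg σ × Cfg σ) (w0 : Cfg σ) : Cfg σ :=
  Function.update (d.1.app (w0.sub d.2)) σ.H []

/-- The history produced by the term `d`. -/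
def hs (d : Cfg σ × Cfg σ) (u : List (σ.Γ σ.H)) : List (σ.Γ σ.H) :=
  d.1 σ.H ++ u.drop (d.2 σ.H).length

theorem wk_H (d : Cfg σ × Cfg σ) (w0 : Cfg σ) : wk d w0 σ.H = [] := by simp [wk]

theorem wk_ne (d : Cfg σ × Cfg σ) (w0 : Cfg σ) {i : σ.ι} (h : i ≠ σ.H) :
    wk d w0 i = d.1 i ++ (w0 i).drop (d.2 i).length := by
  simp [wk, Function.update_of_ne h, Cfg.app, Cfg.sub]

theorem hs_append (d : Cfg σ × Cfg σ) {u : List (σ.Γ σ.H)} (h : d.2 σ.H <+: u)
    (v : List (σ.Γ σ.H)) : hs d (u ++ v) = hs d u ++ v := by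
  simp only [hs, List.append_assoc]
  rw [List.drop_append_of_le_length h.length_le]

theorem pre_iff (d : Cfg σ × Cfg σ) (π : Cfg σ) :
    d.2.Pre π ↔ actW d π ∧ d.2 σ.H <+: π σ.H := by
  constructor
  · intro h
    exact ⟨fun i _ => h i, h _⟩
  · rintro ⟨h1, h2⟩ i
    by_cases hi : i = σ.H
    · subst hi; exact h2
    · exact h1 i hi

theorem actW_update (d : Cfg σ × Cfg σ) (w0 : Cfg σ) (u : List (σ.Γ σ.H)) :
    actW d (Function.update w0 σ.H u) ↔ actW d w0 := by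
  refine forall_congr' fun i => forall_congr' fun hi => ?_
  rw [Function.update_of_ne hi]

theorem wk_update (d : Cfg σ × Cfg σ) (w0 : Cfg σ) (u : List (σ.Γ σ.H)) :
    wk d (Function.update w0 σ.H u) = wk d w0 := by
  funext i
  by_cases hi : i = σ.H
  · subst hi; simp [wk_H]
  · rw [wk_ne _ _ hi, wk_ne _ _ hi, Function.update_of_ne hi]

theorem Flt_mul_one {R : Type} [Ring R] (x : Gen σ n → R) {a m k : ℕ} {r r' : R}
    (h : r ∈ Flt x a) (h' : r' ∈ Fle x k) (hm : a ≠ 0 → a + k ≤ m) : r * r' ∈ Flt x m := by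
  by_cases ha : a = 0
  · subst ha
    rw [Flt_zero x h, zero_mul]
    exact zero_mem _
  · exact Flt_mono x (hm ha) (Flt_mul_Fle x h h')

namespace Sys0

variable {M : Mach σ n} {R : Type} [Ring R] (A : Sys0 M R)

open Classical in
/-- The accumulated coefficient at the history node `u`. -/
noncomputable def DD (fQ : Cfg σ × Cfg σ →₀ R) (w0 : Cfg σ) (u : List (σ.Γ σ.H))
    (f : Cfg σ → R) : R :=
  ∑ d ∈ fQ.support,
    if actW d w0 ∧ d.2 σ.H <+: u then fQ d * Ev A.x M (hs d u) (wk d w0) f else 0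

open Classical in
/-- The terms born between `u` and `u ++ v`. -/
noncomputable def NB (fQ : Cfg σ × Cfg σ →₀ R) (w0 : Cfg σ) (u v : List (σ.Γ σ.H))
    (f : Cfg σ → R) : R :=
  ∑ d ∈ fQ.support,
    if actW d w0 ∧ d.2 σ.H <+: u ++ v ∧ ¬ d.2 σ.H <+: u then
      fQ d * Ev A.x M (hs d (u ++ v)) (wk d w0) f else 0

theorem DD_append (fQ : Cfg σ × Cfg σ →₀ R) (w0 : Cfg σ) (u v : List (σ.Γ σ.H))
    (f : Cfg σ → R) :
    A.DD fQ w0 (u ++ v) f = A.DD fQ w0 u (fun γ => Ev A.x M v γ f) + A.NB fQ w0 u v f := by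
  unfold DD NB
  rw [← Finset.sum_add_distrib]
  refine Finset.sum_congr rfl fun d _ => ?_
  by_cases h1 : actW d w0
  · by_cases h2 : d.2 σ.H <+: u
    · have h3 : d.2 σ.H <+: u ++ v := h2.trans (List.prefix_append u v)
      simp [h1, h2, h3, hs_append d h2, Ev_append]
    · by_cases h3 : d.2 σ.H <+: u ++ v <;> simp [h1, h2, h3]
  · simp [h1]

theorem DD_congr (fQ : Cfg σ × Cfg σ →₀ R) (w0 : Cfg σ) (u : List (σ.Γ σ.H)) {f f' : Cfg σ → R}
    (h : ∀ d ∈ fQ.support, actW d w0 → d.2 σ.H <+: u →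
      ∀ γ, M.Reach (hs d u) (wk d w0) γ → f γ = f' γ) :
    A.DD fQ w0 u f = A.DD fQ w0 u f' := by
  unfold DD
  refine Finset.sum_congr rfl fun d hd => ?_
  split_ifs with h1
  · rw [Ev_congr A.x M (h d hd h1.1 h1.2)]
  · rfl

theorem DD_eq_sum (fQ : Cfg σ × Cfg σ →₀ R) (w0 : Cfg σ) (u : List (σ.Γ σ.H)) :
    ∃ s : Finset (Cfg σ), ∀ f : Cfg σ → R,
      A.DD fQ w0 u f = ∑ γ ∈ s, A.DD fQ w0 u (ind R γ) * f γ := by
  classical
  refine ⟨fQ.support.biUnion fun d => (M.reach_finite (hs d u) (wk d w0)).toFinset, fun f => ?_⟩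
  unfold DD
  simp only [Finset.sum_mul]
  rw [Finset.sum_comm]
  refine Finset.sum_congr rfl fun d hd => ?_
  split_ifs with h1
  · rw [Ev_eq_sum A.x M _ _ f
      (fQ.support.biUnion fun d => (M.reach_finite (hs d u) (wk d w0)).toFinset)
      (fun γ hγ => Finset.mem_biUnion.2 ⟨d, hd, by simpa using hγ⟩), Finset.mul_sum]
    simp only [mul_assoc]
  · simp

/-- A term whose remaining history is silent is paid for. -/
theorem term_mem {m : ℕ} {c : R} {d : Cfg σ × Cfg σ} (hc : c ∈ Flt A.x (m - potQ d.1 d.2))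
    (v : List (σ.Γ σ.H)) (hv : ∀ τ ∈ v, M.Silent τ) (w : Cfg σ) (f : Cfg σ → R)
    (hf : ∀ γ, f γ ∈ Fle A.x 0) :
    c * Ev A.x M (d.1 σ.H ++ v) w f ∈ Flt A.x (m - (d.2 σ.H).length) := by
  rw [Ev_append]
  refine Flt_mul_one A.x hc (Ev_mem_Fle A.x M _ w _ 0 fun γ =>
    Ev_silent_mem A.x M v hv f 0 hf γ) ?_
  unfold potQ
  omega

theorem NB_mem {m : ℕ} {fQ : Cfg σ × Cfg σ →₀ R} (hQ : ∀ d, fQ d ∈ Flt A.x (m - potQ d.1 d.2))
    (w0 : Cfg σ) (u v : List (σ.Γ σ.H)) (hv : ∀ τ ∈ v.tail, M.Silent τ) (f : Cfg σ → R)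
    (hf : ∀ γ, f γ ∈ Fle A.x 0) : A.NB fQ w0 u v f ∈ Flt A.x (m - 1 - u.length) := by
  unfold NB
  refine sum_mem fun d _ => ?_
  split_ifs with h1
  · obtain ⟨-, h2, h3⟩ := h1
    have hl : u.length < (d.2 σ.H).length := by
      by_contra h4
      exact h3 (List.prefix_of_prefix_length_le h2 (List.prefix_append u v) (by omega))
    refine Flt_mono A.x ?_ (A.term_mem (hQ d) _ ?_ _ f hf)
    · omega
    · intro τ hτ
      apply hv
      obtain ⟨k, hk⟩ : ∃ k, (d.2 σ.H).length = u.length + (k + 1) :=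
        ⟨(d.2 σ.H).length - u.length - 1, by omega⟩
      rw [hk, List.drop_length_add_append, add_comm, ← List.drop_drop] at hτ
      rw [← List.drop_one]
      exact List.mem_of_mem_drop hτ
  · exact zero_mem _

theorem DD_nil_mem {m : ℕ} {fQ : Cfg σ × Cfg σ →₀ R}
    (hQ : ∀ d, fQ d ∈ Flt A.x (m - potQ d.1 d.2)) (w0 : Cfg σ) (f : Cfg σ → R)
    (hf : ∀ γ, f γ ∈ Fle A.x 0) : A.DD fQ w0 [] f ∈ Flt A.x m := by
  unfold DD
  refine sum_mem fun d _ => ?_
  split_ifs with h1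
  · have := A.term_mem (hQ d) [] (by simp) (wk d w0) f hf
    refine Flt_mono A.x (Nat.sub_le m (d.2 σ.H).length) ?_
    simpa [hs] using this
  · exact zero_mem _

theorem Qterm_pD (c : R) (d : Cfg σ × Cfg σ) (π : Cfg σ) (D : Finset σ.ι) (h : d.2.Pre π) :
    c * A.x .Φ * A.tB d.1 * A.sB d.2 * A.tB π * A.pD D =
      c * (A.x .Φ * A.tB (d.1.app (π.sub d.2)) * A.pD D) := by
  rw [A.tB_app, ← A.sB_tB_of_pre h]
  simp only [mul_assoc]

theorem app_sub_H (d : Cfg σ × Cfg σ) (π : Cfg σ) : (d.1.app (π.sub d.2)) σ.H = hs d (π σ.H) := rfl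

open Classical in
/-- The value of `r` on an exact configuration. -/
theorem exact_formula (fQ : Cfg σ × Cfg σ →₀ R) (fS : Cfg σ →₀ R) (π : Cfg σ) :
    ((fQ.sum fun d c => c * A.x .Φ * A.tB d.1 * A.sB d.2) +
      fS.sum fun α c => c * A.x .S * A.sB α) * A.tB π * A.pD Finset.univ =
      (A.DD fQ π (π σ.H) (ind R (Cfg.nil σ)) + fS π) * A.x .S := by
  rw [add_mul, add_mul, add_mul]
  congr 1
  · unfold DD Finsupp.sum
    simp only [Finset.sum_mul]
    refine Finset.sum_congr rfl fun d _ => ?_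
    by_cases h : d.2.Pre π
    · have h1 := A.Φ_tB_univ 1 (fun i => A.CS_one i) (d.1.app (π.sub d.2))
      simp only [mul_one] at h1
      rw [A.Qterm_pD _ _ _ _ h, h1, if_pos ((pre_iff d π).1 h), ← mul_assoc]
      rfl
    · rw [if_neg (fun h1 => h ((pre_iff d π).2 h1)), zero_mul]
      have := A.sB_tB_pD_of_not_pre (D := Finset.univ) (by simp) h
      simp only [mul_assoc] at this ⊢
      simp [this]
  · have key : ∀ α : Cfg σ, A.x .S * A.sB α * A.tB π * A.pD Finset.univ =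
        if α = π then A.x .S else 0 := by
      intro α
      by_cases h : α.Pre π
      · rw [mul_assoc (A.x .S), A.sB_tB_of_pre h]
        by_cases h1 : α = π
        · subst h1
          have : α.sub α = Cfg.nil σ := by
            funext i; simp [Cfg.sub, Cfg.nil]
          simp [this, A.tB_nil, A.S_pD]
        · have : π.sub α ≠ Cfg.nil σ := by
            intro h2
            apply h1
            rw [← Cfg.app_sub h, h2]
            funext i; simp [Cfg.app, Cfg.nil]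
          simp [A.S_tB this, h1]
      · have h1 : α ≠ π := by
          rintro rfl
          exact h fun i => List.prefix_refl _
        have := A.sB_tB_pD_of_not_pre (D := Finset.univ) (by simp) h
        simp only [mul_assoc] at this ⊢
        simp [this, h1]
    unfold Finsupp.sum
    simp only [Finset.sum_mul]
    have e : ∀ α ∈ fS.support, fS α * A.x .S * A.sB α * A.tB π * A.pD Finset.univ =
        if α = π then fS α * A.x .S else 0 := by
      intro α _
      have := key α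
      simp only [mul_assoc] at this ⊢
      rw [this]
      split_ifs <;> simp
    rw [Finset.sum_congr rfl e, Finset.sum_ite_eq']
    split_ifs with h
    · rfl
    · rw [Finsupp.notMem_support_iff.1 h, zero_mul]

theorem exact_formula_T (fQ : Cfg σ × Cfg σ →₀ R) (fS : Cfg σ →₀ R) (π : Cfg σ) :
    ((fQ.sum fun d c => c * A.x .Φ * A.tB d.1 * A.sB d.2) +
      fS.sum fun α c => c * A.x .S * A.sB α) * A.tB π * A.x .T =
      A.DD fQ π (π σ.H) (ind R (Cfg.nil σ)) + fS π := by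
  have := congrArg (· * A.x .T) (A.exact_formula fQ fS π)
  simp only [mul_assoc, A.pD_T, A.S_T, mul_one] at this
  simpa only [mul_assoc] using this

theorem DD_update (fQ : Cfg σ × Cfg σ →₀ R) (w0 : Cfg σ) (u u' : List (σ.Γ σ.H))
    (f : Cfg σ → R) : A.DD fQ (Function.update w0 σ.H u') u f = A.DD fQ w0 u f := by
  unfold DD
  refine Finset.sum_congr rfl fun d _ => ?_
  rw [wk_update]
  by_cases h : actW d w0 <;> simp [actW_update, h]

section TI

variable {I : TwoSidedIdeal R} {m : ℕ} (hI : ∀ r ∈ Flt A.x m, r ∈ I → r = 0)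
  {fQ : Cfg σ × Cfg σ →₀ R} {fS : Cfg σ →₀ R}
  (hQ : ∀ d, fQ d ∈ Flt A.x (m - potQ d.1 d.2))
  (hrI : ∀ w : Cfg σ, A.DD fQ w (w σ.H) (ind R (Cfg.nil σ)) + fS w ∈ I)

include hI hQ hrI

theorem TI_key (w0 : Cfg σ) (u : List (σ.Γ σ.H)) (γ : Cfg σ) (hH : γ σ.H = []) (hp : ¬ γ.Pure)
    (h : A.DD fQ w0 u (ind R γ) ∈ Flt A.x m) :
    A.DD fQ w0 u (ind R γ) ∈ Flt A.x (m - 1 - u.length) := by
  obtain ⟨v, hv0, hv1, hv2⟩ := erase_long A.x M
    (fS.support.sup (fun α => (α σ.H).length) + 1) γ hH hp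
  have h1 := hrI (Function.update w0 σ.H (u ++ v))
  have h2 : fS (Function.update w0 σ.H (u ++ v)) = 0 := by
    by_contra h3
    have := Finset.le_sup (f := fun α : Cfg σ => (α σ.H).length) (Finsupp.mem_support_iff.2 h3)
    simp only [Function.update_self, List.length_append] at this
    omega
  rw [h2, add_zero, Function.update_self, DD_update, DD_append] at h1
  have e : (fun γ' => Ev A.x M v γ' (ind R (Cfg.nil σ))) = ind R γ := funext hv2
  rw [e] at h1
  have h3 := A.NB_mem hQ w0 u v (fun τ hτ => hv1 τ (List.mem_of_mem_tail hτ))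
    (ind R (Cfg.nil σ)) (fun γ' => ind_mem_Fle _ _ _ _)
  have h4 := hI _ (add_mem h (Flt_mono A.x (by omega) h3)) h1
  rw [A.eq_of_add_eq_zero h4]
  exact h3

omit hI hQ hrI in
theorem DD_mem_of {w0 : Cfg σ} {u : List (σ.Γ σ.H)} {a k b : ℕ}
    (h : ∀ γ : Cfg σ, γ σ.H = [] → ¬ γ.Pure → A.DD fQ w0 u (ind R γ) ∈ Flt A.x a)
    (f : Cfg σ → R) (hf : ∀ γ, f γ ∈ Fle A.x k)
    (hf0 : ∀ γ, ¬ (¬ γ.Pure ∧ γ σ.H = []) → f γ = 0) (hb : a ≠ 0 → a + k ≤ b) :
    A.DD fQ w0 u f ∈ Flt A.x b := by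
  obtain ⟨s, hs⟩ := A.DD_eq_sum fQ w0 u
  rw [hs f]
  refine sum_mem fun γ _ => ?_
  by_cases h1 : ¬ γ.Pure ∧ γ σ.H = []
  · exact Flt_mul_one A.x (h γ h1.2 h1.1) (hf γ) hb
  · rw [hf0 γ h1, mul_zero]
    exact zero_mem _

/-- The tree induction. -/
theorem TI (w0 : Cfg σ) (u : List (σ.Γ σ.H)) : ∀ γ : Cfg σ, γ σ.H = [] → ¬ γ.Pure →
    A.DD fQ w0 u (ind R γ) ∈ Flt A.x (m - 1 - u.length) := by
  classical
  induction u using List.reverseRecOn with
  | nil =>
    intro γ hH hp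
    exact A.TI_key hI hQ hrI w0 [] γ hH hp (A.DD_nil_mem hQ w0 _ fun γ' => ind_mem_Fle _ _ _ _)
  | append_singleton u τ ih =>
    intro γ hH hp
    refine A.TI_key hI hQ hrI w0 _ γ hH hp ?_
    rw [DD_append]
    refine add_mem ?_ (Flt_mono A.x (by omega)
      (A.NB_mem hQ w0 u [τ] (by simp) _ fun γ' => ind_mem_Fle _ _ _ _))
    rw [A.DD_congr fQ w0 u
      (f' := fun γ' => if ¬ γ'.Pure ∧ γ' σ.H = [] then Ev A.x M [τ] γ' (ind R γ) else 0)]
    · refine A.DD_mem_of (k := 1) ih _ (fun γ' => ?_) (fun γ' h => if_neg h) (by omega)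
      split_ifs
      · exact Ev_ind_mem_Fle A.x M [τ] γ' γ
      · exact zero_mem _
    · intro d _ _ _ γ' hγ'
      have h1 : γ' σ.H = [] := hγ'.apply_H.trans (wk_H d w0)
      by_cases h2 : γ'.Pure
      · rw [if_neg (by simp [h2]), Ev_congr A.x M (f' := fun _ => 0), Ev_zero]
        intro γ'' h3
        have : γ'' ≠ γ := by
          rintro rfl
          exact hp (h3.pure h2)
        simp [ind, this]
      · rw [if_pos ⟨h2, h1⟩]

theorem DD_eq_zero (w0 : Cfg σ) (u : List (σ.Γ σ.H)) (hu : m ≤ u.length) (f : Cfg σ → R)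
    (hf0 : ∀ γ, ¬ (¬ γ.Pure ∧ γ σ.H = []) → f γ = 0) : A.DD fQ w0 u f = 0 := by
  obtain ⟨s, hs⟩ := A.DD_eq_sum fQ w0 u
  rw [hs f]
  refine Finset.sum_eq_zero fun γ _ => ?_
  by_cases h1 : ¬ γ.Pure ∧ γ σ.H = []
  · have := A.TI hI hQ hrI w0 u γ h1.2 h1.1
    rw [show m - 1 - u.length = 0 by omega] at this
    rw [Flt_zero A.x this, zero_mul]
  · rw [hf0 γ h1, mul_zero]

end TI

end Sys0

end Vale.Agent.P193
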