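import Vale.Agent.P193.RingSys0

/-!
P193, part C1c: explicit levels.
-/

namespace Vale.Agent.P193

variable {σ : Sig} {n : ℕ}

/-- The content of one level: a group element and the stacks. -/
abbrev Lev (σ : Sig) (G : Type) : Type := G × Cfg σ

/-- Total number of stack symbols in a list of levels. -/
def sizeL {G : Type} (l : List (Lev σ G)) : ℕ := (l.map fun c => c.2.size).sum

namespace Sys

variable {M : Mach σ n} {G : Type} [Group G] {s : Fin n → G} {R : Type} [Ring R]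
  (A : Sys M s R)

/-- Create an explicit level. -/
def Tc (c : Lev σ G) : R := A.g c.1 * A.tB c.2 * A.x .T

/-- Test for and remove an explicit level. -/
def Sc (c : Lev σ G) : R := A.x .S * A.sB c.2 * A.g c.1⁻¹

/-- Create a list of explicit levels. -/
def TL (l : List (Lev σ G)) : R := (l.map A.Tc).prod

/-- Test for and remove a list of explicit levels. -/
def SL (l : List (Lev σ G)) : R := (l.reverse.map A.Sc).prod

theorem g_ind {P : R → Prop} (h1 : P 1) (ha : ∀ p, P (A.x (.a p)))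
    (hm : ∀ a b, P a → P b → P (a * b)) (γ : G) : P (A.g γ) := by
  have h : γ ∈ Subgroup.closure (Set.range s) := A.g_gen ▸ Subgroup.mem_top γ
  induction h using Subgroup.closure_induction'' with
  | mem _ h =>
    obtain ⟨i, rfl⟩ := h
    exact (A.g_a (i, true)) ▸ ha (i, true)
  | inv_mem _ h =>
    obtain ⟨i, rfl⟩ := h
    exact (A.g_a (i, false)) ▸ ha (i, false)
  | one => rwa [map_one]
  | mul a b _ _ ha hb =>
    rw [map_mul]
    exact hm _ _ ha hb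

theorem r_ind {P : R → Prop} (h0 : P 0) (hadd : ∀ a b, P a → P b → P (a + b)) (h1 : P 1)
    (hx : ∀ y r, P r → P (A.x y * r)) (r : R) : P r := by
  induction A.gen r using AddSubmonoid.closure_induction with
  | mem _ h =>
    obtain ⟨w, rfl⟩ := h
    induction w with
    | nil => exact h1
    | cons y w ih => exact hx y _ ih
  | zero => exact h0
  | add a b _ _ ha hb => exact hadd a b ha hb

theorem CS_g (γ : G) (i : σ.ι) : A.CS (A.g γ) i := by
  exact A.g_ind (P := fun r => A.CS r i) (A.CS_one i) (fun p => A.CS_a p i)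
    (fun _ _ => Sys0.CS.mul) γ

theorem g_mem_Fle (γ : G) : A.g γ ∈ Fle A.x 0 := by
  exact A.g_ind (P := fun r => r ∈ Fle A.x 0) (one_mem_Fle _ 0) (fun p => x_mem_Fle A.x (.a p))
    (fun _ _ h h' => Fle_mul A.x (a := 0) (b := 0) h h') γ

theorem exists_mem_Fle (r : R) : ∃ k, r ∈ Fle A.x k := by
  refine A.r_ind (P := fun r => ∃ k, r ∈ Fle A.x k) ⟨0, zero_mem _⟩ ?_ ⟨0, one_mem_Fle _ 0⟩ ?_ r
  · rintro a b ⟨k, hk⟩ ⟨l, hl⟩
    exact ⟨max k l, add_mem (Fle_mono A.x (le_max_left _ _) hk)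
      (Fle_mono A.x (le_max_right _ _) hl)⟩
  · rintro y r ⟨k, hk⟩
    exact ⟨_, Fle_mul A.x (x_mem_Fle A.x y) hk⟩

theorem Tc_mem_Fle (c : Lev σ G) : A.Tc c ∈ Fle A.x (c.2.size + 1) := by
  have := Fle_mul A.x (Fle_mul A.x (A.g_mem_Fle c.1) (A.tB_mem_Fle c.2)) (x_mem_Fle_one A.x .T)
  rwa [zero_add] at this

theorem TL_mem_Fle (l : List (Lev σ G)) : A.TL l ∈ Fle A.x (sizeL l + l.length) := by
  induction l with
  | nil => exact one_mem_Fle _ _
  | cons c l ih =>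
    have := Fle_mul A.x (A.Tc_mem_Fle c) ih
    refine Fle_mono A.x (le_of_eq ?_) this
    simp only [sizeL, List.map_cons, List.sum_cons, List.length_cons]
    omega

theorem q_φ (r : R) : qq A.x M * A.φ r = A.φ r := by
  rw [← A.φ_one, ← map_mul, one_mul]

theorem φ_q (r : R) : A.φ r * qq A.x M = A.φ r := by
  rw [← A.φ_one, ← map_mul, mul_one]

theorem φ_T (r : R) : A.φ r * A.x .T = A.x .T * r := by
  refine A.r_ind (P := fun r => A.φ r * A.x .T = A.x .T * r) (by simp) ?_ ?_ ?_ r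
  · intro a b ha hb
    rw [map_add, add_mul, ha, hb, mul_add]
  · rw [A.φ_one, A.q_T, mul_one]
  · intro y r hr
    rw [map_mul, mul_assoc, hr, A.φ_x, ← mul_assoc, A.phg_T, mul_assoc]

theorem S_φ (r : R) : A.x .S * A.φ r = r * A.x .S := by
  refine A.r_ind (P := fun r => A.x .S * A.φ r = r * A.x .S) (by simp) ?_ ?_ ?_ r
  · intro a b ha hb
    rw [map_add, mul_add, ha, hb, add_mul]
  · rw [A.φ_one, A.S_q, one_mul]
  · intro y r hr
    rw [map_mul, ← mul_assoc, A.φ_x, A.S_phg, mul_assoc, hr, mul_assoc]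

theorem CS_φ (r : R) : A.CS (A.φ r) σ.U := by
  refine A.r_ind (P := fun r => A.CS (A.φ r) σ.U) ?_ ?_ ?_ ?_ r
  · intro b
    rw [map_zero]
    exact ⟨Commute.zero_left _, Commute.zero_left _⟩
  · intro a b ha hb c
    rw [map_add]
    exact ⟨(ha c).1.add_left (hb c).1, (ha c).2.add_left (hb c).2⟩
  · rw [A.φ_one]
    exact A.CS_q
  · intro y r hr
    rw [map_mul, A.φ_x]
    exact (A.CS_phg y).mul hr

theorem φ_pE_U (r : R) : A.φ r * pE A.x σ.U = A.x .T * r * A.x .S := by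
  rw [← A.φ_q, mul_assoc, ← A.T_S, ← mul_assoc, A.φ_T]

theorem S_g_q {γ : G} (h : γ ≠ 1) : A.x .S * A.g γ * qq A.x M = 0 := by
  rw [← A.S_q, mul_assoc, mul_assoc, ← mul_assoc (qq A.x M), A.qgq γ h, mul_zero]

theorem q_g_T {γ : G} (h : γ ≠ 1) : qq A.x M * A.g γ * A.x .T = 0 := by
  rw [← A.q_T, ← mul_assoc, A.qgq γ h, zero_mul]

theorem S_g_T {γ : G} (h : γ ≠ 1) : A.x .S * A.g γ * A.x .T = 0 := by
  rw [← A.q_T, ← mul_assoc, A.S_g_q h, zero_mul]

theorem TL_nil : A.TL [] = 1 := rfl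

theorem TL_cons (c : Lev σ G) (l : List (Lev σ G)) : A.TL (c :: l) = A.Tc c * A.TL l := by
  simp [TL]

theorem TL_append (l l' : List (Lev σ G)) : A.TL (l ++ l') = A.TL l * A.TL l' := by
  simp [TL]

theorem SL_nil : A.SL [] = 1 := rfl

theorem SL_cons (c : Lev σ G) (l : List (Lev σ G)) : A.SL (c :: l) = A.SL l * A.Sc c := by
  simp [SL]

theorem SL_append (l l' : List (Lev σ G)) : A.SL (l ++ l') = A.SL l' * A.SL l := by
  simp [SL]

theorem g_tB (γ : G) (β : Cfg σ) : A.g γ * A.tB β = A.tB β * A.g γ :=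
  A.commute_tB fun i _ => A.CS_g γ i

theorem sB_g (γ : G) (β : Cfg σ) : A.sB β * A.g γ = A.g γ * A.sB β :=
  (A.commute_sB fun i _ => A.CS_g γ i).symm

theorem T_eq : A.x .T = A.Tc (1, Cfg.nil σ) := by
  rw [Tc, map_one, A.tB_nil, one_mul, one_mul]

theorem S_eq : A.x .S = A.Sc (1, Cfg.nil σ) := by
  rw [Sc, inv_one, map_one, A.sB_nil, mul_one, mul_one]

theorem g_Tc (γ : G) (c : Lev σ G) : A.g γ * A.Tc c = A.Tc (γ * c.1, c.2) := by
  simp only [Tc, map_mul, mul_assoc]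

theorem tB_Tc (β : Cfg σ) (c : Lev σ G) : A.tB β * A.Tc c = A.Tc (c.1, β.app c.2) := by
  simp only [Tc, A.tB_app, ← mul_assoc, A.g_tB c.1 β]

theorem sB_Tc_of_pre {α : Cfg σ} {c : Lev σ G} (h : α.Pre c.2) :
    A.sB α * A.Tc c = A.Tc (c.1, c.2.sub α) := by
  rw [Tc, Tc, ← mul_assoc, ← mul_assoc, A.sB_g, mul_assoc (A.g _), A.sB_tB_of_pre h]

theorem sB_Tc_of_not_pre {α : Cfg σ} {c : Lev σ G} (h : ¬ α.Pre c.2) : A.sB α * A.Tc c = 0 := by
  rw [Tc, ← mul_assoc, ← mul_assoc, A.sB_g, ← A.pD_T Finset.univ, ← mul_assoc, mul_assoc (A.g _),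
    mul_assoc (A.g _), A.sB_tB_pD_of_not_pre (fun i hi => absurd (Finset.mem_univ i) hi) h,
    mul_zero, zero_mul]

theorem push_Tc (i : σ.ι) (b : σ.Γ i) (c : Lev σ G) :
    A.x (.push i b) * A.Tc c = A.Tc (c.1, Function.update c.2 i (b :: c.2 i)) := by
  simp only [Tc, A.tB_cons, ← mul_assoc, (A.CS_g c.1 i b).1.eq]

theorem sw_Tc_pos {i : σ.ι} {c : Lev σ G} {l l' : List (σ.Γ i)} (h : c.2 i = l ++ l') :
    sw A.x i l * A.Tc c = A.Tc (c.1, Function.update c.2 i l') := by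
  rw [← A.sB_single, A.sB_Tc_of_pre]
  · congr 2
    funext j
    by_cases hj : j = i
    · subst hj
      simp [Cfg.sub, Cfg.single, h]
    · simp [Cfg.sub, Cfg.single, Cfg.nil, hj]
  · intro j
    by_cases hj : j = i
    · subst hj
      simp [Cfg.single, h]
    · simp [Cfg.single, Cfg.nil, hj]

theorem sw_Tc_neg {i : σ.ι} {c : Lev σ G} {l : List (σ.Γ i)} (h : ∀ l', c.2 i ≠ l ++ l') :
    sw A.x i l * A.Tc c = 0 := by
  rw [← A.sB_single, A.sB_Tc_of_not_pre]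
  intro hp
  obtain ⟨l', hl⟩ := hp i
  exact h l' (by simpa [Cfg.single] using hl.symm)

theorem pop_Tc_pos {i : σ.ι} {b : σ.Γ i} {c : Lev σ G} {l : List (σ.Γ i)} (h : c.2 i = b :: l) :
    A.x (.pop i b) * A.Tc c = A.Tc (c.1, Function.update c.2 i l) := by
  simpa [sw] using A.sw_Tc_pos (l := [b]) h

theorem pop_Tc_neg {i : σ.ι} {b : σ.Γ i} {c : Lev σ G} (h : ∀ l, c.2 i ≠ b :: l) :
    A.x (.pop i b) * A.Tc c = 0 := by
  simpa [sw] using A.sw_Tc_neg (l := [b]) h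

theorem S_Tc_of_ne {c : Lev σ G} (h : c ≠ (1, Cfg.nil σ)) : A.x .S * A.Tc c = 0 := by
  obtain ⟨γ, β⟩ := c
  by_cases hβ : β = Cfg.nil σ
  · subst hβ
    rw [Tc, A.tB_nil, mul_one, ← mul_assoc, A.S_g_T fun e => h (Prod.ext e rfl)]
  · rw [Tc, A.g_tB, ← mul_assoc, ← mul_assoc, A.S_tB hβ, zero_mul, zero_mul]

theorem Sc_Tc_self (c : Lev σ G) : A.Sc c * A.Tc c = 1 := by
  rw [Sc, mul_assoc, A.g_Tc, inv_mul_cancel, Tc, map_one, one_mul, mul_assoc,
    ← mul_assoc (A.sB _), A.sB_tB_self, one_mul, A.S_T]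

theorem Sc_Tc_of_ne {c c' : Lev σ G} (h : c ≠ c') : A.Sc c * A.Tc c' = 0 := by
  rw [Sc, mul_assoc, A.g_Tc, mul_assoc]
  by_cases hp : c.2.Pre c'.2
  · rw [A.sB_Tc_of_pre (c := (c.1⁻¹ * c'.1, c'.2)) hp, A.S_Tc_of_ne]
    intro e
    obtain ⟨e1, e2⟩ := Prod.ext_iff.1 e
    refine h (Prod.ext (inv_mul_eq_one.1 e1) ?_)
    have e3 := Cfg.app_sub hp
    rw [show c'.2.sub c.2 = Cfg.nil σ from e2] at e3
    rw [← e3]
    funext i
    simp [Cfg.app, Cfg.nil]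
  · rw [A.sB_Tc_of_not_pre (c := (c.1⁻¹ * c'.1, c'.2)) hp, mul_zero]

theorem SL_TL_self (l : List (Lev σ G)) : A.SL l * A.TL l = 1 := by
  induction l with
  | nil => exact one_mul 1
  | cons c l ih =>
    rw [SL_cons, TL_cons, mul_assoc, ← mul_assoc (A.Sc c), A.Sc_Tc_self, one_mul, ih]

theorem SL_TL_of_incomp {l l' : List (Lev σ G)} (h : ¬ l <+: l') (h' : ¬ l' <+: l) :
    A.SL l * A.TL l' = 0 := by
  induction l generalizing l' with
  | nil => exact absurd List.nil_prefix h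
  | cons c l ih =>
    cases l' with
    | nil => exact absurd List.nil_prefix h'
    | cons c' l' =>
      rw [SL_cons, TL_cons, mul_assoc, ← mul_assoc (A.Sc c)]
      by_cases hc : c = c'
      · subst hc
        rw [A.Sc_Tc_self, one_mul]
        exact ih (fun e => h (List.cons_prefix_cons.2 ⟨rfl, e⟩))
          fun e => h' (List.cons_prefix_cons.2 ⟨rfl, e⟩)
      · rw [A.Sc_Tc_of_ne hc, zero_mul, mul_zero]

theorem φ_Tc_pos (r : R) {c : Lev σ G} (h1 : c.1 = 1) (h2 : ∀ i, i ≠ σ.U → c.2 i = []) :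
    A.φ r * A.Tc c = A.Tc c * r := by
  have hc : Commute (A.φ r) (A.tB c.2) := A.commute_tB fun i hi => by
    obtain rfl : i = σ.U := by_contra fun e => hi (h2 i e)
    exact A.CS_φ r
  rw [Tc, h1, map_one, one_mul, ← mul_assoc, hc.eq, mul_assoc, A.φ_T, mul_assoc]

theorem φ_Tc_neg (r : R) {c : Lev σ G} (h : ¬ (c.1 = 1 ∧ ∀ i, i ≠ σ.U → c.2 i = [])) :
    A.φ r * A.Tc c = 0 := by
  rw [← A.φ_q, mul_assoc, Tc, A.g_tB, ← mul_assoc (qq A.x M), ← mul_assoc (qq A.x M)]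
  by_cases h2 : ∀ i, i ≠ σ.U → c.2 i = []
  · have hc : Commute (qq A.x M) (A.tB c.2) := A.commute_tB fun i hi => by
      obtain rfl : i = σ.U := by_contra fun e => hi (h2 i e)
      exact A.CS_q
    rw [hc.eq, mul_assoc (A.tB _), mul_assoc (A.tB _), A.q_g_T fun e => h ⟨e, h2⟩, mul_zero,
      mul_zero]
  · push Not at h2
    obtain ⟨i, hi, hc⟩ := h2
    rw [A.q_tB hi hc, zero_mul, zero_mul, mul_zero]

theorem Z_Tc_pos {c : Lev σ G} {y : Gen σ n} (h1 : c.1 = 1)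
    (h2 : ∀ i, i ≠ σ.U → i ≠ σ.I → c.2 i = []) (h3 : c.2 σ.I = M.code y) :
    A.x .Z * A.Tc c = A.Tc (1, Function.update c.2 σ.I []) * A.x y := by
  rw [A.Z_eq, Finset.sum_mul, Finset.sum_eq_single y]
  · rw [mul_assoc, A.sw_Tc_pos (l' := []) (by rw [h3, List.append_nil]), ← A.φ_x, h1,
      A.φ_Tc_pos _ rfl]
    intro i hi
    by_cases hI : i = σ.I
    · subst hI
      simp
    · simp [hI, h2 i hi hI]
  · intro y' _ hy
    rw [mul_assoc, A.sw_Tc_neg, mul_zero]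
    intro l' e
    exact hy (M.code_pre (l' := []) (by rw [← e, h3, List.append_nil]))
  · intro h
    exact absurd (Finset.mem_univ y) h

theorem Z_Tc_neg {c : Lev σ G}
    (h : ¬ (c.1 = 1 ∧ (∀ i, i ≠ σ.U → i ≠ σ.I → c.2 i = []) ∧ ∃ y, c.2 σ.I = M.code y)) :
    A.x .Z * A.Tc c = 0 := by
  rw [A.Z_eq, Finset.sum_mul]
  refine Finset.sum_eq_zero fun y _ => ?_
  rw [mul_assoc]
  by_cases hp : ∀ l', c.2 σ.I ≠ M.code y ++ l'
  · rw [A.sw_Tc_neg hp, mul_zero]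
  · push Not at hp
    obtain ⟨l', hl⟩ := hp
    rw [A.sw_Tc_pos hl, ← A.φ_x, A.φ_Tc_neg]
    rintro ⟨e1, e2⟩
    refine h ⟨e1, fun i hi hI => by simpa [hI] using e2 i hi, y, ?_⟩
    have : l' = [] := by simpa using e2 σ.I σ.hIU
    rw [hl, this, List.append_nil]

theorem Φ_Tc (c : Lev σ G) : A.x .Φ * A.Tc c =
    val A.x M (c.2 σ.H) (Function.update c.2 σ.H []) * (A.x .S * A.g c.1 * A.x .T) := by
  rw [Tc, ← A.pD_T Finset.univ, ← mul_assoc, ← mul_assoc, ← mul_assoc, ← mul_assoc,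
    A.Φ_tB_univ _ (A.CS_g c.1), A.pD_T, mul_assoc]

theorem Φ_Tc_pos {c : Lev σ G} (h : c.1 = 1) :
    A.x .Φ * A.Tc c = val A.x M (c.2 σ.H) (Function.update c.2 σ.H []) := by
  rw [A.Φ_Tc, h, map_one, mul_one, A.S_T, mul_one]

theorem Φ_Tc_neg {c : Lev σ G} (h : c.1 ≠ 1) : A.x .Φ * A.Tc c = 0 := by
  rw [A.Φ_Tc, A.S_g_T h, mul_zero]

/-- No generator lies in a proper two-sided ideal. -/
theorem exists_x_inv (y : Gen σ n) : ∃ a b : R, a * A.x y * b = 1 := by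
  cases y with
  | a p => exact ⟨A.g _⁻¹, 1, by rw [← A.g_a, ← map_mul, inv_mul_cancel, map_one, mul_one]⟩
  | push i b => exact ⟨A.x (.pop i b), 1, by rw [A.pop_push, if_pos rfl, mul_one]⟩
  | pop i b => exact ⟨1, A.x (.push i b), by rw [one_mul, A.pop_push, if_pos rfl]⟩
  | S => exact ⟨1, A.x .T, by rw [one_mul, A.S_T]⟩
  | T => exact ⟨A.x .S, 1, by rw [mul_one, A.S_T]⟩
  | Z =>
    refine ⟨A.x .S, tw A.x σ.I (M.code .S) * (A.x .T * A.x .T), ?_⟩
    rw [← mul_assoc, mul_assoc (A.x .S) (A.x .Z), show A.x .Z * tw A.x σ.I (M.code .S) =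
      phg A.x M .S from rfl, A.S_phg, mul_assoc, ← mul_assoc (A.x .S) (A.x .T), A.S_T, one_mul,
      A.S_T]
  | Φ => exact ⟨1, A.x .T, by rw [one_mul, ← A.pE_T σ.H, ← mul_assoc, A.Φ_pE, A.S_T]⟩

end Sys

end Vale.Agent.P193
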