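import Vale.Agent.P193.RingDefs

/-!
P193, part C1a: configurations, runs, evaluation, weight filtration.
-/

namespace Vale.Agent.P193

variable {σ : Sig} {n : ℕ}

/-- Stackwise initial segment. -/
def Cfg.Pre (α β : Cfg σ) : Prop := ∀ i, α i <+: β i

/-- Stackwise comparability. -/
def Cfg.Compat (α β : Cfg σ) : Prop := ∀ i, α i <+: β i ∨ β i <+: α i

/-- Stackwise removal of the top `|α i|` symbols. -/
def Cfg.sub (β α : Cfg σ) : Cfg σ := fun i => (β i).drop (α i).length

/-- The configuration with `l` on stack `i` and nothing else. -/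
def Cfg.single (i : σ.ι) (l : List (σ.Γ i)) : Cfg σ := Function.update (Cfg.nil σ) i l

/-- The clock contains only ticks. -/
def Cfg.Pure (w : Cfg σ) : Prop := σ.zero ∉ w σ.K

theorem Cfg.size_update (β : Cfg σ) (i : σ.ι) (l : List (σ.Γ i)) :
    Cfg.size (Function.update β i l) + (β i).length = β.size + l.length := by
  unfold Cfg.size
  rw [← Finset.add_sum_erase _ _ (Finset.mem_univ i),
    ← Finset.add_sum_erase _ (fun j => (β j).length) (Finset.mem_univ i), Function.update_self]
  have h : ∑ j ∈ Finset.univ.erase i, (Function.update β i l j).length =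
      ∑ j ∈ Finset.univ.erase i, (β j).length := by
    refine Finset.sum_congr rfl fun j hj => ?_
    rw [Function.update_of_ne (Finset.ne_of_mem_erase hj)]
  rw [h]
  omega

theorem Cfg.size_app (β γ : Cfg σ) : (β.app γ).size = β.size + γ.size := by
  simp [Cfg.size, Cfg.app, Finset.sum_add_distrib]

theorem Cfg.size_eq_zero {β : Cfg σ} : β.size = 0 ↔ β = Cfg.nil σ := by
  unfold Cfg.size
  rw [Finset.sum_eq_zero_iff]
  constructor
  · intro h
    funext i
    exact List.length_eq_zero_iff.1 (h i (Finset.mem_univ i))
  · rintro rfl i -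
    rfl

theorem Cfg.size_cons (β : Cfg σ) (i : σ.ι) (b : σ.Γ i) :
    Cfg.size (Function.update β i (b :: β i)) = β.size + 1 := by
  have h := Cfg.size_update β i (b :: β i)
  rw [List.length_cons] at h
  omega

theorem Cfg.induction {P : Cfg σ → Prop} (h0 : P (Cfg.nil σ))
    (h1 : ∀ (β : Cfg σ) (i : σ.ι) (b : σ.Γ i), P β → P (Function.update β i (b :: β i)))
    (β : Cfg σ) : P β := by
  have key : ∀ (k : ℕ) (β : Cfg σ), β.size = k → P β := by
    intro k
    induction k with
    | zero =>
      intro β hβ
      rw [Cfg.size_eq_zero.1 hβ]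
      exact h0
    | succ k ih =>
      intro β hβ
      have hne : β ≠ Cfg.nil σ := by
        intro h
        rw [Cfg.size_eq_zero.2 h] at hβ
        omega
      obtain ⟨i, hi⟩ : ∃ i, β i ≠ [] := by
        by_contra hcon
        push Not at hcon
        exact hne (funext hcon)
      obtain ⟨b, l, hbl⟩ := List.exists_cons_of_ne_nil hi
      have hs := Cfg.size_update β i l
      rw [hbl, List.length_cons] at hs
      have h2 := h1 (Function.update β i l) i b (ih _ (by omega))
      rw [Function.update_idem, Function.update_self, ← hbl, Function.update_eq_self] at h2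
      exact h2
  exact key _ β rfl

theorem Cfg.length_le_size (β : Cfg σ) (i : σ.ι) : (β i).length ≤ β.size := by
  unfold Cfg.size
  exact Finset.single_le_sum (f := fun j => (β j).length) (fun j _ => Nat.zero_le _)
    (Finset.mem_univ i)

theorem Cfg.app_sub {α β : Cfg σ} (h : α.Pre β) : α.app (β.sub α) = β := by
  funext i
  obtain ⟨t, ht⟩ := h i
  simp [Cfg.app, Cfg.sub, ← ht]

theorem Cfg.sub_app (α β : Cfg σ) : (α.app β).sub α = β := by
  funext i
  simp [Cfg.app, Cfg.sub]

theorem Mach.code_injective (M : Mach σ n) : Function.Injective M.code := by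
  intro y y' h
  apply M.jc_inj
  have h2 := congrArg List.length h
  simpa [Mach.code] using h2

/-- Codes form a prefix code. -/
theorem Mach.code_pre (M : Mach σ n) {y y' : Gen σ n} {l l' : List (σ.Γ σ.I)}
    (h : M.code y ++ l = M.code y' ++ l') : y = y' := by
  apply M.jc_inj
  unfold Mach.code at h
  generalize M.jc y = a at h
  generalize M.jc y' = a' at h
  induction a generalizing a' with
  | zero =>
    cases a' with
    | zero => rfl
    | succ a' =>
      simp only [List.replicate_zero, List.nil_append, List.replicate_succ, List.cons_append,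
        List.cons.injEq] at h
      exact absurd h.1 σ.i_ne
  | succ a ih =>
    cases a' with
    | zero =>
      simp only [List.replicate_zero, List.nil_append, List.replicate_succ, List.cons_append,
        List.cons.injEq] at h
      exact absurd h.1.symm σ.i_ne
    | succ a' =>
      simp only [List.replicate_succ, List.cons_append, List.cons.injEq, true_and] at h
      rw [ih a' h]

theorem Mach.all_length_le (M : Mach σ n) {τ : σ.Γ σ.H} {b : Branch σ n} (hb : b ∈ M.br τ) :
    b.all.length ≤ M.Cb := by
  have h1 : b.all.length ≤ ((M.br τ).map fun b => b.all.length).sum :=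
    List.le_sum_of_mem (List.mem_map.2 ⟨b, hb, rfl⟩)
  exact h1.trans (Finset.le_sup (f := fun τ => ((M.br τ).map fun b => b.all.length).sum)
    (Finset.mem_univ τ))

theorem Mach.all_ne_H (M : Mach σ n) {τ : σ.Γ σ.H} {b : Branch σ n} (hb : b ∈ M.br τ) :
    ∀ o ∈ b.all, o.stk ≠ σ.H := by
  intro o ho
  rcases List.mem_append.1 ho with h | h
  · have hk : o.stk = σ.K := by
      cases hkop : b.kop <;> rw [hkop] at h <;> simp only [KOp.ops, List.mem_cons,
        List.not_mem_nil, or_false] at h
      · rw [h]; rfl
      · rw [h]; rfl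
      · rcases h with h | h <;> (rw [h]; rfl)
      · rcases h with h | h | h <;> (rw [h]; rfl)
      · rcases h with h | h <;> (rw [h]; rfl)
    rw [hk]
    exact σ.hHK.symm
  · exact (M.ops_ne τ b hb o h).1

theorem BOp.act_apply_of_ne_c1a {o : BOp σ} {w w' : Cfg σ} (h : o.act w = some w') {i : σ.ι}
    (hi : o.stk ≠ i) : w' i = w i := by
  cases o with
  | push j b =>
    simp only [BOp.act, Option.some.injEq] at h
    rw [← h]
    exact Function.update_of_ne (Ne.symm hi) _ _
  | pop j b =>
    simp only [BOp.act] at h
    split at h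
    · cases h
    · split_ifs at h
      rw [← Option.some.inj h]
      exact Function.update_of_ne (Ne.symm hi) _ _
  | test j =>
    simp only [BOp.act] at h
    split_ifs at h
    rw [← Option.some.inj h]

theorem BOp.act_length_le_c1a {o : BOp σ} {w w' : Cfg σ} (h : o.act w = some w') (i : σ.ι) :
    (w i).length ≤ (w' i).length + 1 ∧ (w' i).length ≤ (w i).length + 1 := by
  by_cases hi : o.stk = i
  · cases o with
    | push j b =>
      obtain rfl : j = i := hi
      simp only [BOp.act, Option.some.injEq] at h
      rw [← h, Function.update_self, List.length_cons]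
      omega
    | pop j b =>
      obtain rfl : j = i := hi
      simp only [BOp.act] at h
      split at h
      · cases h
      · rename_i b' l hl
        split_ifs at h
        rw [← Option.some.inj h, Function.update_self, hl, List.length_cons]
        omega
    | test j =>
      simp only [BOp.act] at h
      split_ifs at h
      rw [← Option.some.inj h]
      omega
  · rw [BOp.act_apply_of_ne_c1a h hi]
    omega

theorem Cfg.update_app_c1a (w ξ : Cfg σ) (i : σ.ι) (l : List (σ.Γ i)) :
    Cfg.app (Function.update w i l) ξ = Function.update (w.app ξ) i (l ++ ξ i) := by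
  funext j
  by_cases hj : j = i
  · subst hj
    simp [Cfg.app]
  · simp [Cfg.app, Function.update_of_ne hj]

theorem BOp.act_app_c1a (o : BOp σ) (w ξ : Cfg σ) (hξ : ∀ i, ξ i ≠ [] → 0 < (w i).length) :
    o.act (w.app ξ) = (o.act w).map fun w' => w'.app ξ := by
  cases o with
  | push j b =>
    simp only [BOp.act, Option.map_some, Cfg.update_app_c1a]
    rfl
  | pop j b =>
    simp only [BOp.act]
    cases hw : w j with
    | nil =>
      have h1 : ξ j = [] := by
        by_contra h
        have := hξ j h
        rw [hw] at this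
        exact absurd this (lt_irrefl _)
      have h2 : (w.app ξ) j = [] := by simp [Cfg.app, hw, h1]
      rw [h2]
      rfl
    | cons b' l =>
      have h2 : (w.app ξ) j = b' :: (l ++ ξ j) := by simp [Cfg.app, hw]
      rw [h2]
      simp only
      split_ifs
      · simp only [Option.map_some, Cfg.update_app_c1a]
      · rfl
  | test j =>
    simp only [BOp.act]
    by_cases hw : w j = []
    · have h1 : ξ j = [] := by
        by_contra h
        have := hξ j h
        rw [hw] at this
        exact absurd this (lt_irrefl _)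
      have h2 : (w.app ξ) j = [] := by simp [Cfg.app, hw, h1]
      rw [if_pos h2, if_pos hw]
      rfl
    · have h2 : (w.app ξ) j ≠ [] := by simp [Cfg.app, hw]
      rw [if_neg h2, if_neg hw]
      rfl

theorem opsAct_append (os os' : List (BOp σ)) (w : Cfg σ) :
    opsAct (os ++ os') w = (opsAct os w).bind (opsAct os') := by
  induction os generalizing w with
  | nil => rfl
  | cons o os ih =>
    simp only [List.cons_append, opsAct]
    cases o.act w with
    | none => rfl
    | some w1 => exact ih w1

/-- Stacks that are not mentioned are not changed. -/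
theorem opsAct_apply_of_ne {os : List (BOp σ)} {w w' : Cfg σ} (h : opsAct os w = some w')
    {i : σ.ι} (hi : ∀ o ∈ os, o.stk ≠ i) : w' i = w i := by
  induction os generalizing w with
  | nil =>
    simp only [opsAct, Option.some.injEq] at h
    rw [h]
  | cons o os ih =>
    simp only [opsAct] at h
    cases h1 : o.act w with
    | none => rw [h1] at h; cases h
    | some w1 =>
      rw [h1] at h
      rw [ih h fun o' ho' => hi o' (List.mem_cons_of_mem _ ho')]
      exact BOp.act_apply_of_ne_c1a h1 (hi o List.mem_cons_self)

theorem opsAct_length_le {os : List (BOp σ)} {w w' : Cfg σ} (h : opsAct os w = some w')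
    (i : σ.ι) : (w i).length ≤ (w' i).length + os.length ∧
      (w' i).length ≤ (w i).length + os.length := by
  induction os generalizing w with
  | nil =>
    simp only [opsAct, Option.some.injEq] at h
    rw [h]
    simp
  | cons o os ih =>
    simp only [opsAct] at h
    cases h1 : o.act w with
    | none => rw [h1] at h; cases h
    | some w1 =>
      rw [h1] at h
      have h2 := ih h
      have h3 := BOp.act_length_le_c1a h1 i
      rw [List.length_cons]
      omega

/-- Appending tails below long stacks does not change the run. -/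
theorem opsAct_app (os : List (BOp σ)) (w ξ : Cfg σ)
    (hξ : ∀ i, ξ i ≠ [] → os.length < (w i).length) :
    opsAct os (w.app ξ) = (opsAct os w).map fun w' => w'.app ξ := by
  induction os generalizing w with
  | nil => rfl
  | cons o os ih =>
    simp only [opsAct]
    rw [BOp.act_app_c1a o w ξ fun i hi => by
      have := hξ i hi
      omega]
    cases h1 : o.act w with
    | none => rfl
    | some w1 =>
      refine ih w1 fun i hi => ?_
      have h2 := hξ i hi
      have h3 := BOp.act_length_le_c1a h1 i
      rw [List.length_cons] at h2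
      omega

theorem Mach.Reach.apply_H {M : Mach σ n} {h : List (σ.Γ σ.H)} {w γ : Cfg σ}
    (hr : M.Reach h w γ) : γ σ.H = w σ.H := by
  induction hr with
  | nil w => rfl
  | cons τ h w w' γ b hb hw _ ih =>
    rw [ih]
    exact opsAct_apply_of_ne hw (M.all_ne_H hb)

theorem Mach.Reach.length_le {M : Mach σ n} {h : List (σ.Γ σ.H)} {w γ : Cfg σ}
    (hr : M.Reach h w γ) (i : σ.ι) : (w i).length ≤ (γ i).length + M.Cb * h.length ∧
      (γ i).length ≤ (w i).length + M.Cb * h.length := by
  induction hr with
  | nil w => simp
  | cons τ h w w' γ b hb hw _ ih =>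
    have h1 := opsAct_length_le hw i
    have h2 := M.all_length_le hb
    rw [List.length_cons, Nat.mul_succ]
    omega

theorem Mach.reach_finite (M : Mach σ n) (h : List (σ.Γ σ.H)) (w : Cfg σ) :
    {γ | M.Reach h w γ}.Finite := by
  induction h generalizing w with
  | nil =>
    refine (Set.finite_singleton w).subset fun γ hγ => ?_
    cases hγ
    rfl
  | cons τ h ih =>
    have h1 : (⋃ b ∈ {b | b ∈ M.br τ}, ⋃ w' ∈ {w' | opsAct b.all w = some w'},
        {γ | M.Reach h w' γ}).Finite := by
      refine (List.finite_toSet (M.br τ)).biUnion fun b _ => ?_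
      refine Set.Finite.biUnion ?_ fun w' _ => ih w'
      refine Set.Subsingleton.finite fun a ha a' ha' => ?_
      exact Option.some.inj (ha.symm.trans ha')
    refine h1.subset fun γ hγ => ?_
    cases hγ with
    | cons _ _ _ w' _ b hb hw hr =>
      simp only [Set.mem_iUnion]
      exact ⟨b, hb, w', hw, hr⟩

section Ev

variable {R : Type} [Ring R] (x : Gen σ n → R) (M : Mach σ n)

theorem tw_nil (i : σ.ι) : tw x i [] = 1 := rfl

theorem tw_cons (i : σ.ι) (b : σ.Γ i) (l : List (σ.Γ i)) :
    tw x i (b :: l) = x (.push i b) * tw x i l := by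
  simp [tw]

theorem tw_append (i : σ.ι) (l l' : List (σ.Γ i)) :
    tw x i (l ++ l') = tw x i l * tw x i l' := by
  simp [tw]

theorem sw_nil (i : σ.ι) : sw x i [] = 1 := rfl

theorem sw_cons (i : σ.ι) (b : σ.Γ i) (l : List (σ.Γ i)) :
    sw x i (b :: l) = sw x i l * x (.pop i b) := by
  simp [sw]

theorem sw_append (i : σ.ι) (l l' : List (σ.Γ i)) :
    sw x i (l ++ l') = sw x i l' * sw x i l := by
  simp [sw]

theorem opsVal_append (os os' : List (BOp σ)) :
    opsVal x (os ++ os') = opsVal x os' * opsVal x os := by
  induction os with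
  | nil => simp [opsVal]
  | cons o os ih => simp only [List.cons_append, opsVal, ih, mul_assoc]

theorem Ev_congr {h : List (σ.Γ σ.H)} {w : Cfg σ} {f f' : Cfg σ → R}
    (hf : ∀ γ, M.Reach h w γ → f γ = f' γ) : Ev x M h w f = Ev x M h w f' := by
  induction h generalizing w with
  | nil => exact hf w (Mach.Reach.nil w)
  | cons τ h ih =>
    simp only [Ev]
    refine congrArg List.sum (List.map_congr_left fun b hb => ?_)
    cases h1 : opsAct b.all w with
    | none => rfl
    | some w' =>
      simp only
      rw [ih fun γ hγ => hf γ (Mach.Reach.cons τ h w w' γ b hb h1 hγ)]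

theorem Ev_append (h h' : List (σ.Γ σ.H)) (w : Cfg σ) (f : Cfg σ → R) :
    Ev x M (h ++ h') w f = Ev x M h w fun γ => Ev x M h' γ f := by
  induction h generalizing w with
  | nil => rfl
  | cons τ h ih =>
    simp only [List.cons_append, Ev]
    refine congrArg List.sum (List.map_congr_left fun b _ => ?_)
    cases opsAct b.all w with
    | none => rfl
    | some w' =>
      simp only
      rw [ih]

theorem Ev_zero (h : List (σ.Γ σ.H)) (w : Cfg σ) : Ev x M h w (fun _ => (0 : R)) = 0 := by
  induction h generalizing w with
  | nil => rfl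
  | cons τ h ih =>
    simp only [Ev]
    refine List.sum_eq_zero fun r hr => ?_
    obtain ⟨b, -, rfl⟩ := List.mem_map.1 hr
    cases opsAct b.all w with
    | none => rfl
    | some w' =>
      simp only
      rw [ih, mul_zero]

theorem Ev_add (h : List (σ.Γ σ.H)) (w : Cfg σ) (f f' : Cfg σ → R) :
    Ev x M h w (fun γ => f γ + f' γ) = Ev x M h w f + Ev x M h w f' := by
  induction h generalizing w with
  | nil => rfl
  | cons τ h ih =>
    simp only [Ev]
    rw [← List.sum_map_add]
    refine congrArg List.sum (List.map_congr_left fun b _ => ?_)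
    cases opsAct b.all w with
    | none => simp
    | some w' =>
      simp only
      rw [ih, mul_add]

theorem Ev_mul_right (h : List (σ.Γ σ.H)) (w : Cfg σ) (f : Cfg σ → R) (r : R) :
    Ev x M h w (fun γ => f γ * r) = Ev x M h w f * r := by
  induction h generalizing w with
  | nil => rfl
  | cons τ h ih =>
    simp only [Ev]
    rw [← List.sum_map_mul_right]
    refine congrArg List.sum (List.map_congr_left fun b _ => ?_)
    cases opsAct b.all w with
    | none => simp
    | some w' =>
      simp only
      rw [ih, mul_assoc]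

/-- Decomposition along the final configuration. -/
theorem Ev_eq_sum (h : List (σ.Γ σ.H)) (w : Cfg σ) (f : Cfg σ → R) (s : Finset (Cfg σ))
    (hs : ∀ γ, M.Reach h w γ → γ ∈ s) :
    Ev x M h w f = ∑ γ ∈ s, Ev x M h w (ind R γ) * f γ := by
  have h1 : ∀ t : Finset (Cfg σ), ∑ γ ∈ t, Ev x M h w (ind R γ) * f γ =
      Ev x M h w fun γ' => ∑ γ ∈ t, ind R γ γ' * f γ := by
    intro t
    induction t using Finset.induction_on with
    | empty => simp [Ev_zero]
    | insert a t ha ih =>
      simp only [Finset.sum_insert ha]
      rw [Ev_add, ih, Ev_mul_right]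
  rw [h1]
  refine Ev_congr x M fun γ hγ => ?_
  rw [Finset.sum_eq_single_of_mem γ (hs γ hγ)]
  · simp [ind]
  · intro γ' _ hne
    simp [ind, hne.symm]

theorem Ev_app (h : List (σ.Γ σ.H)) (w ξ : Cfg σ) (f : Cfg σ → R)
    (hξ : ∀ i, ξ i ≠ [] → M.Cb * h.length < (w i).length) :
    Ev x M h (w.app ξ) f = Ev x M h w fun γ => f (γ.app ξ) := by
  induction h generalizing w with
  | nil => rfl
  | cons τ h ih =>
    simp only [Ev]
    refine congrArg List.sum (List.map_congr_left fun b hb => ?_)
    have h2 := M.all_length_le hb
    rw [List.length_cons, Nat.mul_succ] at hξ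
    rw [opsAct_app _ _ _ fun i hi => by
      have := hξ i hi
      omega]
    cases h1 : opsAct b.all w with
    | none => rfl
    | some w' =>
      simp only [Option.map_some]
      rw [ih w' fun i hi => by
        have h3 := hξ i hi
        have h4 := opsAct_length_le h1 i
        omega]

theorem mv_map_c1a {R' : Type} [Ring R'] (F : R →+* R') (b : Branch σ n) :
    F (b.mv x) = b.mv fun y => F (x y) := by
  unfold Branch.mv
  cases b.m with
  | none => simp
  | some y => rfl

theorem tw_map_c1a {R' : Type} [Ring R'] (F : R →+* R') (i : σ.ι) (l : List (σ.Γ i)) :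
    F (tw x i l) = tw (fun y => F (x y)) i l := by
  simp only [tw, map_list_prod, List.map_map]
  rfl

theorem sw_map_c1a {R' : Type} [Ring R'] (F : R →+* R') (i : σ.ι) (l : List (σ.Γ i)) :
    F (sw x i l) = sw (fun y => F (x y)) i l := by
  simp only [sw, map_list_prod, List.map_map]
  rfl

theorem aw_map_c1a {R' : Type} [Ring R'] (F : R →+* R') (w : List (Fin n × Bool)) :
    F (aw x w) = aw (fun y => F (x y)) w := by
  simp only [aw, map_list_prod, List.map_map]
  rfl

theorem word_map_c1a {R' : Type} [Ring R'] (F : R →+* R') (w : List (Gen σ n)) :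
    F (word x w) = word (fun y => F (x y)) w := by
  simp only [word, map_list_prod, List.map_map]
  rfl

theorem pE_map_c1a {R' : Type} [Ring R'] (F : R →+* R') (i : σ.ι) :
    F (pE x i) = pE (fun y => F (x y)) i := by
  simp only [pE, map_sub, map_one, map_sum, map_mul]

theorem phg_map_c1a {R' : Type} [Ring R'] (F : R →+* R') (y : Gen σ n) :
    F (phg x M y) = phg (fun y => F (x y)) M y := by
  simp only [phg, map_mul, tw_map_c1a]

theorem qq_map_c1a {R' : Type} [Ring R'] (F : R →+* R') :
    F (qq x M) = qq (fun y => F (x y)) M := by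
  simp only [qq, map_mul, phg_map_c1a]

theorem opsVal_map_c1a {R' : Type} [Ring R'] (F : R →+* R') (os : List (BOp σ)) :
    F (opsVal x os) = opsVal (fun y => F (x y)) os := by
  induction os with
  | nil => simp [opsVal]
  | cons o os ih =>
    simp only [opsVal, map_mul, ih]
    cases o with
    | push i b => rfl
    | pop i b => rfl
    | test i => simp only [BOp.val, pE_map_c1a]

theorem Ev_map {R' : Type} [Ring R'] (F : R →+* R') (h : List (σ.Γ σ.H)) (w : Cfg σ)
    (f : Cfg σ → R) : F (Ev x M h w f) = Ev (fun y => F (x y)) M h w fun γ => F (f γ) := by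
  induction h generalizing w with
  | nil => rfl
  | cons τ h ih =>
    simp only [Ev]
    rw [map_list_sum, List.map_map]
    refine congrArg List.sum (List.map_congr_left fun b _ => ?_)
    simp only [Function.comp]
    cases opsAct b.all w with
    | none => simp
    | some w' =>
      simp only
      rw [map_mul, ih, mv_map_c1a]

theorem val_map {R' : Type} [Ring R'] (F : R →+* R') (h : List (σ.Γ σ.H)) (w : Cfg σ) :
    F (val x M h w) = val (fun y => F (x y)) M h w := by
  unfold val
  rw [Ev_map]
  refine Ev_congr _ M fun γ _ => ?_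
  unfold ind
  split_ifs <;> simp

theorem relFin_map {R' : Type} [Ring R'] (F : R →+* R') (r : RelIdx σ n) :
    F (relFin x M r) = relFin (fun y => F (x y)) M r := by
  cases r with
  | cohn i b b' =>
    simp only [relFin, map_sub, map_mul]
    split_ifs <;> simp
  | comm y y' =>
    simp only [relFin]
    split_ifs <;> simp
  | qt i b =>
    simp only [relFin]
    split_ifs <;> simp [qq_map_c1a]
  | sq i b =>
    simp only [relFin]
    split_ifs <;> simp [qq_map_c1a]
  | master =>
    simp only [relFin, masterRhs, map_sub, map_add, map_sum, map_list_sum, List.map_map]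
    congr 3
    funext τ
    refine congrArg List.sum (List.map_congr_left fun b _ => ?_)
    simp only [Function.comp, map_mul, mv_map_c1a, opsVal_map_c1a]
  | _ => simp [relFin, qq_map_c1a, phg_map_c1a, pE_map_c1a, sw_map_c1a]

theorem relG_map {R' : Type} [Ring R'] (F : R →+* R') {G : Type} [Group G] (s : Fin n → G)
    (w : List (Fin n × Bool)) : F (relG x M s w) = relG (fun y => F (x y)) M s w := by
  unfold relG
  split_ifs
  · simp only [map_sub, map_one, aw_map_c1a]
  · simp only [map_mul, aw_map_c1a, qq_map_c1a]

/-- A long stack cannot be emptied by a short history. -/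
theorem val_eq_zero_of_long (h : List (σ.Γ σ.H)) (w : Cfg σ) (i : σ.ι)
    (hi : M.Cb * h.length < (w i).length) : val x M h w = 0 := by
  unfold val
  rw [← Ev_zero x M h w]
  refine Ev_congr x M fun γ hγ => ?_
  have h1 := hγ.length_le i
  unfold ind
  rw [if_neg]
  rintro rfl
  simp only [Cfg.nil, List.length_nil] at h1
  omega

/-- The weight of a word. -/
def wtW (w : List (Gen σ n)) : ℕ := (w.map Gen.wt).sum

/-- Sums of words of weight at most `k`. -/
def Fle (k : ℕ) : AddSubmonoid R := AddSubmonoid.closure {r | ∃ w, wtW w ≤ k ∧ r = word x w}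

/-- Sums of words of weight less than `k`. -/
def Flt (k : ℕ) : AddSubmonoid R := AddSubmonoid.closure {r | ∃ w, wtW w < k ∧ r = word x w}

theorem closure_mul_mem_c1a {A B : Set R} {K : AddSubmonoid R}
    (hAB : ∀ u ∈ A, ∀ v ∈ B, u * v ∈ K) {r r' : R} (h : r ∈ AddSubmonoid.closure A)
    (h' : r' ∈ AddSubmonoid.closure B) : r * r' ∈ K := by
  induction h using AddSubmonoid.closure_induction with
  | mem u hu =>
    induction h' using AddSubmonoid.closure_induction with
    | mem v hv => exact hAB u hu v hv
    | zero => rw [mul_zero]; exact zero_mem _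
    | add v v' _ _ h1 h2 => rw [mul_add]; exact add_mem h1 h2
  | zero => rw [zero_mul]; exact zero_mem _
  | add u u' _ _ h1 h2 => rw [add_mul]; exact add_mem h1 h2

theorem Flt_zero {r : R} (h : r ∈ Flt x 0) : r = 0 := by
  unfold Flt at h
  have h1 : {r : R | ∃ w, wtW w < 0 ∧ r = word x w} = ∅ := by
    ext r
    simp
  rw [h1, AddSubmonoid.closure_empty] at h
  exact h

theorem Flt_succ (k : ℕ) : Flt x (k + 1) = Fle x k := by
  unfold Flt Fle
  simp only [Nat.lt_succ_iff]

theorem Fle_mono {a b : ℕ} (h : a ≤ b) : Fle x a ≤ Fle x b := by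
  refine AddSubmonoid.closure_mono ?_
  rintro r ⟨w, hw, rfl⟩
  exact ⟨w, hw.trans h, rfl⟩

theorem Flt_mono {a b : ℕ} (h : a ≤ b) : Flt x a ≤ Flt x b := by
  refine AddSubmonoid.closure_mono ?_
  rintro r ⟨w, hw, rfl⟩
  exact ⟨w, hw.trans_le h, rfl⟩

theorem Fle_le_Flt {a b : ℕ} (h : a < b) : Fle x a ≤ Flt x b := by
  refine AddSubmonoid.closure_mono ?_
  rintro r ⟨w, hw, rfl⟩
  exact ⟨w, hw.trans_lt h, rfl⟩

theorem one_mem_Fle (k : ℕ) : (1 : R) ∈ Fle x k := by
  exact AddSubmonoid.subset_closure ⟨[], by simp [wtW], by simp [word]⟩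

theorem x_mem_Fle (y : Gen σ n) : x y ∈ Fle x y.wt := by
  exact AddSubmonoid.subset_closure ⟨[y], by simp [wtW], by simp [word]⟩

theorem x_mem_Fle_one (y : Gen σ n) : x y ∈ Fle x 1 := by
  refine Fle_mono x ?_ (x_mem_Fle x y)
  cases y <;> simp [Gen.wt]

theorem Fle_mul {a b : ℕ} {r r' : R} (h : r ∈ Fle x a) (h' : r' ∈ Fle x b) :
    r * r' ∈ Fle x (a + b) := by
  refine closure_mul_mem_c1a (fun u hu v hv => ?_) h h'
  obtain ⟨w, hw, rfl⟩ := hu
  obtain ⟨w', hw', rfl⟩ := hv
  refine AddSubmonoid.subset_closure ⟨w ++ w', ?_, by simp [word]⟩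
  simp only [wtW, List.map_append, List.sum_append] at hw hw' ⊢
  omega

theorem Flt_mul_Fle {a b : ℕ} {r r' : R} (h : r ∈ Flt x a) (h' : r' ∈ Fle x b) :
    r * r' ∈ Flt x (a + b) := by
  refine closure_mul_mem_c1a (fun u hu v hv => ?_) h h'
  obtain ⟨w, hw, rfl⟩ := hu
  obtain ⟨w', hw', rfl⟩ := hv
  refine AddSubmonoid.subset_closure ⟨w ++ w', ?_, by simp [word]⟩
  simp only [wtW, List.map_append, List.sum_append] at hw hw' ⊢
  omega

theorem Fle_mul_Flt {a b : ℕ} {r r' : R} (h : r ∈ Fle x a) (h' : r' ∈ Flt x b) :
    r * r' ∈ Flt x (a + b) := by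
  refine closure_mul_mem_c1a (fun u hu v hv => ?_) h h'
  obtain ⟨w, hw, rfl⟩ := hu
  obtain ⟨w', hw', rfl⟩ := hv
  refine AddSubmonoid.subset_closure ⟨w ++ w', ?_, by simp [word]⟩
  simp only [wtW, List.map_append, List.sum_append] at hw hw' ⊢
  omega

theorem tw_mem_Fle (i : σ.ι) (l : List (σ.Γ i)) : tw x i l ∈ Fle x l.length := by
  induction l with
  | nil => exact one_mem_Fle x _
  | cons b l ih =>
    rw [tw_cons, List.length_cons, Nat.add_comm]
    exact Fle_mul x (x_mem_Fle_one x _) ih

theorem Ev_mem_Fle (h : List (σ.Γ σ.H)) (w : Cfg σ) (f : Cfg σ → R) (k : ℕ)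
    (hf : ∀ γ, f γ ∈ Fle x k) : Ev x M h w f ∈ Fle x (h.length + k) := by
  induction h generalizing w with
  | nil =>
    rw [List.length_nil, Nat.zero_add]
    exact hf w
  | cons τ h ih =>
    simp only [Ev]
    refine list_sum_mem fun r hr => ?_
    obtain ⟨b, -, rfl⟩ := List.mem_map.1 hr
    cases opsAct b.all w with
    | none => exact zero_mem _
    | some w' =>
      simp only
      have h1 : b.mv x ∈ Fle x 1 := by
        unfold Branch.mv
        cases b.m with
        | none => exact one_mem_Fle x _
        | some y => exact x_mem_Fle_one x y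
      have h2 := Fle_mul x h1 (ih w')
      refine Fle_mono x ?_ h2
      rw [List.length_cons]
      omega

theorem Ev_ind_mem_Fle (h : List (σ.Γ σ.H)) (w γ : Cfg σ) :
    Ev x M h w (ind R γ) ∈ Fle x h.length := by
  refine Ev_mem_Fle x M h w _ 0 fun γ' => ?_
  unfold ind
  split_ifs
  · exact one_mem_Fle x _
  · exact zero_mem _

/-- Every value is a sum of words with at most `|h|` letters. -/
theorem val_mem_closure (h : List (σ.Γ σ.H)) (w : Cfg σ) :
    val x M h w ∈ AddSubmonoid.closure {r | ∃ l, l.length ≤ h.length ∧ r = word x l} := by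
  unfold val
  induction h generalizing w with
  | nil =>
    simp only [Ev, ind]
    split_ifs
    · exact AddSubmonoid.subset_closure ⟨[], le_rfl, by simp [word]⟩
    · exact zero_mem _
  | cons τ h ih =>
    simp only [Ev]
    refine list_sum_mem fun r hr => ?_
    obtain ⟨b, -, rfl⟩ := List.mem_map.1 hr
    cases opsAct b.all w with
    | none => exact zero_mem _
    | some w' =>
      simp only
      have h1 : b.mv x ∈ AddSubmonoid.closure {r | ∃ l, l.length ≤ 1 ∧ r = word x l} := by
        unfold Branch.mv
        cases b.m with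
        | none => exact AddSubmonoid.subset_closure ⟨[], by simp, by simp [word]⟩
        | some y => exact AddSubmonoid.subset_closure ⟨[y], by simp, by simp [word]⟩
      refine closure_mul_mem_c1a (fun u hu v hv => ?_) h1 (ih w')
      obtain ⟨l, hl, rfl⟩ := hu
      obtain ⟨l', hl', rfl⟩ := hv
      refine AddSubmonoid.subset_closure ⟨l ++ l', ?_, by simp [word]⟩
      rw [List.length_append, List.length_cons]
      omega

end Ev

end Vale.Agent.P193
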