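import Vale.Agent.P193.CMDefs
import Vale.Agent.P193.GroupDefs

/-!
P193, part C: the ring. Signature of stacks, generators, machines, relations.
-/

namespace Vale.Agent.P193

/-- A finite family of stacks with finite alphabets and five distinguished stacks:
`H` history, `K` clock, `I` instruction, `U` unary, `C` control. -/
structure Sig where
  ι : Type
  Γ : ι → Type
  [fι : Fintype ι]
  [dι : DecidableEq ι]
  [fΓ : ∀ i, Fintype (Γ i)]
  [dΓ : ∀ i, DecidableEq (Γ i)]
  H : ι
  K : ι
  I : ι
  U : ι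
  C : ι
  hHK : H ≠ K
  hHI : H ≠ I
  hHU : H ≠ U
  hHC : H ≠ C
  hKI : K ≠ I
  hKU : K ≠ U
  hKC : K ≠ C
  hIU : I ≠ U
  tick : Γ K
  zero : Γ K
  tick_ne : tick ≠ zero
  k_cases : ∀ b : Γ K, b = tick ∨ b = zero
  i0 : Γ I
  i1 : Γ I
  i_ne : i0 ≠ i1
  u : Γ U
  u_eq : ∀ b : Γ U, b = u
  start : Γ C

attribute [instance] Sig.fι Sig.dι Sig.fΓ Sig.dΓ

/-- Contents of all the stacks (top first). -/
abbrev Cfg (σ : Sig) : Type := ∀ i : σ.ι, List (σ.Γ i)

/-- The generators of the ring. -/
inductive Gen (σ : Sig) (n : ℕ) : Type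
  | a (p : Fin n × Bool)
  | push (i : σ.ι) (b : σ.Γ i)
  | pop (i : σ.ι) (b : σ.Γ i)
  | S
  | T
  | Z
  | Φ

/-- Basic stack operations. -/
inductive BOp (σ : Sig) : Type
  | push (i : σ.ι) (b : σ.Γ i)
  | pop (i : σ.ι) (b : σ.Γ i)
  | test (i : σ.ι)

/-- The possible actions of a branch on the clock stack. -/
inductive KOp (σ : Sig) : Type
  | tick
  | wind
  | cheat0
  | cheatK (b : σ.Γ σ.K)
  | poison

/-- A branch of a transition: an output letter, a clock action, and further operations. -/
structure Branch (σ : Sig) (n : ℕ) : Type where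
  m : Option (Gen σ n)
  kop : KOp σ
  ops : List (BOp σ)

variable {σ : Sig} {n : ℕ}

instance : Finite (Gen σ n) := by
  let f : (Fin n × Bool) ⊕ (Σ i, σ.Γ i) ⊕ (Σ i, σ.Γ i) ⊕ Fin 4 → Gen σ n := fun z =>
    match z with
    | .inl p => .a p
    | .inr (.inl ⟨i, b⟩) => .push i b
    | .inr (.inr (.inl ⟨i, b⟩)) => .pop i b
    | .inr (.inr (.inr j)) => if j = 0 then .S else if j = 1 then .T else if j = 2 then .Z else .Φ
  refine Finite.of_surjective f ?_
  intro y
  cases y with
  | a p => exact ⟨.inl p, rfl⟩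
  | push i b => exact ⟨.inr (.inl ⟨i, b⟩), rfl⟩
  | pop i b => exact ⟨.inr (.inr (.inl ⟨i, b⟩)), rfl⟩
  | S => exact ⟨.inr (.inr (.inr 0)), rfl⟩
  | T => exact ⟨.inr (.inr (.inr 1)), rfl⟩
  | Z => exact ⟨.inr (.inr (.inr 2)), rfl⟩
  | Φ => exact ⟨.inr (.inr (.inr 3)), rfl⟩

noncomputable instance : Fintype (Gen σ n) := Fintype.ofFinite _

noncomputable instance : DecidableEq (Gen σ n) := Classical.decEq _

/-- The weight of a generator: group letters are free. -/
def Gen.wt : Gen σ n → ℕ
  | .a _ => 0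
  | _ => 1

/-- The register a generator acts on, for group letters (`some none`) and stack letters. -/
def Gen.reg : Gen σ n → Option (Option σ.ι)
  | .a _ => some none
  | .push i _ => some (some i)
  | .pop i _ => some (some i)
  | _ => none

/-- The stack of a basic operation. -/
def BOp.stk : BOp σ → σ.ι
  | .push i _ => i
  | .pop i _ => i
  | .test i => i

/-- The action of a basic operation on configurations. -/
def BOp.act : BOp σ → Cfg σ → Option (Cfg σ)
  | .push i b, w => some (Function.update w i (b :: w i))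
  | .pop i b, w =>
      match w i with
      | [] => none
      | b' :: l => if b' = b then some (Function.update w i l) else none
  | .test i, w => if w i = [] then some w else none

/-- A list of basic operations, executed from left to right. -/
def opsAct : List (BOp σ) → Cfg σ → Option (Cfg σ)
  | [], w => some w
  | o :: os, w => (o.act w).bind (opsAct os)

/-- The clock action as a list of basic operations. -/
def KOp.ops : KOp σ → List (BOp σ)
  | .tick => [.pop σ.K σ.tick]
  | .wind => [.push σ.K σ.tick]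
  | .cheat0 => [.pop σ.K σ.zero, .push σ.K σ.zero]
  | .cheatK b => [.pop σ.K σ.zero, .pop σ.K b, .push σ.K σ.zero]
  | .poison => [.pop σ.K σ.zero, .test σ.K]

/-- All operations of a branch. -/
def Branch.all (b : Branch σ n) : List (BOp σ) := b.kop.ops ++ b.ops

/-- A machine: the branches of every history symbol, and a coding of the generators. -/
structure Mach (σ : Sig) (n : ℕ) where
  br : σ.Γ σ.H → List (Branch σ n)
  jc : Gen σ n → ℕ
  jc_inj : Function.Injective jc
  ops_ne : ∀ τ, ∀ b ∈ br τ, ∀ o ∈ b.ops, o.stk ≠ σ.H ∧ o.stk ≠ σ.K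
  wind_ops : ∀ τ, ∀ b ∈ br τ, b.kop = .wind → b.ops = [.pop σ.C σ.start, .push σ.C σ.start]
  idle : σ.Γ σ.H
  noop : σ.Γ σ.H
  poison : σ.Γ σ.H
  wind : σ.Γ σ.H
  cpop : ∀ i : σ.ι, i ≠ σ.H → i ≠ σ.K → σ.Γ i → σ.Γ σ.H
  cpopK : σ.Γ σ.K → σ.Γ σ.H
  br_idle : br idle = [⟨none, .tick, []⟩]
  br_noop : br noop = [⟨none, .cheat0, []⟩]
  br_poison : br poison = [⟨none, .poison, []⟩]
  br_wind : br wind = [⟨none, .wind, [.pop σ.C σ.start, .push σ.C σ.start]⟩]
  br_cpop : ∀ i h1 h2 b, br (cpop i h1 h2 b) = [⟨none, .cheat0, [.pop i b]⟩]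
  br_cpopK : ∀ b, br (cpopK b) = [⟨none, .cheatK b, []⟩]

/-- The instruction code of a generator. -/
def Mach.code (M : Mach σ n) (y : Gen σ n) : List (σ.Γ σ.I) :=
  List.replicate (M.jc y) σ.i1 ++ [σ.i0]

/-- A bound for the number of operations of a branch. -/
def Mach.Cb (M : Mach σ n) : ℕ :=
  Finset.univ.sup fun τ => ((M.br τ).map fun b => b.all.length).sum

/-- The empty configuration. -/
def Cfg.nil (σ : Sig) : Cfg σ := fun _ => []

/-- Stackwise concatenation. -/
def Cfg.app (β γ : Cfg σ) : Cfg σ := fun i => β i ++ γ i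

/-- Total number of symbols. -/
def Cfg.size (β : Cfg σ) : ℕ := ∑ i, (β i).length

/-- `Reach h w γ`: reading `h` from `w` some run ends in `γ`. -/
inductive Mach.Reach (M : Mach σ n) : List (σ.Γ σ.H) → Cfg σ → Cfg σ → Prop
  | nil (w : Cfg σ) : Mach.Reach M [] w w
  | cons (τ : σ.Γ σ.H) (h : List (σ.Γ σ.H)) (w w' γ : Cfg σ) (b : Branch σ n) :
      b ∈ M.br τ → opsAct b.all w = some w' → Mach.Reach M h w' γ → Mach.Reach M (τ :: h) w γ

section Ring

variable {R : Type} [Ring R] (x : Gen σ n → R)

/-- Projection on the configurations with empty stack `i`. -/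
def pE (i : σ.ι) : R := 1 - ∑ b : σ.Γ i, x (.push i b) * x (.pop i b)

/-- Push a word on a stack. -/
def tw (i : σ.ι) (l : List (σ.Γ i)) : R := (l.map fun b => x (.push i b)).prod

/-- Pop a word from a stack. -/
def sw (i : σ.ι) (l : List (σ.Γ i)) : R := (l.reverse.map fun b => x (.pop i b)).prod

/-- The operator of a basic operation. -/
def BOp.val : BOp σ → R
  | .push i b => x (.push i b)
  | .pop i b => x (.pop i b)
  | .test i => pE x i

/-- The operator of a list of operations (the first operation is applied first). -/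
def opsVal : List (BOp σ) → R
  | [] => 1
  | o :: os => opsVal os * o.val x

/-- The output letter of a branch. -/
def Branch.mv (b : Branch σ n) : R :=
  match b.m with
  | none => 1
  | some y => x y

/-- A word in the generators. -/
def word (w : List (Gen σ n)) : R := (w.map x).prod

/-- A word in the group letters. -/
def aw (w : List (Fin n × Bool)) : R := (w.map fun p => x (.a p)).prod

variable (M : Mach σ n)

/-- Sum over all runs reading `h` from `w` of (output word) times `f` (final configuration). -/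
def Ev : List (σ.Γ σ.H) → Cfg σ → (Cfg σ → R) → R
  | [], w, f => f w
  | τ :: h, w, f =>
      ((M.br τ).map fun b =>
        match opsAct b.all w with
        | none => 0
        | some w' => b.mv x * Ev h w' f).sum

/-- The indicator of one configuration. -/
def ind (R : Type) [Ring R] (γ : Cfg σ) : Cfg σ → R := fun γ' => if γ' = γ then 1 else 0

/-- The value of a history read from a work configuration. -/
def val (h : List (σ.Γ σ.H)) (w : Cfg σ) : R := Ev x M h w (ind R (Cfg.nil σ))

/-- The generator `y` acting one level down. -/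
def phg (y : Gen σ n) : R := x .Z * tw x σ.I (M.code y)

/-- The projection on the line of configurations supported on `U`. -/
def qq : R := phg x M .S * phg x M .T

/-- Indices of the finitely many defining relations. -/
inductive RelIdx (σ : Sig) (n : ℕ) : Type
  | cohn (i : σ.ι) (b b' : σ.Γ i)
  | comm (y y' : Gen σ n)
  | st
  | ts
  | ql (y : Gen σ n)
  | qr (y : Gen σ n)
  | qt (i : σ.ι) (b : σ.Γ i)
  | sq (i : σ.ι) (b : σ.Γ i)
  | ut (y : Gen σ n)
  | us (y : Gen σ n)
  | zdef
  | phT (y : Gen σ n)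
  | Sph (y : Gen σ n)
  | master
  | acc

/-- The right-hand side of the master relation. -/
def masterRhs : R :=
  x .S + ∑ τ : σ.Γ σ.H,
    ((M.br τ).map fun b => b.mv x * x .Φ * opsVal x b.all * x (.pop σ.H τ)).sum

/-- The finitely many defining relators. -/
noncomputable def relFin : RelIdx σ n → R
  | .cohn i b b' => x (.pop i b) * x (.push i b') - if b = b' then 1 else 0
  | .comm y y' =>
      if y.reg ≠ none ∧ y'.reg ≠ none ∧ y.reg ≠ y'.reg then x y * x y' - x y' * x y else 0
  | .st => x .S * x .T - 1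
  | .ts => x .T * x .S - qq x M * pE x σ.U
  | .ql y => qq x M * phg x M y - phg x M y
  | .qr y => phg x M y * qq x M - phg x M y
  | .qt i b => if i ≠ σ.U then qq x M * x (.push i b) else 0
  | .sq i b => if i ≠ σ.U then x (.pop i b) * qq x M else 0
  | .ut y => phg x M y * x (.push σ.U σ.u) - x (.push σ.U σ.u) * phg x M y
  | .us y => phg x M y * x (.pop σ.U σ.u) - x (.pop σ.U σ.u) * phg x M y
  | .zdef => x .Z - ∑ y : Gen σ n, phg x M y * sw x σ.I (M.code y)
  | .phT y => phg x M y * x .T - x .T * x y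
  | .Sph y => x .S * phg x M y - x y * x .S
  | .master => x .Φ - masterRhs x M
  | .acc => x .Φ * pE x σ.K * x (.push σ.C σ.start) * x (.pop σ.C σ.start)

open Classical in
/-- The infinite family of relators describing the group. -/
noncomputable def relG {G : Type} [Group G] (s : Fin n → G) (w : List (Fin n × Bool)) : R :=
  if wordVal s w = 1 then aw x w - 1 else qq x M * aw x w * qq x M

end Ring

instance : Finite (RelIdx σ n) := by
  let f : (Σ i, σ.Γ i × σ.Γ i) ⊕ (Gen σ n × Gen σ n) ⊕ (Fin 6 × Gen σ n) ⊕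
      (Bool × Σ i, σ.Γ i) ⊕ Fin 5 → RelIdx σ n := fun z =>
    match z with
    | .inl ⟨i, b, b'⟩ => .cohn i b b'
    | .inr (.inl (y, y')) => .comm y y'
    | .inr (.inr (.inl (j, y))) =>
        if j = 0 then .ql y else if j = 1 then .qr y else if j = 2 then .ut y
        else if j = 3 then .us y else if j = 4 then .phT y else .Sph y
    | .inr (.inr (.inr (.inl (c, ⟨i, b⟩)))) => if c then .qt i b else .sq i b
    | .inr (.inr (.inr (.inr j))) =>
        if j = 0 then .st else if j = 1 then .ts else if j = 2 then .zdef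
        else if j = 3 then .master else .acc
  refine Finite.of_surjective f ?_
  intro r
  cases r with
  | cohn i b b' => exact ⟨.inl ⟨i, b, b'⟩, rfl⟩
  | comm y y' => exact ⟨.inr (.inl (y, y')), rfl⟩
  | st => exact ⟨.inr (.inr (.inr (.inr 0))), rfl⟩
  | ts => exact ⟨.inr (.inr (.inr (.inr 1))), rfl⟩
  | ql y => exact ⟨.inr (.inr (.inl (0, y))), rfl⟩
  | qr y => exact ⟨.inr (.inr (.inl (1, y))), rfl⟩
  | qt i b => exact ⟨.inr (.inr (.inr (.inl (true, ⟨i, b⟩)))), rfl⟩
  | sq i b => exact ⟨.inr (.inr (.inr (.inl (false, ⟨i, b⟩)))), rfl⟩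
  | ut y => exact ⟨.inr (.inr (.inl (2, y))), rfl⟩
  | us y => exact ⟨.inr (.inr (.inl (3, y))), rfl⟩
  | zdef => exact ⟨.inr (.inr (.inr (.inr 2))), rfl⟩
  | phT y => exact ⟨.inr (.inr (.inl (4, y))), rfl⟩
  | Sph y => exact ⟨.inr (.inr (.inl (5, y))), rfl⟩
  | master => exact ⟨.inr (.inr (.inr (.inr 3))), rfl⟩
  | acc => exact ⟨.inr (.inr (.inr (.inr 4))), rfl⟩

/-- The free algebra on the generators. -/
abbrev FA (σ : Sig) (n : ℕ) : Type := FreeAlgebra (ZMod 2) (Gen σ n)

/-- The generators of the free algebra. -/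
def fx (σ : Sig) (n : ℕ) : Gen σ n → FA σ n := FreeAlgebra.ι (ZMod 2)

/-- The substitution `y ↦ phg y`. -/
noncomputable def psiP (M : Mach σ n) : FA σ n →ₐ[ZMod 2] FA σ n :=
  FreeAlgebra.lift (ZMod 2) (phg (fx σ n) M)

/-- Pushing a polynomial one level down. -/
noncomputable def phiP (M : Mach σ n) (b : FA σ n) : FA σ n := qq (fx σ n) M * psiP M b

section Fam

variable {G : Type} [Group G] (M : Mach σ n) (s : Fin n → G)

/-- The base relators. -/
def IsBase (b : FA σ n) : Prop :=
  (∃ r, b = relFin (fx σ n) M r) ∨ ∃ w, b = relG (fx σ n) M s w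

/-- All relators. -/
def Fam : Set (FA σ n) := {c | ∃ j b, IsBase M s b ∧ c = (phiP M)^[j] b}

/-- Accepting work configurations. -/
def IsAcc (w : Cfg σ) : Prop := w σ.H = [] ∧ w σ.K = [] ∧ ∃ l, w σ.C = σ.start :: l

/-- The machine only accepts relators of positive level. -/
def Sound : Prop :=
  ∀ h w, IsAcc w → val (fx σ n) M h w = 0 ∨
    ∃ j b, IsBase M s b ∧ val (fx σ n) M h w = (phiP M)^[j + 1] b

/-- The machine accepts all relators of positive level. -/
def Complete : Prop :=
  ∀ j b, IsBase M s b → ∃ h w, IsAcc w ∧ val (fx σ n) M h w = (phiP M)^[j + 1] b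

end Fam

/-- A ring of characteristic two satisfying the finitely many relations. -/
structure Sys0 (M : Mach σ n) (R : Type) [Ring R] where
  x : Gen σ n → R
  two : ∀ r : R, r + r = 0
  rel : ∀ r, relFin x M r = 0

/-- A ring satisfying all the relations. -/
structure Sys (M : Mach σ n) {G : Type} [Group G] (s : Fin n → G) (R : Type) [Ring R]
    extends Sys0 M R where
  g : G →* R
  φ : R →ₙ+* R
  g_a : ∀ p : Fin n × Bool, g (if p.2 then s p.1 else (s p.1)⁻¹) = x (.a p)
  g_gen : Subgroup.closure (Set.range s) = ⊤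
  qgq : ∀ γ : G, γ ≠ 1 → qq x M * g γ * qq x M = 0
  φ_x : ∀ y, φ (x y) = phg x M y
  φ_one : φ 1 = qq x M
  gen : ∀ r : R, r ∈ AddSubmonoid.closure (Set.range (word x))

end Vale.Agent.P193
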