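import Vale.Agent.P193.RingCfg

/-!
P193, part C1b: the calculus of stack operators.
-/

namespace Vale.Agent.P193

variable {σ : Sig} {n : ℕ}

namespace Sys0

variable {M : Mach σ n} {R : Type} [Ring R] (A : Sys0 M R)

include A in
theorem neg_eq (r : R) : -r = r := neg_eq_of_add_eq_zero_left (A.two r)

include A in
theorem sub_eq (r r' : R) : r - r' = r + r' := by rw [sub_eq_add_neg, A.neg_eq]

include A in
theorem eq_of_add_eq_zero {r r' : R} (h : r + r' = 0) : r = r' := by
  rw [← A.neg_eq r']; exact eq_neg_of_add_eq_zero_left h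

theorem pop_push (i : σ.ι) (b b' : σ.Γ i) :
    A.x (.pop i b) * A.x (.push i b') = if b = b' then 1 else 0 :=
  sub_eq_zero.1 (A.rel (.cohn i b b'))

theorem commute_of_reg (y y' : Gen σ n) (h : y.reg ≠ none) (h' : y'.reg ≠ none)
    (hne : y.reg ≠ y'.reg) : Commute (A.x y) (A.x y') := by
  have := A.rel (.comm y y')
  simp only [relFin, if_pos (And.intro h (And.intro h' hne))] at this
  exact sub_eq_zero.1 this

/-- `r` commutes with all operators of stack `i`. -/
def CS (r : R) (i : σ.ι) : Prop :=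
  ∀ b : σ.Γ i, Commute r (A.x (.push i b)) ∧ Commute r (A.x (.pop i b))

theorem CS.tw {A : Sys0 M R} {r : R} {i : σ.ι} (h : A.CS r i) (l : List (σ.Γ i)) :
    Commute r (tw A.x i l) := by
  refine Commute.list_prod_right _ _ fun y hy => ?_
  obtain ⟨b, _, rfl⟩ := List.mem_map.mp hy
  exact (h b).1

theorem CS.sw {A : Sys0 M R} {r : R} {i : σ.ι} (h : A.CS r i) (l : List (σ.Γ i)) :
    Commute r (sw A.x i l) := by
  refine Commute.list_prod_right _ _ fun y hy => ?_
  obtain ⟨b, _, rfl⟩ := List.mem_map.mp hy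
  exact (h b).2

theorem CS.pE {A : Sys0 M R} {r : R} {i : σ.ι} (h : A.CS r i) : Commute r (pE A.x i) := by
  exact (Commute.one_right r).sub_right
    (Commute.sum_right _ _ _ fun b _ => (h b).1.mul_right (h b).2)

theorem CS.mul {A : Sys0 M R} {r r' : R} {i : σ.ι} (h : A.CS r i) (h' : A.CS r' i) :
    A.CS (r * r') i := by
  exact fun b => ⟨(h b).1.mul_left (h' b).1, (h b).2.mul_left (h' b).2⟩

theorem CS_one (i : σ.ι) : A.CS 1 i := by
  exact fun _ => ⟨Commute.one_left _, Commute.one_left _⟩

theorem CS_push {i j : σ.ι} (h : i ≠ j) (b : σ.Γ i) : A.CS (A.x (.push i b)) j := by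
  exact fun _ => ⟨A.commute_of_reg _ _ (by simp [Gen.reg]) (by simp [Gen.reg])
    (by simpa [Gen.reg] using h), A.commute_of_reg _ _ (by simp [Gen.reg]) (by simp [Gen.reg])
    (by simpa [Gen.reg] using h)⟩

theorem CS_pop {i j : σ.ι} (h : i ≠ j) (b : σ.Γ i) : A.CS (A.x (.pop i b)) j := by
  exact fun _ => ⟨A.commute_of_reg _ _ (by simp [Gen.reg]) (by simp [Gen.reg])
    (by simpa [Gen.reg] using h), A.commute_of_reg _ _ (by simp [Gen.reg]) (by simp [Gen.reg])
    (by simpa [Gen.reg] using h)⟩

theorem CS_tw {i j : σ.ι} (h : i ≠ j) (l : List (σ.Γ i)) : A.CS (tw A.x i l) j := by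
  exact fun b => ⟨((A.CS_push h.symm b).tw l).symm, ((A.CS_pop h.symm b).tw l).symm⟩

theorem CS_sw {i j : σ.ι} (h : i ≠ j) (l : List (σ.Γ i)) : A.CS (sw A.x i l) j := by
  exact fun b => ⟨((A.CS_push h.symm b).sw l).symm, ((A.CS_pop h.symm b).sw l).symm⟩

theorem CS_pE {i j : σ.ι} (h : i ≠ j) : A.CS (pE A.x i) j := by
  exact fun b => ⟨(A.CS_push h.symm b).pE.symm, (A.CS_pop h.symm b).pE.symm⟩

theorem CS_opsVal {os : List (BOp σ)} {j : σ.ι} (h : ∀ o ∈ os, o.stk ≠ j) :
    A.CS (opsVal A.x os) j := by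
  induction os with
  | nil => exact A.CS_one j
  | cons o os ih =>
    refine (ih fun o' ho' => h o' (List.mem_cons_of_mem _ ho')).mul ?_
    have ho := h o List.mem_cons_self
    cases o with
    | push i b => exact A.CS_push ho b
    | pop i b => exact A.CS_pop ho b
    | test i => exact A.CS_pE ho

theorem CS_a (p : Fin n × Bool) (j : σ.ι) : A.CS (A.x (.a p)) j := by
  exact fun _ => ⟨A.commute_of_reg _ _ (by simp [Gen.reg]) (by simp [Gen.reg])
    (by simp [Gen.reg]), A.commute_of_reg _ _ (by simp [Gen.reg]) (by simp [Gen.reg])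
    (by simp [Gen.reg])⟩

/-- Push a whole configuration. -/
def tB (β : Cfg σ) : R :=
  Finset.univ.noncommProd (fun i => tw A.x i (β i)) fun _ _ _ _ h => (A.CS_tw h _).tw _

/-- Pop a whole configuration. -/
def sB (β : Cfg σ) : R :=
  Finset.univ.noncommProd (fun i => sw A.x i (β i)) fun _ _ _ _ h => (A.CS_sw h _).sw _

/-- Projection on the configurations whose stacks in `D` are empty. -/
def pD (D : Finset σ.ι) : R := D.noncommProd (fun i => pE A.x i) fun _ _ _ _ h => (A.CS_pE h).pE

theorem update_of_nil {β : Cfg σ} {i : σ.ι} (h : β i = []) : Function.update β i [] = β := by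
  rw [← h, Function.update_eq_self]

theorem app_cons (β γ : Cfg σ) (i : σ.ι) (b : σ.Γ i) :
    Cfg.app (Function.update β i (b :: β i)) γ =
      Function.update (β.app γ) i (b :: β.app γ i) := by
  funext j
  by_cases hj : j = i
  · subst hj
    simp [Cfg.app]
  · simp [Cfg.app, hj]

theorem pure_eq {w : Cfg σ} (hp : w.Pure) : w σ.K = List.replicate (w σ.K).length σ.tick :=
  List.eq_replicate_iff.mpr ⟨rfl, fun b hb => (σ.k_cases b).resolve_right fun e => hp (e ▸ hb)⟩

theorem tB_split' (β : Cfg σ) (i : σ.ι) :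
    A.tB β = tw A.x i (β i) * A.tB (Function.update β i []) := by
  have h1 := Finset.mul_noncommProd_erase Finset.univ (Finset.mem_univ i)
    (fun j => tw A.x j (β j)) fun _ _ _ _ h => (A.CS_tw h _).tw _
  have h2 := Finset.mul_noncommProd_erase Finset.univ (Finset.mem_univ i)
    (fun j => tw A.x j (Function.update β i [] j)) fun _ _ _ _ h => (A.CS_tw h _).tw _
  refine h1.symm.trans (congrArg _ (Eq.trans ?_ h2))
  rw [Function.update_self, tw_nil, one_mul]
  refine Finset.noncommProd_congr rfl (fun j hj => ?_) _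
  rw [Function.update_of_ne (Finset.mem_erase.mp hj).1]

theorem sB_split' (β : Cfg σ) (i : σ.ι) :
    A.sB β = A.sB (Function.update β i []) * sw A.x i (β i) := by
  have h1 := Finset.noncommProd_erase_mul Finset.univ (Finset.mem_univ i)
    (fun j => sw A.x j (β j)) fun _ _ _ _ h => (A.CS_sw h _).sw _
  have h2 := Finset.noncommProd_erase_mul Finset.univ (Finset.mem_univ i)
    (fun j => sw A.x j (Function.update β i [] j)) fun _ _ _ _ h => (A.CS_sw h _).sw _
  refine h1.symm.trans (congrArg (· * sw A.x i (β i)) (Eq.trans ?_ h2))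
  rw [Function.update_self, sw_nil, mul_one]
  refine Finset.noncommProd_congr rfl (fun j hj => ?_) _
  rw [Function.update_of_ne (Finset.mem_erase.mp hj).1]

theorem tB_of_cons {β : Cfg σ} {i : σ.ι} {b : σ.Γ i} {l : List (σ.Γ i)} (h : β i = b :: l) :
    A.tB β = A.x (.push i b) * A.tB (Function.update β i l) := by
  rw [A.tB_split' β i, A.tB_split' (Function.update β i l) i, Function.update_self,
    Function.update_idem, h, tw_cons, mul_assoc]

theorem sB_of_cons {β : Cfg σ} {i : σ.ι} {b : σ.Γ i} {l : List (σ.Γ i)} (h : β i = b :: l) :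
    A.sB β = A.sB (Function.update β i l) * A.x (.pop i b) := by
  rw [A.sB_split' β i, A.sB_split' (Function.update β i l) i, Function.update_self,
    Function.update_idem, h, sw_cons, mul_assoc]

theorem sw_tw_of_not (i : σ.ι) (l l' : List (σ.Γ i)) (h : ¬ (l <+: l' ∨ l' <+: l)) :
    sw A.x i l * tw A.x i l' = 0 := by
  induction l generalizing l' with
  | nil => exact absurd (Or.inl List.nil_prefix) h
  | cons b l ih =>
    cases l' with
    | nil => exact absurd (Or.inr List.nil_prefix) h
    | cons b' l' =>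
      rw [sw_cons, tw_cons, mul_assoc, ← mul_assoc (A.x (.pop i b)), A.pop_push]
      split_ifs with hb
      · subst hb
        rw [one_mul]
        exact ih l' (by simpa [List.cons_prefix_cons] using h)
      · rw [zero_mul, mul_zero]

theorem pE_push (i : σ.ι) (b : σ.Γ i) : pE A.x i * A.x (.push i b) = 0 := by
  simp only [pE, sub_mul, one_mul, Finset.sum_mul, mul_assoc, A.pop_push, mul_ite, mul_one,
    mul_zero, Finset.sum_ite_eq', Finset.mem_univ, if_true, sub_self]

theorem pop_pE (i : σ.ι) (b : σ.Γ i) : A.x (.pop i b) * pE A.x i = 0 := by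
  simp only [pE, mul_sub, mul_one, Finset.mul_sum, ← mul_assoc, A.pop_push, ite_mul, one_mul,
    zero_mul, Finset.sum_ite_eq, Finset.mem_univ, if_true, sub_self]

theorem pE_pE (i : σ.ι) : pE A.x i * pE A.x i = pE A.x i := by
  nth_rewrite 2 [pE]
  simp only [mul_sub, mul_one, Finset.mul_sum, ← mul_assoc, A.pE_push, zero_mul,
    Finset.sum_const_zero, sub_zero]

theorem one_eq (i : σ.ι) :
    (1 : R) = pE A.x i + ∑ b : σ.Γ i, A.x (.push i b) * A.x (.pop i b) := by
  simp [pE]

theorem sw_tw (i : σ.ι) (l : List (σ.Γ i)) : sw A.x i l * tw A.x i l = 1 := by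
  induction l with
  | nil => simp [sw_nil, tw_nil]
  | cons b l ih =>
    rw [sw_cons, tw_cons, mul_assoc, ← mul_assoc (A.x (.pop i b)), A.pop_push, if_pos rfl, one_mul,
      ih]

theorem tB_nil : A.tB (Cfg.nil σ) = 1 := by
  exact (Finset.noncommProd_eq_pow_card _ _ _ 1 fun _ _ => rfl).trans (one_pow _)

theorem sB_nil : A.sB (Cfg.nil σ) = 1 := by
  exact (Finset.noncommProd_eq_pow_card _ _ _ 1 fun _ _ => rfl).trans (one_pow _)

theorem tB_cons (β : Cfg σ) (i : σ.ι) (b : σ.Γ i) :
    A.tB (Function.update β i (b :: β i)) = A.x (.push i b) * A.tB β := by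
  rw [A.tB_split' _ i, A.tB_split' β i, Function.update_self, Function.update_idem, tw_cons,
    mul_assoc]

theorem sB_cons (β : Cfg σ) (i : σ.ι) (b : σ.Γ i) :
    A.sB (Function.update β i (b :: β i)) = A.sB β * A.x (.pop i b) := by
  rw [A.sB_split' _ i, A.sB_split' β i, Function.update_self, Function.update_idem, sw_cons,
    mul_assoc]

theorem tB_app (β γ : Cfg σ) : A.tB (β.app γ) = A.tB β * A.tB γ := by
  induction β using Cfg.induction with
  | h0 => rw [A.tB_nil, one_mul]; rfl
  | h1 β i b ih => rw [app_cons, A.tB_cons, A.tB_cons, ih, mul_assoc]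

theorem sB_app (β γ : Cfg σ) : A.sB (β.app γ) = A.sB γ * A.sB β := by
  induction β using Cfg.induction with
  | h0 => rw [A.sB_nil, mul_one]; rfl
  | h1 β i b ih => rw [app_cons, A.sB_cons, A.sB_cons, ih, mul_assoc]

theorem tB_single (i : σ.ι) (l : List (σ.Γ i)) : A.tB (Cfg.single i l) = tw A.x i l := by
  rw [A.tB_split' _ i, Cfg.single, Function.update_self, Function.update_idem,
    update_of_nil (β := Cfg.nil σ) rfl, A.tB_nil, mul_one]

theorem sB_single (i : σ.ι) (l : List (σ.Γ i)) : A.sB (Cfg.single i l) = sw A.x i l := by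
  rw [A.sB_split' _ i, Cfg.single, Function.update_self, Function.update_idem,
    update_of_nil (β := Cfg.nil σ) rfl, A.sB_nil, one_mul]

theorem tB_split (β : Cfg σ) (i : σ.ι) :
    A.tB β = tw A.x i (β i) * A.tB (Function.update β i []) := by
  exact A.tB_split' β i

theorem sB_split (β : Cfg σ) (i : σ.ι) :
    A.sB β = A.sB (Function.update β i []) * sw A.x i (β i) := by
  exact A.sB_split' β i

theorem commute_tB {r : R} {β : Cfg σ} (h : ∀ i, β i ≠ [] → A.CS r i) : Commute r (A.tB β) := by
  refine Finset.noncommProd_commute _ _ _ _ fun i _ => ?_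
  by_cases hi : β i = []
  · rw [hi]
    exact Commute.one_right r
  · exact (h i hi).tw _

theorem commute_sB {r : R} {β : Cfg σ} (h : ∀ i, β i ≠ [] → A.CS r i) : Commute r (A.sB β) := by
  refine Finset.noncommProd_commute _ _ _ _ fun i _ => ?_
  by_cases hi : β i = []
  · rw [hi]
    exact Commute.one_right r
  · exact (h i hi).sw _

theorem commute_pD {r : R} {D : Finset σ.ι} (h : ∀ i ∈ D, A.CS r i) : Commute r (A.pD D) := by
  exact Finset.noncommProd_commute _ _ _ _ fun i hi => (h i hi).pE

theorem CS_tB {β : Cfg σ} {i : σ.ι} (h : β i = []) : A.CS (A.tB β) i := by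
  exact fun b => ⟨(A.commute_tB fun _ hj => A.CS_push (fun e => hj (e ▸ h)) b).symm,
    (A.commute_tB fun _ hj => A.CS_pop (fun e => hj (e ▸ h)) b).symm⟩

theorem CS_sB {β : Cfg σ} {i : σ.ι} (h : β i = []) : A.CS (A.sB β) i := by
  exact fun b => ⟨(A.commute_sB fun _ hj => A.CS_push (fun e => hj (e ▸ h)) b).symm,
    (A.commute_sB fun _ hj => A.CS_pop (fun e => hj (e ▸ h)) b).symm⟩

theorem CS_pD {D : Finset σ.ι} {i : σ.ι} (h : i ∉ D) : A.CS (A.pD D) i := by
  exact fun b => ⟨(A.commute_pD fun _ hj => A.CS_push (fun e => h (by rw [e]; exact hj)) b).symm,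
    (A.commute_pD fun _ hj => A.CS_pop (fun e => h (by rw [e]; exact hj)) b).symm⟩

theorem sB_tB_self (β : Cfg σ) : A.sB β * A.tB β = 1 := by
  induction β using Cfg.induction with
  | h0 => rw [A.sB_nil, A.tB_nil, one_mul]
  | h1 β i b ih =>
    rw [A.sB_cons, A.tB_cons, mul_assoc, ← mul_assoc (A.x (.pop i b)), A.pop_push, if_pos rfl,
      one_mul, ih]

theorem sB_tB_of_compat {α β : Cfg σ} (h : α.Compat β) :
    A.sB α * A.tB β = A.tB (β.sub α) * A.sB (α.sub β) := by
  induction α using Cfg.induction generalizing β with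
  | h0 =>
    have h1 : β.sub (Cfg.nil σ) = β := rfl
    have h2 : (Cfg.nil σ).sub β = Cfg.nil σ := funext fun _ => List.drop_nil
    rw [h1, h2, A.sB_nil, one_mul, mul_one]
  | h1 α i b ih =>
    have hi := h i
    rw [Function.update_self] at hi
    cases hβ : β i with
    | nil =>
      have hc : α.Compat β := by
        intro j
        by_cases hj : j = i
        · subst hj
          exact Or.inr (hβ ▸ List.nil_prefix)
        · simpa [hj] using h j
      have h1 : β.sub (Function.update α i (b :: α i)) = β.sub α := by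
        funext j
        by_cases hj : j = i
        · subst hj
          simp [Cfg.sub, hβ]
        · simp [Cfg.sub, hj]
      have h2 : Cfg.sub (Function.update α i (b :: α i)) β =
          Function.update (α.sub β) i (b :: α.sub β i) := by
        funext j
        by_cases hj : j = i
        · subst hj
          simp [Cfg.sub, hβ]
        · simp [Cfg.sub, hj]
      rw [h1, h2, A.sB_cons, A.sB_cons, mul_assoc, ← (A.CS_tB hβ b).2.eq, ← mul_assoc, ih hc,
        mul_assoc]
    | cons b' l =>
      rw [hβ, List.cons_prefix_cons, List.cons_prefix_cons] at hi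
      have hb : b = b' := hi.elim (fun h => h.1) fun h => h.1.symm
      subst hb
      have hc : α.Compat (Function.update β i l) := by
        intro j
        by_cases hj : j = i
        · subst hj
          simpa using hi.imp (fun h => h.2) fun h => h.2
        · simpa [hj] using h j
      have h1 : β.sub (Function.update α i (b :: α i)) = Cfg.sub (Function.update β i l) α := by
        funext j
        by_cases hj : j = i
        · subst hj
          simp [Cfg.sub, hβ]
        · simp [Cfg.sub, hj]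
      have h2 : Cfg.sub (Function.update α i (b :: α i)) β = α.sub (Function.update β i l) := by
        funext j
        by_cases hj : j = i
        · subst hj
          simp [Cfg.sub, hβ]
        · simp [Cfg.sub, hj]
      rw [h1, h2, A.sB_cons, A.tB_of_cons hβ, mul_assoc, ← mul_assoc (A.x (.pop i b)), A.pop_push,
        if_pos rfl, one_mul, ih hc]

theorem sB_tB_of_not_compat {α β : Cfg σ} (h : ¬ α.Compat β) : A.sB α * A.tB β = 0 := by
  obtain ⟨i, hi⟩ := not_forall.mp h
  rw [A.sB_split α i, A.tB_split β i, mul_assoc, ← mul_assoc (sw A.x i (α i)),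
    A.sw_tw_of_not i _ _ hi, zero_mul, mul_zero]

theorem sB_tB_of_pre {α β : Cfg σ} (h : α.Pre β) : A.sB α * A.tB β = A.tB (β.sub α) := by
  have h1 : α.sub β = Cfg.nil σ := funext fun i => List.drop_eq_nil_of_le (h i).length_le
  rw [A.sB_tB_of_compat fun i => Or.inl (h i), h1, A.sB_nil, mul_one]

theorem tB_mem_Fle (β : Cfg σ) : A.tB β ∈ Fle A.x β.size := by
  induction β using Cfg.induction with
  | h0 =>
    rw [A.tB_nil]
    exact one_mem_Fle _ _
  | h1 β i b ih =>
    rw [A.tB_cons, Cfg.size_cons, add_comm]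
    exact Fle_mul _ (x_mem_Fle_one _ _) ih

theorem pD_empty : A.pD ∅ = 1 := by
  exact Finset.noncommProd_empty _ _

theorem pD_insert {D : Finset σ.ι} {i : σ.ι} (h : i ∉ D) :
    A.pD (insert i D) = pE A.x i * A.pD D := by
  exact Finset.noncommProd_insert_of_notMem _ _ _ _ h

theorem pE_pD {D : Finset σ.ι} {i : σ.ι} (h : i ∈ D) : pE A.x i * A.pD D = A.pD D := by
  rw [← Finset.insert_erase h, A.pD_insert (Finset.notMem_erase i D), ← mul_assoc, A.pE_pE]

theorem pop_pD {D : Finset σ.ι} {i : σ.ι} (h : i ∈ D) (b : σ.Γ i) :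
    A.x (.pop i b) * A.pD D = 0 := by
  rw [← A.pE_pD h, ← mul_assoc, A.pop_pE, zero_mul]

/-- Popping `α` from a pattern that is either exact or deep enough. -/
theorem sB_tB_pD_of_not_pre {α β : Cfg σ} {D : Finset σ.ι}
    (hl : ∀ i, i ∉ D → (α i).length ≤ (β i).length) (h : ¬ α.Pre β) :
    A.sB α * A.tB β * A.pD D = 0 := by
  by_cases hc : α.Compat β
  · obtain ⟨i, hi⟩ := not_forall.mp h
    have h1 : β i <+: α i := (hc i).resolve_left hi
    have h2 : (β i).length < (α i).length :=
      lt_of_le_of_ne h1.length_le fun e => hi (h1.eq_of_length e ▸ List.prefix_refl _)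
    have hD : i ∈ D := by
      by_contra hD
      have := hl i hD
      omega
    obtain ⟨b, l, hb⟩ := List.exists_cons_of_ne_nil (l := α.sub β i) (by
      simp only [Cfg.sub, ne_eq, List.drop_eq_nil_iff]
      omega)
    rw [A.sB_tB_of_compat hc, A.sB_of_cons hb, mul_assoc, mul_assoc, A.pop_pD hD, mul_zero,
      mul_zero]
  · rw [A.sB_tB_of_not_compat hc, zero_mul]

/-- Refinement of one stack to depth `m`. -/
theorem eq_zero_of_refine (r : R) (i : σ.ι) (m : ℕ)
    (h1 : ∀ l : List (σ.Γ i), l.length < m → r * tw A.x i l * pE A.x i = 0)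
    (h2 : ∀ l : List (σ.Γ i), l.length = m → r * tw A.x i l = 0) : r = 0 := by
  induction m generalizing r with
  | zero => simpa [tw_nil] using h2 [] rfl
  | succ m ih =>
    have h3 : r * pE A.x i = 0 := by simpa [tw_nil] using h1 [] (Nat.succ_pos m)
    have h4 : ∀ b, r * A.x (.push i b) = 0 := fun b => ih _
      (fun l hl => by rw [mul_assoc r, ← tw_cons]; exact h1 _ (by simpa using hl))
      (fun l hl => by rw [mul_assoc r, ← tw_cons]; exact h2 _ (by simpa using hl))
    rw [← mul_one r, A.one_eq i, mul_add, h3, Finset.mul_sum]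
    simp only [← mul_assoc, h4, zero_mul, Finset.sum_const_zero, add_zero]

/-- Refinement of all the stacks in `E` to depth `m`. -/
theorem eq_zero_of_refine_all (r : R) (E : Finset σ.ι) (m : ℕ)
    (h : ∀ (π : Cfg σ) (D : Finset σ.ι), D ⊆ E → (∀ i, i ∉ E → π i = []) →
      (∀ i ∈ D, (π i).length < m) → (∀ i ∈ E, i ∉ D → (π i).length = m) →
      r * A.tB π * A.pD D = 0) : r = 0 := by
  induction E using Finset.induction_on generalizing r with
  | empty =>
    have := h (Cfg.nil σ) ∅ (Finset.Subset.refl _) (fun _ _ => rfl) (by simp) (by simp)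
    rwa [A.tB_nil, A.pD_empty, mul_one, mul_one] at this
  | insert i E hi ih =>
    have key : ∀ (π : Cfg σ) (l : List (σ.Γ i)), π i = [] →
        A.tB (Function.update π i l) = tw A.x i l * A.tB π := by
      intro π l hπ
      rw [A.tB_split _ i, Function.update_self, Function.update_idem, update_of_nil hπ]
    refine A.eq_zero_of_refine r i m (fun l hl => ih _ fun π D hD h1 h2 h3 => ?_)
      (fun l hl => ih _ fun π D hD h1 h2 h3 => ?_)
    · have hiD : i ∉ D := fun e => hi (hD e)
      have := h (Function.update π i l) (insert i D) (Finset.insert_subset_insert _ hD) ?_ ?_ ?_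
      · rw [key π l (h1 i hi), A.pD_insert hiD] at this
        rw [mul_assoc _ (pE A.x i), ← (A.CS_tB (h1 i hi)).pE.eq]
        simpa only [mul_assoc] using this
      · intro j hj
        rw [Finset.mem_insert, not_or] at hj
        rw [Function.update_of_ne hj.1]
        exact h1 j hj.2
      · intro j hj
        by_cases hji : j = i
        · subst hji
          simpa using hl
        · rw [Function.update_of_ne hji]
          exact h2 j ((Finset.mem_insert.mp hj).resolve_left hji)
      · intro j hj hj'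
        rw [Finset.mem_insert, not_or] at hj'
        rw [Function.update_of_ne hj'.1]
        exact h3 j ((Finset.mem_insert.mp hj).resolve_left hj'.1) hj'.2
    · have := h (Function.update π i l) D (hD.trans (Finset.subset_insert _ _)) ?_ ?_ ?_
      · rw [key π l (h1 i hi)] at this
        simpa only [mul_assoc] using this
      · intro j hj
        rw [Finset.mem_insert, not_or] at hj
        rw [Function.update_of_ne hj.1]
        exact h1 j hj.2
      · intro j hj
        have hji : j ≠ i := fun e => hi (hD (e ▸ hj))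
        rw [Function.update_of_ne hji]
        exact h2 j hj
      · intro j hj hj'
        by_cases hji : j = i
        · subst hji
          simpa using hl
        · rw [Function.update_of_ne hji]
          exact h3 j ((Finset.mem_insert.mp hj).resolve_left hji) hj'

theorem S_T : A.x .S * A.x .T = 1 := sub_eq_zero.1 (A.rel .st)

theorem T_S : A.x .T * A.x .S = qq A.x M * pE A.x σ.U := sub_eq_zero.1 (A.rel .ts)

theorem q_phg (y : Gen σ n) : qq A.x M * phg A.x M y = phg A.x M y := sub_eq_zero.1 (A.rel (.ql y))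

theorem phg_q (y : Gen σ n) : phg A.x M y * qq A.x M = phg A.x M y := sub_eq_zero.1 (A.rel (.qr y))

theorem phg_T (y : Gen σ n) : phg A.x M y * A.x .T = A.x .T * A.x y :=
  sub_eq_zero.1 (A.rel (.phT y))

theorem S_phg (y : Gen σ n) : A.x .S * phg A.x M y = A.x y * A.x .S :=
  sub_eq_zero.1 (A.rel (.Sph y))

theorem Z_eq : A.x .Z = ∑ y : Gen σ n, phg A.x M y * sw A.x σ.I (M.code y) :=
  sub_eq_zero.1 (A.rel .zdef)

theorem q_q : qq A.x M * qq A.x M = qq A.x M := by
  nth_rewrite 2 [qq]
  rw [← mul_assoc, A.q_phg]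
  rfl

theorem q_push {i : σ.ι} (h : i ≠ σ.U) (b : σ.Γ i) : qq A.x M * A.x (.push i b) = 0 := by
  have := A.rel (.qt i b)
  simpa only [relFin, if_pos h] using this

theorem pop_q {i : σ.ι} (h : i ≠ σ.U) (b : σ.Γ i) : A.x (.pop i b) * qq A.x M = 0 := by
  have := A.rel (.sq i b)
  simpa only [relFin, if_pos h] using this

theorem CS_phg (y : Gen σ n) : A.CS (phg A.x M y) σ.U := by
  intro b
  rw [σ.u_eq b]
  exact ⟨sub_eq_zero.1 (A.rel (.ut y)), sub_eq_zero.1 (A.rel (.us y))⟩

theorem CS_q : A.CS (qq A.x M) σ.U := by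
  exact (A.CS_phg _).mul (A.CS_phg _)

theorem pE_q {i : σ.ι} (h : i ≠ σ.U) : pE A.x i * qq A.x M = qq A.x M := by
  simp only [pE, sub_mul, one_mul, Finset.sum_mul, mul_assoc, A.pop_q h, mul_zero,
    Finset.sum_const_zero, sub_zero]

theorem q_pE {i : σ.ι} (h : i ≠ σ.U) : qq A.x M * pE A.x i = qq A.x M := by
  simp only [pE, mul_sub, mul_one, Finset.mul_sum, ← mul_assoc, A.q_push h, zero_mul,
    Finset.sum_const_zero, sub_zero]

theorem pD_q {D : Finset σ.ι} (h : σ.U ∉ D) : A.pD D * qq A.x M = qq A.x M := by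
  induction D using Finset.induction_on with
  | empty => rw [A.pD_empty, one_mul]
  | insert i D hi ih =>
    rw [Finset.mem_insert, not_or] at h
    rw [A.pD_insert hi, mul_assoc, ih h.2, A.pE_q (Ne.symm h.1)]

theorem q_T : qq A.x M * A.x .T = A.x .T := by
  rw [qq, mul_assoc, A.phg_T, ← mul_assoc, A.phg_T, mul_assoc, A.S_T, mul_one]

theorem S_q : A.x .S * qq A.x M = A.x .S := by
  rw [qq, ← mul_assoc, A.S_phg, mul_assoc, A.S_phg, ← mul_assoc, A.S_T, one_mul]

theorem S_push (i : σ.ι) (b : σ.Γ i) : A.x .S * A.x (.push i b) = 0 := by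
  by_cases h : i = σ.U
  · subst h
    have h1 : A.x .S = A.x .S * (A.x .T * A.x .S) := by rw [← mul_assoc, A.S_T, one_mul]
    rw [h1, A.T_S, mul_assoc, mul_assoc, A.pE_push, mul_zero, mul_zero]
  · rw [← A.S_q, mul_assoc, A.q_push h, mul_zero]

theorem pop_T (i : σ.ι) (b : σ.Γ i) : A.x (.pop i b) * A.x .T = 0 := by
  by_cases h : i = σ.U
  · subst h
    have h1 : A.x .T = A.x .T * A.x .S * A.x .T := by rw [mul_assoc, A.S_T, mul_one]
    rw [h1, A.T_S, ← mul_assoc, ← mul_assoc, ← (A.CS_q b).2.eq, mul_assoc (qq A.x M), A.pop_pE,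
      mul_zero, zero_mul]
  · rw [← A.q_T, ← mul_assoc, A.pop_q h, zero_mul]

theorem S_pE (i : σ.ι) : A.x .S * pE A.x i = A.x .S := by
  simp only [pE, mul_sub, mul_one, Finset.mul_sum, ← mul_assoc, A.S_push, zero_mul,
    Finset.sum_const_zero, sub_zero]

theorem pE_T (i : σ.ι) : pE A.x i * A.x .T = A.x .T := by
  simp only [pE, sub_mul, one_mul, Finset.sum_mul, mul_assoc, A.pop_T, mul_zero,
    Finset.sum_const_zero, sub_zero]

theorem S_pD (D : Finset σ.ι) : A.x .S * A.pD D = A.x .S := by
  induction D using Finset.induction_on with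
  | empty => rw [A.pD_empty, mul_one]
  | insert i D hi ih => rw [A.pD_insert hi, ← mul_assoc, A.S_pE, ih]

theorem pD_T (D : Finset σ.ι) : A.pD D * A.x .T = A.x .T := by
  induction D using Finset.induction_on with
  | empty => rw [A.pD_empty, one_mul]
  | insert i D hi ih => rw [A.pD_insert hi, mul_assoc, ih, A.pE_T]

theorem S_tB {β : Cfg σ} (h : β ≠ Cfg.nil σ) : A.x .S * A.tB β = 0 := by
  obtain ⟨i, hi⟩ := Function.ne_iff.mp h
  obtain ⟨b, l, hb⟩ := List.exists_cons_of_ne_nil hi
  rw [A.tB_of_cons hb, ← mul_assoc, A.S_push, zero_mul]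

theorem sB_T {β : Cfg σ} (h : β ≠ Cfg.nil σ) : A.sB β * A.x .T = 0 := by
  obtain ⟨i, hi⟩ := Function.ne_iff.mp h
  obtain ⟨b, l, hb⟩ := List.exists_cons_of_ne_nil hi
  rw [A.sB_of_cons hb, mul_assoc, A.pop_T, mul_zero]

theorem q_tB {β : Cfg σ} {i : σ.ι} (hi : i ≠ σ.U) (h : β i ≠ []) : qq A.x M * A.tB β = 0 := by
  obtain ⟨b, l, hb⟩ := List.exists_cons_of_ne_nil h
  rw [A.tB_of_cons hb, ← mul_assoc, A.q_push hi, zero_mul]

theorem sB_q {β : Cfg σ} {i : σ.ι} (hi : i ≠ σ.U) (h : β i ≠ []) : A.sB β * qq A.x M = 0 := by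
  obtain ⟨b, l, hb⟩ := List.exists_cons_of_ne_nil h
  rw [A.sB_of_cons hb, mul_assoc, A.pop_q hi, mul_zero]

theorem Φ_push (τ : σ.Γ σ.H) : A.x .Φ * A.x (.push σ.H τ) =
    ((M.br τ).map fun b => b.mv A.x * A.x .Φ * opsVal A.x b.all).sum := by
  have h : A.x .Φ = masterRhs A.x M := sub_eq_zero.1 (A.rel .master)
  nth_rewrite 1 [h]
  rw [masterRhs, add_mul, A.S_push, zero_add, Finset.sum_mul, Finset.sum_eq_single τ]
  · rw [← List.sum_map_mul_right]
    congr 1
    refine List.map_congr_left fun b _ => ?_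
    rw [mul_assoc, A.pop_push, if_pos rfl, mul_one]
  · intro τ' _ hτ
    rw [← List.sum_map_mul_right]
    refine List.sum_eq_zero fun y hy => ?_
    obtain ⟨b, _, rfl⟩ := List.mem_map.mp hy
    rw [mul_assoc, A.pop_push, if_neg hτ, mul_zero]
  · simp

theorem Φ_pE : A.x .Φ * pE A.x σ.H = A.x .S := by
  have h : A.x .Φ = masterRhs A.x M := sub_eq_zero.1 (A.rel .master)
  rw [h, masterRhs, add_mul, A.S_pE, Finset.sum_mul, Finset.sum_eq_zero, add_zero]
  intro τ _
  rw [← List.sum_map_mul_right]
  refine List.sum_eq_zero fun y hy => ?_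
  obtain ⟨b, _, rfl⟩ := List.mem_map.mp hy
  rw [mul_assoc, A.pop_pE, mul_zero]

theorem val_tB_pD (o : BOp σ) (γ : Cfg σ) (D : Finset σ.ι) (hl : o.stk ∈ D ∨ γ o.stk ≠ []) :
    o.val A.x * A.tB γ * A.pD D =
      match o.act γ with
      | none => 0
      | some γ' => A.tB γ' * A.pD D := by
  cases o with
  | push i b => simp only [BOp.val, BOp.act, A.tB_cons]
  | pop i b =>
    simp only [BOp.val, BOp.act]
    cases hγ : γ i with
    | nil =>
      have hD : i ∈ D := hl.resolve_right fun h => h hγ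
      rw [← (A.CS_tB hγ b).2.eq, mul_assoc, A.pop_pD hD, mul_zero]
    | cons b' l =>
      rw [A.tB_of_cons hγ, ← mul_assoc, A.pop_push]
      by_cases hb : b' = b
      · simp [hb]
      · simp [hb, Ne.symm hb]
  | test i =>
    simp only [BOp.val, BOp.act]
    by_cases hγ : γ i = []
    · have hD : i ∈ D := hl.resolve_right fun h => h hγ
      rw [if_pos hγ, ← (A.CS_tB hγ).pE.eq, mul_assoc, A.pE_pD hD]
    · obtain ⟨b, l, hb⟩ := List.exists_cons_of_ne_nil hγ
      rw [if_neg hγ, A.tB_of_cons hb, ← mul_assoc, A.pE_push, zero_mul, zero_mul]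

theorem commute_opsVal {c : R} (hc : ∀ i, A.CS c i) (os : List (BOp σ)) :
    Commute c (opsVal A.x os) := by
  induction os with
  | nil => exact Commute.one_right c
  | cons o os ih =>
    refine ih.mul_right ?_
    cases o with
    | push i b => exact (hc i b).1
    | pop i b => exact (hc i b).2
    | test i => exact (hc i).pE

theorem Φ_tB_pD_aux (c : R) (hc : ∀ i, A.CS c i) (D : Finset σ.ι) (hH : σ.H ∈ D) (γ : Cfg σ)
    (hγ : γ σ.H = []) : A.x .Φ * c * A.tB γ * A.pD D = A.x .S * A.tB γ * c * A.pD D := by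
  rw [← A.pE_pD hH, ← mul_assoc, mul_assoc _ (A.tB γ), (A.CS_tB hγ).pE.eq, ← mul_assoc,
    mul_assoc _ c, (hc σ.H).pE.eq, ← mul_assoc, A.Φ_pE, mul_assoc _ c,
    (A.commute_tB fun i _ => hc i).eq, ← mul_assoc, A.pE_pD hH]

/-- Operations acting on a pattern that is exact on `D` and deep elsewhere. -/
theorem opsVal_tB_pD (os : List (BOp σ)) (γ : Cfg σ) (D : Finset σ.ι)
    (hl : ∀ o ∈ os, o.stk ∈ D ∨ os.length < (γ o.stk).length) :
    opsVal A.x os * A.tB γ * A.pD D =
      match opsAct os γ with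
      | none => 0
      | some γ' => A.tB γ' * A.pD D := by
  induction os generalizing γ with
  | nil => simp [opsVal, opsAct]
  | cons o os ih =>
    have h1 := A.val_tB_pD o γ D ((hl o List.mem_cons_self).imp id fun h e => by
      rw [e] at h
      simp at h)
    rw [opsVal, mul_assoc, mul_assoc, ← mul_assoc (o.val A.x), h1, opsAct]
    cases hγ : o.act γ with
    | none => simp
    | some γ' =>
      simp only [Option.bind_some]
      rw [← mul_assoc]
      refine ih γ' fun o' ho' => (hl o' (List.mem_cons_of_mem _ ho')).imp id fun h => ?_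
      have h2 : opsAct [o] γ = some γ' := by simp [opsAct, hγ]
      have h3 := (opsAct_length_le h2 o'.stk).1
      simp only [List.length_cons, List.length_nil] at h h3
      omega

/-- The symbolic run. Here `c` is any element commuting with all stack operators. -/
theorem SR (c : R) (hc : ∀ i, A.CS c i) (D : Finset σ.ι) (h u : List (σ.Γ σ.H)) (γ : Cfg σ)
    (hγ : γ σ.H = [])
    (hl : ∀ i, i ∉ D → i ≠ σ.H → M.Cb * h.length < (γ i).length) :
    A.x .Φ * c * tw A.x σ.H (h ++ u) * A.tB γ * A.pD D =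
      Ev A.x M h γ fun γ' => A.x .Φ * c * tw A.x σ.H u * A.tB γ' * A.pD D := by
  induction h generalizing γ with
  | nil => rfl
  | cons τ h ih =>
    rw [List.cons_append, tw_cons, ← mul_assoc, mul_assoc _ c, (hc σ.H τ).1.eq, ← mul_assoc,
      A.Φ_push, Ev, ← List.sum_map_mul_right, ← List.sum_map_mul_right, ← List.sum_map_mul_right,
      ← List.sum_map_mul_right]
    congr 1
    refine List.map_congr_left fun b hb => ?_
    have hlen := M.all_length_le hb
    have hH := M.all_ne_H hb
    have h1 := A.opsVal_tB_pD b.all γ D fun o ho => by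
      by_cases hD : o.stk ∈ D
      · exact Or.inl hD
      · have := hl _ hD (hH o ho)
        rw [List.length_cons, Nat.mul_succ] at this
        exact Or.inr (by omega)
    have h2 : b.mv A.x * A.x .Φ * opsVal A.x b.all * c * tw A.x σ.H (h ++ u) * A.tB γ * A.pD D =
        b.mv A.x * (A.x .Φ * c * tw A.x σ.H (h ++ u) * (opsVal A.x b.all * A.tB γ * A.pD D)) := by
      rw [mul_assoc _ (opsVal A.x b.all), ← (A.commute_opsVal hc b.all).eq, ← mul_assoc,
        mul_assoc _ (opsVal A.x b.all), ((A.CS_opsVal hH).tw _).eq]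
      simp only [mul_assoc]
    rw [h2, h1]
    cases hw : opsAct b.all γ with
    | none => simp
    | some w' =>
      simp only
      rw [← mul_assoc _ (A.tB w'), ih w' (by rw [opsAct_apply_of_ne hw hH, hγ]) fun i hi hi' => ?_]
      have h3 := hl i hi hi'
      have h4 := (opsAct_length_le hw i).1
      rw [List.length_cons, Nat.mul_succ] at h3
      omega

/-- With exact history and a deep stack the evaluation operator vanishes. -/
theorem Φ_dead (c : R) (hc : ∀ i, A.CS c i) (D : Finset σ.ι) (hH : σ.H ∈ D) (β : Cfg σ)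
    (i : σ.ι) (hi : i ∉ D)
    (hl : ∀ i, i ∉ D → M.Cb * (β σ.H).length < (β i).length) :
    A.x .Φ * c * A.tB β * A.pD D = 0 := by
  have hiH : i ≠ σ.H := fun e => hi (e ▸ hH)
  have h1 := A.SR c hc D (β σ.H) [] (Function.update β σ.H []) (Function.update_self _ _ _)
    fun j hj hj' => by rw [Function.update_of_ne hj']; exact hl j hj
  rw [List.append_nil] at h1
  rw [A.tB_split β σ.H, ← mul_assoc, h1, ← Ev_zero A.x M (β σ.H) (Function.update β σ.H [])]
  refine Ev_congr A.x M fun γ hγ => ?_
  have h2 : γ σ.H = [] := by rw [hγ.apply_H, Function.update_self]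
  have h3 := (hγ.length_le i).1
  rw [Function.update_of_ne hiH] at h3
  have h4 := hl i hi
  have h5 : γ ≠ Cfg.nil σ := by
    rintro rfl
    simp only [Cfg.nil, List.length_nil] at h3
    omega
  rw [tw_nil, mul_one, A.Φ_tB_pD_aux c hc D hH γ h2, A.S_tB h5, zero_mul, zero_mul]

/-- Evaluation on an exact configuration. -/
theorem Φ_tB_univ (c : R) (hc : ∀ i, A.CS c i) (β : Cfg σ) :
    A.x .Φ * c * A.tB β * A.pD Finset.univ =
      val A.x M (β σ.H) (Function.update β σ.H []) * (A.x .S * c) := by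
  have h1 := A.SR c hc Finset.univ (β σ.H) [] (Function.update β σ.H [])
    (Function.update_self _ _ _) fun j hj _ => absurd (Finset.mem_univ j) hj
  rw [List.append_nil] at h1
  rw [A.tB_split β σ.H, ← mul_assoc, h1, val, ← Ev_mul_right]
  refine Ev_congr A.x M fun γ hγ => ?_
  have h2 : γ σ.H = [] := by rw [hγ.apply_H, Function.update_self]
  rw [tw_nil, mul_one, A.Φ_tB_pD_aux c hc _ (Finset.mem_univ _) γ h2, ind]
  split_ifs with h3
  · rw [h3, A.tB_nil, mul_one, one_mul, mul_assoc, (A.commute_pD fun i _ => hc i).eq,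
      ← mul_assoc, A.S_pD]
  · rw [A.S_tB h3, zero_mul, zero_mul, zero_mul]

theorem Φ_tB_T (β : Cfg σ) :
    A.x .Φ * A.tB β * A.x .T = val A.x M (β σ.H) (Function.update β σ.H []) := by
  have h := A.Φ_tB_univ 1 A.CS_one β
  rw [mul_one, mul_one] at h
  rw [← A.pD_T Finset.univ, ← mul_assoc, h, mul_assoc, A.S_T, mul_one]

/-- The accepting state kills every pure clock. -/
theorem acc_pure (j : ℕ) : A.x .Φ * tw A.x σ.K (List.replicate j σ.tick) * pE A.x σ.K *
    (A.x (.push σ.C σ.start) * A.x (.pop σ.C σ.start)) = 0 := by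
  set e := A.x (.push σ.C σ.start) * A.x (.pop σ.C σ.start) with he
  have heK : A.CS e σ.K := (A.CS_push σ.hKC.symm _).mul (A.CS_pop σ.hKC.symm _)
  have heH : A.CS e σ.H := (A.CS_push σ.hHC.symm _).mul (A.CS_pop σ.hHC.symm _)
  have hee : e * e = e := by
    rw [he, mul_assoc, ← mul_assoc (A.x (.pop σ.C σ.start)), A.pop_push, if_pos rfl, one_mul]
  induction j with
  | zero =>
    have := A.rel .acc
    simpa only [relFin, List.replicate_zero, tw_nil, mul_one, mul_assoc] using this
  | succ j ih =>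
    have h1 : A.x .Φ * A.x (.push σ.H M.wind) = A.x .Φ * A.x (.push σ.K σ.tick) * e := by
      rw [A.Φ_push, M.br_wind, mul_assoc, ← (heK σ.tick).1.eq]
      simp [Branch.mv, Branch.all, KOp.ops, opsVal, BOp.val, he]
    have h2 := (A.CS_push σ.hHK M.wind).tw (List.replicate j σ.tick)
    have h3 := (A.CS_push σ.hHK M.wind).pE
    clear_value e
    calc A.x .Φ * tw A.x σ.K (List.replicate (j + 1) σ.tick) * pE A.x σ.K * e
        = A.x .Φ * A.x (.push σ.K σ.tick) * e * tw A.x σ.K (List.replicate j σ.tick) *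
          pE A.x σ.K * e := by
          simp only [List.replicate_succ, tw_cons, mul_assoc]
          rw [(heK.tw _).left_comm, heK.pE.left_comm, hee]
      _ = A.x .Φ * tw A.x σ.K (List.replicate j σ.tick) * pE A.x σ.K * e *
          A.x (.push σ.H M.wind) := by
          rw [← h1]
          simp only [mul_assoc]
          rw [h2.left_comm, h3.left_comm, (heH M.wind).1.eq]
      _ = 0 := by rw [ih, zero_mul]

/-- A pure clock dies on a long history. -/
theorem KP (j : ℕ) (h : List (σ.Γ σ.H)) (hj : j < h.length) :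
    A.x .Φ * tw A.x σ.H h * (tw A.x σ.K (List.replicate j σ.tick) * pE A.x σ.K) = 0 := by
  induction h generalizing j with
  | nil => simp at hj
  | cons τ h ih =>
    rw [tw_cons, ← mul_assoc, ← mul_assoc, A.Φ_push, ← List.sum_map_mul_right,
      ← List.sum_map_mul_right, ← List.sum_map_mul_right]
    refine List.sum_eq_zero fun y hy => ?_
    obtain ⟨b, hb, rfl⟩ := List.mem_map.mp hy
    have hH : A.CS (opsVal A.x b.ops) σ.H := A.CS_opsVal fun o ho => (M.ops_ne τ b hb o ho).1
    have hK : A.CS (opsVal A.x b.ops) σ.K := A.CS_opsVal fun o ho => (M.ops_ne τ b hb o ho).2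
    have htK : A.CS (tw A.x σ.H h) σ.K := A.CS_tw σ.hHK h
    have hz : A.x (.pop σ.K σ.zero) *
        (tw A.x σ.H h * (tw A.x σ.K (List.replicate j σ.tick) * pE A.x σ.K)) = 0 := by
      rw [← mul_assoc, ← (htK σ.zero).2.eq, mul_assoc]
      cases j with
      | zero => rw [List.replicate_zero, tw_nil, one_mul, A.pop_pE, mul_zero]
      | succ j =>
        rw [List.replicate_succ, tw_cons, mul_assoc, ← mul_assoc (A.x (.pop σ.K σ.zero)),
          A.pop_push, if_neg σ.tick_ne.symm, zero_mul, mul_zero]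
    rw [Branch.all, opsVal_append]
    cases hk : b.kop with
    | tick =>
      have h1 : opsVal A.x (KOp.ops (σ := σ) .tick) = A.x (.pop σ.K σ.tick) := by
        simp [KOp.ops, opsVal, BOp.val]
      rw [h1]
      have h2 : b.mv A.x * A.x .Φ * (opsVal A.x b.ops * A.x (.pop σ.K σ.tick)) * tw A.x σ.H h *
          tw A.x σ.K (List.replicate j σ.tick) * pE A.x σ.K =
          b.mv A.x * A.x .Φ * opsVal A.x b.ops * tw A.x σ.H h *
            (A.x (.pop σ.K σ.tick) * tw A.x σ.K (List.replicate j σ.tick) * pE A.x σ.K) := by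
        rw [← mul_assoc _ (opsVal A.x b.ops), mul_assoc _ _ (tw A.x σ.H h),
          ← (htK σ.tick).2.eq]
        simp only [mul_assoc]
      rw [h2]
      cases j with
      | zero => rw [List.replicate_zero, tw_nil, mul_one, A.pop_pE, mul_zero]
      | succ j =>
        rw [List.replicate_succ, tw_cons, ← mul_assoc (A.x (.pop σ.K σ.tick)), A.pop_push,
          if_pos rfl, one_mul, mul_assoc, mul_assoc, mul_assoc, (hH.tw h).left_comm,
          ((hK.tw _).mul_right hK.pE).eq, ← mul_assoc (tw A.x σ.H h), ← mul_assoc (A.x .Φ),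
          ← mul_assoc (A.x .Φ), ih j (by simpa using hj), zero_mul, mul_zero]
    | wind =>
      have h1 : opsVal A.x (KOp.ops (σ := σ) .wind) = A.x (.push σ.K σ.tick) := by
        simp [KOp.ops, opsVal, BOp.val]
      have h2 : opsVal A.x b.ops = A.x (.push σ.C σ.start) * A.x (.pop σ.C σ.start) := by
        rw [M.wind_ops τ b hb hk]
        simp [opsVal, BOp.val]
      have h3 := A.acc_pure (j + 1)
      rw [← h2, List.replicate_succ, tw_cons] at h3
      have h4 : b.mv A.x * A.x .Φ * (opsVal A.x b.ops * A.x (.push σ.K σ.tick)) * tw A.x σ.H h *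
          tw A.x σ.K (List.replicate j σ.tick) * pE A.x σ.K =
          b.mv A.x * (A.x .Φ * (A.x (.push σ.K σ.tick) * tw A.x σ.K (List.replicate j σ.tick)) *
            pE A.x σ.K * opsVal A.x b.ops) * tw A.x σ.H h := by
        rw [mul_assoc _ (tw A.x σ.H h), (htK.tw _).eq, ← mul_assoc, mul_assoc _ (tw A.x σ.H h),
          htK.pE.eq, ← mul_assoc, (hK σ.tick).1.eq, ← mul_assoc, mul_assoc _ (opsVal A.x b.ops),
          (hK.tw _).eq, ← mul_assoc, mul_assoc _ (opsVal A.x b.ops), hK.pE.eq]
        simp only [mul_assoc]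
      rw [h1, h4, h3, mul_zero, zero_mul]
    | cheat0 => simp only [KOp.ops, opsVal, BOp.val, mul_assoc, hz, mul_zero]
    | cheatK b' => simp only [KOp.ops, opsVal, BOp.val, mul_assoc, hz, mul_zero]
    | poison => simp only [KOp.ops, opsVal, BOp.val, mul_assoc, hz, mul_zero]

theorem val_start (h : List (σ.Γ σ.H)) (w : Cfg σ) (hH : w σ.H = []) (hp : w.Pure)
    (hs : ∃ l, w σ.C = σ.start :: l) : val A.x M h w = 0 := by
  obtain ⟨l, hl⟩ := hs
  have h1 := A.Φ_tB_T (Function.update w σ.H h)
  rw [Function.update_self, Function.update_idem, update_of_nil hH] at h1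
  set β := Function.update w σ.H h with hβ
  have h2 : β σ.K = List.replicate (w σ.K).length σ.tick := by
    rw [hβ, Function.update_of_ne σ.hHK.symm]
    exact pure_eq hp
  have h3 : Function.update β σ.K [] σ.C = σ.start :: l := by
    rw [Function.update_of_ne σ.hKC.symm, hβ, Function.update_of_ne σ.hHC.symm, hl]
  have h4 : A.x (.push σ.C σ.start) =
      A.x (.push σ.C σ.start) * A.x (.pop σ.C σ.start) * A.x (.push σ.C σ.start) := by
    rw [mul_assoc, A.pop_push, if_pos rfl, mul_one]
  have h5 := A.acc_pure (w σ.K).length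
  rw [← h1, A.tB_split β σ.K, h2, ← A.pE_T σ.K, ← mul_assoc, ← mul_assoc,
    mul_assoc _ _ (pE A.x σ.K), (A.CS_tB (Function.update_self _ _ _)).pE.eq, A.tB_of_cons h3, h4,
    ← mul_assoc, ← mul_assoc, ← mul_assoc, h5, zero_mul, zero_mul, zero_mul]

theorem val_pure_long (h : List (σ.Γ σ.H)) (w : Cfg σ) (hH : w σ.H = []) (hp : w.Pure)
    (hl : (w σ.K).length < h.length) : val A.x M h w = 0 := by
  have h1 := A.Φ_tB_T (Function.update w σ.H h)
  rw [Function.update_self, Function.update_idem, update_of_nil hH] at h1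
  have h5 := A.KP (w σ.K).length h hl
  rw [← pure_eq hp, ← mul_assoc] at h5
  rw [← h1, A.tB_split _ σ.H, Function.update_self, Function.update_idem, update_of_nil hH,
    A.tB_split w σ.K, ← A.pE_T σ.K, ← mul_assoc, ← mul_assoc, ← mul_assoc,
    mul_assoc _ _ (pE A.x σ.K), (A.CS_tB (Function.update_self _ _ _)).pE.eq, ← mul_assoc, h5,
    zero_mul, zero_mul]

end Sys0

end Vale.Agent.P193
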