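import Vale.Agent.P193.GroupDefs

/-!
P193, part A2: column and row elements of the Steinberg group and the conjugation lemmas.
-/

open scoped commutatorElement
open Matrix

namespace Vale.Agent.P193

namespace St

variable {n R : Type} [Ring R]

theorem x_mem_sub {s : Set n} {i j : n} (h : i ≠ j) (a : R) (hi : i ∈ s) (hj : j ∈ s) :
    x i j h a ∈ sub R s :=
  Subgroup.subset_closure ⟨i, j, h, a, hi, hj, rfl⟩

theorem sub_induction {s : Set n} {P : St n R → Prop} (h1 : P 1)
    (hx : ∀ i j h a, i ∈ s → j ∈ s → P (x i j h a))
    (hmul : ∀ y z, y ∈ sub R s → z ∈ sub R s → P y → P z → P (y * z)) :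
    ∀ z ∈ sub R s, P z := by
  intro z hz
  unfold sub at hz
  induction hz using Subgroup.closure_induction'' with
  | one => exact h1
  | mem y hy =>
    obtain ⟨i, j, h, a, hi, hj, rfl⟩ := hy
    exact hx i j h a hi hj
  | inv_mem y hy =>
    obtain ⟨i, j, h, a, hi, hj, rfl⟩ := hy
    rw [x_neg]
    exact hx i j h (-a) hi hj
  | mul y z hy hz py pz => exact hmul y z hy hz py pz

theorem sub_univ : sub R (Set.univ : Set n) = ⊤ := by
  rw [← closure_x]
  unfold sub
  congr 1
  ext z
  simp

theorem induction {P : St n R → Prop} (h1 : P 1) (hx : ∀ i j h a, P (x i j h a))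
    (hmul : ∀ y z, P y → P z → P (y * z)) (z : St n R) : P z :=
  sub_induction (s := Set.univ) h1 (fun i j h a _ _ => hx i j h a)
    (fun y z _ _ => hmul y z) z (by rw [sub_univ]; trivial)

theorem sub_mono {s t : Set n} (h : s ⊆ t) : sub R s ≤ sub R t := by
  apply Subgroup.closure_mono
  rintro z ⟨i, j, hij, a, hi, hj, rfl⟩
  exact ⟨i, j, hij, a, h hi, h hj, rfl⟩

theorem x_conj (i j k : n) (h : i ≠ j) (h' : j ≠ k) (hik : i ≠ k) (a b : R) :
    x i j h a * x j k h' b * (x i j h a)⁻¹ = x i k hik (a * b) * x j k h' b := by
  rw [← x_mul i j k h h' hik a b, commutatorElement_def]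
  group

theorem x_conj' (i j k : n) (h : i ≠ j) (h' : j ≠ k) (hik : i ≠ k) (a b : R) :
    x j k h' b * x i j h a * (x j k h' b)⁻¹ = x i j h a * x i k hik (-(a * b)) := by
  have e := x_mul i j k h h' hik a b
  have c := x_comm i j i k h hik h.symm hik a (a * b)
  rw [← x_neg, ← c.inv_right.eq.symm, ← e, commutatorElement_def]
  group

/-- Induction over the generators in row `k` and column `k`. -/
theorem induction_at (k : n) {P : St n R → Prop} (hc : ∀ i h a, P (x i k h a))
    (hr : ∀ j h a, P (x k j h a)) (h1 : P 1)
    (hmul : ∀ y z, P y → P z → P (y * z)) (z : St n R) : P z := by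
  refine induction h1 ?_ hmul z
  intro i j h a
  by_cases hi : i = k
  · subst hi; exact hr j h a
  by_cases hj : j = k
  · subst hj; exact hc i h a
  have hj' : k ≠ j := fun e => hj e.symm
  rw [← mul_one a, ← x_mul i k j hi hj' h a 1, commutatorElement_def, x_neg, x_neg]
  exact hmul _ _ (hmul _ _ (hmul _ _ (hc _ _ _) (hr _ _ _)) (hc _ _ _)) (hr _ _ _)

variable [DecidableEq n]

/-- `x_ij(a)`, read as `1` on the diagonal. -/
def xx (i j : n) (a : R) : St n R := if h : i = j then 1 else x i j h a

theorem xx_ne {i j : n} (h : i ≠ j) (a : R) : xx i j a = x i j h a := by simp [xx, h]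

@[simp] theorem xx_self (i : n) (a : R) : xx i i a = 1 := by simp [xx]

theorem xx_add (i j : n) (a b : R) : xx i j (a + b) = xx i j a * xx i j b := by
  unfold xx
  split_ifs with h
  · simp
  · rw [x_add]

@[simp] theorem xx_zero (i j : n) : xx i j (0 : R) = 1 := by
  unfold xx
  split_ifs with h
  · rfl
  · rw [x_zero]

theorem xx_comm_col (i l j : n) (a b : R) : Commute (xx i j a) (xx l j b) := by
  unfold xx
  split_ifs with h h' h'
  · exact Commute.one_left _
  · exact Commute.one_left _
  · exact Commute.one_right _
  · exact x_comm _ _ _ _ _ _ (fun e => h' e.symm) h _ _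

theorem xx_comm_row (i l j : n) (a b : R) : Commute (xx j i a) (xx j l b) := by
  unfold xx
  split_ifs with h h' h'
  · exact Commute.one_left _
  · exact Commute.one_left _
  · exact Commute.one_right _
  · exact x_comm _ _ _ _ _ _ (fun e => h e.symm) h' _ _

/-- `a ↦ x_ij(a)` as a monoid homomorphism. -/
def xxHom (i j : n) : Multiplicative R →* St n R where
  toFun a := xx i j a.toAdd
  map_one' := xx_zero i j
  map_mul' _ _ := xx_add i j _ _

theorem xxHom_col (j : n) :
    Pairwise fun i l : n => ∀ a b : Multiplicative R, Commute (xxHom i j a) (xxHom l j b) :=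
  fun i l _ _ _ => xx_comm_col i l j _ _

theorem xxHom_row (i : n) :
    Pairwise fun j l : n => ∀ a b : Multiplicative R, Commute (xxHom i j a) (xxHom i l b) :=
  fun j l _ _ _ => xx_comm_row j l i _ _

theorem ofAdd_single (i : n) (a : R) :
    (fun l => Multiplicative.ofAdd ((Pi.single i a : n → R) l)) =
      Pi.mulSingle (M := fun _ => Multiplicative R) i (Multiplicative.ofAdd a) := by
  funext l
  by_cases h : l = i
  · subst h; simp
  · simp [h]

theorem update_single (i : n) (a : R) : Function.update (Pi.single i a : n → R) i 0 = 0 := by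
  funext l
  by_cases h : l = i
  · subst h; simp
  · simp [h]

variable [Fintype n]

/-- The product of the `x_ij(v i)` over `i ≠ j`. -/
def col (j : n) (v : n → R) : St n R :=
  MonoidHom.noncommPiCoprod (N := fun _ => Multiplicative R) (fun i => xxHom i j)
    (xxHom_col j) (fun i => Multiplicative.ofAdd (v i))

/-- The product of the `x_ij(v j)` over `j ≠ i`. -/
def row (i : n) (v : n → R) : St n R :=
  MonoidHom.noncommPiCoprod (N := fun _ => Multiplicative R) (fun j => xxHom i j)
    (xxHom_row i) (fun j => Multiplicative.ofAdd (v j))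

theorem col_add (j : n) (v w : n → R) : col j (v + w) = col j v * col j w := by
  unfold col
  rw [← map_mul]
  rfl

theorem row_add (i : n) (v w : n → R) : row i (v + w) = row i v * row i w := by
  unfold row
  rw [← map_mul]
  rfl

@[simp] theorem col_zero (j : n) : col j (0 : n → R) = 1 := by
  have := col_add j (0 : n → R) 0
  rw [add_zero] at this
  exact left_eq_mul.1 this

@[simp] theorem row_zero (j : n) : row j (0 : n → R) = 1 := by
  have := row_add j (0 : n → R) 0
  rw [add_zero] at this
  exact left_eq_mul.1 this

theorem col_single (i j : n) (a : R) : col j (Pi.single i a) = xx i j a := by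
  unfold col
  rw [ofAdd_single, MonoidHom.noncommPiCoprod_mulSingle]
  rfl

theorem row_single (i j : n) (a : R) : row i (Pi.single j a) = xx i j a := by
  unfold row
  rw [ofAdd_single, MonoidHom.noncommPiCoprod_mulSingle]
  rfl

theorem elem_val (i j : n) (h : i ≠ j) (a : R) :
    ((elem i j h a : (Matrix n n R)ˣ) : Matrix n n R) = 1 + Matrix.single i j a := rfl

theorem elem_inv (i j : n) (h : i ≠ j) (a : R) : (elem i j h a)⁻¹ = elem i j h (-a) := by
  rw [← toGL_x, ← toGL_x, ← x_neg, map_inv]

theorem elem_mulVec (i j : n) (h : i ≠ j) (a : R) (v : n → R) :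
    (elem i j h a : Matrix n n R) *ᵥ v = v + Pi.single i (a * v j) := by
  rw [elem_val, add_mulVec, one_mulVec, single_mulVec]
  congr 1

theorem vecMul_elem (i j : n) (h : i ≠ j) (a : R) (v : n → R) :
    v ᵥ* (elem i j h a : Matrix n n R) = v + Pi.single j (v i * a) := by
  rw [elem_val, vecMul_add, vecMul_one]
  congr 1
  funext l
  by_cases e : l = j
  · subst e; simp [vecMul, dotProduct, Matrix.single_apply]
  · simp [vecMul, dotProduct, e, Ne.symm e]

theorem x_conj_col {a b j : n} (h : a ≠ b) (ha : a ≠ j) (hb : b ≠ j) (c : R) (v : n → R) :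
    x a b h c * col j v * (x a b h c)⁻¹ = col j ((elem a b h c : Matrix n n R) *ᵥ v) := by
  induction v using Pi.single_induction with
  | zero => simp
  | add v w hv hw => rw [mulVec_add, col_add, col_add, ← hv, ← hw]; group
  | single i r =>
    rw [elem_mulVec, col_add, col_single, col_single]
    by_cases hij : i = j
    · subst hij; simp [hb]
    by_cases hib : i = b
    · subst hib
      rw [Pi.single_eq_same, xx_ne hij, xx_ne ha, x_conj a i j h hij ha]
      exact (x_comm _ _ _ _ _ _ (Ne.symm hij) ha _ _).eq
    · rw [Pi.single_eq_of_ne (Ne.symm hib), mul_zero, xx_zero, mul_one, xx_ne hij,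
        (x_comm a b i j h hij (Ne.symm hib) ha c r).eq]
      group

theorem x_conj_row {a b i : n} (h : a ≠ b) (ha : a ≠ i) (hb : b ≠ i) (c : R) (v : n → R) :
    x a b h c * row i v * (x a b h c)⁻¹ =
      row i (v ᵥ* (((elem a b h c)⁻¹ : (Matrix n n R)ˣ) : Matrix n n R)) := by
  induction v using Pi.single_induction with
  | zero => simp
  | add v w hv hw => rw [add_vecMul, row_add, row_add, ← hv, ← hw]; group
  | single j r =>
    rw [elem_inv, vecMul_elem, row_add, row_single, row_single]
    by_cases hij : i = j
    · subst hij; simp [ha]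
    by_cases hja : j = a
    · subst hja
      rw [Pi.single_eq_same, xx_ne hij, xx_ne (Ne.symm hb), x_conj' i j b hij h (Ne.symm hb),
        mul_neg]
    · rw [Pi.single_eq_of_ne (Ne.symm hja), zero_mul, xx_zero, mul_one, xx_ne hij,
        (x_comm a b i j h hij hb (Ne.symm hja) c r).eq]
      group

/-- The column lemma. -/
theorem conj_col (j : n) : ∀ z ∈ sub R {i : n | i ≠ j}, ∀ v : n → R,
    z * col j v * z⁻¹ = col j ((toGL z : Matrix n n R) *ᵥ v) := by
  refine sub_induction ?_ ?_ ?_
  · intro v; simp
  · intro a b h c ha hb v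
    rw [toGL_x]; exact x_conj_col h ha hb c v
  · intro y z _ _ hy hz v
    rw [map_mul, Units.val_mul, ← mulVec_mulVec, ← hy, ← hz]
    group

/-- The row lemma. -/
theorem conj_row (i : n) : ∀ z ∈ sub R {j : n | j ≠ i}, ∀ v : n → R,
    z * row i v * z⁻¹ = row i (v ᵥ* (((toGL z)⁻¹ : (Matrix n n R)ˣ) : Matrix n n R)) := by
  refine sub_induction ?_ ?_ ?_
  · intro v; simp
  · intro a b h c ha hb v
    rw [toGL_x]; exact x_conj_row h ha hb c v
  · intro y z _ _ hy hz v
    rw [map_mul, _root_.mul_inv_rev (toGL y), Units.val_mul, ← vecMul_vecMul, ← hy, ← hz]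
    group

theorem single_eq_vecMulVec (i j : n) (a : R) :
    Matrix.single i j a = vecMulVec (Pi.single i a) (Pi.single j (1 : R)) := by
  ext p q
  simp only [vecMulVec_apply, Matrix.single_apply, Pi.single_apply]
  by_cases hp : i = p <;> by_cases hq : j = q <;> simp [hp, hq, @eq_comm _ p, @eq_comm _ q]

theorem single_eq_vecMulVec' (i j : n) (a : R) :
    Matrix.single i j a = vecMulVec (Pi.single i (1 : R)) (Pi.single j a) := by
  ext p q
  simp only [vecMulVec_apply, Matrix.single_apply, Pi.single_apply]
  by_cases hp : i = p <;> by_cases hq : j = q <;> simp [hp, hq, @eq_comm _ p, @eq_comm _ q]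

theorem toGL_col_aux (j : n) (v : n → R) :
    (toGL (col j v) : Matrix n n R) =
      1 + vecMulVec (Function.update v j 0) (Pi.single j (1 : R)) := by
  induction v using Pi.single_induction with
  | zero => simp
  | add v w hv hw =>
    have e : Function.update (v + w) j 0 = Function.update v j 0 + Function.update w j 0 := by
      funext l; by_cases h : l = j <;> simp [h]
    rw [col_add, map_mul, Units.val_mul, hv, hw, e, add_vecMulVec]
    simp only [add_mul, mul_add, one_mul, mul_one, vecMulVec_mul_vecMulVec]
    simp [add_assoc]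
  | single i r =>
    rw [col_single]
    by_cases hij : i = j
    · subst hij; simp [update_single]
    · rw [xx_ne hij, toGL_x, elem_val, single_eq_vecMulVec, Function.update_eq_self_iff.2]
      simp [Ne.symm hij]

theorem toGL_row_aux (i : n) (v : n → R) :
    (toGL (row i v) : Matrix n n R) =
      1 + vecMulVec (Pi.single i (1 : R)) (Function.update v i 0) := by
  induction v using Pi.single_induction with
  | zero => simp
  | add v w hv hw =>
    have e : Function.update (v + w) i 0 = Function.update v i 0 + Function.update w i 0 := by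
      funext l; by_cases h : l = i <;> simp [h]
    rw [row_add, map_mul, Units.val_mul, hv, hw, e, vecMulVec_add]
    simp only [add_mul, mul_add, one_mul, mul_one, vecMulVec_mul_vecMulVec]
    simp [add_assoc]
  | single j r =>
    rw [row_single]
    by_cases hij : i = j
    · subst hij; simp [update_single]
    · rw [xx_ne hij, toGL_x, elem_val, single_eq_vecMulVec', Function.update_eq_self_iff.2]
      simp [hij]

/-- The matrix of a column element. -/
theorem toGL_col (j : n) (v : n → R) (hv : v j = 0) :
    (toGL (col j v) : Matrix n n R) = 1 + vecMulVec v (Pi.single j (1 : R)) := by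
  rw [toGL_col_aux, Function.update_eq_self_iff.2 hv.symm]

/-- The matrix of a row element. -/
theorem toGL_row (i : n) (v : n → R) (hv : v i = 0) :
    (toGL (row i v) : Matrix n n R) = 1 + vecMulVec (Pi.single i (1 : R)) v := by
  rw [toGL_row_aux, Function.update_eq_self_iff.2 hv.symm]

/-- A column element supported in `s` lies in the subgroup of `s`. -/
theorem col_mem_sub {s : Set n} {j : n} (hj : j ∈ s) (v : n → R) (hv : ∀ i, i ∉ s → v i = 0) :
    col j v ∈ sub R s := by
  unfold col
  refine Subgroup.noncommProd_mem _ (fun _ _ _ _ h => xxHom_col j h _ _) ?_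
  intro i _
  change xx i j (v i) ∈ _
  by_cases hi : i ∈ s
  · by_cases hij : i = j
    · subst hij; simp
    · rw [xx_ne hij]; exact x_mem_sub _ _ hi hj
  · simp [hv i hi]

/-- A row element supported in `s` lies in the subgroup of `s`. -/
theorem row_mem_sub {s : Set n} {i : n} (hi : i ∈ s) (v : n → R) (hv : ∀ j, j ∉ s → v j = 0) :
    row i v ∈ sub R s := by
  unfold row
  refine Subgroup.noncommProd_mem _ (fun _ _ _ _ h => xxHom_row i h _ _) ?_
  intro j _
  change xx i j (v j) ∈ _
  by_cases hj : j ∈ s
  · by_cases hij : i = j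
    · subst hij; simp
    · rw [xx_ne hij]; exact x_mem_sub _ _ hi hj
  · simp [hv j hj]

/-- An element of the stabiliser subgroup with trivial matrix is central. -/
theorem central_of_toGL (k : n) (z : St n R) (hz : z ∈ sub R {i : n | i ≠ k})
    (h1 : toGL z = 1) (y : St n R) : z * y * z⁻¹ = y := by
  refine induction_at k (P := fun y => z * y * z⁻¹ = y) ?_ ?_ ?_ ?_ y
  · intro i h a
    have := conj_col k z hz (Pi.single i a)
    rwa [h1, Units.val_one, one_mulVec, col_single, xx_ne h] at this
  · intro j h a
    have := conj_row k z hz (Pi.single j a)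
    rwa [h1, inv_one, Units.val_one, vecMul_one, row_single, xx_ne h] at this
  · simp
  · intro y w hy hw
    rw [← hy, ← hw]
    conv_lhs => rw [hy, hw]
    group

end St

end Vale.Agent.P193
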