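import Vale.Agent.P193.GroupDefs

/-!
P193, task A4: the abstract covering argument on the graph of vertices.
-/

namespace Vale.Agent.P193.Inj

open Vale.Agent.P193

variable {n R : Type} [Ring R] [Fintype n]

theorem shrink_dot (v w : Pr n R) (a b a' b' : R) :
    (shrinkV v a b).2 ⬝ᵥ (shrinkV w a' b').1 = b * (v.2 ⬝ᵥ w.1) * a' := by
  simp only [shrinkV, dotProduct, Finset.mul_sum, Finset.sum_mul, mul_assoc]

omit [Fintype n] in
theorem shrink_one (v : Pr n R) : shrinkV v 1 1 = v := by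
  ext i <;> simp [shrinkV]

theorem orth_symm {v w : Pr n R} (h : Orth v w) : Orth w v := ⟨h.2, h.1⟩

theorem isV_shrink {v : Pr n R} (hv : IsV v) {a b : R} (h : b * a = 1) :
    IsV (shrinkV v a b) := by
  unfold IsV at *
  rw [shrink_dot, hv, mul_one, h]

theorem orth_shrink {v w : Pr n R} (h : Orth v w) (a b a' b' : R) :
    Orth (shrinkV v a b) (shrinkV w a' b') := by
  constructor
  · rw [shrink_dot, h.1, mul_zero, zero_mul]
  · rw [shrink_dot, h.2, mul_zero, zero_mul]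

theorem orth_shrink_left {v w : Pr n R} (h : Orth v w) (a b : R) :
    Orth (shrinkV v a b) w := by
  have := orth_shrink h a b 1 1
  rwa [shrink_one] at this

theorem orth_shrink_right {v w : Pr n R} (h : Orth v w) (a b : R) :
    Orth v (shrinkV w a b) := by
  have := orth_shrink h 1 1 a b
  rwa [shrink_one] at this

theorem orth_shrink_of {v w : Pr n R} {a b a' b' : R} (h1 : b * (v.2 ⬝ᵥ w.1) * a' = 0)
    (h2 : b' * (w.2 ⬝ᵥ v.1) * a = 0) : Orth (shrinkV v a b) (shrinkV w a' b') := by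
  constructor
  · rw [shrink_dot, h1]
  · rw [shrink_dot, h2]

/-- A graph mapping to the graph of vertices as a covering of the clique complex. -/
structure Cov {Y : Type} (p : Y → Pr n R) (A : Y → Y → Prop) : Prop where
  symm : ∀ y y', A y y' → A y' y
  isV : ∀ y, IsV (p y)
  orth : ∀ y y', A y y' → Orth (p y) (p y')
  third : ∀ y y', A y y' → ∃ u, IsV u ∧ Orth (p y) u ∧ Orth (p y') u
  nb : ∀ y, ∃ y', A y y'
  lift : ∀ y w u, IsV w → IsV u → Orth (p y) w → Orth (p y) u → Orth w u →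
    ∃ y', A y y' ∧ p y' = w
  uniq : ∀ y y' y'', A y y' → A y y'' → p y' = p y'' → y' = y''
  tri : ∀ y y' y'' d, A y y' → A y y'' → Orth (p y') (p y'') → IsV d → Orth (p y) d →
    Orth (p y') d → Orth (p y'') d → A y' y''

variable {Y : Type} {p : Y → Pr n R} {A : Y → Y → Prop}

/-- One step in the link of `y`. -/
theorem Cov.step (C : Cov p A) {y y' w1 w2 : Y} {a b : R} (hy' : p y' = shrinkV (p y) a b)
    (h1 : A y w1) (h2 : A y w2) (h12 : Orth (p w1) (p w2)) {d : Pr n R} (hd : IsV d)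
    (hyd : Orth (p y) d) (h1d : Orth (p w1) d) (h2d : Orth (p w2) d) (h : A y' w1) :
    A y' w2 := by
  have h12' : A w1 w2 := C.tri y w1 w2 d h1 h2 h12 hd hyd h1d h2d
  refine C.tri w1 y' w2 d (C.symm _ _ h) h12' ?_ hd h1d ?_ h2d
  · rw [hy']; exact orth_shrink_left (C.orth _ _ h2) a b
  · rw [hy']; exact orth_shrink_left hyd a b

/-- From a neighbour `w` of `y` to the lift of a subvertex of `p w`, and back. -/
theorem Cov.sub_iff (C : Cov p A) (H : Hyp R) {y y' w w' : Y} {a b a' b' : R}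
    (hy' : p y' = shrinkV (p y) a b) (h1 : A y w) (h2 : A y w')
    (hw' : p w' = shrinkV (p w) a' b') : A y' w ↔ A y' w' := by
  obtain ⟨u, hu, hyu, hwu⟩ := C.third y w h1
  obtain ⟨T0, S0, T1, S1, -, h00, h11, h01, h10, -⟩ := H.sum
  have hc : IsV (shrinkV u T0 S0) := isV_shrink hu h00
  have hd : IsV (shrinkV u T1 S1) := isV_shrink hu h11
  have hcd : Orth (shrinkV u T0 S0) (shrinkV u T1 S1) := by
    unfold IsV at hu
    refine orth_shrink_of ?_ ?_
    · rw [hu, mul_one, h01]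
    · rw [hu, mul_one, h10]
  obtain ⟨c, hyc, hpc⟩ := C.lift y (shrinkV u T0 S0) (shrinkV u T1 S1) hc hd
    (orth_shrink_right hyu _ _) (orth_shrink_right hyu _ _) hcd
  have hwc : Orth (p w) (p c) := by rw [hpc]; exact orth_shrink_right hwu _ _
  have hw'c : Orth (p w') (p c) := by rw [hpc, hw']; exact orth_shrink hwu _ _ _ _
  have hyd : Orth (p y) (shrinkV u T1 S1) := orth_shrink_right hyu _ _
  have hwd : Orth (p w) (shrinkV u T1 S1) := orth_shrink_right hwu _ _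
  have hw'd : Orth (p w') (shrinkV u T1 S1) := by rw [hw']; exact orth_shrink hwu _ _ _ _
  have hcd' : Orth (p c) (shrinkV u T1 S1) := by rw [hpc]; exact hcd
  constructor
  · intro h
    have h3 := C.step hy' h1 hyc hwc hd hyd hwd hcd' h
    exact C.step hy' hyc h2 (orth_symm hw'c) hd hyd hcd' hw'd h3
  · intro h
    have h3 := C.step hy' h2 hyc hw'c hd hyd hw'd hcd' h
    exact C.step hy' hyc h1 (orth_symm hwc) hd hyd hcd' hwd h3

/-- The lift of a subvertex of a neighbour. -/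
theorem Cov.lift_sub (C : Cov p A) {y w : Y} (h : A y w) {a b : R} (hab : b * a = 1) :
    ∃ w', A y w' ∧ p w' = shrinkV (p w) a b := by
  obtain ⟨u, hu, hyu, hwu⟩ := C.third y w h
  exact C.lift y _ u (isV_shrink (C.isV w) hab) hu (orth_shrink_right (C.orth _ _ h) _ _) hyu
    (orth_shrink_left hwu _ _)

/-- All neighbours of `y` are adjacent to a lift of a subvertex as soon as one is. -/
theorem Cov.all_nb (C : Cov p A) (H : Hyp R) {y y' w w' : Y} {a b : R}
    (hy' : p y' = shrinkV (p y) a b) (h1 : A y w) (h2 : A y w') (h : A y' w) : A y' w' := by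
  classical
  obtain ⟨α, β, hab, hF, -⟩ := H.exz {1, (p w).2 ⬝ᵥ (p w').1, (p w').2 ⬝ᵥ (p w).1}
  obtain ⟨w1, hw1, hp1⟩ := C.lift_sub h1 (hab 0)
  obtain ⟨w2, hw2, hp2⟩ := C.lift_sub h2 (hab 1)
  have hv : (p w).2 ⬝ᵥ (p w).1 = 1 := C.isV w
  have h3 : A y' w1 := (C.sub_iff H hy' h1 hw1 hp1).1 h
  have h4 : A y' w2 := by
    refine C.step (d := shrinkV (p w) (α 2) (β 2)) hy' hw1 hw2 ?_ (isV_shrink (C.isV w) (hab 2))
      (orth_shrink_right (C.orth _ _ h1) _ _) ?_ ?_ h3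
    · rw [hp1, hp2]
      exact orth_shrink_of (hF 0 1 (by norm_num) _ (by simp)) (hF 1 0 (by norm_num) _ (by simp))
    · rw [hp1]
      exact orth_shrink_of (by rw [hv]; exact hF 0 2 (by norm_num) _ (by simp))
        (by rw [hv]; exact hF 2 0 (by norm_num) _ (by simp))
    · rw [hp2]
      exact orth_shrink_of (hF 1 2 (by norm_num) _ (by simp)) (hF 2 1 (by norm_num) _ (by simp))
  exact (C.sub_iff H hy' h2 hw2 hp2).2 h4

/-- `y'` is the lift of a subvertex of `p y` attached to `y`. -/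
def IsShr (p : Y → Pr n R) (A : Y → Y → Prop) (y y' : Y) (a b : R) : Prop :=
  p y' = shrinkV (p y) a b ∧ ∀ w, A y w → A y' w

theorem Cov.exists_shr (C : Cov p A) (H : Hyp R) (y : Y) {a b : R} (hab : b * a = 1) :
    ∃ y', IsShr p A y y' a b := by
  obtain ⟨w, hw⟩ := C.nb y
  obtain ⟨y', hy', hp⟩ := C.lift_sub (C.symm _ _ hw) hab
  exact ⟨y', hp, fun w' hw' => C.all_nb H hp hw hw' (C.symm _ _ hy')⟩

theorem Cov.shr_unique (C : Cov p A) {y y' y'' : Y} {a b : R} (h1 : IsShr p A y y' a b)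
    (h2 : IsShr p A y y'' a b) : y' = y'' := by
  obtain ⟨w, hw⟩ := C.nb y
  exact C.uniq w y' y'' (C.symm _ _ (h1.2 w hw)) (C.symm _ _ (h2.2 w hw)) (h1.1.trans h2.1.symm)

theorem Cov.shr_adj (C : Cov p A) {y y' z z' : Y} {a b a' b' : R} (h1 : IsShr p A y y' a b)
    (h2 : IsShr p A z z' a' b') (h : A y z) : A y' z' :=
  C.symm _ _ (h2.2 y' (C.symm _ _ (h1.2 z h)))

theorem Cov.path (C : Cov p A) (H : Hyp R) {y0 y : Y} (h : Relation.ReflTransGen A y0 y) :
    ∃ F : Finset R, ∀ α β : ℕ → R, (∀ i, β i * α i = 1) →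
      (∀ i j, i ≠ j → ∀ x ∈ F, β i * x * α j = 0) → ∀ y0' y' c, IsShr p A y0 y0' (α 0) (β 0) →
      IsShr p A y y' (α 0) (β 0) → p c = shrinkV (p y0) (α 1) (β 1) → A y0' c → A y' c := by
  classical
  induction h with
  | refl =>
    refine ⟨∅, fun α β _ _ y0' y' c h0 h1 _ hc => ?_⟩
    rwa [← C.shr_unique h0 h1]
  | @tail y1 y2 _ h12 ih =>
    obtain ⟨F, hF⟩ := ih
    refine ⟨F ∪ {1, (p y0).2 ⬝ᵥ (p y1).1, (p y1).2 ⬝ᵥ (p y0).1, (p y0).2 ⬝ᵥ (p y2).1,
      (p y2).2 ⬝ᵥ (p y0).1}, fun α β hab hx y0' y2' c h0 h2 hc h0c => ?_⟩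
    obtain ⟨y1', h1⟩ := C.exists_shr H y1 (hab 0)
    have h1c : A y1' c := hF α β hab (fun i j hij x hxF => hx i j hij x (by simp [hxF])) y0' y1' c
      h0 h1 hc h0c
    have hv : (p y0).2 ⬝ᵥ (p y0).1 = 1 := C.isV y0
    refine C.tri y1' y2' c (shrinkV (p y0) (α 2) (β 2)) (C.shr_adj h1 h2 h12) h1c ?_
      (isV_shrink (C.isV y0) (hab 2)) ?_ ?_ ?_
    · rw [h2.1, hc]
      exact orth_shrink_of (hx 0 1 (by norm_num) _ (by simp)) (hx 1 0 (by norm_num) _ (by simp))
    · rw [h1.1]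
      exact orth_shrink_of (hx 0 2 (by norm_num) _ (by simp)) (hx 2 0 (by norm_num) _ (by simp))
    · rw [h2.1]
      exact orth_shrink_of (hx 0 2 (by norm_num) _ (by simp)) (hx 2 0 (by norm_num) _ (by simp))
    · rw [hc]
      exact orth_shrink_of (by rw [hv]; exact hx 1 2 (by norm_num) _ (by simp))
        (by rw [hv]; exact hx 2 1 (by norm_num) _ (by simp))

/-- A connected covering is injective. -/
theorem Cov.eq_of_path (C : Cov p A) (H : Hyp R) {y0 y : Y} (h : Relation.ReflTransGen A y0 y)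
    (hp : p y0 = p y) : y0 = y := by
  classical
  obtain ⟨F, hF⟩ := C.path H h
  obtain ⟨α, β, hab, hx, -⟩ := H.exz (insert 1 F)
  obtain ⟨y0', h0⟩ := C.exists_shr H y0 (hab 0)
  obtain ⟨y', h1⟩ := C.exists_shr H y (hab 0)
  have hv : (p y0).2 ⬝ᵥ (p y0).1 = 1 := C.isV y0
  have horth : ∀ i j, i ≠ j → Orth (shrinkV (p y0) (α i) (β i)) (shrinkV (p y0) (α j) (β j)) :=
    fun i j hij => orth_shrink_of (by rw [hv]; exact hx i j hij _ (by simp))
      (by rw [hv]; exact hx j i hij.symm _ (by simp))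
  obtain ⟨c, h0c, hc⟩ := C.lift y0' (shrinkV (p y0) (α 1) (β 1)) (shrinkV (p y0) (α 2) (β 2))
    (isV_shrink (C.isV y0) (hab 1)) (isV_shrink (C.isV y0) (hab 2))
    (by rw [h0.1]; exact horth 0 1 (by norm_num)) (by rw [h0.1]; exact horth 0 2 (by norm_num))
    (horth 1 2 (by norm_num))
  have h1c : A y' c := hF α β hab (fun i j hij x hxF => hx i j hij x (by simp [hxF])) y0' y' c
    h0 h1 hc h0c
  have e : y0' = y' := C.uniq c y0' y' (C.symm _ _ h0c) (C.symm _ _ h1c) (by rw [h0.1, h1.1, hp])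
  obtain ⟨w, hw⟩ := C.nb y0
  obtain ⟨u, hu, hyu, hwu⟩ := C.third y0 w hw
  obtain ⟨w', hw', hpw⟩ := C.lift y (p w) u (C.isV w) hu (hp ▸ C.orth _ _ hw) (hp ▸ hyu) hwu
  have e2 : w = w' := C.uniq y' w w' (e ▸ h0.2 w hw) (h1.2 w' hw') hpw.symm
  exact C.uniq w y0 y (C.symm _ _ hw) (e2 ▸ C.symm _ _ hw') hp

end Vale.Agent.P193.Inj
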