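import Vale.Agent.P193.StTrans
import Vale.Agent.P193.StInjAux

/-!
P193, task A4: the map `St_n(R) → GL_n(R)` is injective.
-/

open scoped commutatorElement

namespace Vale.Agent.P193

namespace Inj

variable {n R : Type} [Ring R] [Fintype n] [DecidableEq n]

theorem act_mul (g h : (Matrix n n R)ˣ) (v : Pr n R) : actV (g * h) v = actV g (actV h v) := by
  simp only [actV, Units.val_mul, Matrix.mulVec_mulVec, mul_inv_rev, Matrix.vecMul_vecMul]

theorem act_one (v : Pr n R) : actV (1 : (Matrix n n R)ˣ) v = v := by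
  simp [actV]

theorem act_inv_act (g : (Matrix n n R)ˣ) (v : Pr n R) : actV g⁻¹ (actV g v) = v := by
  rw [← act_mul, inv_mul_cancel, act_one]

theorem act_act_inv (g : (Matrix n n R)ˣ) (v : Pr n R) : actV g (actV g⁻¹ v) = v := by
  rw [← act_mul, mul_inv_cancel, act_one]

theorem act_dot (g : (Matrix n n R)ˣ) (v w : Pr n R) :
    (actV g v).2 ⬝ᵥ (actV g w).1 = v.2 ⬝ᵥ w.1 := by
  simp only [actV]
  rw [Matrix.dotProduct_mulVec, Matrix.vecMul_vecMul, ← Units.val_mul, inv_mul_cancel,
    Units.val_one, Matrix.vecMul_one]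

theorem isV_act (g : (Matrix n n R)ˣ) {v : Pr n R} (h : IsV v) : IsV (actV g v) := by
  unfold IsV at *
  rw [act_dot, h]

theorem orth_act (g : (Matrix n n R)ˣ) {v w : Pr n R} (h : Orth v w) :
    Orth (actV g v) (actV g w) := by
  unfold Orth at *
  rw [act_dot, act_dot]
  exact h

theorem isV_std (k : n) : IsV (stdV R k) := by
  simp [IsV, stdV]

theorem orth_std {k l : n} (h : k ≠ l) : Orth (stdV R k) (stdV R l) := by
  constructor
  · simp [stdV, h]
  · simp [stdV, h.symm]

theorem zero_of_orth {k : n} {w : Pr n R} (h : Orth (stdV R k) w) : w.1 k = 0 ∧ w.2 k = 0 := by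
  obtain ⟨h1, h2⟩ := h
  constructor
  · simpa [stdV] using h1
  · simpa [stdV] using h2

theorem act_elem (i j : n) (h : i ≠ j) (a : R) (v : Pr n R) :
    actV (St.elem i j h a) v =
      (v.1 + Pi.single i (a * v.1 j), v.2 + Pi.single j (v.2 i * -a)) := by
  have e : ((St.elem i j h a)⁻¹ : (Matrix n n R)ˣ).val = 1 + Matrix.single i j (-a) := rfl
  have e' : (St.elem i j h a : (Matrix n n R)ˣ).val = 1 + Matrix.single i j a := rfl
  simp only [actV, e, e', Matrix.add_mulVec, Matrix.one_mulVec, Matrix.vecMul_add,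
    Matrix.vecMul_one]
  congr 2
  · rw [Matrix.single_mulVec]
    ext k
    simp [Function.update_apply, Pi.single_apply]
  · ext k
    simp only [Matrix.vecMul, dotProduct, Matrix.single_apply, Pi.single_apply]
    rw [Finset.sum_eq_single i]
    · by_cases hk : k = j
      · simp [hk]
      · simp [hk, Ne.symm hk]
    · intro b _ hb
      simp [Ne.symm hb]
    · simp

theorem act_elem_std (i j : n) (h : i ≠ j) (a : R) {k : n} (hi : i ≠ k) (hj : j ≠ k) :
    actV (St.elem i j h a) (stdV R k) = stdV R k := by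
  rw [act_elem]
  simp [stdV, hi, hj]

omit [Fintype n] [DecidableEq n] in
theorem x_mem {s : Set n} {i j : n} (h : i ≠ j) (a : R) (hi : i ∈ s) (hj : j ∈ s) :
    St.x i j h a ∈ St.sub R s :=
  Subgroup.subset_closure ⟨i, j, h, a, hi, hj, rfl⟩

omit [Fintype n] [DecidableEq n] in
theorem sub_mono {s t : Set n} (h : s ⊆ t) : St.sub R s ≤ St.sub R t := by
  apply Subgroup.closure_mono
  rintro _ ⟨i, j, hij, a, hi, hj, rfl⟩
  exact ⟨i, j, hij, a, h hi, h hj, rfl⟩

theorem act_sub {s : Set n} {k : n} (hk : k ∉ s) {z : St n R} (hz : z ∈ St.sub R s) :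
    actV (St.toGL z) (stdV R k) = stdV R k := by
  induction hz using Subgroup.closure_induction with
  | mem z hz =>
    obtain ⟨i, j, hij, a, hi, hj, rfl⟩ := hz
    rw [St.toGL_x]
    exact act_elem_std i j hij a (fun e => hk (e ▸ hi)) (fun e => hk (e ▸ hj))
  | one => rw [map_one, act_one]
  | mul z w _ _ hz hw => rw [map_mul, act_mul, hw, hz]
  | inv z _ hz =>
    rw [map_inv]
    conv_lhs => rw [← hz]
    exact act_inv_act _ _

/-- The Weyl element exchanging the indices `i` and `j` (characteristic two). -/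
def tau (R : Type) [Ring R] (i j : n) (h : i ≠ j) : St n R :=
  St.x i j h 1 * St.x j i h.symm 1 * St.x i j h 1

omit [Fintype n] [DecidableEq n] in
theorem tau_mul_self (H : Hyp R) (i j : n) (h : i ≠ j) : tau R i j h * tau R i j h = 1 := by
  have e1 : St.x i j h (1 : R) * St.x i j h 1 = 1 := by rw [St.x_add, H.two, St.x_zero]
  have e2 : St.x j i h.symm (1 : R) * St.x j i h.symm 1 = 1 := by
    rw [St.x_add, H.two, St.x_zero]
  unfold tau
  calc _ = St.x i j h (1 : R) * (St.x j i h.symm 1 * (St.x i j h 1 * St.x i j h 1) *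
      St.x j i h.symm 1) * St.x i j h 1 := by group
    _ = 1 := by rw [e1, mul_one, e2, mul_one, e1]

omit [Fintype n] [DecidableEq n] in
theorem tau_mem {s : Set n} {i j : n} (h : i ≠ j) (hi : i ∈ s) (hj : j ∈ s) :
    tau R i j h ∈ St.sub R s :=
  mul_mem (mul_mem (x_mem h 1 hi hj) (x_mem h.symm 1 hj hi)) (x_mem h 1 hi hj)

theorem act_tau (H : Hyp R) (i j : n) (h : i ≠ j) :
    actV (St.toGL (tau R i j h)) (stdV R i) = stdV R j := by
  have h2 : (1 : R) + 1 = 0 := H.two 1
  have hn : (-1 : R) = 1 := neg_eq_of_add_eq_zero_left h2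
  simp only [tau, map_mul, act_mul, St.toGL_x, act_elem, hn]
  ext k
  · by_cases hi : k = i
    · subst hi
      simp [stdV, h, h.symm, h2]
    · by_cases hj : k = j
      · subst hj
        simp [stdV, h.symm]
      · simp [stdV, hi, hj]
  · by_cases hi : k = i
    · subst hi
      simp [stdV, h, h.symm, h2]
    · by_cases hj : k = j
      · subst hj
        simp [stdV, h, h.symm, h2]
      · simp [stdV, hi, hj]

theorem act_tau' (H : Hyp R) (i j : n) (h : i ≠ j) :
    actV (St.toGL (tau R i j h)) (stdV R j) = stdV R i := by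
  rw [← act_tau H i j h, ← act_mul, ← map_mul, tau_mul_self H, map_one, act_one]

theorem act_tau_ne (i j : n) (h : i ≠ j) {k : n} (hi : i ≠ k) (hj : j ≠ k) :
    actV (St.toGL (tau R i j h)) (stdV R k) = stdV R k :=
  act_sub (s := {l | l ≠ k}) (by simp) (tau_mem h hi hj)

omit [Fintype n] [DecidableEq n] in
theorem tau_comm {i j : n} (h : i ≠ j) {z : St n R} (hz : z ∈ St.sub R {k | k ≠ i ∧ k ≠ j}) :
    Commute z (tau R i j h) := by
  induction hz using Subgroup.closure_induction with
  | mem z hz =>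
    obtain ⟨k, l, hkl, a, hk, hl, rfl⟩ := hz
    have e1 := St.x_comm k l i j hkl h hl.1 hk.2 a (1 : R)
    have e2 := St.x_comm k l j i hkl h.symm hl.2 hk.1 a (1 : R)
    exact (e1.mul_right e2).mul_right e1
  | one => exact Commute.one_left _
  | mul z w _ _ hz hw => exact hz.mul_left hw
  | inv z _ hz => exact hz.inv_left

theorem card_two (hn : 4 ≤ Fintype.card n) (k l : n) :
    2 ≤ ((Finset.univ.erase k).erase l).card := by
  have h1 := Finset.pred_card_le_card_erase (s := Finset.univ.erase k) (a := l)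
  have h2 := Finset.pred_card_le_card_erase (s := (Finset.univ : Finset n)) (a := k)
  rw [Finset.card_univ] at h2
  omega

theorem coe_erase_two (k l : n) :
    (((Finset.univ.erase k).erase l : Finset n) : Set n) = {i | i ≠ k ∧ i ≠ l} := by
  ext i
  simp

/-- An element avoiding the index `k` and fixing the vertex `l` avoids `l` too. -/
theorem mem_sub_pair (H : Hyp R) (hn : 4 ≤ Fintype.card n) {k l : n} {z : St n R}
    (hz : z ∈ St.sub R {i | i ≠ k}) (hl : actV (St.toGL z) (stdV R l) = stdV R l) :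
    z ∈ St.sub R {i | i ≠ k ∧ i ≠ l} := by
  obtain ⟨w, hw, e⟩ := fix_mem H ((Finset.univ.erase k).erase l) (card_two hn k l) (St.toGL z)
    (by
      intro m hm
      by_cases h1 : m = l
      · rw [h1, hl]
      · have h2 : m = k := by simpa [h1] using hm
        rw [h2]
        exact act_sub (by simp) hz)
  rw [coe_erase_two] at hw
  have hw' : w ∈ St.sub R {i | i ≠ k} := sub_mono (fun i hi => hi.1) hw
  have := stab_inj H hn k (w⁻¹ * z) (mul_mem (inv_mem hw') hz) (by
    rw [map_mul, map_inv, e, inv_mul_cancel])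
  rw [inv_mul_eq_one] at this
  exact this ▸ hw

theorem exists_avoid (hn : 5 ≤ Fintype.card n) (a b c d : n) :
    ∃ m, m ≠ a ∧ m ≠ b ∧ m ≠ c ∧ m ≠ d := by
  by_contra hcon
  push Not at hcon
  have : (Finset.univ : Finset n) ⊆ {a, b, c, d} := by
    intro m _
    by_cases h1 : m = a
    · simp [h1]
    by_cases h2 : m = b
    · simp [h2]
    by_cases h3 : m = c
    · simp [h3]
    simp [hcon m h1 h2 h3]
  have h1 := Finset.card_le_card this
  have h2 : ({a, b, c, d} : Finset n).card ≤ 4 := Finset.card_le_four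
  rw [Finset.card_univ] at h1
  omega

/-- The projection of the coset space to the vertices. -/
def pr (i : n) : (St n R ⧸ St.sub R {k : n | k ≠ i}) → Pr n R :=
  Quotient.lift (fun γ : St n R => actV (St.toGL γ) (stdV R i)) (by
    intro γ γ' h
    have h' : γ⁻¹ * γ' ∈ St.sub R {k : n | k ≠ i} := QuotientGroup.leftRel_apply.1 h
    have := act_sub (k := i) (by simp) h'
    calc actV (St.toGL γ) (stdV R i)
        = actV (St.toGL γ) (actV (St.toGL (γ⁻¹ * γ')) (stdV R i)) := by rw [this]
      _ = _ := by rw [← act_mul, ← map_mul, mul_inv_cancel_left])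

theorem pr_mk (i : n) (γ : St n R) :
    pr i (γ : St n R ⧸ St.sub R {k : n | k ≠ i}) = actV (St.toGL γ) (stdV R i) := rfl

/-- Adjacency of cosets. -/
def Adj (R : Type) [Ring R] (i j : n) (h : i ≠ j) (y y' : St n R ⧸ St.sub R {k : n | k ≠ i}) :
    Prop :=
  ∃ γ : St n R, y = (γ : St n R ⧸ St.sub R {k : n | k ≠ i}) ∧
    y' = ((γ * tau R i j h : St n R) : St n R ⧸ St.sub R {k : n | k ≠ i})

theorem pr_tau (H : Hyp R) {i j : n} (h : i ≠ j) (γ : St n R) :
    pr i ((γ * tau R i j h : St n R) : St n R ⧸ St.sub R {k : n | k ≠ i}) =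
      actV (St.toGL γ) (stdV R j) := by
  rw [pr_mk, map_mul, act_mul, act_tau H]

theorem adj_uniq (H : Hyp R) (hn : 4 ≤ Fintype.card n) {i j : n} (h : i ≠ j)
    (y y' y'' : St n R ⧸ St.sub R {k : n | k ≠ i}) (h1 : Adj R i j h y y')
    (h2 : Adj R i j h y y'') (hp : pr i y' = pr i y'') : y' = y'' := by
  obtain ⟨γ, rfl, rfl⟩ := h1
  obtain ⟨γ', e, rfl⟩ := h2
  rw [pr_tau H, pr_tau H] at hp
  have hd : γ⁻¹ * γ' ∈ St.sub R {k : n | k ≠ i} := QuotientGroup.eq.1 e
  have hz := mem_sub_pair H hn (l := j) hd (by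
    rw [map_mul, act_mul, ← hp, map_inv, act_inv_act])
  have hc := tau_comm h hz
  apply QuotientGroup.eq.2
  have : (γ * tau R i j h)⁻¹ * (γ' * tau R i j h) = γ⁻¹ * γ' := by
    calc _ = (tau R i j h)⁻¹ * ((γ⁻¹ * γ') * tau R i j h) := by group
      _ = _ := by rw [hc.eq, inv_mul_cancel_left]
  rw [this]
  exact hd

theorem cov (H : Hyp R) (hn : 5 ≤ Fintype.card n) {i j : n} (h : i ≠ j) :
    Cov (pr (R := R) i) (Adj R i j h) where
  symm := by
    rintro _ _ ⟨γ, rfl, rfl⟩
    exact ⟨γ * tau R i j h, rfl, by rw [mul_assoc, tau_mul_self H, mul_one]⟩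
  isV := by
    intro y
    obtain ⟨γ, rfl⟩ := QuotientGroup.mk_surjective y
    exact isV_act _ (isV_std i)
  orth := by
    rintro _ _ ⟨γ, rfl, rfl⟩
    rw [pr_tau H, pr_mk]
    exact orth_act _ (orth_std h)
  third := by
    rintro _ _ ⟨γ, rfl, rfl⟩
    obtain ⟨m, hi, hj, -⟩ := exists_avoid hn i j i j
    rw [pr_tau H, pr_mk]
    exact ⟨_, isV_act (St.toGL γ) (isV_std m), orth_act _ (orth_std hi.symm),
      orth_act _ (orth_std hj.symm)⟩
  nb := by
    intro y
    obtain ⟨γ, rfl⟩ := QuotientGroup.mk_surjective y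
    exact ⟨_, γ, rfl, rfl⟩
  lift := by
    intro y w u hw hu hyw hyu hwu
    obtain ⟨γ, rfl⟩ := QuotientGroup.mk_surjective y
    rw [pr_mk] at hyw hyu
    have h1 := orth_act (St.toGL γ)⁻¹ hyw
    have h2 := orth_act (St.toGL γ)⁻¹ hyu
    rw [act_inv_act] at h1 h2
    have hcard : 2 ≤ (Finset.univ.erase i).card :=
      (card_two (by omega) i i).trans (Finset.card_le_card (Finset.erase_subset _ _))
    obtain ⟨δ, hδ, e⟩ := trans_sub H (Finset.univ.erase i) hcard j (by simp [h.symm])
      _ _ (isV_act (St.toGL γ)⁻¹ hw) (isV_act (St.toGL γ)⁻¹ hu) (orth_act _ hwu)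
      (by
        intro k hk
        have : k = i := by simpa using hk
        rw [this]
        exact zero_of_orth h1)
      (by
        intro k hk
        have : k = i := by simpa using hk
        rw [this]
        exact zero_of_orth h2)
    have hδ' : δ ∈ St.sub R {k : n | k ≠ i} := sub_mono (by intro k hk; simpa using hk) hδ
    refine ⟨_, ⟨γ * δ, ?_, rfl⟩, ?_⟩
    · apply QuotientGroup.eq.2
      rwa [inv_mul_cancel_left]
    · rw [pr_tau H, map_mul, act_mul, e, act_act_inv]
  uniq := adj_uniq H (by omega) h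
  tri := by
    rintro _ _ y'' d ⟨γ, rfl, rfl⟩ h2 ho hd hyd hy'd hy''d
    have hyc : Orth (actV (St.toGL γ) (stdV R i)) (pr i y'') := by
      obtain ⟨γ', e, rfl⟩ := h2
      rw [← pr_mk, e, pr_tau H, pr_mk]
      exact orth_act _ (orth_std h)
    have hc : IsV (pr i y'') := by
      obtain ⟨γ', rfl⟩ := QuotientGroup.mk_surjective y''
      exact isV_act _ (isV_std i)
    rw [pr_tau H] at ho hy'd
    rw [pr_mk] at hyd
    have h1 := orth_act (St.toGL γ)⁻¹ hyc
    have h3 := orth_act (St.toGL γ)⁻¹ ho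
    have h4 := orth_act (St.toGL γ)⁻¹ hyd
    have h5 := orth_act (St.toGL γ)⁻¹ hy'd
    rw [act_inv_act] at h1 h3 h4 h5
    obtain ⟨m, hi, hj, -⟩ := exists_avoid hn i j i j
    obtain ⟨l, hli, hlj, hlm, -⟩ := exists_avoid hn i j m m
    have key : ∀ k, k ∉ (Finset.univ.erase i).erase j → k = i ∨ k = j := by
      intro k hk
      by_contra hcon
      push Not at hcon
      exact hk (by simp [hcon.1, hcon.2])
    obtain ⟨z, hz, e⟩ := trans_sub H ((Finset.univ.erase i).erase j) (card_two (by omega) i j) m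
      (by simp [hi, hj]) _ _ (isV_act (St.toGL γ)⁻¹ hc) (isV_act (St.toGL γ)⁻¹ hd)
      (orth_act _ hy''d)
      (by
        intro k hk
        rcases key k hk with rfl | rfl
        · exact zero_of_orth h1
        · exact zero_of_orth h3)
      (by
        intro k hk
        rcases key k hk with rfl | rfl
        · exact zero_of_orth h4
        · exact zero_of_orth h5)
    rw [coe_erase_two] at hz
    have hzi : z ∈ St.sub R {k : n | k ≠ i} := sub_mono (fun k hk => hk.1) hz
    have hti : tau R j m hj.symm ∈ St.sub R {k : n | k ≠ i} := tau_mem _ h.symm hi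
    have e2 : y'' = ((γ * z * tau R j m hj.symm * tau R i j h : St n R) :
        St n R ⧸ St.sub R {k : n | k ≠ i}) := by
      refine adj_uniq H (by omega) h _ _ _ h2 ⟨γ * z * tau R j m hj.symm, ?_, rfl⟩ ?_
      · apply QuotientGroup.eq.2
        rw [mul_assoc, inv_mul_cancel_left]
        exact mul_mem hzi hti
      · rw [pr_tau H, map_mul, map_mul, act_mul, act_mul, act_tau H, e, act_act_inv]
    refine ⟨γ * z * tau R i j h * tau R j m hj.symm, ?_, ?_⟩
    · apply QuotientGroup.eq.2
      have : (γ * tau R i j h)⁻¹ * (γ * z * tau R i j h * tau R j m hj.symm) =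
          z * tau R j m hj.symm := by
        calc _ = (tau R i j h)⁻¹ * (z * tau R i j h) * tau R j m hj.symm := by group
          _ = _ := by rw [(tau_comm h hz).eq, inv_mul_cancel_left]
      rw [this]
      exact mul_mem hzi hti
    · rw [e2]
      apply QuotientGroup.eq.2
      have : (γ * z * tau R j m hj.symm * tau R i j h)⁻¹ *
          (γ * z * tau R i j h * tau R j m hj.symm * tau R i j h) =
          (tau R j m hj.symm * tau R i j h)⁻¹ *
            (tau R i j h * tau R j m hj.symm * tau R i j h) := by group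
      rw [this]
      have a1 : tau R i j h ∈ St.sub R {k : n | k ≠ l} := tau_mem _ hli.symm hlj.symm
      have a2 : tau R j m hj.symm ∈ St.sub R {k : n | k ≠ l} := tau_mem _ hlj.symm hlm.symm
      refine sub_mono (fun k hk => hk.2) (mem_sub_pair H (by omega) (k := l) (l := i)
        (mul_mem (inv_mem (mul_mem a2 a1)) (mul_mem (mul_mem a1 a2) a1)) ?_)
      have b1 : actV (St.toGL (tau R i j h * tau R j m hj.symm * tau R i j h)) (stdV R i) =
          actV (St.toGL (tau R j m hj.symm * tau R i j h)) (stdV R i) := by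
        simp only [map_mul, act_mul, act_tau H]
        exact act_tau_ne i j h hi.symm hj.symm
      rw [map_mul, act_mul, b1, map_inv, act_inv_act]

omit [Fintype n] [DecidableEq n] in
theorem adj_smul {i j : n} (h : i ≠ j) (g : St n R) {y y' : St n R ⧸ St.sub R {k : n | k ≠ i}}
    (hy : Relation.ReflTransGen (Adj R i j h) y y') :
    Relation.ReflTransGen (Adj R i j h) (g • y) (g • y') := by
  induction hy with
  | refl => exact Relation.ReflTransGen.refl
  | tail _ h2 ih =>
    obtain ⟨γ, rfl, rfl⟩ := h2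
    exact ih.tail ⟨g * γ, rfl, by rw [mul_assoc]; rfl⟩

/-- The elements whose coset is connected to the base point. -/
def conn (H : Hyp R) (hn : 5 ≤ Fintype.card n) {i j : n} (h : i ≠ j) : Subgroup (St n R) where
  carrier := {γ | Relation.ReflTransGen (Adj R i j h)
    ((1 : St n R) : St n R ⧸ St.sub R {k : n | k ≠ i}) (γ : St n R ⧸ St.sub R {k : n | k ≠ i})}
  one_mem' := Relation.ReflTransGen.refl
  mul_mem' := by
    intro a b ha hb
    have := adj_smul h a hb
    have e1 : a • ((1 : St n R) : St n R ⧸ St.sub R {k : n | k ≠ i}) = (a : St n R ⧸ _) := by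
      change ((a * 1 : St n R) : St n R ⧸ St.sub R {k : n | k ≠ i}) = _
      rw [mul_one]
    rw [e1] at this
    exact ha.trans this
  inv_mem' := by
    intro a ha
    have := adj_smul h a⁻¹ ha
    have e1 : a⁻¹ • ((1 : St n R) : St n R ⧸ St.sub R {k : n | k ≠ i}) =
        ((a⁻¹ : St n R) : St n R ⧸ _) := by
      change ((a⁻¹ * 1 : St n R) : St n R ⧸ St.sub R {k : n | k ≠ i}) = _
      rw [mul_one]
    have e2 : a⁻¹ • (a : St n R ⧸ St.sub R {k : n | k ≠ i}) = ((1 : St n R) : St n R ⧸ _) := by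
      change ((a⁻¹ * a : St n R) : St n R ⧸ St.sub R {k : n | k ≠ i}) = _
      rw [inv_mul_cancel]
    rw [e1, e2] at this
    have hs : ∀ y y', Relation.ReflTransGen (Adj R i j h) y y' →
        Relation.ReflTransGen (Adj R i j h) y' y := by
      intro y y' hy
      induction hy with
      | refl => exact Relation.ReflTransGen.refl
      | tail _ h2 ih => exact ih.head ((cov H hn h).symm _ _ h2)
    exact hs _ _ this

theorem conn_eq_top (H : Hyp R) (hn : 5 ≤ Fintype.card n) {i j : n} (h : i ≠ j) :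
    conn H hn h = ⊤ := by
  have h1 : ∀ δ ∈ St.sub R {k : n | k ≠ i}, δ ∈ conn H hn h := by
    intro δ hδ
    have : (δ : St n R ⧸ St.sub R {k : n | k ≠ i}) = ((1 : St n R) : St n R ⧸ _) := by
      symm
      apply QuotientGroup.eq.2
      simpa using hδ
    change Relation.ReflTransGen _ _ _
    rw [this]
  have h2 : tau R i j h ∈ conn H hn h :=
    Relation.ReflTransGen.single ⟨1, rfl, by rw [one_mul]⟩
  have h3 : ∀ k l hkl a, k ≠ j → l ≠ j → St.x k l hkl a ∈ conn H hn h := by
    intro k l hkl a hk hl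
    obtain ⟨m, hmi, hmj, hmk, hml⟩ := exists_avoid hn i j k l
    have a1 : tau R i j h ∈ St.sub R {k : n | k ≠ m} := tau_mem _ hmi.symm hmj.symm
    have a2 : St.x k l hkl a ∈ St.sub R {k : n | k ≠ m} := x_mem _ _ hmk.symm hml.symm
    have a3 := sub_mono (fun k hk => hk.2) (mem_sub_pair H (by omega) (k := m) (l := i)
      (mul_mem (mul_mem a1 a2) a1) (by
        simp only [map_mul, act_mul, act_tau H, St.toGL_x]
        rw [act_elem_std k l hkl a hk hl, act_tau' H]))
    have a4 := mul_mem (mul_mem h2 (h1 _ a3)) h2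
    have e : tau R i j h * (tau R i j h * St.x k l hkl a * tau R i j h) * tau R i j h =
        St.x k l hkl a := by
      calc _ = (tau R i j h * tau R i j h) * St.x k l hkl a * (tau R i j h * tau R i j h) := by
            group
        _ = _ := by rw [tau_mul_self H, one_mul, mul_one]
    rwa [e] at a4
  have h4 : ∀ k l hkl a, (k ≠ i ∧ l ≠ i) ∨ (k ≠ j ∧ l ≠ j) → St.x k l hkl a ∈ conn H hn h := by
    rintro k l hkl a (hh | hh)
    · exact h1 _ (x_mem _ _ hh.1 hh.2)
    · exact h3 k l hkl a hh.1 hh.2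
  rw [eq_top_iff, ← St.closure_x, Subgroup.closure_le]
  rintro _ ⟨k, l, hkl, a, rfl⟩
  obtain ⟨m, hmi, hmj, hmk, hml⟩ := exists_avoid hn i j k l
  have e := St.x_mul k m l hmk.symm hml hkl a (1 : R)
  rw [mul_one] at e
  rw [← e, SetLike.mem_coe, commutatorElement_def]
  have b1 : St.x k m hmk.symm a ∈ conn H hn h := by
    apply h4
    by_cases hk : k = i
    · exact Or.inr ⟨hk ▸ h, hmj⟩
    · exact Or.inl ⟨hk, hmi⟩
  have b2 : St.x m l hml (1 : R) ∈ conn H hn h := by
    apply h4
    by_cases hl : l = i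
    · exact Or.inr ⟨hmj, hl ▸ h⟩
    · exact Or.inl ⟨hmi, hl⟩
  exact mul_mem (mul_mem (mul_mem b1 b2) (inv_mem b1)) (inv_mem b2)

end Inj

variable {n R : Type} [Ring R] [Fintype n] [DecidableEq n]

theorem toGL_injective (H : Hyp R) (hn : 5 ≤ Fintype.card n) :
    Function.Injective (St.toGL : St n R →* (Matrix n n R)ˣ) := by
  rw [injective_iff_map_eq_one]
  intro z hz
  obtain ⟨i, j, h⟩ := Fintype.exists_pair_of_one_lt_card (α := n) (by omega)
  have h1 : z ∈ Inj.conn H hn h := by rw [Inj.conn_eq_top]; trivial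
  have h2 := (Inj.cov H hn h).eq_of_path H h1 (by rw [Inj.pr_mk, Inj.pr_mk, hz, map_one])
  have h3 : z ∈ St.sub R {k : n | k ≠ i} := by simpa using QuotientGroup.eq.1 h2
  exact stab_inj H (by omega) i z h3 hz

end Vale.Agent.P193
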