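import Vale.Agent.P193.GroupDefs
import Vale.Agent.P193.StCol

/-!
P193, part A2: the Eilenberg swindle for the stabiliser of a standard vertex.
-/

open scoped commutatorElement
open Matrix

namespace Vale.Agent.P193

variable {n R : Type} [Ring R] [Fintype n] [DecidableEq n]

namespace St

/-- The map `a ↦ T a S` when `S T = 1`. -/
def corner (T S : R) (h : S * T = 1) : R →ₙ+* R where
  toFun a := T * a * S
  map_mul' a b := by
    calc T * (a * b) * S = T * a * (S * T) * b * S := by rw [h]; noncomm_ring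
      _ = T * a * S * (T * b * S) := by noncomm_ring
  map_zero' := by simp
  map_add' a b := by noncomm_ring

@[simp] theorem corner_apply (T S : R) (h : S * T = 1) (a : R) : corner T S h a = T * a * S := rfl

/-- `g ↦ 1 + ψ (g - 1)` on matrices. -/
def hat (ψ : R →ₙ+* R) : Matrix n n R →* Matrix n n R where
  toFun g := 1 + (g - 1).map ψ
  map_one' := by simp [Matrix.map_zero]
  map_mul' g h := by
    have e : g * h - 1 = (g - 1) + (h - 1) + (g - 1) * (h - 1) := by noncomm_ring
    rw [e, Matrix.map_add _ (map_add ψ), Matrix.map_add _ (map_add ψ), Matrix.map_mul]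
    noncomm_ring

theorem hat_apply (ψ : R →ₙ+* R) (g : Matrix n n R) : hat ψ g = 1 + (g - 1).map ψ := rfl

theorem hat_elem (ψ : R →ₙ+* R) (i j : n) (h : i ≠ j) (a : R) :
    Units.map (hat ψ) (elem i j h a) = elem i j h (ψ a) := by
  ext1
  rw [Units.coe_map, elem_val, elem_val, hat_apply, add_sub_cancel_left, Matrix.map_single]

/-- The map from the smaller Steinberg group twisted by `ψ`. -/
def J (k : n) (ψ : R →ₙ+* R) : St {i : n // i ≠ k} R →* St n R :=
  lift (fun i j h a => x i.1 j.1 (fun e => h (Subtype.ext e)) (ψ a))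
    (fun i j h a b => by rw [x_add, map_add])
    (fun i j p q h h' hjp hiq a b =>
      x_comm _ _ _ _ _ _ (fun e => hjp (Subtype.ext e)) (fun e => hiq (Subtype.ext e)) _ _)
    (fun i j p h h' hip a b => by rw [x_mul _ _ _ _ _ (fun e => hip (Subtype.ext e)), map_mul])

omit [Fintype n] [DecidableEq n] in
theorem J_x (k : n) (ψ : R →ₙ+* R) (i j : {i : n // i ≠ k}) (h : i ≠ j) (a : R) :
    J k ψ (x i j h a) = x i.1 j.1 (fun e => h (Subtype.ext e)) (ψ a) := lift_x _ _ _ _ i j h a

omit [Fintype n] [DecidableEq n] in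
theorem J_mem (k : n) (ψ : R →ₙ+* R) (z : St {i : n // i ≠ k} R) :
    J k ψ z ∈ sub R {i : n | i ≠ k} := by
  refine induction (P := fun z => J k ψ z ∈ sub R {i : n | i ≠ k}) ?_ ?_ ?_ z
  · rw [map_one]; exact one_mem _
  · intro i j h a
    rw [J_x]; exact x_mem_sub _ _ i.2 j.2
  · intro y z hy hz
    rw [map_mul]; exact mul_mem hy hz

omit [Fintype n] [DecidableEq n] in
theorem exists_J (k : n) : ∀ z ∈ sub R {i : n | i ≠ k},
    ∃ y, J k (NonUnitalRingHom.id R) y = z := by
  refine sub_induction ⟨1, map_one _⟩ ?_ ?_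
  · intro i j h a hi hj
    exact ⟨x ⟨i, hi⟩ ⟨j, hj⟩ (fun e => h (congrArg Subtype.val e)) a, J_x _ _ _ _ _ _⟩
  · rintro _ _ _ _ ⟨y, rfl⟩ ⟨z, rfl⟩
    exact ⟨y * z, map_mul _ _ _⟩

theorem toGL_J (k : n) (ψ : R →ₙ+* R) (z : St {i : n // i ≠ k} R) :
    toGL (J k ψ z) = Units.map (hat ψ) (toGL (J k (NonUnitalRingHom.id R) z)) := by
  refine induction
    (P := fun z => toGL (J k ψ z) = Units.map (hat ψ) (toGL (J k (NonUnitalRingHom.id R) z)))
    ?_ ?_ ?_ z
  · simp
  · intro i j h a
    rw [J_x, J_x, toGL_x, toGL_x, hat_elem]; rfl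
  · intro y z hy hz
    simp only [map_mul, hy, hz]

/-- The element with block matrix `[[T, -(1 - T S)], [0, S]]`. -/
def wh (l k : n) (h : l ≠ k) (T S : R) : St n R :=
  x l k h T * x k l h.symm (-S) * x l k h T * x l k h (-1) * x k l h.symm 1 * x l k h (-1)

omit [Fintype n] [DecidableEq n] in
theorem wh_mem {s : Set n} {l k : n} (h : l ≠ k) (hl : l ∈ s) (hk : k ∈ s) (T S : R) :
    wh l k h T S ∈ sub R s := by
  unfold wh
  refine mul_mem (mul_mem (mul_mem (mul_mem (mul_mem ?_ ?_) ?_) ?_) ?_) ?_ <;>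
    apply x_mem_sub <;> assumption

theorem wh_mulVec {l k : n} (h : l ≠ k) {T S : R} (hST : S * T = 1) (i : n) (hi : i ≠ k) (c : R) :
    (toGL (wh l k h T S) : Matrix n n R) *ᵥ Pi.single i c =
      Pi.single i ((if i = l then T else 1) * c) := by
  simp only [wh, map_mul, toGL_x, Units.val_mul, ← mulVec_mulVec, elem_mulVec]
  funext p
  by_cases hil : i = l
  · subst hil
    by_cases hp : p = i
    · subst hp; simp [h, h.symm, ← mul_assoc, hST]
    by_cases hq : p = k
    · subst hq; simp [h, h.symm, ← mul_assoc, hST]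
    · simp [h, h.symm, hp, hq]
  · have hil' : l ≠ i := fun e => hil e.symm
    simp [hil, hil', hi.symm]

theorem vecMul_wh {l k : n} (h : l ≠ k) {T S : R} (hST : S * T = 1) (i : n) (hi : i ≠ k) (c : R) :
    Pi.single i c ᵥ* (((toGL (wh l k h T S))⁻¹ : (Matrix n n R)ˣ) : Matrix n n R) =
      Pi.single i (c * (if i = l then S else 1)) := by
  simp only [wh, map_mul, toGL_x, _root_.mul_inv_rev, elem_inv, Units.val_mul, ← vecMul_vecMul,
    vecMul_elem]
  funext p
  by_cases hil : i = l
  · subst hil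
    by_cases hp : p = i
    · subst hp; simp [h, h.symm, mul_assoc, hST]
    by_cases hq : p = k
    · subst hq; simp [h, h.symm, mul_assoc, hST]
    · simp [h, h.symm, hp, hq]
  · have hil' : l ≠ i := fun e => hil e.symm
    simp [hil, hil', hi.symm]

theorem wh_conj {l k : n} (h : l ≠ k) {T S : R} (hST : S * T = 1) (i j : n) (hij : i ≠ j)
    (hi : i ≠ k) (hj : j ≠ k) (a : R) :
    wh l k h T S * x i j hij a * (wh l k h T S)⁻¹ =
      x i j hij ((if i = l then T else 1) * a * (if j = l then S else 1)) := by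
  by_cases hjl : j = l
  · subst hjl
    have := conj_row i _ (wh_mem (s := {p : n | p ≠ i}) h hij.symm hi.symm T S) (Pi.single j a)
    rw [vecMul_wh h hST j hj, row_single, row_single, xx_ne hij, xx_ne hij] at this
    rw [this]; simp [hij]
  · have := conj_col j _ (wh_mem (s := {p : n | p ≠ j}) h (Ne.symm hjl) hj.symm T S)
      (Pi.single i a)
    rw [wh_mulVec h hST i hi, col_single, col_single, xx_ne hij, xx_ne hij] at this
    rw [this]; simp [hjl]

theorem exists_W_aux (k : n) {T S : R} (hST : S * T = 1) (A : Finset n) :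
    ∃ W : St n R,
      (∀ i, i ≠ k → ∀ c, (toGL W : Matrix n n R) *ᵥ Pi.single i c =
        Pi.single i ((if i ∈ A then T else 1) * c)) ∧
      (∀ i, i ≠ k → ∀ c, Pi.single i c ᵥ* (((toGL W)⁻¹ : (Matrix n n R)ˣ) : Matrix n n R) =
        Pi.single i (c * (if i ∈ A then S else 1))) ∧
      (∀ i j hij, i ≠ k → j ≠ k → ∀ a, W * x i j hij a * W⁻¹ =
        x i j hij ((if i ∈ A then T else 1) * a * (if j ∈ A then S else 1))) := by
  induction A using Finset.induction_on with
  | empty => exact ⟨1, by simp [-mulVec_single], by simp, by simp⟩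
  | insert l A hl ih =>
    obtain ⟨W, h1, h2, h3⟩ := ih
    by_cases h : l = k
    · subst h
      refine ⟨W, ?_, ?_, ?_⟩
      · intro i hi c; rw [h1 i hi]; simp [hi]
      · intro i hi c; rw [h2 i hi]; simp [hi]
      · intro i j hij hi hj a; rw [h3 i j hij hi hj]; simp [hi, hj]
    refine ⟨wh l k h T S * W, ?_, ?_, ?_⟩
    · intro i hi c
      rw [map_mul, Units.val_mul, ← mulVec_mulVec, h1 i hi, wh_mulVec h hST i hi]
      by_cases e : i = l
      · subst e; simp [hl]
      · simp [e]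
    · intro i hi c
      rw [map_mul, _root_.mul_inv_rev, Units.val_mul, ← vecMul_vecMul, h2 i hi,
        vecMul_wh h hST i hi]
      by_cases e : i = l
      · subst e; simp [hl]
      · simp [e]
    · intro i j hij hi hj a
      have e : wh l k h T S * W * x i j hij a * (wh l k h T S * W)⁻¹ =
          wh l k h T S * (W * x i j hij a * W⁻¹) * (wh l k h T S)⁻¹ := by group
      rw [e, h3 i j hij hi hj, wh_conj h hST i j hij hi hj]
      congr 1
      by_cases e1 : i = l <;> by_cases e2 : j = l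
      · exact absurd (e1.trans e2.symm) hij
      · subst e1; simp [hl, e2, mul_assoc]
      · subst e2; simp [hl, e1, mul_assoc]
      · simp [e1, e2]

/-- A matrix whose `k`-th row and column are those of the identity. -/
def Block (k : n) (g : Matrix n n R) : Prop := ∀ i, (g - 1) i k = 0 ∧ (g - 1) k i = 0

theorem Block.hat {k : n} {g : Matrix n n R} (hg : Block k g) (ψ : R →ₙ+* R) :
    Block k (hat ψ g) := by
  intro i
  rw [hat_apply, add_sub_cancel_left, Matrix.map_apply, Matrix.map_apply, (hg i).1, (hg i).2,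
    map_zero]
  exact ⟨rfl, rfl⟩

theorem exists_W (k : n) {T S : R} (hST : S * T = 1) :
    ∃ W : St n R,
      (∀ z, W * J k (NonUnitalRingHom.id R) z * W⁻¹ = J k (corner T S hST) z) ∧
      (∀ (ψ : R →ₙ+* R) z, W * J k ψ z * W⁻¹ = J k ((corner T S hST).comp ψ) z) ∧
      ∀ g : (Matrix n n R)ˣ, Block k (g : Matrix n n R) →
        toGL W * g * (toGL W)⁻¹ = Units.map (hat (corner T S hST)) g := by
  obtain ⟨W, h1, h2, h3⟩ := exists_W_aux k hST Finset.univ
  simp only [Finset.mem_univ, if_true] at h1 h2 h3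
  have key : ∀ (ψ : R →ₙ+* R) z, W * J k ψ z * W⁻¹ = J k ((corner T S hST).comp ψ) z := by
    intro ψ z
    refine induction (P := fun z => W * J k ψ z * W⁻¹ = J k ((corner T S hST).comp ψ) z)
      ?_ ?_ ?_ z
    · simp
    · intro i j h a
      rw [J_x, J_x, h3 _ _ _ i.2 j.2]; rfl
    · intro y z hy hz
      rw [map_mul, map_mul, ← hy, ← hz]; group
  refine ⟨W, fun z => key _ z, key, ?_⟩
  intro g hg
  ext1
  rw [Units.coe_map, hat_apply, Units.val_mul, Units.val_mul]
  have e : (g : Matrix n n R) = 1 + (g - 1) := by abel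
  conv_lhs => rw [e, mul_add, add_mul, mul_one, Units.mul_inv]
  congr 1
  conv_lhs => rw [Matrix.matrix_eq_sum_single ((g : Matrix n n R) - 1)]
  conv_rhs => rw [Matrix.matrix_eq_sum_single (((g : Matrix n n R) - 1).map _)]
  simp only [Finset.mul_sum, Finset.sum_mul]
  refine Finset.sum_congr rfl fun i _ => Finset.sum_congr rfl fun j _ => ?_
  by_cases hi : i = k
  · subst hi; simp [(hg j).2]
  by_cases hj : j = k
  · subst hj; simp [(hg i).1]
  rw [single_eq_vecMulVec, mul_vecMulVec, vecMulVec_mul, h1 i hi, h2 j hj]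
  ext p q
  simp only [vecMulVec_apply, Matrix.single_apply, Pi.single_apply, Matrix.map_apply,
    corner_apply, @eq_comm _ p, @eq_comm _ q]
  by_cases hp : i = p <;> by_cases hq : j = q <;> simp [hp, hq]

omit [Fintype n] in
theorem x_comm_orth (k : n) (ψ χ : R →ₙ+* R) (e : R) (he : ∀ a, ψ a * e = ψ a)
    (h1 : ∀ a b, χ b * ψ a = 0) (h2 : ∀ a b, ψ a * χ b = 0) (h3 : ∀ b, e * χ b = 0)
    (i j p q : n) (hij : i ≠ j) (hpq : p ≠ q) (hi : i ≠ k) (hj : j ≠ k) (hp : p ≠ k) (hq : q ≠ k)
    (a b : R) : Commute (x i j hij (ψ a)) (x p q hpq (χ b)) := by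
  have gen : ∀ (i j p q : n) (hij : i ≠ j) (hpq : p ≠ q) (u v : R), u * v = 0 → i ≠ q →
      Commute (x i j hij u) (x p q hpq v) := by
    intro i j p q hij hpq u v huv hiq
    by_cases hjp : j = p
    · subst hjp
      rw [← commutatorElement_eq_one_iff_commute, x_mul i j q hij hpq hiq, huv, x_zero]
    · exact x_comm _ _ _ _ _ _ hjp hiq _ _
  by_cases hiq : i = q
  · by_cases hjp : j = p
    · subst hiq; subst hjp
      rw [← he a, ← x_mul i k j hi hj.symm hij, commutatorElement_def]
      have c1 : Commute (x i k hi (ψ a)) (x j i hpq (χ b)) :=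
        (gen _ _ _ _ _ _ _ _ (h1 a b) hj).symm
      have c2 : Commute (x k j hj.symm e) (x j i hpq (χ b)) :=
        gen _ _ _ _ _ _ _ _ (h3 b) hi.symm
      exact ((c1.mul_left c2).mul_left c1.inv_left).mul_left c2.inv_left
    · exact (gen _ _ _ _ _ _ _ _ (h1 a b) (Ne.symm hjp)).symm
  · exact gen _ _ _ _ _ _ _ _ (h2 a b) hiq

omit [Fintype n] in
theorem J_comm (k : n) (ψ χ : R →ₙ+* R) (e : R) (he : ∀ a, ψ a * e = ψ a)
    (h1 : ∀ a b, χ b * ψ a = 0) (h2 : ∀ a b, ψ a * χ b = 0) (h3 : ∀ b, e * χ b = 0)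
    (y z : St {i : n // i ≠ k} R) : Commute (J k ψ y) (J k χ z) := by
  refine induction (P := fun y => Commute (J k ψ y) (J k χ z)) ?_ ?_ ?_ y
  · simp
  · intro i j h a
    refine induction (P := fun z => Commute (J k ψ (x i j h a)) (J k χ z)) ?_ ?_ ?_ z
    · simp
    · intro p q h' b
      rw [J_x, J_x]
      exact x_comm_orth k ψ χ e he h1 h2 h3 _ _ _ _ _ _ i.2 j.2 p.2 q.2 a b
    · intro u v hu hv
      rw [map_mul]; exact hu.mul_right hv
  · intro u v hu hv
    rw [map_mul]; exact hu.mul_left hv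

omit [Fintype n] in
theorem J_split (k : n) (φ ψ χ : R →ₙ+* R) (hφ : ∀ a, φ a = ψ a + χ a) (e : R)
    (he : ∀ a, ψ a * e = ψ a)
    (h1 : ∀ a b, χ b * ψ a = 0) (h2 : ∀ a b, ψ a * χ b = 0) (h3 : ∀ b, e * χ b = 0)
    (z : St {i : n // i ≠ k} R) : J k φ z = J k ψ z * J k χ z := by
  refine induction (P := fun z => J k φ z = J k ψ z * J k χ z) ?_ ?_ ?_ z
  · simp
  · intro i j h a
    rw [J_x, J_x, J_x, x_add, hφ]
  · intro u v hu hv
    rw [map_mul, map_mul, map_mul, hu, hv, mul_assoc, mul_assoc, ← mul_assoc (J k χ u),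
      ← (J_comm k ψ χ e he h1 h2 h3 v u).eq, mul_assoc]

theorem Block.mulVec_k {k : n} {g : Matrix n n R} (hg : Block k g) (v : n → R) :
    (g *ᵥ v) k = v k := by
  have e : g = 1 + (g - 1) := by abel
  rw [e, add_mulVec, one_mulVec, Pi.add_apply]
  simp [mulVec, dotProduct, fun i => (hg i).2, -Matrix.sub_apply]

theorem Block.vecMul_k {k : n} {g : Matrix n n R} (hg : Block k g) (v : n → R) :
    (v ᵥ* g) k = v k := by
  have e : g = 1 + (g - 1) := by abel
  rw [e, vecMul_add, vecMul_one, Pi.add_apply]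
  simp [vecMul, dotProduct, fun i => (hg i).1, -Matrix.sub_apply]

theorem Block.mulVec_single {k : n} {g : Matrix n n R} (hg : Block k g) :
    g *ᵥ Pi.single k 1 = Pi.single k 1 := by
  have e : g = 1 + (g - 1) := by abel
  rw [e, add_mulVec, one_mulVec, mulVec_single_one, add_eq_left]
  funext i; exact (hg i).1

theorem Block.single_vecMul {k : n} {g : Matrix n n R} (hg : Block k g) :
    Pi.single k 1 ᵥ* g = Pi.single k 1 := by
  have e : g = 1 + (g - 1) := by abel
  rw [e, vecMul_add, vecMul_one, single_one_vecMul, add_eq_left]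
  funext i; exact (hg i).2

theorem block_of {k : n} {g : Matrix n n R} (h1 : g *ᵥ Pi.single k 1 = Pi.single k 1)
    (h2 : Pi.single k 1 ᵥ* g = Pi.single k 1) : Block k g := by
  intro i
  rw [mulVec_single_one] at h1
  rw [single_one_vecMul] at h2
  have a := congrFun h1 i
  have b := congrFun h2 i
  simp only [Matrix.col_apply, Matrix.row_apply] at a b
  simp [Matrix.sub_apply, a, b, Matrix.one_apply, Pi.single_apply, eq_comm]

theorem Block.inv {k : n} {g : (Matrix n n R)ˣ} (hg : Block k (g : Matrix n n R)) :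
    Block k ((g⁻¹ : (Matrix n n R)ˣ) : Matrix n n R) := by
  apply block_of
  · conv_lhs => rw [← hg.mulVec_single, mulVec_mulVec, Units.inv_mul, one_mulVec]
  · conv_lhs => rw [← hg.single_vecMul, vecMul_vecMul, Units.mul_inv, vecMul_one]

/-- Block matrices normalise the elementary group. -/
theorem Block.conj_mem {k : n} {g : (Matrix n n R)ˣ} (hg : Block k (g : Matrix n n R))
    (z : St n R) : g * toGL z * g⁻¹ ∈ (toGL : St n R →* (Matrix n n R)ˣ).range := by
  refine induction_at k
    (P := fun z => g * toGL z * g⁻¹ ∈ (toGL : St n R →* (Matrix n n R)ˣ).range) ?_ ?_ ?_ ?_ z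
  · intro i h a
    refine ⟨col k ((g : Matrix n n R) *ᵥ Pi.single i a), ?_⟩
    ext1
    rw [toGL_col _ _ (by rw [hg.mulVec_k]; simp [h.symm]), toGL_x, Units.val_mul, Units.val_mul,
      elem_val, mul_add, add_mul, mul_one, Units.mul_inv, single_eq_vecMulVec, mul_vecMulVec,
      vecMulVec_mul, hg.inv.single_vecMul]
  · intro j h a
    refine ⟨row k (Pi.single j a ᵥ* ((g⁻¹ : (Matrix n n R)ˣ) : Matrix n n R)), ?_⟩
    ext1
    rw [toGL_row _ _ (by rw [hg.inv.vecMul_k]; simp [h]), toGL_x, Units.val_mul, Units.val_mul,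
      elem_val, mul_add, add_mul, mul_one, Units.mul_inv, single_eq_vecMulVec', mul_vecMulVec,
      vecMulVec_mul, hg.mulVec_single]
  · simp
  · intro y z hy hz
    have e : g * toGL (y * z) * g⁻¹ = (g * toGL y * g⁻¹) * (g * toGL z * g⁻¹) := by
      rw [map_mul]; group
    rw [e]; exact mul_mem hy hz

end St

open St

theorem stab_inj (H : Hyp R) (hn : 4 ≤ Fintype.card n) (k : n) :
    ∀ z ∈ St.sub R {i : n | i ≠ k}, St.toGL z = 1 → z = 1 := by
  intro z hz h1
  obtain ⟨y, rfl⟩ := exists_J k z hz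
  obtain ⟨T0, S0, T1, S1, φ, h00, h11, h01, h10, hφ⟩ := H.sum
  obtain ⟨W0, hW0, -, -⟩ := exists_W k h00
  obtain ⟨W1, -, hW1, -⟩ := exists_W k h11
  have key := J_split k φ (corner T0 S0 h00) ((corner T1 S1 h11).comp φ) hφ (T0 * S0)
    (fun a => by
      calc T0 * a * S0 * (T0 * S0) = T0 * a * (S0 * T0) * S0 := by noncomm_ring
        _ = T0 * a * S0 := by rw [h00, mul_one])
    (fun a b => by
      calc T1 * φ b * S1 * (T0 * a * S0) = T1 * φ b * (S1 * T0) * a * S0 := by noncomm_ring
        _ = 0 := by simp [h10])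
    (fun a b => by
      calc T0 * a * S0 * (T1 * φ b * S1) = T0 * a * (S0 * T1) * φ b * S1 := by noncomm_ring
        _ = 0 := by simp [h01])
    (fun b => by
      calc T0 * S0 * (T1 * φ b * S1) = T0 * (S0 * T1) * φ b * S1 := by noncomm_ring
        _ = 0 := by simp [h01]) y
  have c0 := central_of_toGL k _ hz h1 W0
  have c1 := central_of_toGL k _ (J_mem k φ y) (by rw [toGL_J, h1, map_one]) W1
  rw [← hW0, ← hW1, ← mul_inv_eq_iff_eq_mul.1 c0, ← mul_inv_eq_iff_eq_mul.1 c1,
    mul_inv_cancel_right, mul_inv_cancel_right] at key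
  exact right_eq_mul.1 key

theorem stab_mem (H : Hyp R) (hn : 2 ≤ Fintype.card n) (k : n) (g : (Matrix n n R)ˣ)
    (hg : actV g (stdV R k) = stdV R k) : g ∈ (St.toGL : St n R →* (Matrix n n R)ˣ).range := by
  have hb : Block k (g : Matrix n n R) := by
    have h1 : (g : Matrix n n R) *ᵥ Pi.single k 1 = Pi.single k 1 := congrArg Prod.fst hg
    have h2 : Pi.single k 1 ᵥ* ((g⁻¹ : (Matrix n n R)ˣ) : Matrix n n R) = Pi.single k 1 :=
      congrArg Prod.snd hg
    refine block_of h1 ?_
    conv_lhs => rw [← h2, vecMul_vecMul, Units.inv_mul, vecMul_one]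
  obtain ⟨T0, S0, T1, S1, φ, h00, h11, h01, h10, hφ⟩ := H.sum
  obtain ⟨W0, -, -, hW0⟩ := exists_W k h00
  obtain ⟨W1, -, -, hW1⟩ := exists_W k h11
  set h := Units.map (hat φ) g with hh
  have hb' : Block k (h : Matrix n n R) := hb.hat φ
  have key : h = Units.map (hat (corner T0 S0 h00)) g * Units.map (hat (corner T1 S1 h11)) h := by
    ext1
    simp only [hh, Units.val_mul, Units.coe_map, hat_apply, add_sub_cancel_left]
    have e : ((g : Matrix n n R) - 1).map (corner T0 S0 h00) *
        (((g : Matrix n n R) - 1).map φ).map (corner T1 S1 h11) = 0 := by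
      ext i j
      rw [Matrix.mul_apply]
      refine Finset.sum_eq_zero fun l _ => ?_
      simp only [Matrix.map_apply, corner_apply]
      have : ∀ a b : R, T0 * a * S0 * (T1 * b * S1) = T0 * a * (S0 * T1) * b * S1 := by
        intro a b; noncomm_ring
      rw [this, h01]; simp
    rw [mul_add, add_mul, add_mul, mul_one, mul_one, one_mul, e, add_zero, add_assoc]
    congr 1
    ext i j
    simp only [Matrix.map_apply, Matrix.add_apply, corner_apply]
    exact hφ _
  rw [← hW0 g hb, ← hW1 h hb'] at key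
  have e : g = (toGL W0)⁻¹ * (h * toGL W1 * h⁻¹ * (toGL W1)⁻¹) * toGL W0 := by
    have : g = (toGL W0)⁻¹ * (h * (toGL W1 * h * (toGL W1)⁻¹)⁻¹) * toGL W0 := by
      conv_rhs => rw [mul_inv_eq_iff_eq_mul.2 key]
      group
    rw [this]; group
  rw [e]
  exact mul_mem (mul_mem (inv_mem ⟨W0, rfl⟩)
    (mul_mem (hb'.conj_mem W1) (inv_mem ⟨W1, rfl⟩))) ⟨W0, rfl⟩

end Vale.Agent.P193
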