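import Vale.Agent.P193.StSwindle

/-!
P193, part A3: transitivity on vertices, surjectivity of `St_n(R) → GL_n(R)` and simplicity.
-/

open scoped commutatorElement

namespace Vale.Agent.P193

open Matrix

variable {n R : Type} [Ring R] [Fintype n] [DecidableEq n]

namespace StTr

theorem actV_one (v : Pr n R) : actV 1 v = v := by
  simp [actV]

theorem actV_mul (g h : (Matrix n n R)ˣ) (v : Pr n R) : actV (g * h) v = actV g (actV h v) := by
  simp [actV, mulVec_mulVec, vecMul_vecMul]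

theorem actV_inv_actV (g : (Matrix n n R)ˣ) (v : Pr n R) : actV g⁻¹ (actV g v) = v := by
  rw [← actV_mul, inv_mul_cancel, actV_one]

theorem actV_actV_inv (g : (Matrix n n R)ˣ) (v : Pr n R) : actV g (actV g⁻¹ v) = v := by
  rw [← actV_mul, mul_inv_cancel, actV_one]

theorem dot_actV (g : (Matrix n n R)ˣ) (v w : Pr n R) :
    (actV g v).2 ⬝ᵥ (actV g w).1 = v.2 ⬝ᵥ w.1 := by
  simp only [actV]
  rw [dotProduct_mulVec, vecMul_vecMul, Units.inv_mul, vecMul_one]

theorem isV_actV (g : (Matrix n n R)ˣ) {v : Pr n R} (h : IsV v) : IsV (actV g v) := by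
  unfold IsV
  rw [dot_actV]
  exact h

theorem orth_actV (g : (Matrix n n R)ˣ) {v w : Pr n R} (h : Orth v w) :
    Orth (actV g v) (actV g w) := by
  unfold Orth
  rw [dot_actV, dot_actV]
  exact h

omit [DecidableEq n] in
theorem orth_symm {v w : Pr n R} (h : Orth v w) : Orth w v := ⟨h.2, h.1⟩

omit [DecidableEq n] in
theorem dot_shrink (v w : Pr n R) (a b a' b' : R) :
    (shrinkV v a b).2 ⬝ᵥ (shrinkV w a' b').1 = b * (v.2 ⬝ᵥ w.1) * a' := by
  simp [shrinkV, dotProduct, Finset.mul_sum, Finset.sum_mul, mul_assoc]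

omit [DecidableEq n] in
theorem isV_shrink {v : Pr n R} (h : IsV v) {a b : R} (hab : b * a = 1) :
    IsV (shrinkV v a b) := by
  unfold IsV at h ⊢
  rw [dot_shrink, h, mul_one, hab]

omit [Fintype n] [DecidableEq n] in
theorem shrinkV_one (v : Pr n R) : shrinkV v 1 1 = v := by
  simp [shrinkV]

omit [DecidableEq n] in
theorem orth_shrink {v w : Pr n R} (h : Orth v w) (a b a' b' : R) :
    Orth (shrinkV v a b) (shrinkV w a' b') := by
  unfold Orth
  rw [dot_shrink, dot_shrink, h.1, h.2]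
  simp

omit [DecidableEq n] in
theorem orth_shrink_left {v w : Pr n R} (h : Orth v w) (a b : R) : Orth (shrinkV v a b) w := by
  simpa only [shrinkV_one] using orth_shrink h a b 1 1

theorem std_dot (k : n) (w : Pr n R) : (stdV R k).2 ⬝ᵥ w.1 = w.1 k := by
  simp [stdV]

theorem dot_std (k : n) (w : Pr n R) : w.2 ⬝ᵥ (stdV R k).1 = w.2 k := by
  simp [stdV]

theorem orth_std_iff (k : n) (w : Pr n R) : Orth (stdV R k) w ↔ w.1 k = 0 ∧ w.2 k = 0 := by
  unfold Orth
  rw [std_dot, dot_std]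

theorem isV_std (k : n) : IsV (stdV R k) := by
  simp [IsV, stdV]

theorem orth_std {k l : n} (h : k ≠ l) : Orth (stdV R k) (stdV R l) := by
  rw [orth_std_iff]
  simp [stdV, h]

omit [DecidableEq n] in
/-- Simultaneous shrinking: finitely many pairs have many mutually orthogonal subpairs. -/
theorem smr (H : Hyp R) (W : Finset (Pr n R)) : ∃ a b : ℕ → R, (∀ i, b i * a i = 1) ∧
    ∀ i j, i ≠ j → ∀ v ∈ W, ∀ w ∈ W, Orth (shrinkV v (a i) (b i)) (shrinkV w (a j) (b j)) := by
  classical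
  obtain ⟨a, b, h1, h2, -⟩ := H.exz ((W ×ˢ W).image fun p => p.1.2 ⬝ᵥ p.2.1)
  refine ⟨a, b, h1, fun i j hij v hv w hw => ⟨?_, ?_⟩⟩ <;> rw [dot_shrink]
  · exact h2 i j hij _ (Finset.mem_image.2 ⟨(v, w), Finset.mk_mem_product hv hw, rfl⟩)
  · exact h2 j i hij.symm _ (Finset.mem_image.2 ⟨(w, v), Finset.mk_mem_product hw hv, rfl⟩)

/-- The transvection `1 + T S` for `S T = 0`. -/
def tv (T S : n → R) (h : S ⬝ᵥ T = 0) : (Matrix n n R)ˣ where
  val := 1 + vecMulVec T S
  inv := 1 - vecMulVec T S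
  val_inv := by simp [add_mul, mul_sub, vecMulVec_mul_vecMulVec, h]
  inv_val := by simp [sub_mul, mul_add, vecMulVec_mul_vecMulVec, h]

theorem tv_val (T S : n → R) (h : S ⬝ᵥ T = 0) :
    ((tv T S h : (Matrix n n R)ˣ) : Matrix n n R) = 1 + vecMulVec T S := rfl

theorem tv_inv_val (T S : n → R) (h : S ⬝ᵥ T = 0) :
    (((tv T S h)⁻¹ : (Matrix n n R)ˣ) : Matrix n n R) = 1 - vecMulVec T S := rfl

theorem actV_tv (T S : n → R) (h : S ⬝ᵥ T = 0) (v : Pr n R) :
    actV (tv T S h) v = (fun i => v.1 i + T i * (S ⬝ᵥ v.1), fun i => v.2 i - (v.2 ⬝ᵥ T) * S i) := by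
  unfold actV
  rw [tv_val, tv_inv_val, add_mulVec, one_mulVec, vecMul_sub, vecMul_one, vecMulVec_mulVec,
    vecMul_vecMulVec]
  rfl

theorem tv_conj (g : (Matrix n n R)ˣ) (T S : n → R) (h : S ⬝ᵥ T = 0) (T' S' : n → R)
    (h' : S' ⬝ᵥ T' = 0) (e : actV g (T, S) = (T', S')) : g * tv T S h * g⁻¹ = tv T' S' h' := by
  obtain ⟨rfl, rfl⟩ := Prod.ext_iff.1 e
  ext1
  rw [Units.val_mul, Units.val_mul, tv_val, tv_val, mul_add, add_mul, mul_one, Units.mul_inv,
    mul_vecMulVec, vecMulVec_mul]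
  rfl

theorem tv_add_left (T T' S : n → R) (h : S ⬝ᵥ T = 0) (h' : S ⬝ᵥ T' = 0)
    (h'' : S ⬝ᵥ (T + T') = 0) : tv (T + T') S h'' = tv T S h * tv T' S h' := by
  ext1
  simp only [Units.val_mul, tv_val, add_mul, mul_add, one_mul, mul_one, vecMulVec_mul_vecMulVec,
    h', zero_smul, vecMulVec_zero, add_zero, add_vecMulVec, add_assoc]

theorem tv_add_right (T S S' : n → R) (h : S ⬝ᵥ T = 0) (h' : S' ⬝ᵥ T = 0)
    (h'' : (S + S') ⬝ᵥ T = 0) : tv T (S + S') h'' = tv T S h * tv T S' h' := by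
  ext1
  simp only [Units.val_mul, tv_val, add_mul, mul_add, one_mul, mul_one, vecMulVec_mul_vecMulVec,
    h, zero_smul, vecMulVec_zero, add_zero, vecMulVec_add, add_assoc]

theorem elem_eq_tv (i j : n) (h : i ≠ j) (a b : R)
    (h' : (Pi.single j b : n → R) ⬝ᵥ Pi.single i a = 0) :
    St.elem i j h (a * b) = tv (Pi.single i a) (Pi.single j b) h' := by
  ext p q
  simp only [St.elem, tv_val, Matrix.add_apply, vecMulVec_apply, single_apply, Pi.single_apply]
  by_cases h1 : i = p <;> by_cases h2 : j = q <;> simp [h1, h2, eq_comm]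

theorem single_dot_single {i j : n} (h : i ≠ j) (a b : R) :
    (Pi.single j b : n → R) ⬝ᵥ Pi.single i a = 0 := by
  simp [h.symm]

/-- The image of the subgroup `St.sub R s` in the general linear group. -/
def EE (R : Type) [Ring R] (s : Finset n) : Subgroup (Matrix n n R)ˣ :=
  (St.sub R (s : Set n)).map St.toGL

theorem elem_mem_EE {s : Finset n} {i j : n} (h : i ≠ j) (hi : i ∈ s) (hj : j ∈ s) (a : R) :
    St.elem i j h a ∈ EE R s :=
  ⟨St.x i j h a, Subgroup.subset_closure ⟨i, j, h, a, hi, hj, rfl⟩, St.toGL_x i j h a⟩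

theorem EE_induction {s : Finset n} {K : Subgroup (Matrix n n R)ˣ}
    (hK : ∀ i j (h : i ≠ j) a, i ∈ s → j ∈ s → St.elem i j h a ∈ K) : EE R s ≤ K := by
  rw [EE, Subgroup.map_le_iff_le_comap, St.sub, Subgroup.closure_le]
  rintro _ ⟨i, j, h, a, hi, hj, rfl⟩
  simpa using hK i j h a hi hj

theorem row_mem {s : Finset n} {k : n} (hk : k ∈ s) (S : n → R) (hS : ∀ i, i ∉ s → S i = 0)
    (h : S ⬝ᵥ Pi.single k 1 = 0) : tv (Pi.single k 1) S h ∈ EE R s := by
  have key : ∀ t : Finset n, t ⊆ s.erase k → ∀ h : (∑ j ∈ t, Pi.single j (S j)) ⬝ᵥ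
      (Pi.single k 1 : n → R) = 0, tv (Pi.single k 1) (∑ j ∈ t, Pi.single j (S j)) h ∈ EE R s := by
    intro t
    induction t using Finset.induction_on with
    | empty =>
      intro _ h
      have : tv (Pi.single k 1) (∑ j ∈ ∅, Pi.single j (S j)) h = 1 := by
        ext1; simp [tv_val]
      rw [this]
      exact Subgroup.one_mem _
    | insert j t hj ih =>
      intro ht h
      have hjk := Finset.mem_erase.1 (ht (Finset.mem_insert_self j t))
      have h1 := single_dot_single (R := R) hjk.1.symm 1 (S j)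
      have h2 : (∑ j ∈ t, Pi.single j (S j)) ⬝ᵥ (Pi.single k 1 : n → R) = 0 := by
        rwa [Finset.sum_insert hj, add_dotProduct, h1, zero_add] at h
      simp only [Finset.sum_insert hj]
      rw [tv_add_right _ _ _ h1 h2, ← elem_eq_tv k j hjk.1.symm]
      exact Subgroup.mul_mem _ (elem_mem_EE _ hk hjk.2 _)
        (ih ((Finset.subset_insert j t).trans ht) h2)
  have e : S = ∑ j ∈ s.erase k, Pi.single j (S j) := by
    funext i
    rw [Finset.sum_apply, Finset.sum_pi_single]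
    split_ifs with hi
    · rfl
    · by_cases hik : i = k
      · simpa [hik] using h
      · exact hS i fun his => hi (Finset.mem_erase.2 ⟨hik, his⟩)
  have := key _ subset_rfl (e ▸ h)
  simpa only [← e] using this

theorem col_mem {s : Finset n} {k : n} (hk : k ∈ s) (T : n → R) (hT : ∀ i, i ∉ s → T i = 0)
    (h : Pi.single k 1 ⬝ᵥ T = 0) : tv T (Pi.single k 1) h ∈ EE R s := by
  have key : ∀ t : Finset n, t ⊆ s.erase k → ∀ h : (Pi.single k 1 : n → R) ⬝ᵥ
      (∑ j ∈ t, Pi.single j (T j)) = 0,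
      tv (∑ j ∈ t, Pi.single j (T j)) (Pi.single k 1) h ∈ EE R s := by
    intro t
    induction t using Finset.induction_on with
    | empty =>
      intro _ h
      have : tv (∑ j ∈ ∅, Pi.single j (T j)) (Pi.single k 1) h = 1 := by
        ext1; simp [tv_val]
      rw [this]
      exact Subgroup.one_mem _
    | insert j t hj ih =>
      intro ht h
      have hjk := Finset.mem_erase.1 (ht (Finset.mem_insert_self j t))
      have h1 := single_dot_single (R := R) hjk.1 (T j) 1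
      have h2 : (Pi.single k 1 : n → R) ⬝ᵥ (∑ j ∈ t, Pi.single j (T j)) = 0 := by
        rwa [Finset.sum_insert hj, dotProduct_add, h1, zero_add] at h
      simp only [Finset.sum_insert hj]
      rw [tv_add_left _ _ _ h1 h2, ← elem_eq_tv j k hjk.1]
      exact Subgroup.mul_mem _ (elem_mem_EE _ hjk.2 hk _)
        (ih ((Finset.subset_insert j t).trans ht) h2)
  have e : T = ∑ j ∈ s.erase k, Pi.single j (T j) := by
    funext i
    rw [Finset.sum_apply, Finset.sum_pi_single]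
    split_ifs with hi
    · rfl
    · by_cases hik : i = k
      · simpa [hik] using h
      · exact hT i fun his => hi (Finset.mem_erase.2 ⟨hik, his⟩)
  have := key _ subset_rfl (e ▸ h)
  simpa only [← e] using this

/-- The stabiliser of a pair. -/
def stab (v : Pr n R) : Subgroup (Matrix n n R)ˣ where
  carrier := {g | actV g v = v}
  one_mem' := actV_one v
  mul_mem' := fun {g h} hg hh => by
    change actV (g * h) v = v
    rw [actV_mul, hh, hg]
  inv_mem' := fun {g} hg => by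
    change actV g⁻¹ v = v
    conv_lhs => rw [← hg]
    exact actV_inv_actV g v

theorem EE_fix {s : Finset n} {g : (Matrix n n R)ˣ} (hg : g ∈ EE R s) {k : n} (hk : k ∉ s) :
    actV g (stdV R k) = stdV R k := by
  refine EE_induction (K := stab (stdV R k)) (fun i j h a hi hj => ?_) hg
  change actV _ _ = _
  have hik : i ≠ k := fun e => hk (e ▸ hi)
  have hjk : j ≠ k := fun e => hk (e ▸ hj)
  rw [← mul_one a, elem_eq_tv i j h a 1 (single_dot_single h a 1), actV_tv]
  simp only [stdV, single_dot_single hik, single_dot_single hjk.symm, mul_zero, zero_mul,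
    add_zero, sub_zero]

/-- The pair `v` is supported in `s`. -/
def Supp (s : Finset n) (v : Pr n R) : Prop := ∀ i, i ∉ s → v.1 i = 0 ∧ v.2 i = 0

theorem supp_actV {s : Finset n} {g : (Matrix n n R)ˣ}
    (hg : ∀ k, k ∉ s → actV g (stdV R k) = stdV R k) {v : Pr n R} (hv : Supp s v) :
    Supp s (actV g v) := by
  intro i hi
  rw [← orth_std_iff, ← hg i hi]
  exact orth_actV g ((orth_std_iff i v).2 (hv i hi))

theorem supp_std {s : Finset n} {k : n} (hk : k ∈ s) : Supp s (stdV R k) := fun i hi =>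
  (orth_std_iff i _).1 (orth_std fun e => hi (e ▸ hk))

omit [Fintype n] [DecidableEq n] in
theorem supp_shrink {s : Finset n} {v : Pr n R} (hv : Supp s v) (a b : R) :
    Supp s (shrinkV v a b) := fun i hi => by
  simp [shrinkV, hv i hi]

theorem swap_mem {s : Finset n} {k : n} (hk : k ∈ s) {w : Pr n R} (hw : IsV w) (hs : Supp s w)
    (h : Orth (stdV R k) w) : ∃ g ∈ EE R s, actV g (stdV R k) = w := by
  obtain ⟨h1, h2⟩ := (orth_std_iff k w).1 h
  have e1 : (-w.2) ⬝ᵥ (Pi.single k 1 : n → R) = 0 := by simp [h2]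
  have e2 : (Pi.single k 1 : n → R) ⬝ᵥ w.1 = 0 := by simp [h1]
  have m1 := row_mem hk (-w.2) (fun i hi => by simp [(hs i hi).2]) e1
  have m2 := col_mem hk w.1 (fun i hi => (hs i hi).1) e2
  refine ⟨_, Subgroup.mul_mem _ m1 (Subgroup.mul_mem _ m2 m1), ?_⟩
  unfold IsV at hw
  have a1 : actV (tv _ _ e1) (stdV R k) = (Pi.single k 1, Pi.single k 1 + w.2) := by
    rw [actV_tv]
    ext i <;> simp [stdV, h2]
  have a2 : actV (tv _ _ e2) (Pi.single k 1, Pi.single k 1 + w.2) =
      (Pi.single k 1 + w.1, w.2) := by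
    rw [actV_tv]
    ext i <;> simp [h1, hw]
  have a3 : actV (tv _ _ e1) (Pi.single k 1 + w.1, w.2) = w := by
    rw [actV_tv]
    ext i <;> simp [h2, hw]
  rw [actV_mul, actV_mul, a1, a2, a3]

theorem orb_step {s : Finset n} {k : n} (hk : k ∈ s) {v w : Pr n R}
    (hv : ∃ g ∈ EE R s, actV g (stdV R k) = v) (hw : IsV w) (hs : Supp s w) (h : Orth v w) :
    ∃ g ∈ EE R s, actV g (stdV R k) = w := by
  obtain ⟨g, hg, rfl⟩ := hv
  have h1 := orth_actV g⁻¹ h
  rw [actV_inv_actV] at h1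
  obtain ⟨g', hg', e⟩ := swap_mem hk (isV_actV g⁻¹ hw)
    (supp_actV (fun i hi => EE_fix (Subgroup.inv_mem _ hg) hi) hs) h1
  exact ⟨g * g', Subgroup.mul_mem _ hg hg', by rw [actV_mul, e, actV_actV_inv]⟩

theorem trans_EE (H : Hyp R) (s : Finset n) (hs : 2 ≤ s.card) (k : n) (hk : k ∈ s)
    (v w : Pr n R) (hv : IsV v) (hw : IsV w) (hvw : Orth v w) (hvs : Supp s v) (hws : Supp s w) :
    ∃ g ∈ EE R s, actV g (stdV R k) = v := by
  classical
  obtain ⟨l, hl, hlk⟩ := Finset.exists_mem_ne (lt_of_lt_of_le one_lt_two hs) k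
  obtain ⟨a, b, hab, ho⟩ := smr H {stdV R k, w}
  have s0 : ∃ g ∈ EE R s, actV g (stdV R k) = stdV R k := ⟨1, Subgroup.one_mem _, actV_one _⟩
  have s1 := orb_step hk s0 (isV_std l) (supp_std hl) (orth_std hlk.symm)
  have s2 := orb_step hk s1 (isV_shrink (isV_std k) (hab 0)) (supp_shrink (supp_std hk) _ _)
    (orth_symm (orth_shrink_left (orth_std hlk.symm) _ _))
  have s3 := orb_step hk s2 (isV_shrink hw (hab 1)) (supp_shrink hws _ _)
    (ho 0 1 zero_ne_one _ (by simp) _ (by simp))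
  exact orb_step hk s3 hv hvs (orth_shrink_left (orth_symm hvw) _ _)

/-- Extension of a matrix indexed by `s` by the identity. -/
def extM (R : Type) [Ring R] (s : Finset n) : Matrix s s R →* Matrix n n R where
  toFun M := (fromBlocks M 0 0 (1 : Matrix {i // i ∉ s} {i // i ∉ s} R)).submatrix
    (Equiv.sumCompl (· ∈ s)).symm (Equiv.sumCompl (· ∈ s)).symm
  map_one' := by rw [fromBlocks_one, submatrix_one_equiv]
  map_mul' M N := by
    rw [submatrix_mul_equiv, fromBlocks_multiply]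
    simp

theorem extM_apply (s : Finset n) (M : Matrix s s R) (i j : n) :
    extM R s M i j = if hi : i ∈ s then (if hj : j ∈ s then M ⟨i, hi⟩ ⟨j, hj⟩ else 0)
      else if i = j then 1 else 0 := by
  change (fromBlocks M 0 0 (1 : Matrix {i // i ∉ s} {i // i ∉ s} R))
    ((Equiv.sumCompl (· ∈ s)).symm i) ((Equiv.sumCompl (· ∈ s)).symm j) = _
  by_cases hi : i ∈ s <;> by_cases hj : j ∈ s
  · simp [Equiv.sumCompl_symm_apply_of_pos, hi, hj]
  · simp [Equiv.sumCompl_symm_apply_of_pos, Equiv.sumCompl_symm_apply_of_neg, hi, hj]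
  · have : i ≠ j := fun e => hi (e ▸ hj)
    simp [Equiv.sumCompl_symm_apply_of_pos, Equiv.sumCompl_symm_apply_of_neg, hi, hj, this]
  · simp [Equiv.sumCompl_symm_apply_of_neg, hi, hj, one_apply]

theorem extM_injective (s : Finset n) : Function.Injective (extM R s) := by
  intro M N h
  ext i j
  have := congrFun (congrFun h i) j
  simpa [extM_apply] using this

theorem extM_elem (s : Finset n) (i j : s) (h : i ≠ j) (a : R) :
    Units.map (extM R s) (St.elem i j h a) =
      St.elem (i : n) (j : n) (fun e => h (Subtype.ext e)) a := by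
  ext p q
  simp only [Units.coe_map, extM_apply, St.elem, Matrix.add_apply, one_apply, single_apply,
    Subtype.ext_iff]
  by_cases hp : p ∈ s <;> by_cases hq : q ∈ s
  · simp [hp, hq]
  · have h1 : p ≠ q := fun e => hq (e ▸ hp)
    have h2 : (j : n) ≠ q := fun e => hq (e ▸ j.2)
    simp [hp, hq, h1, h2]
  · have h2 : (i : n) ≠ p := fun e => hp (e ▸ i.2)
    simp [hp, h2]
  · have h2 : (i : n) ≠ p := fun e => hp (e ▸ i.2)
    simp [hp, h2]

theorem extM_range (s : Finset n) (z : St s R) : Units.map (extM R s) (St.toGL z) ∈ EE R s := by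
  have : (⊤ : Subgroup (St s R)) ≤ ((EE R s).comap (Units.map (extM R s))).comap St.toGL := by
    rw [← St.closure_x, Subgroup.closure_le]
    rintro _ ⟨i, j, h, a, rfl⟩
    simp only [SetLike.mem_coe, Subgroup.mem_comap, St.toGL_x, extM_elem]
    exact elem_mem_EE _ i.2 j.2 a
  exact this (Subgroup.mem_top z)

theorem col_of_fix {g : (Matrix n n R)ˣ} {k : n} (h : actV g (stdV R k) = stdV R k) (i : n) :
    (g : Matrix n n R) i k = if i = k then 1 else 0 := by
  have := congrFun (congrArg Prod.fst h) i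
  simpa [actV, stdV, Pi.single_apply] using this

theorem row_of_fix {g : (Matrix n n R)ˣ} {k : n} (h : actV g (stdV R k) = stdV R k) (i : n) :
    (g : Matrix n n R) k i = if k = i then 1 else 0 := by
  have h' : actV g⁻¹ (stdV R k) = stdV R k := (stab (stdV R k)).inv_mem h
  have := congrFun (congrArg Prod.snd h') i
  simpa [actV, stdV, Pi.single_apply, eq_comm] using this

theorem extM_submatrix {s : Finset n} {g : (Matrix n n R)ˣ}
    (hg : ∀ k, k ∉ s → actV g (stdV R k) = stdV R k) :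
    extM R s ((g : Matrix n n R).submatrix Subtype.val Subtype.val) = g := by
  ext i j
  rw [extM_apply]
  split_ifs with hi hj h
  · rfl
  · rw [col_of_fix (hg j hj), if_neg fun e : i = j => hj (e ▸ hi)]
  · rw [row_of_fix (hg i hi), if_pos h]
  · rw [row_of_fix (hg i hi), if_neg h]

theorem exists_res {s : Finset n} {g : (Matrix n n R)ˣ}
    (hg : ∀ k, k ∉ s → actV g (stdV R k) = stdV R k) :
    ∃ g' : (Matrix s s R)ˣ, Units.map (extM R s) g' = g := by
  have hg' : ∀ k, k ∉ s → actV g⁻¹ (stdV R k) = stdV R k := fun k hk =>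
    (stab (stdV R k)).inv_mem (hg k hk)
  refine ⟨⟨(g : Matrix n n R).submatrix Subtype.val Subtype.val,
    ((g⁻¹ : (Matrix n n R)ˣ) : Matrix n n R).submatrix Subtype.val Subtype.val,
    extM_injective s ?_, extM_injective s ?_⟩, Units.ext (extM_submatrix hg)⟩
  · rw [map_mul, extM_submatrix hg, extM_submatrix hg', map_one, Units.mul_inv]
  · rw [map_mul, extM_submatrix hg, extM_submatrix hg', map_one, Units.inv_mul]

theorem fix_EE (H : Hyp R) (s : Finset n) (hs : 2 ≤ s.card) (g : (Matrix n n R)ˣ)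
    (hg : ∀ k, k ∉ s → actV g (stdV R k) = stdV R k) : g ∈ EE R s := by
  obtain ⟨k, hk, l, hl, hkl⟩ := Finset.one_lt_card.1 (lt_of_lt_of_le one_lt_two hs)
  obtain ⟨h, hh, e⟩ := trans_EE H s hs k hk _ _ (isV_actV g (isV_std k)) (isV_actV g (isV_std l))
    (orth_actV g (orth_std hkl)) (supp_actV hg (supp_std hk)) (supp_actV hg (supp_std hl))
  have h1 : actV (h⁻¹ * g) (stdV R k) = stdV R k := by rw [actV_mul, ← e, actV_inv_actV]
  have h2 : ∀ i, i ∉ s → actV (h⁻¹ * g) (stdV R i) = stdV R i := fun i hi => by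
    rw [actV_mul, hg i hi, EE_fix (Subgroup.inv_mem _ hh) hi]
  obtain ⟨g', hg'⟩ := exists_res h2
  have h1' : actV (h⁻¹ * g)⁻¹ (stdV R k) = stdV R k := (stab (stdV R k)).inv_mem h1
  rw [← hg'] at h1 h1'
  rw [← map_inv] at h1'
  have h3 : actV g' (stdV R (⟨k, hk⟩ : s)) = stdV R (⟨k, hk⟩ : s) := by
    ext i
    · have := col_of_fix h1 i
      simpa [extM_apply, hk, actV, stdV, Pi.single_apply, Subtype.ext_iff] using this
    · have := row_of_fix h1' i
      simpa [extM_apply, hk, actV, stdV, Pi.single_apply, Subtype.ext_iff, eq_comm] using this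
  obtain ⟨z, rfl⟩ := stab_mem H (by simpa using hs) _ g' h3
  have := Subgroup.mul_mem _ hh (hg' ▸ extM_range s z)
  rwa [mul_inv_cancel_left] at this

theorem trans_pair (H : Hyp R) (hn : 3 ≤ Fintype.card n) {i j : n} (hij : i ≠ j)
    {v1 v2 v3 : Pr n R} (h1 : IsV v1) (h2 : IsV v2) (h3 : IsV v3) (h12 : Orth v1 v2)
    (h13 : Orth v1 v3) (h23 : Orth v2 v3) :
    ∃ g : (Matrix n n R)ˣ, actV g (stdV R i) = v1 ∧ actV g (stdV R j) = v2 := by
  obtain ⟨g, -, rfl⟩ := trans_EE H Finset.univ (by rw [Finset.card_univ]; omega) i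
    (Finset.mem_univ i) v1 v2 h1 h2 h12 (fun _ h => absurd (Finset.mem_univ _) h)
    fun _ h => absurd (Finset.mem_univ _) h
  have hs : ∀ v, Orth (actV g (stdV R i)) v → Supp (Finset.univ.erase i) (actV g⁻¹ v) := by
    intro v hv k hk
    obtain rfl : k = i := by simpa using hk
    have := orth_actV g⁻¹ hv
    rwa [actV_inv_actV, orth_std_iff] at this
  obtain ⟨g', hg', e⟩ := trans_EE H (Finset.univ.erase i)
    (by rw [Finset.card_erase_of_mem (Finset.mem_univ i), Finset.card_univ]; omega) j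
    (by simp [hij.symm]) _ _ (isV_actV g⁻¹ h2) (isV_actV g⁻¹ h3) (orth_actV g⁻¹ h23)
    (hs v2 h12) (hs v3 h13)
  refine ⟨g * g', ?_, ?_⟩
  · rw [actV_mul, EE_fix hg' (by simp)]
  · rw [actV_mul, e, actV_actV_inv]

theorem conj_tv_mem {N : Subgroup (Matrix n n R)ˣ} (hN : N.Normal) {g : (Matrix n n R)ˣ}
    (hg : g ∈ N) (T S : n → R) (h : S ⬝ᵥ T = 0) (T' S' : n → R)
    (h' : S' ⬝ᵥ T' = 0) (e : actV g (T, S) = (T', S')) : tv T' S' h' * (tv T S h)⁻¹ ∈ N := by
  rw [← tv_conj g T S h T' S' h' e, mul_assoc, mul_assoc, ← mul_assoc (tv T S h)]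
  exact N.mul_mem hg (hN.conj_mem _ (N.inv_mem hg) _)

theorem tv_mem {N : Subgroup (Matrix n n R)ˣ} (hN : N.Normal) {g : (Matrix n n R)ˣ}
    (hg : g ∈ N) (T S T2 S2 : n → R) (gT Sg : n → R) (e : actV g (T, S) = (gT, Sg))
    (h1 : S ⬝ᵥ T = 0) (h2 : Sg ⬝ᵥ T = 0) (h3 : S ⬝ᵥ T2 = 1) (h4 : Sg ⬝ᵥ T2 = 0)
    (h5 : S2 ⬝ᵥ T = 0) (h6 : S2 ⬝ᵥ gT = 0) (h7 : S2 ⬝ᵥ T2 = 0) : tv T S2 h5 ∈ N := by
  have h8 : Sg ⬝ᵥ gT = 0 := by
    have := dot_actV g (T, S) (T, S)
    rw [e] at this
    exact this.trans h1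
  have h9 : S2 ⬝ᵥ (T + T2) = 0 := by rw [dotProduct_add, h5, h7, add_zero]
  have m1 := N.inv_mem (conj_tv_mem hN hg T S h1 gT Sg h8 e)
  rw [_root_.mul_inv_rev, inv_inv] at m1
  have a1 : actV (tv gT Sg h8) (T2, S2) = (T2, S2) := by
    rw [actV_tv]
    simp [h4, h6]
  have a2 : actV (tv T S h1 * (tv gT Sg h8)⁻¹) (T2, S2) = (T + T2, S2) := by
    rw [actV_mul, (stab (T2, S2)).inv_mem a1, actV_tv]
    ext i <;> simp [h3, h5, add_comm]
  have m2 := conj_tv_mem hN m1 T2 S2 h7 (T + T2) S2 h9 a2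
  rwa [tv_add_left T T2 S2 h5 h7, mul_inv_cancel_right] at m2

theorem elem_one_mem (H : Hyp R) (hn : 3 ≤ Fintype.card n) {N : Subgroup (Matrix n n R)ˣ}
    (hN : N.Normal) {g : (Matrix n n R)ˣ} (hg : g ∈ N) (T2 S : n → R) (h1 : S ⬝ᵥ T2 = 1)
    (h2 : (S ᵥ* ((g⁻¹ : (Matrix n n R)ˣ) : Matrix n n R)) ⬝ᵥ T2 = 0) {i j : n} (hij : i ≠ j) :
    St.elem i j hij 1 ∈ N := by
  classical
  obtain ⟨a, b, hab, ho⟩ := smr H {stdV R i, (T2, S), actV g (stdV R i), actV g (T2, S)}
  have hsh : ∀ (v : Pr n R) (a b : R), actV g (shrinkV v a b) = shrinkV (actV g v) a b := by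
    intro v a b
    ext k
    · simp [actV, shrinkV, mulVec, dotProduct, Finset.sum_mul, mul_assoc]
    · simp [actV, shrinkV, vecMul, dotProduct, Finset.mul_sum, mul_assoc]
  have o12 := ho 1 2 (by decide) (stdV R i) (by simp) (stdV R i) (by simp)
  have o13 := ho 1 3 (by decide) (stdV R i) (by simp) (stdV R i) (by simp)
  have o23 := ho 2 3 (by decide) (stdV R i) (by simp) (stdV R i) (by simp)
  have hm := tv_mem hN hg (shrinkV (stdV R i) (a 1) (b 1)).1 (shrinkV (T2, S) (a 0) (b 0)).2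
    (shrinkV (T2, S) (a 0) (b 0)).1 (shrinkV (stdV R i) (a 2) (b 2)).2
    (shrinkV (actV g (stdV R i)) (a 1) (b 1)).1 (shrinkV (actV g (T2, S)) (a 0) (b 0)).2
    (by rw [← hsh, ← hsh]; rfl)
    (ho 0 1 (by decide) _ (by simp) _ (by simp)).1 (ho 0 1 (by decide) _ (by simp) _ (by simp)).1
    (isV_shrink (v := (T2, S)) h1 (hab 0))
    (by rw [dot_shrink]; exact (congrArg (b 0 * · * a 0) h2).trans (by simp))
    o12.2 (ho 2 1 (by decide) _ (by simp) _ (by simp)).1
    (ho 2 0 (by decide) _ (by simp) _ (by simp)).1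
  obtain ⟨h, e1, e2⟩ := trans_pair H hn hij (isV_shrink (isV_std i) (hab 1))
    (isV_shrink (isV_std i) (hab 2)) (isV_shrink (isV_std i) (hab 3)) o12 o13 o23
  have e := tv_conj h (Pi.single i 1) (Pi.single j 1) (single_dot_single hij 1 1) _ _ o12.2
    (by rw [← e1, ← e2]; rfl)
  rw [← e, ← elem_eq_tv i j hij, mul_one] at hm
  have := hN.conj_mem _ hm h⁻¹
  simpa [mul_assoc] using this

end StTr

open StTr

theorem trans_sub (H : Hyp R) (s : Finset n) (hs : 2 ≤ s.card) (k : n) (hk : k ∈ s)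
    (v w : Pr n R) (hv : IsV v) (hw : IsV w) (hvw : Orth v w)
    (hvs : ∀ i, i ∉ s → v.1 i = 0 ∧ v.2 i = 0) (hws : ∀ i, i ∉ s → w.1 i = 0 ∧ w.2 i = 0) :
    ∃ z ∈ St.sub R (s : Set n), actV (St.toGL z) (stdV R k) = v := by
  obtain ⟨_, ⟨z, hz, rfl⟩, h⟩ := trans_EE H s hs k hk v w hv hw hvw hvs hws
  exact ⟨z, hz, h⟩

theorem fix_mem (H : Hyp R) (s : Finset n) (hs : 2 ≤ s.card) (g : (Matrix n n R)ˣ)
    (hg : ∀ k, k ∉ s → actV g (stdV R k) = stdV R k) : ∃ z ∈ St.sub R (s : Set n), St.toGL z = g :=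
  fix_EE H s hs g hg

theorem toGL_surjective (H : Hyp R) (hn : 2 ≤ Fintype.card n) :
    Function.Surjective (St.toGL : St n R →* (Matrix n n R)ˣ) := by
  intro g
  obtain ⟨z, -, hz⟩ := fix_mem H Finset.univ hn g fun k hk => absurd (Finset.mem_univ k) hk
  exact ⟨z, hz⟩

theorem GL_simple (H : Hyp R) (hn : 4 ≤ Fintype.card n) : IsSimpleGroup (Matrix n n R)ˣ := by
  classical
  obtain ⟨i0, j0, hij0⟩ := Fintype.exists_pair_of_one_lt_card (by omega : 1 < Fintype.card n)
  have : Nontrivial (Matrix n n R)ˣ := ⟨⟨St.elem i0 j0 hij0 1, 1, fun h => H.nontriv (by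
    have := congrArg (fun u : (Matrix n n R)ˣ => (u : Matrix n n R) i0 j0) h
    simpa [St.elem] using this)⟩⟩
  refine ⟨fun N hN => ?_⟩
  rw [or_iff_not_imp_left]
  intro hbot
  obtain ⟨⟨g, hg⟩, hg1⟩ := (Subgroup.ne_bot_iff_exists_ne_one).1 hbot
  have h1 : ∀ i j (hij : i ≠ j), St.elem i j hij 1 ∈ N := by
    have hne : ((g⁻¹ : (Matrix n n R)ˣ) : Matrix n n R) - 1 ≠ 0 := fun h =>
      hg1 (Subtype.ext (inv_eq_one.1 (Units.ext (sub_eq_zero.1 h))))
    obtain ⟨p, q, hpq⟩ : ∃ p q, (((g⁻¹ : (Matrix n n R)ˣ) : Matrix n n R) - 1) p q ≠ 0 := by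
      by_contra h
      push Not at h
      exact hne (Matrix.ext h)
    obtain ⟨x, y, hxy⟩ := H.pinf _ hpq
    obtain ⟨a, b, hab, -, h01⟩ := H.exz {x * (1 : Matrix n n R) p q * y}
    have e1 : (Pi.single p (b 0 * x) : n → R) ⬝ᵥ Pi.single q (y * a 0) =
        b 0 * (x * (1 : Matrix n n R) p q * y) * a 0 := by
      by_cases h : p = q <;> simp [h, mul_assoc, one_apply]
    have e2 : (Pi.single p (b 0 * x) ᵥ* ((g⁻¹ : (Matrix n n R)ˣ) : Matrix n n R)) ⬝ᵥ
        Pi.single q (y * a 0) = b 0 * (x * (1 : Matrix n n R) p q * y) * a 0 + 1 := by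
      rw [Matrix.sub_apply, mul_sub, sub_mul, sub_eq_iff_eq_add'] at hxy
      calc _ = b 0 * (x * ((g⁻¹ : (Matrix n n R)ˣ) : Matrix n n R) p q * y) * a 0 := by
            simp [mul_assoc]
        _ = _ := by rw [hxy, mul_add, add_mul, mul_one, hab]
    intro i j hij
    rcases h01 0 _ (Finset.mem_singleton_self _) with h | h
    · rw [h] at e1 e2
      refine elem_one_mem H (by omega) hN (N.inv_mem hg) _ _ (e2.trans (zero_add 1)) ?_ hij
      rw [inv_inv, vecMul_vecMul, Units.inv_mul, vecMul_one, e1]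
    · rw [h] at e1 e2
      exact elem_one_mem H (by omega) hN hg _ _ e1 (e2.trans (H.two 1)) hij
  have h2 : ∀ i k (hik : i ≠ k) (a : R), St.elem i k hik a ∈ N := by
    intro i k hik a
    obtain ⟨j, hj⟩ : ∃ j, j ∉ ({i, k} : Finset n) := by
      by_contra h
      push Not at h
      have := Finset.card_le_card (fun j _ => h j : Finset.univ ⊆ ({i, k} : Finset n))
      have h3 := Finset.card_le_two (a := i) (b := k)
      rw [Finset.card_univ] at this
      omega
    simp only [Finset.mem_insert, Finset.mem_singleton, not_or] at hj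
    rw [← one_mul a, ← St.elem_mul i j k (Ne.symm hj.1) hj.2 hik, commutatorElement_def,
      mul_assoc, mul_assoc, ← mul_assoc (St.elem j k hj.2 a)]
    exact N.mul_mem (h1 _ _ _) (hN.conj_mem _ (N.inv_mem (h1 _ _ _)) _)
  rw [eq_top_iff]
  intro g _
  exact EE_induction (fun i j h a _ _ => h2 i j h a)
    (fix_EE H Finset.univ (by rw [Finset.card_univ]; omega) g
      fun k hk => absurd (Finset.mem_univ k) hk)

end Vale.Agent.P193
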